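import Crest.Agent.R309.Defs

/-! Row 309: the maximum spanning forest of the large cells. -/

set_option autoImplicit false
set_option linter.unusedSectionVars false

namespace Crest.Agent.R309

open Crest.Agent.PT Crest.Enc Finset

namespace KrusX

abbrev St := Word × List ℕ × Word

def mkD (N : Net) (cap : List ℕ) (P : ℕ) (s : St) : Dat := ⟨N, cap, s.1, s.2.1, s.2.2, P⟩

/-- the new sides after joining along `e` -/
def nu (D : Dat) (e f w : ℕ) : Bool :=
  if f = e then decide (D.lab w = D.lab (D.N.s e))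
  else D.u f w || (D.u f (D.N.s e) && decide (D.lab w = D.lab (D.N.d e)))
    || (D.u f (D.N.d e) && decide (D.lab w = D.lab (D.N.s e)))

def nl (D : Dat) (e w : ℕ) : ℕ := if D.lab w = D.lab (D.N.d e) then D.lab (D.N.s e) else D.lab w

def proc (D : Dat) (e : ℕ) : St :=
  ((List.range D.N.E).map fun f => decide (f = e) || D.T f,
   (List.range D.N.V).map (nl D e),
   (List.range (D.N.E * D.N.V)).map fun i => nu D e (i / D.N.V) (i % D.N.V))

def Act (D : Dat) (i : ℕ) : Prop :=
  pM D.P ≤ D.c (i % D.N.E) ∧ D.τ (i % D.N.E) = D.P - i / D.N.E ∧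
    D.lab (D.N.s (i % D.N.E)) ≠ D.lab (D.N.d (i % D.N.E))

instance (D : Dat) (i : ℕ) : Decidable (Act D i) := by unfold Act; infer_instance

def kstep (N : Net) (cap : List ℕ) (P : ℕ) (s : St) (i : ℕ) : St :=
  if Act (mkD N cap P s) i then proc (mkD N cap P s) (i % N.E) else s

def kiter (N : Net) (cap : List ℕ) (P : ℕ) : ℕ → St
  | 0 => ([], List.range N.V, [])
  | k + 1 => kstep N cap P (kiter N cap P k) k

/-- the data after joining along `e` -/
def nx (D : Dat) (e : ℕ) : Dat := mkD D.N D.cap D.P (proc D e)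

theorem T_nx (D : Dat) (e : ℕ) {f : ℕ} (hf : f < D.N.E) :
    (nx D e).T f = (decide (f = e) || D.T f) := getD_rangeMap_of_lt _ hf _

theorem lab_nx (D : Dat) (e : ℕ) {w : ℕ} (hw : w < D.N.V) : (nx D e).lab w = nl D e w := by
  show ((List.range D.N.V).map (nl D e)).getD w 0 = _
  simp [List.getD_eq_getElem?_getD, hw]

theorem u_nx (D : Dat) (e : ℕ) {f w : ℕ} (hf : f < D.N.E) (hw : w < D.N.V) :
    (nx D e).u f w = nu D e f w := by
  have h1 : f * D.N.V + w < D.N.E * D.N.V := by
    calc f * D.N.V + w < (f + 1) * D.N.V := by rw [add_mul, one_mul]; omega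
      _ ≤ D.N.E * D.N.V := Nat.mul_le_mul_right _ hf
  show ((List.range (D.N.E * D.N.V)).map fun i => nu D e (i / D.N.V) (i % D.N.V)).getD
    (f * D.N.V + w) false = _
  rw [getD_rangeMap_of_lt _ h1]
  have h2 : (f * D.N.V + w) / D.N.V = f := by
    rw [mul_comm, Nat.mul_add_div (by omega), Nat.div_eq_of_lt hw, add_zero]
  have h3 : (f * D.N.V + w) % D.N.V = w := by
    rw [mul_comm, Nat.mul_add_mod, Nat.mod_eq_of_lt hw]
  rw [h2, h3]

/-- the large cell `e` is treated before the time `i` -/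
def Done (D : Dat) (i e : ℕ) : Prop := pM D.P ≤ D.c e ∧ (D.P - D.τ e) * D.N.E + e < i

structure Inv (D : Dat) (i : ℕ) : Prop where
  tr_done : ∀ f < D.N.E, D.T f = true → Done D i f
  large_K : ∀ e < D.N.E, Done D i e → D.lab (D.N.s e) = D.lab (D.N.d e)
  lab_lt : ∀ w < D.N.V, D.lab w < D.N.V
  u_src : ∀ f < D.N.E, D.T f = true → D.u f (D.N.s f) = true
  u_dst : ∀ f < D.N.E, D.T f = true → D.u f (D.N.d f) = false
  u_K : ∀ f < D.N.E, D.T f = true → ∀ w < D.N.V, D.u f w = true → D.lab w = D.lab (D.N.s f)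
  u_tr : ∀ f < D.N.E, D.T f = true → ∀ e < D.N.E, D.T e = true → e ≠ f →
    D.u f (D.N.s e) = D.u f (D.N.d e)
  u_τ : ∀ f < D.N.E, D.T f = true → ∀ e < D.N.E, Done D i e →
    D.u f (D.N.s e) ≠ D.u f (D.N.d e) → D.τ e ≤ D.τ f
  span : ∀ r : ℕ → ℤ, (∀ K < D.N.V, ∑ w ∈ range D.N.V, (if D.lab w = K then r w else 0) = 0) →
    (∀ f < D.N.E, D.T f = true → ∑ w ∈ range D.N.V, (if D.u f w then r w else 0) = 0) →
    ∀ w < D.N.V, r w = 0

variable {D : Dat} {i : ℕ}

theorem tau_le (hs : D.N.Small D.cap D.P) {e : ℕ} (he : e < D.N.E) : D.τ e ≤ D.P := by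
  have h1 : D.c e / pM D.P < 2 ^ D.P := (Nat.div_le_self _ _).trans_lt (hs.2.2.2 e he)
  have := Nat.size_le.2 h1
  unfold Dat.τ
  omega

theorem Done.succ {e : ℕ} (h : Done D i e) : Done D (i + 1) e := ⟨h.1, by have := h.2; omega⟩

theorem done_succ (hs : D.N.Small D.cap D.P) {e : ℕ} (he : e < D.N.E) (h : Done D (i + 1) e) :
    Done D i e ∨ (e = i % D.N.E ∧ pM D.P ≤ D.c e ∧ D.τ e = D.P - i / D.N.E ∧
      ∀ f, Done D i f → D.τ e ≤ D.τ f) := by
  by_cases h1 : (D.P - D.τ e) * D.N.E + e < i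
  · exact Or.inl ⟨h.1, h1⟩
  · have h2 : i = (D.P - D.τ e) * D.N.E + e := by have := h.2; omega
    have h3 := tau_le hs he
    refine Or.inr ⟨?_, h.1, ?_, fun f hf => ?_⟩
    · rw [h2, mul_comm, Nat.mul_add_mod, Nat.mod_eq_of_lt he]
    · have : i / D.N.E = D.P - D.τ e := by
        rw [h2, mul_comm, Nat.mul_add_div (by omega), Nat.div_eq_of_lt he, add_zero]
      omega
    · have h4 := hf.2
      by_contra h5
      have h6 : (D.P - D.τ e + 1) * D.N.E ≤ (D.P - D.τ f) * D.N.E :=
        Nat.mul_le_mul_right _ (by omega)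
      rw [add_mul, one_mul] at h6
      omega

theorem Inv.skip (hs : D.N.Small D.cap D.P) (h : Inv D i) (hA : ¬ Act D i) : Inv D (i + 1) where
  tr_done f hf hT := (h.tr_done f hf hT).succ
  large_K e he hd := by
    rcases done_succ hs he hd with h1 | ⟨h1, h2, h3, _⟩
    · exact h.large_K e he h1
    · by_contra h4
      exact hA (by unfold Act; rw [← h1]; exact ⟨h2, h3, h4⟩)
  lab_lt := h.lab_lt
  u_src := h.u_src
  u_dst := h.u_dst
  u_K := h.u_K
  u_tr := h.u_tr
  u_τ f hf hT e he hd hne := by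
    rcases done_succ hs he hd with h1 | ⟨_, _, _, h4⟩
    · exact h.u_τ f hf hT e he h1 hne
    · exact h4 f (h.tr_done f hf hT)
  span := h.span

section join
variable (hw : D.N.WF) (h : Inv D i) {e : ℕ} (he : e < D.N.E)
  (hab : D.lab (D.N.s e) ≠ D.lab (D.N.d e))
include hw h he hab

theorem Inv.not_T : D.T e = false := by
  by_contra hT
  exact hab (h.large_K e he (h.tr_done e he (by simpa using hT)))

theorem Inv.ne {f : ℕ} (hT : D.T f = true) : f ≠ e := by
  rintro rfl
  rw [h.not_T hw he hab] at hT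
  exact Bool.false_ne_true hT

theorem Inv.key {f x y : ℕ} (hf : f < D.N.E) (hT : D.T f = true) (hx : x < D.N.V)
    (hy : y < D.N.V) (hxy : D.lab x = D.lab y) : nu D e f x = nu D e f y ↔ D.u f x = D.u f y := by
  have h1 := h.u_K f hf hT
  have h2 := h1 _ (hw e he).1
  have h3 := h1 _ (hw e he).2
  have h4 := h1 _ hx
  have h5 := h1 _ hy
  unfold nu
  rw [if_neg (h.ne hw he hab hT), if_neg (h.ne hw he hab hT), ← hxy]
  grind

theorem Inv.new : nu D e e (D.N.s e) = true ∧ nu D e e (D.N.d e) = false := by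
  unfold nu
  simp [Ne.symm hab]

theorem Inv.sum_nu {f : ℕ} (hf : f < D.N.E) (hT : D.T f = true) (r : ℕ → ℤ) :
    ∑ w ∈ range D.N.V, (if nu D e f w then r w else 0) =
      ∑ w ∈ range D.N.V, (if D.u f w then r w else 0) +
      (if D.u f (D.N.s e) then ∑ w ∈ range D.N.V, (if D.lab w = D.lab (D.N.d e) then r w else 0)
        else 0) +
      (if D.u f (D.N.d e) then ∑ w ∈ range D.N.V, (if D.lab w = D.lab (D.N.s e) then r w else 0)
        else 0) := by
  have h1 := h.u_K f hf hT
  have h2 := h1 _ (hw e he).1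
  have h3 := h1 _ (hw e he).2
  have e1 : ∀ (b : Bool) (g : ℕ → ℤ), (if b then ∑ w ∈ range D.N.V, g w else 0) =
      ∑ w ∈ range D.N.V, if b then g w else 0 := fun b g => by cases b <;> simp
  rw [e1, e1, ← sum_add_distrib, ← sum_add_distrib]
  refine sum_congr rfl fun w hw' => ?_
  have h4 := h1 _ (mem_range.1 hw')
  unfold nu
  rw [if_neg (h.ne hw he hab hT)]
  grind

end join

theorem Inv.join (hw : D.N.WF) (hs : D.N.Small D.cap D.P) (h : Inv D i)
    (hi : i < (D.P + 1) * D.N.E) (hA : Act D i) : Inv (nx D (i % D.N.E)) (i + 1) := by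
  have hE : 0 < D.N.E := Nat.pos_of_ne_zero fun h0 => by simp [h0] at hi
  obtain ⟨a1, a2, hab⟩ := hA
  have he : i % D.N.E < D.N.E := Nat.mod_lt _ hE
  have hd0 : Done D (i + 1) (i % D.N.E) := by
    refine ⟨a1, ?_⟩
    have h1 : i / D.N.E < D.P + 1 := (Nat.div_lt_iff_lt_mul hE).2 hi
    have h2 : D.P - D.τ (i % D.N.E) = i / D.N.E := by
      rw [a2]
      generalize i / D.N.E = q at h1
      omega
    have h3 := Nat.div_add_mod i D.N.E
    rw [h2, mul_comm]
    omega
  generalize hee : i % D.N.E = e at *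
  have hT : ∀ f < D.N.E, (nx D e).T f = true → f = e ∨ D.T f = true := fun f hf hT => by
    rw [T_nx D e hf] at hT
    simpa using hT
  have hs' := fun f hf => (hw f hf).1
  have hd' := fun f hf => (hw f hf).2
  have hnl : ∀ x y, D.lab x = D.lab y → nl D e x = nl D e y := fun x y hxy => by
    unfold nl; rw [hxy]
  have hN : (nx D e).N = D.N := rfl
  have hD : ∀ j f, Done (nx D e) j f ↔ Done D j f := fun _ _ => Iff.rfl
  have hτ : ∀ f, (nx D e).τ f = D.τ f := fun _ => rfl
  refine ⟨?_, ?_, ?_, ?_, ?_, ?_, ?_, ?_, ?_⟩ <;> simp only [hN, hD, hτ]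
  · intro f hf hT'
    rcases hT f hf hT' with rfl | h1
    · exact hd0
    · exact (h.tr_done f hf h1).succ
  · intro f hf hd
    rw [lab_nx D e (hs' f hf), lab_nx D e (hd' f hf)]
    rcases done_succ hs hf hd with h1 | ⟨h1, _⟩
    · exact hnl _ _ (h.large_K f hf h1)
    · rw [hee] at h1
      subst h1
      unfold nl
      simp
  · intro w hw'
    rw [lab_nx D e hw']
    unfold nl
    split_ifs
    · exact h.lab_lt _ (hs' e he)
    · exact h.lab_lt _ hw'
  · intro f hf hT'
    rw [u_nx D e hf (hs' f hf)]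
    rcases hT f hf hT' with rfl | h1
    · exact (h.new hw he hab).1
    · unfold nu
      rw [if_neg (h.ne hw he hab h1), h.u_src f hf h1]
      simp
  · intro f hf hT'
    rw [u_nx D e hf (hd' f hf)]
    rcases hT f hf hT' with rfl | h1
    · exact (h.new hw he hab).2
    · have h2 := h.u_K f hf h1 _ (hs' e he)
      have h3 := h.u_K f hf h1 _ (hd' e he)
      have h4 := h.large_K f hf (h.tr_done f hf h1)
      unfold nu
      rw [if_neg (h.ne hw he hab h1), h.u_dst f hf h1]
      grind
  · intro f hf hT' w hw' hu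
    rw [u_nx D e hf hw'] at hu
    rw [lab_nx D e hw', lab_nx D e (hs' f hf)]
    rcases hT f hf hT' with rfl | h1
    · unfold nu at hu
      rw [if_pos rfl] at hu
      exact hnl _ _ (by simpa using hu)
    · have h2 := h.u_K f hf h1 _ (hs' e he)
      have h3 := h.u_K f hf h1 _ (hd' e he)
      have h4 := h.u_K f hf h1 _ hw'
      unfold nu at hu
      rw [if_neg (h.ne hw he hab h1)] at hu
      unfold nl
      grind
  · intro f hf hT1 g hg hT2 hne
    rw [u_nx D e hf (hs' g hg), u_nx D e hf (hd' g hg)]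
    rcases hT f hf hT1 with rfl | h1
    · rcases hT g hg hT2 with rfl | h2
      · exact absurd rfl hne
      · unfold nu
        rw [if_pos rfl, if_pos rfl, h.large_K g hg (h.tr_done g hg h2)]
    · rcases hT g hg hT2 with rfl | h2
      · unfold nu
        rw [if_neg (h.ne hw he hab h1), if_neg (h.ne hw he hab h1)]
        grind
      · exact (h.key hw he hab hf h1 (hs' g hg) (hd' g hg)
          (h.large_K g hg (h.tr_done g hg h2))).2 (h.u_tr f hf h1 g hg h2 hne)
  · intro f hf hT1 g hg hd hne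
    rw [u_nx D e hf (hs' g hg), u_nx D e hf (hd' g hg)] at hne
    rcases done_succ hs hg hd with h2 | ⟨h2, _, _, h3⟩
    · rcases hT f hf hT1 with rfl | h1
      · exfalso
        apply hne
        unfold nu
        rw [if_pos rfl, if_pos rfl, h.large_K g hg h2]
      · exact h.u_τ f hf h1 g hg h2 fun h3 =>
          hne ((h.key hw he hab hf h1 (hs' g hg) (hd' g hg) (h.large_K g hg h2)).2 h3)
    · rcases hT f hf hT1 with rfl | h1
      · rw [h2, hee]
      · exact h3 f (h.tr_done f hf h1)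
  · intro r h1 h2
    have ha : ∑ w ∈ range D.N.V, (if D.lab w = D.lab (D.N.s e) then r w else 0) = 0 := by
      refine Eq.trans (sum_congr rfl fun w hw' => ?_) (h2 e he (by rw [T_nx D e he]; simp))
      rw [u_nx D e he (mem_range.1 hw')]
      unfold nu
      simp
    have hb : ∑ w ∈ range D.N.V, (if D.lab w = D.lab (D.N.d e) then r w else 0) = 0 := by
      have h3 := h1 _ (h.lab_lt _ (hs' e he))
      have h4 : ∑ w ∈ range D.N.V, (if (nx D e).lab w = D.lab (D.N.s e) then r w else 0) =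
          ∑ w ∈ range D.N.V, (if D.lab w = D.lab (D.N.s e) then r w else 0) +
          ∑ w ∈ range D.N.V, (if D.lab w = D.lab (D.N.d e) then r w else 0) := by
        rw [← sum_add_distrib]
        refine sum_congr rfl fun w hw' => ?_
        rw [lab_nx D e (mem_range.1 hw')]
        unfold nl
        grind
      omega
    refine h.span r (fun K hK => ?_) fun f hf hT1 => ?_
    · by_cases k1 : K = D.lab (D.N.s e)
      · rw [k1, ha]
      · by_cases k2 : K = D.lab (D.N.d e)
        · rw [k2, hb]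
        · refine Eq.trans (sum_congr rfl fun w hw' => ?_) (h1 K hK)
          rw [lab_nx D e (mem_range.1 hw')]
          unfold nl
          grind
    · have h3 := h2 f hf (by rw [T_nx D e hf, hT1]; simp)
      have h4 := h.sum_nu hw he hab hf hT1 r
      rw [ha, hb, ite_self, ite_self, add_zero, add_zero] at h4
      rw [← h4]
      exact Eq.trans (sum_congr rfl fun w hw' => by rw [u_nx D e hf (mem_range.1 hw')]) h3

theorem inv_zero (N : Net) (cap : List ℕ) (P : ℕ) : Inv (mkD N cap P (kiter N cap P 0)) 0 := by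
  have hT : ∀ f, (mkD N cap P (kiter N cap P 0)).T f = false := fun f => rfl
  have hl : ∀ w < N.V, (mkD N cap P (kiter N cap P 0)).lab w = w := fun w hw => by
    show (List.range N.V).getD w 0 = w
    simp [List.getD_eq_getElem?_getD, hw]
  have hN : (mkD N cap P (kiter N cap P 0)).N = N := rfl
  refine ⟨?_, ?_, ?_, ?_, ?_, ?_, ?_, ?_, ?_⟩ <;> simp only [hT, hN, Bool.false_eq_true]
  · exact fun _ _ h => h.elim
  · exact fun _ _ h => absurd h.2 (Nat.not_lt_zero _)
  · exact fun w hw => by rw [hl w hw]; exact hw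
  · exact fun _ _ h => h.elim
  · exact fun _ _ h => h.elim
  · exact fun _ _ h => h.elim
  · exact fun _ _ h => h.elim
  · exact fun _ _ h => h.elim
  · intro r h1 _ w hw
    rw [← h1 w hw, sum_congr rfl fun x hx => by rw [hl x (mem_range.1 hx)], sum_ite_eq']
    simp [hw]

theorem inv_iter {N : Net} {cap : List ℕ} {P : ℕ} (hw : N.WF) (hs : N.Small cap P) (k : ℕ)
    (hk : k ≤ (P + 1) * N.E) : Inv (mkD N cap P (kiter N cap P k)) k := by
  induction k with
  | zero => exact inv_zero N cap P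
  | succ k ih =>
    have h := ih (by omega)
    rw [kiter, kstep]
    split_ifs with hA
    · exact Inv.join (D := mkD N cap P (kiter N cap P k)) hw hs h hk hA
    · exact Inv.skip (D := mkD N cap P (kiter N cap P k)) hs h hA

theorem Inv.forest (h : Inv D ((D.P + 1) * D.N.E)) : D.Forest := by
  have hd : ∀ e < D.N.E, pM D.P ≤ D.c e → Done D ((D.P + 1) * D.N.E) e := fun e he hl => by
    refine ⟨hl, ?_⟩
    have : (D.P - D.τ e) * D.N.E ≤ D.P * D.N.E := Nat.mul_le_mul_right _ (Nat.sub_le _ _)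
    rw [add_mul, one_mul]
    omega
  refine ⟨fun f hf hT => (h.tr_done f hf hT).1, fun e he hl => h.large_K e he (hd e he hl),
    h.lab_lt, h.u_src, h.u_dst, h.u_K, h.u_tr, fun f hf hT e he hne => ?_, h.span⟩
  by_cases hl : pM D.P ≤ D.c e
  · exact h.u_τ f hf hT e he (hd e he hl) hne
  · have : D.τ e = 0 := by
      unfold Dat.τ
      rw [Nat.div_eq_of_lt (not_le.1 hl)]
      simp
    omega

theorem size_iter (N : Net) (cap : List ℕ) (P k : ℕ) :
    (kiter N cap P k).1.length ≤ N.E ∧ (kiter N cap P k).2.1.length = N.V ∧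
      (∀ w, (kiter N cap P k).2.1.getD w 0 ≤ N.V) ∧ (kiter N cap P k).2.2.length ≤ N.E * N.V := by
  induction k with
  | zero =>
    refine ⟨by simp [kiter], by simp [kiter], fun w => ?_, by simp [kiter]⟩
    by_cases hw : w < N.V
    · simp [kiter, List.getD_eq_getElem?_getD, hw, hw.le]
    · simp [kiter, List.getD_eq_getElem?_getD, hw]
  | succ k ih =>
    rw [kiter, kstep]
    split_ifs with hA
    · refine ⟨by simp [proc, mkD], by simp [proc, mkD], fun w => ?_, by simp [proc, mkD]⟩
      by_cases hw : w < N.V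
      · have := lab_nx (mkD N cap P (kiter N cap P k)) (k % N.E) hw
        refine le_of_eq_of_le this ?_
        unfold nl
        split_ifs
        · exact ih.2.2.1 _
        · exact ih.2.2.1 _
      · rw [List.getD_eq_default _ _ (by simpa [proc, mkD] using hw)]
        exact Nat.zero_le _
    · exact ih

theorem sz_iter (N : Net) (cap : List ℕ) (P k : ℕ) :
    sz (kiter N cap P k) ≤ N.E + N.V * (2 * N.V + 2) + N.E * N.V := by
  obtain ⟨h1, h2, h3, h4⟩ := size_iter N cap P k
  have h5 : sz (kiter N cap P k).2.1 ≤ N.V * (2 * N.V + 2) := by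
    rw [← h2]
    refine szN_le fun x hx => ?_
    obtain ⟨j, hj, rfl⟩ := List.getElem_of_mem hx
    have := h3 j
    rw [List.getD_eq_getElem _ _ hj] at this
    rw [h2]
    exact this.trans_lt Nat.lt_two_pow_self
  have e : kiter N cap P k = ((kiter N cap P k).1, (kiter N cap P k).2.1, (kiter N cap P k).2.2) := rfl
  rw [e, sz_prod, sz_prod, sz_word, sz_word]
  omega

section pt
variable {α : Type} [Rp α] {D : α → Dat}

theorem pu_pM' {P : α → ℕ} (h : PU P) : PU fun a => pM (P a) := by
  unfold pM pW; fun_prop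

theorem pt_c {e : α → ℕ} (hD : PTime D) (he : PTime e) : PTime fun a => (D a).c (e a) := by
  unfold Dat.c; fun_prop
theorem pt_T {e : α → ℕ} (hD : PTime D) (he : PTime e) : PTime fun a => (D a).T (e a) := by
  unfold Dat.T; fun_prop
theorem pt_lab {e : α → ℕ} (hD : PTime D) (he : PTime e) : PTime fun a => (D a).lab (e a) := by
  unfold Dat.lab; fun_prop
theorem pt_u {f w : α → ℕ} (hD : PTime D) (hf : PTime f) (hw : PTime w) :
    PTime fun a => (D a).u (f a) (w a) := by
  unfold Dat.u; fun_prop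
theorem pt_τ {e : α → ℕ} (hD : PTime D) (he : PTime e) : PTime fun a => (D a).τ (e a) := by
  have h1 := pt_c hD he
  have h2 := (pu_pM' (Dat.pu_P hD)).ptime
  unfold Dat.τ; fun_prop

attribute [local fun_prop] pt_c pt_T pt_lab pt_u pt_τ

theorem pt_nu {e f w : α → ℕ} (hD : PTime D) (he : PTime e) (hf : PTime f) (hw : PTime w) :
    PTime fun a => nu (D a) (e a) (f a) (w a) := by
  unfold nu; fun_prop

theorem pt_nl {e w : α → ℕ} (hD : PTime D) (he : PTime e) (hw : PTime w) :
    PTime fun a => nl (D a) (e a) (w a) := by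
  unfold nl; fun_prop

theorem pt_proc {e : α → ℕ} (hD : PTime D) (he : PTime e) : PTime fun a => proc (D a) (e a) := by
  have h1 : PTime fun q : α × Un => D q.1 := hD.comp PTime.fst'
  have h2 : PTime fun q : α × Un => e q.1 := he.comp PTime.fst'
  have h3 : PTime fun q : α × Un => q.2.val := PTime.val PTime.snd'
  refine PTime.pair ?_ (PTime.pair ?_ ?_)
  · exact PTime.rangeMap (g := fun a f => decide (f = e a) || (D a).T f) (by fun_prop) (by fun_prop)
  · exact rangeMapN (g := fun a w => nl (D a) (e a) w) (by fun_prop) (pt_nl h1 h2 h3)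
  · exact PTime.rangeMap (g := fun a i => nu (D a) (e a) (i / (D a).N.V) (i % (D a).N.V))
      (by fun_prop) (pt_nu h1 h2 (by fun_prop) (by fun_prop))

theorem pt_Act {i : α → ℕ} (hD : PTime D) (hi : PTime i) : PTime fun a => Act (D a) (i a) := by
  have h2 := (pu_pM' (Dat.pu_P hD)).ptime
  have h3 := (Dat.pu_P hD).ptime
  unfold Act; fun_prop

end pt

theorem pt_kiter : PTime fun a : Net × List ℕ × Un =>
    kiter a.1 a.2.1 a.2.2.val ((a.2.2.val + 1) * a.1.E) := by
  refine PTime.loop (α := Net × List ℕ × Un) (fun a k => kiter a.1 a.2.1 a.2.2.val k)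
    (fun a s k => kstep a.1 a.2.1 a.2.2.val s k) (n := fun a => (a.2.2.val + 1) * a.1.E)
    (by fun_prop) ?_ ?_ (fun _ _ _ => rfl)
    (B := fun a => a.1.E + a.1.V * (2 * a.1.V + 2) + a.1.E * a.1.V) (PU.pb (by fun_prop))
    fun a k _ => sz_iter _ _ _ _
  · refine PTime.pair (PTime.const _) (PTime.pair ?_ (PTime.const _))
    exact (rangeMapN (n := fun a : Net × List ℕ × Un => a.1.V) (g := fun _ w => w) (by fun_prop)
      (by fun_prop)).congr fun a => by simp
  · have hD : PTime fun p : (Net × List ℕ × Un) × St × Un =>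
        mkD p.1.1 p.1.2.1 p.1.2.2.val p.2.1 :=
      Dat.ptime_mk (by fun_prop) (by fun_prop) (by fun_prop) (by fun_prop) (by fun_prop)
        (by fun_prop)
    exact PTime.ite (pt_Act hD (by fun_prop)) (pt_proc hD (by fun_prop)) (by fun_prop)

end KrusX

theorem exists_kr : ∃ kr : Net × List ℕ × Un → Word × List ℕ × Word, PTime kr ∧
    ∀ (N : Net) (cap : List ℕ) (P : ℕ), N.WF → N.Small cap P →
      Dat.Forest ⟨N, cap, (kr (N, cap, ⟨P⟩)).1, (kr (N, cap, ⟨P⟩)).2.1, (kr (N, cap, ⟨P⟩)).2.2, P⟩ :=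
  ⟨_, KrusX.pt_kiter, fun _ _ _ hw hs => (KrusX.inv_iter hw hs _ le_rfl).forest⟩

end Crest.Agent.R309
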