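import Crest.Agent.R309.Defs0

/-! Row 309: locally Lorentzian weights are closed under merging bundles. -/

set_option autoImplicit false

namespace Crest.Agent.R309

open Finset

namespace LorX

/-- linear part of the local form -/
def A (D : Finset (ℕ × Bool)) (c : Cfg → ℝ) (α : Cfg) (w : ℕ × Bool → ℝ) : ℝ :=
  ∑ i ∈ D, w i * c (α + uv i)

/-- quadratic part of the local form -/
def B (D : Finset (ℕ × Bool)) (c : Cfg → ℝ) (α : Cfg) (w : ℕ × Bool → ℝ) : ℝ :=
  ∑ i ∈ D, ∑ j ∈ D, w i * w j * c (α + uv i + uv j)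

theorem SL_iff {D : Finset (ℕ × Bool)} {c : Cfg → ℝ} {α : Cfg} :
    SL D c α ↔ ∀ w, c α * B D c α w ≤ A D c α w ^ 2 := by
  refine forall_congr' fun w => ?_
  have : ∑ i ∈ D, ∑ j ∈ D,
      w i * w j * (c (α + uv i + uv j) * c α - c (α + uv i) * c (α + uv j)) =
      c α * B D c α w - A D c α w ^ 2 := by
    unfold A B
    rw [sq, sum_mul_sum, mul_sum, ← sum_sub_distrib]
    refine sum_congr rfl fun i _ => ?_
    rw [mul_sum, ← sum_sub_distrib]
    exact sum_congr rfl fun j _ => by ring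
  rw [this, sub_nonpos]

theorem sum_single {D : Finset (ℕ × Bool)} {p : ℕ × Bool} (hp : p ∈ D) (t : ℝ)
    (f : ℕ × Bool → ℝ) : ∑ i ∈ D, (if i = p then t else 0) * f i = t * f p := by
  simp only [ite_mul, zero_mul]
  rw [sum_ite_eq' D p, if_pos hp]

theorem A_add_single {D : Finset (ℕ × Bool)} {p : ℕ × Bool} (hp : p ∈ D) (c : Cfg → ℝ) (α : Cfg)
    (w : ℕ × Bool → ℝ) (t : ℝ) :
    A D c α (fun i => w i + if i = p then t else 0) = A D c α w + t * c (α + uv p) := by
  unfold A
  simp only [add_mul, sum_add_distrib]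
  rw [sum_single hp]

theorem B_eq (D : Finset (ℕ × Bool)) (c : Cfg → ℝ) (α : Cfg) (w : ℕ × Bool → ℝ) :
    B D c α w = ∑ i ∈ D, w i * A D c (α + uv i) w := by
  unfold B A
  refine sum_congr rfl fun i _ => ?_
  rw [mul_sum]
  exact sum_congr rfl fun j _ => by ring

theorem B_add_single {D : Finset (ℕ × Bool)} {p : ℕ × Bool} (hp : p ∈ D) (c : Cfg → ℝ) (α : Cfg)
    (w : ℕ × Bool → ℝ) (t : ℝ) :
    B D c α (fun i => w i + if i = p then t else 0) =
      B D c α w + 2 * t * A D c (α + uv p) w + t ^ 2 * c (α + uv p + uv p) := by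
  rw [B_eq, B_eq]
  simp only [A_add_single hp, add_mul, sum_add_distrib]
  rw [sum_single hp]
  have h : ∑ i ∈ D, w i * (A D c (α + uv i) w + t * c (α + uv i + uv p)) =
      ∑ i ∈ D, w i * A D c (α + uv i) w + t * A D c (α + uv p) w := by
    simp only [mul_add, sum_add_distrib]
    congr 1
    unfold A
    rw [mul_sum]
    exact sum_congr rfl fun i _ => by rw [add_right_comm α (uv i)]; ring
  rw [h]
  ring

theorem A_zero (D : Finset (ℕ × Bool)) (c : Cfg → ℝ) (α : Cfg) : A D c α (fun _ => 0) = 0 := by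
  simp [A]

theorem B_zero (D : Finset (ℕ × Bool)) (c : Cfg → ℝ) (α : Cfg) : B D c α (fun _ => 0) = 0 := by
  simp [B]

theorem A_sub {D D' : Finset (ℕ × Bool)} (hD : D' ⊆ D) (c : Cfg → ℝ) (α : Cfg)
    (w : ℕ × Bool → ℝ) : A D c α (fun i => if i ∈ D' then w i else 0) = A D' c α w := by
  unfold A
  simp only [ite_mul, zero_mul]
  rw [← sum_filter, filter_mem_eq_inter, inter_eq_right.mpr hD]

theorem B_sub {D D' : Finset (ℕ × Bool)} (hD : D' ⊆ D) (c : Cfg → ℝ) (α : Cfg)
    (w : ℕ × Bool → ℝ) : B D c α (fun i => if i ∈ D' then w i else 0) = B D' c α w := by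
  rw [B_eq, B_eq]
  simp only [A_sub hD, ite_mul, zero_mul]
  rw [← sum_filter, filter_mem_eq_inter, inter_eq_right.mpr hD]

theorem orth {D : Finset (ℕ × Bool)} {c : Cfg → ℝ} {α : Cfg} (h : SL D c α)
    (hpos : ∀ β, 0 < c β) {p : ℕ × Bool} (hp : p ∈ D) (w₀ : ℝ) (w : ℕ × Bool → ℝ)
    (ho : w₀ * c (α + uv p) + A D c (α + uv p) w = 0) :
    w₀ ^ 2 * c α + 2 * w₀ * A D c α w + B D c α w ≤ 0 := by
  have ha := hpos (α + uv p)
  have hg := hpos (α + uv p + uv p)
  have h0 := hpos α
  obtain ⟨t, ht⟩ : ∃ t : ℝ, A D c α w + t * c (α + uv p) = -(w₀ * c α) :=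
    ⟨-(w₀ * c α + A D c α w) / c (α + uv p), by field_simp; ring⟩
  have h1 := SL_iff.mp h fun i => w i + if i = p then t else 0
  rw [A_add_single hp, B_add_single hp, ht] at h1
  have h2 : B D c α w + 2 * t * A D c (α + uv p) w + t ^ 2 * c (α + uv p + uv p) ≤
      w₀ ^ 2 * c α := by
    refine le_of_mul_le_mul_left ?_ h0
    refine h1.trans (le_of_eq ?_)
    ring
  have h3 : A D c α w = -(w₀ * c α) - t * c (α + uv p) := by linarith
  have h4 : A D c (α + uv p) w = -(w₀ * c (α + uv p)) := by linarith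
  have h5 : 0 ≤ t ^ 2 * c (α + uv p + uv p) := by positivity
  rw [h4] at h2
  rw [h3]
  nlinarith

theorem orth2 {D : Finset (ℕ × Bool)} {c : Cfg → ℝ} {α : Cfg} {x y : ℕ × Bool}
    (h : SL (insert x (insert y D)) c α) (hpos : ∀ β, 0 < c β) (w₀ : ℝ) (w : ℕ × Bool → ℝ)
    (p q : ℝ) (ho : w₀ * c (α + uv y) + A D c (α + uv y) w + p * c (α + uv x + uv y) +
      q * c (α + uv y + uv y) = 0) :
    w₀ ^ 2 * c α + 2 * w₀ * A D c α w + B D c α w +
      2 * p * (w₀ * c (α + uv x) + A D c (α + uv x) w) +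
      2 * q * (w₀ * c (α + uv y) + A D c (α + uv y) w) + p ^ 2 * c (α + uv x + uv x) +
      2 * p * q * c (α + uv x + uv y) + q ^ 2 * c (α + uv y + uv y) ≤ 0 := by
  have hx : x ∈ insert x (insert y D) := mem_insert_self _ _
  have hy : y ∈ insert x (insert y D) := mem_insert_of_mem (mem_insert_self _ _)
  have hD : D ⊆ insert x (insert y D) := (subset_insert _ _).trans (subset_insert _ _)
  have key := orth h hpos hy w₀
    (fun i => ((if i ∈ D then w i else 0) + if i = x then p else 0) + if i = y then q else 0) (by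
      rw [A_add_single hy, A_add_single hx, A_sub hD, add_right_comm α (uv y) (uv x)]
      linarith)
  rw [A_add_single hy, A_add_single hx, A_sub hD, B_add_single hy, B_add_single hx,
    A_add_single hx, A_sub hD, A_sub hD, B_sub hD, add_right_comm α (uv y) (uv x)] at key
  linarith

theorem uv_apply (i j : ℕ × Bool) : uv i j = if j = i then 1 else 0 := by
  unfold uv; rw [Pi.single_apply]

end LorX

open LorX

theorem SL.mono {D D' : Finset (ℕ × Bool)} {c : Cfg → ℝ} {α : Cfg} (h : SL D c α) (hD : D' ⊆ D) :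
    SL D' c α := by
  refine SL_iff.mpr fun w => ?_
  have := SL_iff.mp h fun i => if i ∈ D' then w i else 0
  rwa [A_sub hD, B_sub hD] at this

/-- homogeneous form: if `(w₀, w)` is orthogonal to the direction `p ∈ D` in the local form of `c`
at `α` (the extra coordinate is the zero shift), then the form is nonpositive on it -/
theorem SL.orth {D : Finset (ℕ × Bool)} {c : Cfg → ℝ} {α : Cfg} (h : SL D c α)
    (hpos : ∀ β, 0 < c β) {p : ℕ × Bool} (hp : p ∈ D) (w₀ : ℝ) (w : ℕ × Bool → ℝ)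
    (ho : w₀ * c (α + uv p) + ∑ i ∈ D, w i * c (α + uv i + uv p) = 0) :
    w₀ ^ 2 * c α + 2 * w₀ * ∑ i ∈ D, w i * c (α + uv i) +
      ∑ i ∈ D, ∑ j ∈ D, w i * w j * c (α + uv i + uv j) ≤ 0 := by
  refine LorX.orth h hpos hp w₀ w ?_
  rw [← ho]
  congr 1
  exact sum_congr rfl fun i _ => by rw [add_right_comm α (uv p)]

theorem SL.pair {D : Finset (ℕ × Bool)} {c : Cfg → ℝ} {α : Cfg} (h : SL D c α)
    (hpos : ∀ β, 0 < c β) {p q : ℕ × Bool} (hp : p ∈ D) (hq : q ∈ D) :
    c (α + uv p + uv p) * c (α + uv q + uv q) ≤ c (α + uv p + uv q) ^ 2 := by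
  have key := LorX.orth h hpos hq 0 (fun i => ((0 : ℝ) + if i = p then c (α + uv q + uv q) else 0) +
      if i = q then -c (α + uv p + uv q) else 0) (by
    rw [A_add_single hq, A_add_single hp, A_zero, add_right_comm α (uv q) (uv p)]
    ring)
  rw [B_add_single hq, B_add_single hp, A_add_single hp, A_zero, A_zero, B_zero,
    add_right_comm α (uv q) (uv p)] at key
  have hg := hpos (α + uv q + uv q)
  refine le_of_mul_le_mul_left ?_ hg
  nlinarith

theorem SL.one {D : Finset (ℕ × Bool)} {c : Cfg → ℝ} {α : Cfg} (h : SL D c α)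
    {p : ℕ × Bool} (hp : p ∈ D) : c (α + uv p + uv p) * c α ≤ c (α + uv p) ^ 2 := by
  have key := SL_iff.mp h fun i => (0 : ℝ) + if i = p then 1 else 0
  rw [A_add_single hp, B_add_single hp, A_zero, A_zero, B_zero] at key
  nlinarith

theorem T1_pos {e s : ℕ} {c : Cfg → ℝ} (hpos : ∀ β, 0 < c β) (α : Cfg) : 0 < T1 e s c α := by
  exact sum_pos (fun _ _ => hpos _) ⟨0, by simp⟩

theorem TL_pos {s : ℕ → ℕ} {l : List ℕ} {c : Cfg → ℝ} (hpos : ∀ β, 0 < c β) (α : Cfg) :
    0 < TL s l c α := by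
  induction l generalizing α with
  | nil => exact hpos α
  | cons e l ih => exact T1_pos ih α

theorem TL_add (s : ℕ → ℕ) (l : List ℕ) (F G : Cfg → ℝ) (α : Cfg) :
    TL s l (fun β => F β + G β) α = TL s l F α + TL s l G α := by
  induction l generalizing α with
  | nil => rfl
  | cons e l ih => simp only [TL, T1, ih, sum_add_distrib]

theorem TL_mul_left (s : ℕ → ℕ) (l : List ℕ) (r : ℝ) (F : Cfg → ℝ) (α : Cfg) :
    TL s l (fun β => r * F β) α = r * TL s l F α := by
  induction l generalizing α with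
  | nil => rfl
  | cons e l ih => simp only [TL, T1, ih, mul_sum]

theorem TL_sum {ι : Type} (s : ℕ → ℕ) (l : List ℕ) (S : Finset ι) (F : ι → Cfg → ℝ) (α : Cfg) :
    TL s l (fun β => ∑ i ∈ S, F i β) α = ∑ i ∈ S, TL s l (F i) α := by
  induction l generalizing α with
  | nil => rfl
  | cons e l ih =>
    simp only [TL, T1, ih]
    exact sum_comm

theorem TL_shift (s : ℕ → ℕ) (l : List ℕ) (F : Cfg → ℝ) (α γ : Cfg) :
    TL s l (fun β => F (β + γ)) α = TL s l F (α + γ) := by
  induction l generalizing α with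
  | nil => rfl
  | cons e l ih =>
    simp only [TL, T1, ih]
    exact sum_congr rfl fun j _ => by congr 1; abel

/-- the points visited by `TL s l` from `α` -/
def Vis (s : ℕ → ℕ) (l : List ℕ) (α β : Cfg) : Prop :=
  (∀ i : ℕ × Bool, i.1 ∉ l → β i = α i) ∧
    ∀ e ∈ l, α (e, true) ≤ β (e, true) ∧ α (e, false) ≤ β (e, false) ∧
      β (e, true) + β (e, false) = α (e, true) + α (e, false) + s e

theorem Vis_cons {s : ℕ → ℕ} {l : List ℕ} {e j : ℕ} (he : e ∉ l) (hj : j ≤ s e) {α β : Cfg}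
    (h : Vis s l (α + j • uv (e, true) + (s e - j) • uv (e, false)) β) : Vis s (e :: l) α β := by
  have hne : ∀ i : ℕ × Bool, i.1 ≠ e →
      (α + j • uv (e, true) + (s e - j) • uv (e, false)) i = α i := fun i hi => by
    have h1 : i ≠ (e, true) := fun h => hi (by rw [h])
    have h2 : i ≠ (e, false) := fun h => hi (by rw [h])
    simp [uv_apply, h1, h2]
  refine ⟨fun i hi => ?_, fun e' he' => ?_⟩
  · rw [List.mem_cons, not_or] at hi
    rw [h.1 i hi.2, hne i hi.1]
  · rcases List.mem_cons.mp he' with rfl | he''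
    · rw [h.1 (e', true) he, h.1 (e', false) he]
      simp [uv_apply]
      omega
    · have hn : e' ≠ e := fun h => he (h ▸ he'')
      have := h.2 e' he''
      rwa [hne (e', true) hn, hne (e', false) hn] at this

theorem TL_mono {s : ℕ → ℕ} {l : List ℕ} (hl : l.Nodup) {F G : Cfg → ℝ} {α : Cfg}
    (h : ∀ β, Vis s l α β → F β ≤ G β) : TL s l F α ≤ TL s l G α := by
  induction l generalizing α with
  | nil => exact h α ⟨fun _ _ => rfl, fun _ he => absurd he List.not_mem_nil⟩
  | cons e l ih =>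
    rw [List.nodup_cons] at hl
    exact sum_le_sum fun j hj => ih hl.2 fun β hβ =>
      h β (Vis_cons hl.1 (Nat.lt_succ_iff.mp (mem_range.mp hj)) hβ)

theorem TL_perm {s : ℕ → ℕ} {l l' : List ℕ} (h : l.Perm l') (F : Cfg → ℝ) : TL s l F = TL s l' F := by
  induction h with
  | nil => rfl
  | cons e _ ih => simp only [TL, ih]
  | swap e e' l =>
    funext α
    simp only [TL, T1]
    rw [sum_comm]
    exact sum_congr rfl fun j _ => sum_congr rfl fun k _ => by congr 1; abel
  | trans _ _ ih1 ih2 => exact ih1.trans ih2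

/-- the merge lemma -/
theorem SL.merge {D : Finset (ℕ × Bool)} {c : Cfg → ℝ} (hpos : ∀ β, 0 < c β) {e s : ℕ} {α : Cfg}
    (hx : (e, true) ∉ D) (hy : (e, false) ∉ D)
    (h : ∀ j ≤ s, SL (insert (e, true) (insert (e, false) D)) c
      (α + j • uv (e, true) + (s - j) • uv (e, false))) : SL D (T1 e s c) α := by
  refine SL_iff.mpr fun w => ?_
  set x : ℕ × Bool := (e, true)
  set y : ℕ × Bool := (e, false)
  set a : ℕ → Cfg := fun j => α + j • uv x + (s - j) • uv y with ha
  set b : ℕ → Cfg := fun j => α + j • uv x + (s + 1 - j) • uv y with hb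
  set g : ℕ → Cfg := fun j => α + j • uv x + (s + 2 - j) • uv y with hg
  have e1 : ∀ j ≤ s, a j + uv y = b j := fun j hj => by
    simp only [ha, hb]; rw [show s + 1 - j = s - j + 1 by omega, add_smul, one_smul]; abel
  have e2 : ∀ j ≤ s, a j + uv x = b (j + 1) := fun j hj => by
    simp only [ha, hb]; rw [show s + 1 - (j + 1) = s - j by omega, add_smul, one_smul]; abel
  have e3 : ∀ j ≤ s + 1, b j + uv y = g j := fun j hj => by
    simp only [hb, hg]; rw [show s + 2 - j = s + 1 - j + 1 by omega, add_smul _ 1, one_smul]; abel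
  have e4 : ∀ j ≤ s + 1, b j + uv x = g (j + 1) := fun j hj => by
    simp only [hb, hg]
    rw [show s + 2 - (j + 1) = s + 1 - j by omega, add_smul j 1, one_smul]; abel
  have hS : 0 < ∑ i ∈ range (s + 1), c (b i) := sum_pos (fun _ _ => hpos _) ⟨0, by simp⟩
  obtain ⟨w₀, hw₀⟩ : ∃ w₀ : ℝ, ∑ i ∈ range (s + 1), (w₀ * c (b i) + A D c (b i) w) = 0 :=
    ⟨-(∑ i ∈ range (s + 1), A D c (b i) w) / ∑ i ∈ range (s + 1), c (b i), by
      rw [sum_add_distrib, ← mul_sum]; field_simp; ring⟩
  set σ : ℕ → ℝ := fun i => w₀ * c (b i) + A D c (b i) w with hσ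
  set φ : ℕ → ℝ := fun j => -(∑ i ∈ range j, σ i) / c (g j) with hφ
  have hφγ : ∀ j, φ j * c (g j) = -∑ i ∈ range j, σ i := fun j => by
    have := hpos (g j); simp only [hφ]; field_simp
  set t : ℕ → ℝ := fun j => 2 * φ j * σ j + φ j ^ 2 * c (g (j + 1)) - φ j ^ 2 * c (g j) with ht
  have step : ∀ j ∈ range (s + 1),
      w₀ ^ 2 * c (a j) + 2 * w₀ * A D c (a j) w + B D c (a j) w ≤ t j - t (j + 1) := by
    intro j hj
    have hj' : j ≤ s := Nat.lt_succ_iff.mp (mem_range.mp hj)
    have key := orth2 (α := a j) (h j hj') hpos w₀ w (φ (j + 1)) (-φ j) (by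
      rw [e1 j hj', e2 j hj', e3 j (by omega), e3 (j + 1) (by omega), neg_mul, hφγ, hφγ,
        sum_range_succ]
      simp only [hσ]; ring)
    rw [e1 j hj', e2 j hj', e3 j (by omega), e3 (j + 1) (by omega), e4 (j + 1) (by omega)] at key
    have h5 : 0 ≤ c (g (j + 1)) * (φ (j + 1) - φ j) ^ 2 :=
      mul_nonneg (hpos _).le (sq_nonneg _)
    simp only [ht, hσ]
    nlinarith
  have tot := sum_le_sum step
  rw [sum_range_sub' t (s + 1)] at tot
  have t0 : t 0 = 0 := by simp [ht, hφ]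
  have t1 : t (s + 1) = 0 := by
    have : φ (s + 1) = 0 := by simp only [hφ]; rw [hw₀]; simp
    simp [ht, this]
  have eA : A D (T1 e s c) α w = ∑ j ∈ range (s + 1), A D c (a j) w := by
    unfold A T1
    simp only [mul_sum]
    rw [sum_comm]
    exact sum_congr rfl fun j _ => sum_congr rfl fun i _ => by
      simp only [ha]; congr 2; abel
  have eB : B D (T1 e s c) α w = ∑ j ∈ range (s + 1), B D c (a j) w := by
    unfold B T1
    simp only [mul_sum]
    rw [sum_comm (s := range (s + 1))]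
    refine sum_congr rfl fun i _ => ?_
    rw [sum_comm]
    exact sum_congr rfl fun j _ => sum_congr rfl fun k _ => by
      simp only [ha]; congr 2; abel
  have eC : T1 e s c α = ∑ j ∈ range (s + 1), c (a j) := rfl
  rw [sum_add_distrib, sum_add_distrib, ← mul_sum, ← mul_sum, ← eA, ← eB, ← eC, t0, t1] at tot
  have hC := T1_pos (e := e) (s := s) hpos α
  nlinarith [sq_nonneg (w₀ * T1 e s c α + A D (T1 e s c) α w), mul_nonneg hC.le (sub_nonneg.mpr tot)]

theorem SL_TL {D D' : Finset (ℕ × Bool)} {c : Cfg → ℝ} (hpos : ∀ β, 0 < c β) {s : ℕ → ℕ}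
    {l : List ℕ} (hl : l.Nodup) (hD : ∀ e ∈ l, ∀ b, (e, b) ∈ D) (hD' : D' ⊆ D)
    (hd : ∀ i ∈ D', i.1 ∉ l) {α : Cfg} (h : ∀ β, Vis s l α β → SL D c β) :
    SL D' (TL s l c) α := by
  induction l generalizing D' α with
  | nil => exact (h α ⟨fun _ _ => rfl, fun _ he => absurd he List.not_mem_nil⟩).mono hD'
  | cons e l ih =>
    rw [List.nodup_cons] at hl
    refine SL.merge (TL_pos hpos) (fun hx => hd _ hx List.mem_cons_self)
      (fun hy => hd _ hy List.mem_cons_self) fun j hj => ?_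
    refine ih hl.2 (fun e' he' => hD e' (List.mem_cons_of_mem _ he')) ?_ ?_
      fun β hβ => h β (Vis_cons hl.1 hj hβ)
    · exact insert_subset (hD e List.mem_cons_self _) (insert_subset (hD e List.mem_cons_self _) hD')
    · intro i hi
      rcases mem_insert.mp hi with rfl | hi
      · exact hl.1
      rcases mem_insert.mp hi with rfl | hi
      · exact hl.1
      exact fun hi' => hd i hi (List.mem_cons_of_mem _ hi')

end Crest.Agent.R309
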