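import Crest.Agent.R309.Poinc

/-! Row 309: from the operators `TL` to sums over boxes of lists. -/

set_option autoImplicit false

namespace Crest.Agent.R309

open Finset

/-- the base point of the box `[lo, hi]` -/
def baseOf (E : ℕ) (ρ : List ℕ) (σ : ℕ) (lo hi : List ℕ) : Cfg := fun i =>
  if i.1 < E then (if i.2 then lo.getD i.1 0 else ρ.getD i.1 0 - hi.getD i.1 0)
  else if i = (E, true) then σ else 0

namespace BridgeX

theorem TL_append (s : ℕ → ℕ) (l : List ℕ) (e : ℕ) (F : Cfg → ℝ) :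
    TL s (l ++ [e]) F = TL s l (T1 e (s e) F) := by
  induction l with
  | nil => rfl
  | cons a l ih => simp only [List.cons_append, TL, ih]

theorem TL_congr {s : ℕ → ℕ} {l : List ℕ} (hl : l.Nodup) {F G : Cfg → ℝ} {α : Cfg}
    (h : ∀ β, Vis s l α β → F β = G β) : TL s l F α = TL s l G α :=
  le_antisymm (TL_mono hl fun β hβ => (h β hβ).le) (TL_mono hl fun β hβ => (h β hβ).ge)

theorem TL_zero (s : ℕ → ℕ) (l : List ℕ) (α : Cfg) : TL s l (fun _ => 0) α = 0 := by
  have := TL_mul_left s l 0 (fun _ => 0) α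
  simpa using this

theorem getD_snoc_lt (a : List ℕ) (x : ℕ) {i : ℕ} (h : i < a.length) :
    (a ++ [x]).getD i 0 = a.getD i 0 := List.getD_append _ _ _ _ h

theorem getD_snoc (a : List ℕ) (x : ℕ) : (a ++ [x]).getD a.length 0 = x := by simp

theorem sum_bx_succ (E : ℕ) (lo hi : List ℕ) (h : lo.getD E 0 ≤ hi.getD E 0) (G : List ℕ → ℝ) :
    ∑ a ∈ bx (E + 1) lo hi, G a = ∑ a ∈ bx E lo hi,
      ∑ j ∈ range (hi.getD E 0 - lo.getD E 0 + 1), G (a ++ [lo.getD E 0 + j]) := by
  rw [← Finset.sum_product' (f := fun (a : List ℕ) (j : ℕ) => G (a ++ [lo.getD E 0 + j]))]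
  symm
  refine Finset.sum_bij (fun x _ => x.1 ++ [lo.getD E 0 + x.2]) ?_ ?_ ?_ fun _ _ => rfl
  · rintro ⟨a, j⟩ hx
    simp only [Finset.mem_product, Finset.mem_range] at hx
    obtain ⟨ha, hj⟩ := hx
    obtain ⟨hl, ha⟩ := mem_bx.1 ha
    refine mem_bx.2 ⟨by simp [hl], fun i hi' => ?_⟩
    rcases Nat.lt_succ_iff_lt_or_eq.1 hi' with h1 | rfl
    · rw [getD_snoc_lt a _ (hl ▸ h1)]; exact ha i h1
    · subst hl
      rw [getD_snoc]; omega
  · rintro ⟨a, j⟩ _ ⟨a', j'⟩ _ hx
    have := List.append_inj' hx rfl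
    simp only [List.cons.injEq, and_true] at this
    exact Prod.ext this.1 (by simpa using this.2)
  · intro b hb
    obtain ⟨hl, hb⟩ := mem_bx.1 hb
    have hne : b ≠ [] := by rintro rfl; simp at hl
    obtain ⟨a, x, rfl⟩ : ∃ a x, b = a ++ [x] := ⟨_, _, (List.dropLast_append_getLast hne).symm⟩
    have hl' : a.length = E := by simpa using hl
    have hE := hb E (Nat.lt_succ_self E)
    rw [← hl', getD_snoc, hl'] at hE
    refine ⟨(a, x - lo.getD E 0), ?_, ?_⟩
    · simp only [Finset.mem_product, Finset.mem_range]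
      refine ⟨mem_bx.2 ⟨hl', fun i hi' => ?_⟩, by omega⟩
      have := hb i (by omega)
      rwa [getD_snoc_lt _ _ (by omega)] at this
    · have : lo.getD E 0 + (x - lo.getD E 0) = x := by omega
      simp only [this]

/-- the point of `a` relative to the base point `α` -/
def pt (E : ℕ) (lo hi : List ℕ) (α : Cfg) (a : List ℕ) : Cfg := fun i =>
  if i.1 < E then α i + (if i.2 then a.getD i.1 0 - lo.getD i.1 0 else hi.getD i.1 0 - a.getD i.1 0)
  else α i

theorem sum_pt (E : ℕ) (lo hi : List ℕ) (h : ∀ e < E, lo.getD e 0 ≤ hi.getD e 0) (F : Cfg → ℝ)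
    (α : Cfg) : ∑ a ∈ bx E lo hi, F (pt E lo hi α a) =
      TL (fun e => hi.getD e 0 - lo.getD e 0) (List.range E) F α := by
  induction E generalizing F with
  | zero =>
    have : bx 0 lo hi = {[]} := by
      ext a; simp [mem_bx]
    rw [this, Finset.sum_singleton]
    rfl
  | succ E ih =>
    rw [List.range_succ, TL_append, ← ih (fun e he => h e (by omega)),
      sum_bx_succ E lo hi (h E (by omega))]
    refine Finset.sum_congr rfl fun a ha => ?_
    unfold T1
    refine Finset.sum_congr rfl fun j hj => ?_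
    obtain ⟨hl, -⟩ := mem_bx.1 ha
    have hj' := Finset.mem_range.1 hj
    have hE := h E (by omega)
    congr 1
    funext ⟨i, b⟩
    simp only [pt, uv, Pi.add_apply, Pi.smul_apply, Pi.single_apply, Prod.mk.injEq, smul_eq_mul]
    rcases lt_trichotomy i E with h1 | rfl | h1
    · rw [getD_snoc_lt _ _ (by omega)]
      simp [h1, h1.ne, Nat.lt_succ_of_lt h1]
    · subst hl
      rw [getD_snoc]
      cases b
      · simp; omega
      · simp
    · simp [h1.ne', not_lt.2 h1.le, not_lt.2 (Nat.succ_le_of_lt h1)]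

/-- move one unit from `y_v` to `x_v` -/
def mv (v : ℕ) (β : Cfg) : Cfg := fun i =>
  if i = (v, true) then β i + 1 else if i = (v, false) then β i - 1 else β i

theorem cfgOf_inc {E : ℕ} (ρ : List ℕ) (σ : ℕ) {a : List ℕ} (ha : a.length = E) {e : ℕ}
    (he : e < E) : cfgOf E ρ σ (inc a e) = mv e (cfgOf E ρ σ a) := by
  funext ⟨i, b⟩
  have hg : ∀ i, (inc a e).getD i 0 = if i = e then a.getD e 0 + 1 else a.getD i 0 := fun i => by
    unfold inc
    simp only [List.getD_eq_getElem?_getD, List.getElem?_set]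
    by_cases hi : i = e
    · subst hi; simp [ha, he]
    · simp [hi, Ne.symm hi]
  simp only [cfgOf, mv, hg, Prod.mk.injEq]
  by_cases hi : i = e
  · subst hi
    cases b <;> simp [he]
    omega
  · simp [hi]

theorem mv_eq (v j k : ℕ) (β : Cfg) :
    mv v (β + j • uv (v, true) + (k + 1) • uv (v, false))
      = β + (j + 1) • uv (v, true) + k • uv (v, false) := by
  funext ⟨i, b⟩
  simp only [mv, uv, Pi.add_apply, Pi.smul_apply, Pi.single_apply, Prod.mk.injEq, smul_eq_mul]
  by_cases hi : i = v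
  · subst hi
    cases b <;> simp
    omega
  · simp [hi]

/-- the list read off a configuration -/
def lst (E : ℕ) (β : Cfg) : List ℕ := (List.range E).map fun e => β (e, true)

theorem lst_cfgOf {E : ℕ} (ρ : List ℕ) (σ : ℕ) {a : List ℕ} (ha : a.length = E) :
    lst E (cfgOf E ρ σ a) = a := by
  refine List.ext_getElem (by simp [lst, ha]) fun i h1 h2 => ?_
  have : i < E := by omega
  simp [lst, cfgOf, this, List.getD_eq_getElem?_getD, h2]

theorem mem_dirs {E e : ℕ} {b : Bool} : (e, b) ∈ dirs E ↔ e < E := by simp [dirs]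

theorem perm_erase {E v : ℕ} (hv : v < E) :
    (List.range E).Perm ((List.range E).erase v ++ [v]) :=
  (List.perm_cons_erase (List.mem_range.2 hv)).trans (List.perm_append_singleton _ _).symm

theorem not_mem_erase (E v : ℕ) : v ∉ (List.range E).erase v :=
  List.Nodup.not_mem_erase List.nodup_range

end BridgeX

open BridgeX

theorem sum_bx_eq_TL (E : ℕ) (ρ : List ℕ) (σ : ℕ) (lo hi : List ℕ)
    (h : ∀ e < E, lo.getD e 0 ≤ hi.getD e 0 ∧ hi.getD e 0 ≤ ρ.getD e 0) (F : Cfg → ℝ) :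
    ∑ a ∈ bx E lo hi, F (cfgOf E ρ σ a) =
      TL (fun e => hi.getD e 0 - lo.getD e 0) (List.range E) F (baseOf E ρ σ lo hi) := by
  rw [← sum_pt E lo hi fun e he => (h e he).1]
  refine Finset.sum_congr rfl fun a ha => ?_
  obtain ⟨-, ha⟩ := mem_bx.1 ha
  congr 1
  funext ⟨i, b⟩
  simp only [cfgOf, pt, baseOf]
  by_cases hi : i < E
  · have h1 := h i hi
    have h2 := ha i hi
    cases b <;> simp only [hi, if_true, Bool.false_eq_true, if_false] <;> omega
  · simp only [hi, if_false]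

theorem poincare_bx {E : ℕ} {c : Cfg → ℝ} (hpos : ∀ β, 0 < c β) {U : ℕ}
    (hS : ∀ β : Cfg, (∀ i, β i ≤ U) → SL (dirs E) c β) {K : ℝ} (hK : 1 ≤ K)
    (ζ : ℕ × Bool → ℝ) (hζ : ∀ i, 0 < ζ i)
    (hr : ∀ β : Cfg, (∀ i, β i ≤ U) → ∀ i ∈ dirs E,
      c (β + uv i) ≤ K * ζ i * c β ∧ ζ i * c β ≤ K * c (β + uv i))
    (ρ : List ℕ) (σ : ℕ) (lo hi : List ℕ) (hσ : σ + 2 ≤ U) (hρ : ∀ e < E, ρ.getD e 0 + 2 ≤ U)
    (h : ∀ e < E, lo.getD e 0 ≤ hi.getD e 0 ∧ hi.getD e 0 ≤ ρ.getD e 0) (f : List ℕ → ℝ) :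
    (∑ a ∈ bx E lo hi, c (cfgOf E ρ σ a)) * (∑ a ∈ bx E lo hi, c (cfgOf E ρ σ a) * f a ^ 2) -
        (∑ a ∈ bx E lo hi, c (cfgOf E ρ σ a) * f a) ^ 2 ≤
      10 * ((E : ℝ) + 1) ^ 2 * (U : ℝ) ^ 4 * K ^ 4 * (∑ a ∈ bx E lo hi, c (cfgOf E ρ σ a)) *
        ∑ e ∈ range E, ∑ a ∈ (bx E lo hi).filter (fun a => a.getD e 0 < hi.getD e 0),
          min (c (cfgOf E ρ σ a)) (c (cfgOf E ρ σ (inc a e))) * (f (inc a e) - f a) ^ 2 := by
  set s : ℕ → ℕ := fun e => hi.getD e 0 - lo.getD e 0 with hs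
  set α := baseOf E ρ σ lo hi with hα
  set f' : Cfg → ℝ := fun β => f (lst E β) with hf'
  have hf : ∀ a ∈ bx E lo hi, f' (cfgOf E ρ σ a) = f a := fun a ha => by
    simp only [hf', lst_cfgOf ρ σ (mem_bx.1 ha).1]
  have e0 := sum_bx_eq_TL E ρ σ lo hi h c
  have e1 : ∑ a ∈ bx E lo hi, c (cfgOf E ρ σ a) * f a
      = TL s (List.range E) (fun β => c β * f' β) α := by
    rw [← sum_bx_eq_TL E ρ σ lo hi h]
    exact Finset.sum_congr rfl fun a ha => by rw [hf a ha]
  have e2 : ∑ a ∈ bx E lo hi, c (cfgOf E ρ σ a) * f a ^ 2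
      = TL s (List.range E) (fun β => c β * f' β ^ 2) α := by
    rw [← sum_bx_eq_TL E ρ σ lo hi h]
    exact Finset.sum_congr rfl fun a ha => by rw [hf a ha]
  have key := poincare_TL hpos (by omega : 1 ≤ U) hS hK ζ hζ hr s f' (List.range E)
    List.nodup_range (fun e he b => mem_dirs.2 (List.mem_range.1 he)) α
    (by
      rintro ⟨i, b⟩
      simp only [hα, baseOf]
      by_cases hi : i < E
      · have h1 := h i hi
        have h2 := hρ i hi
        cases b <;> simp only [hi, if_true, Bool.false_eq_true, if_false] <;> omega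
      · simp only [hi, if_false]
        split_ifs <;> omega)
    (by
      intro i hi b
      have hi := List.mem_range.1 hi
      have h1 := h i hi
      have h2 := hρ i hi
      simp only [hα, baseOf, hs]
      cases b <;> simp only [hi, if_true, Bool.false_eq_true, if_false] <;> omega)
  rw [List.toFinset_range, List.length_range] at key
  have e3 : ∀ e ∈ range E, Dv s (List.range E) c f' e α
      = ∑ a ∈ (bx E lo hi).filter (fun a => a.getD e 0 < hi.getD e 0),
          min (c (cfgOf E ρ σ a)) (c (cfgOf E ρ σ (inc a e))) * (f (inc a e) - f a) ^ 2 := by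
    intro e he
    have he := Finset.mem_range.1 he
    set Φ : Cfg → ℝ := fun β => if β (e, true) < hi.getD e 0 then
      min (c β) (c (mv e β)) * (f' (mv e β) - f' β) ^ 2 else 0 with hΦ
    have g1 : ∑ a ∈ (bx E lo hi).filter (fun a => a.getD e 0 < hi.getD e 0),
          min (c (cfgOf E ρ σ a)) (c (cfgOf E ρ σ (inc a e))) * (f (inc a e) - f a) ^ 2
        = ∑ a ∈ bx E lo hi, Φ (cfgOf E ρ σ a) := by
      rw [Finset.sum_filter]
      refine Finset.sum_congr rfl fun a ha => ?_
      have hl := (mem_bx.1 ha).1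
      have hl' : (inc a e).length = E := by simp [inc, hl]
      have h1 : cfgOf E ρ σ a (e, true) = a.getD e 0 := by simp [cfgOf, he]
      simp only [hΦ, h1, ← cfgOf_inc ρ σ hl he, hf', lst_cfgOf ρ σ hl, lst_cfgOf ρ σ hl']
    rw [g1, sum_bx_eq_TL E ρ σ lo hi h, TL_perm (perm_erase he), TL_append]
    unfold Dv
    refine TL_congr (List.nodup_range.erase e) fun β hβ => ?_
    have hb : β (e, true) = lo.getD e 0 := by
      rw [hβ.1 (e, true) (not_mem_erase E e)]
      simp [hα, baseOf, he]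
    have hle := (h e he).1
    have hval : ∀ j k : ℕ, (β + j • uv (e, true) + k • uv (e, false)) (e, true)
        = lo.getD e 0 + j := fun j k => by
      simp [uv, hb]
    have hse : s e = hi.getD e 0 - lo.getD e 0 := rfl
    show _ = ∑ j ∈ range (s e + 1), Φ (β + j • uv (e, true) + (s e - j) • uv (e, false))
    rw [Finset.sum_range_succ]
    have hlast : Φ (β + s e • uv (e, true) + (s e - s e) • uv (e, false)) = 0 := by
      simp only [hΦ, hval]
      rw [if_neg (by omega)]
    rw [hlast, add_zero]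
    refine Finset.sum_congr rfl fun j hj => ?_
    have hj := Finset.mem_range.1 hj
    have hk : s e - j = (s e - j - 1) + 1 := by omega
    have hm : mv e (β + j • uv (e, true) + (s e - j) • uv (e, false))
        = β + (j + 1) • uv (e, true) + (s e - j - 1) • uv (e, false) := by
      rw [← mv_eq, ← hk]
    simp only [hΦ, hval]
    rw [if_pos (by omega), hm]
  rw [Finset.sum_congr rfl e3] at key
  rw [e0, e1, e2]
  exact key

/-- log-concavity in the extra variable -/
theorem lc_extra {E : ℕ} {c : Cfg → ℝ} (hpos : ∀ β, 0 < c β) {U : ℕ}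
    (hS : ∀ β : Cfg, (∀ i, β i ≤ U) → SL (insert (E, true) (dirs E)) c β)
    (ρ : List ℕ) (hρ : ∀ e < E, ρ.getD e 0 ≤ U) :
    (∑ a ∈ bx E [] ρ, c (cfgOf E ρ 2 a)) * (∑ a ∈ bx E [] ρ, c (cfgOf E ρ 0 a)) ≤
      (∑ a ∈ bx E [] ρ, c (cfgOf E ρ 1 a)) ^ 2 := by
  have h : ∀ e < E, ([] : List ℕ).getD e 0 ≤ ρ.getD e 0 ∧ ρ.getD e 0 ≤ ρ.getD e 0 :=
    fun e _ => ⟨by simp, le_rfl⟩
  have hb : ∀ σ, baseOf E ρ (σ + 1) [] ρ = baseOf E ρ σ [] ρ + uv (E, true) := fun σ => by
    funext ⟨i, b⟩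
    simp only [baseOf, uv, Pi.add_apply, Pi.single_apply]
    by_cases hi : i < E
    · simp [hi, hi.ne]
    · simp only [hi, if_false]
      split_ifs <;> rfl
  rw [sum_bx_eq_TL E ρ 2 [] ρ h, sum_bx_eq_TL E ρ 0 [] ρ h, sum_bx_eq_TL E ρ 1 [] ρ h,
    hb 1, hb 0]
  refine SL.one (D := {(E, true)}) ?_ (Finset.mem_singleton_self _)
  refine SL_TL (D := insert (E, true) (dirs E)) hpos List.nodup_range
    (fun e he b => Finset.mem_insert_of_mem (mem_dirs.2 (List.mem_range.1 he)))
    (by simp) (by simp) fun β hβ => hS β ?_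
  rintro ⟨i, b⟩
  by_cases hi : i < E
  · have h1 := (hβ.2 i (List.mem_range.2 hi)).2.2
    have h2 := hρ i hi
    simp only [baseOf, hi, if_true, Bool.false_eq_true, if_false, List.getD_nil] at h1
    cases b <;> omega
  · rw [hβ.1 (i, b) (by simpa using hi)]
    simp [baseOf, hi]

/-- log-concavity of the slices `a[e] = j` -/
theorem lc_slice {E : ℕ} {c : Cfg → ℝ} (hpos : ∀ β, 0 < c β)
    (hS : ∀ β : Cfg, SL (dirs E) c β) (ρ : List ℕ) {e : ℕ} (he : e < E) (j : ℕ)
    (hj : j + 2 ≤ ρ.getD e 0) :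
    (∑ a ∈ (bx E [] ρ).filter (fun a => a.getD e 0 = j), c (cfgOf E ρ 0 a)) *
        (∑ a ∈ (bx E [] ρ).filter (fun a => a.getD e 0 = j + 2), c (cfgOf E ρ 0 a)) ≤
      (∑ a ∈ (bx E [] ρ).filter (fun a => a.getD e 0 = j + 1), c (cfgOf E ρ 0 a)) ^ 2 := by
  have h : ∀ e < E, ([] : List ℕ).getD e 0 ≤ ρ.getD e 0 ∧ ρ.getD e 0 ≤ ρ.getD e 0 :=
    fun e _ => ⟨by simp, le_rfl⟩
  set s : ℕ → ℕ := fun e => ρ.getD e 0 - ([] : List ℕ).getD e 0 with hs
  set α := baseOf E ρ 0 [] ρ with hα
  set l := (List.range E).erase e with hl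
  have hse : s e = ρ.getD e 0 := by simp [hs]
  have hnd : l.Nodup := List.nodup_range.erase e
  have slice : ∀ k ≤ ρ.getD e 0,
      ∑ a ∈ (bx E [] ρ).filter (fun a => a.getD e 0 = k), c (cfgOf E ρ 0 a)
        = TL s l c (α + k • uv (e, true) + (ρ.getD e 0 - k) • uv (e, false)) := by
    intro k hk
    have g1 : ∑ a ∈ (bx E [] ρ).filter (fun a => a.getD e 0 = k), c (cfgOf E ρ 0 a)
        = ∑ a ∈ bx E [] ρ, (fun β : Cfg => if β (e, true) = k then c β else 0) (cfgOf E ρ 0 a) := by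
      rw [Finset.sum_filter]
      refine Finset.sum_congr rfl fun a _ => ?_
      have h1 : cfgOf E ρ 0 a (e, true) = a.getD e 0 := by simp [cfgOf, he]
      simp only [h1]
    rw [g1, sum_bx_eq_TL E ρ 0 [] ρ h (fun β : Cfg => if β (e, true) = k then c β else 0),
      TL_perm (List.perm_cons_erase (List.mem_range.2 he))]
    show T1 e (s e) (TL s l _) α = _
    unfold T1
    have hval : ∀ i β, Vis s l (α + i • uv (e, true) + (s e - i) • uv (e, false)) β →
        β (e, true) = i := fun i β hβ => by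
      rw [hβ.1 (e, true) (not_mem_erase E e)]
      simp [uv, hα, baseOf, he]
    rw [Finset.sum_eq_single k]
    · rw [← hse]
      exact TL_congr hnd fun β hβ => by simp only [hval k β hβ, if_true]
    · intro i _ hik
      refine Eq.trans (TL_congr hnd fun β hβ => ?_) (TL_zero s l _)
      simp only [hval i β hβ, if_neg hik]
    · intro hk'
      exact absurd (Finset.mem_range.2 (by omega)) hk'
  rw [slice j (by omega), slice (j + 2) hj, slice (j + 1) (by omega)]
  obtain ⟨k, hk⟩ : ∃ k, ρ.getD e 0 = j + 2 + k := ⟨ρ.getD e 0 - (j + 2), by omega⟩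
  have hSL : SL {(e, true), (e, false)} (TL s l c) (α + j • uv (e, true) + k • uv (e, false)) := by
    refine SL_TL (D := dirs E) hpos hnd
      (fun i hi b => mem_dirs.2 (List.mem_range.1 (List.mem_of_mem_erase hi))) ?_ ?_
      fun β _ => hS β
    · intro i hi
      simp only [Finset.mem_insert, Finset.mem_singleton] at hi
      rcases hi with rfl | rfl <;> exact mem_dirs.2 he
    · intro i hi
      simp only [Finset.mem_insert, Finset.mem_singleton] at hi
      rcases hi with rfl | rfl <;> exact not_mem_erase E e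
  have key := hSL.pair (fun β => TL_pos hpos β) (p := (e, false)) (q := (e, true)) (by simp)
    (by simp)
  have a1 : ρ.getD e 0 - j = k + 2 := by omega
  have a2 : ρ.getD e 0 - (j + 2) = k := by omega
  have a3 : ρ.getD e 0 - (j + 1) = k + 1 := by omega
  rw [a1, a2, a3]
  convert key using 3 <;> simp only [add_smul, two_smul, one_smul] <;> abel

end Crest.Agent.R309
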