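import Crest.Agent.R309.Prob

/-! Row 309: mixing of a lazy reversible chain from a Poincaré inequality. -/

set_option autoImplicit false

namespace Crest.Agent.R309

open Crest.Agent.PT Finset

namespace MixX

variable {σ : Type} {Ω : Finset σ} {w : σ → ℝ} {p : σ → σ → ℝ}

/-- the transition operator -/
noncomputable def op (Ω : Finset σ) (p : σ → σ → ℝ) (F : σ → ℝ) : σ → ℝ :=
  fun a => ∑ b ∈ Ω, p a b * F b

theorem stat (hrow : ∀ a ∈ Ω, ∑ b ∈ Ω, p a b = 1)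
    (hrev : ∀ a ∈ Ω, ∀ b ∈ Ω, w a * p a b = w b * p b a) (g : σ → ℝ) :
    ∑ a ∈ Ω, w a * op Ω p g a = ∑ a ∈ Ω, w a * g a := by
  simp only [op, mul_sum]
  rw [sum_comm]
  refine sum_congr rfl fun b hb => ?_
  rw [sum_congr rfl fun a ha => by rw [← mul_assoc, hrev a ha b hb], ← sum_mul, ← mul_sum,
    hrow b hb, mul_one]

theorem dirichlet (hrow : ∀ a ∈ Ω, ∑ b ∈ Ω, p a b = 1)
    (hrev : ∀ a ∈ Ω, ∀ b ∈ Ω, w a * p a b = w b * p b a) (f : σ → ℝ) :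
    ∑ a ∈ Ω, ∑ b ∈ Ω, w a * p a b * (f a - f b) ^ 2
      = 2 * ∑ a ∈ Ω, w a * f a ^ 2 - 2 * ∑ a ∈ Ω, w a * (f a * op Ω p f a) := by
  have h1 := stat hrow hrev fun b => f b ^ 2
  have h2 : ∀ a ∈ Ω, ∑ b ∈ Ω, w a * p a b * (f a - f b) ^ 2
      = w a * f a ^ 2 + w a * op Ω p (fun b => f b ^ 2) a - 2 * (w a * (f a * op Ω p f a)) :=
    fun a ha => by
      have : w a * f a ^ 2 = ∑ b ∈ Ω, w a * f a ^ 2 * p a b := by
        rw [← mul_sum, hrow a ha, mul_one]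
      rw [this]
      simp only [op, mul_sum, ← sum_add_distrib, ← sum_sub_distrib]
      exact sum_congr rfl fun b _ => by ring
  rw [sum_congr rfl h2, sum_sub_distrib, sum_add_distrib, h1, ← mul_sum]
  ring

theorem jensen (hp : ∀ a ∈ Ω, ∀ b ∈ Ω, 0 ≤ p a b) (hrow : ∀ a ∈ Ω, ∑ b ∈ Ω, p a b = 1)
    (f : σ → ℝ) {a : σ} (ha : a ∈ Ω) : op Ω p f a ^ 2 ≤ op Ω p (fun b => f b ^ 2) a := by
  have h1 : 0 ≤ ∑ b ∈ Ω, p a b * (f b - op Ω p f a) ^ 2 :=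
    sum_nonneg fun b hb => mul_nonneg (hp a ha b hb) (sq_nonneg _)
  have h2 : ∑ b ∈ Ω, p a b * (f b - op Ω p f a) ^ 2 = op Ω p (fun b => f b ^ 2) a
      - 2 * op Ω p f a * op Ω p f a + op Ω p f a ^ 2 * ∑ b ∈ Ω, p a b := by
    generalize hx : op Ω p f a = x
    conv_rhs => rw [show 2 * x * x = 2 * x * op Ω p f a by rw [hx]]
    simp only [op, mul_sum, ← sum_add_distrib, ← sum_sub_distrib]
    exact sum_congr rfl fun b _ => by ring
  rw [h2, hrow a ha] at h1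
  linarith

theorem lazy_le (hw : ∀ a ∈ Ω, 0 ≤ w a) (hp : ∀ a ∈ Ω, ∀ b ∈ Ω, 0 ≤ p a b)
    (hrow : ∀ a ∈ Ω, ∑ b ∈ Ω, p a b = 1)
    (hrev : ∀ a ∈ Ω, ∀ b ∈ Ω, w a * p a b = w b * p b a) (hl : ∀ a ∈ Ω, 1 / 2 ≤ p a a)
    (f : σ → ℝ) :
    ∑ a ∈ Ω, w a * op Ω p f a ^ 2 ≤ ∑ a ∈ Ω, w a * (f a * op Ω p f a) := by
  classical
  set q : σ → σ → ℝ := fun a b => 2 * p a b - if a = b then 1 else 0 with hq
  have hop : ∀ (g : σ → ℝ), ∀ a ∈ Ω, op Ω q g a = 2 * op Ω p g a - g a := fun g a ha => by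
    simp only [op, hq, sub_mul, sum_sub_distrib, mul_sum, ite_mul, one_mul, zero_mul, sum_ite_eq,
      if_pos ha, mul_assoc]
  have q0 : ∀ a ∈ Ω, ∀ b ∈ Ω, 0 ≤ q a b := fun a ha b hb => by
    simp only [hq]
    split_ifs with h
    · subst h; linarith [hl a ha]
    · linarith [hp a ha b hb]
  have qrow : ∀ a ∈ Ω, ∑ b ∈ Ω, q a b = 1 := fun a ha => by
    simp only [hq, sum_sub_distrib, ← mul_sum, hrow a ha, sum_ite_eq, if_pos ha]; norm_num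
  have qrev : ∀ a ∈ Ω, ∀ b ∈ Ω, w a * q a b = w b * q b a := fun a ha b hb => by
    by_cases h : a = b
    · rw [h]
    · simp only [hq, if_neg h, if_neg (Ne.symm h)]
      linarith [hrev a ha b hb]
  have h1 : ∑ a ∈ Ω, w a * op Ω q f a ^ 2 ≤ ∑ a ∈ Ω, w a * f a ^ 2 := by
    rw [← stat qrow qrev fun b => f b ^ 2]
    exact sum_le_sum fun a ha => mul_le_mul_of_nonneg_left (jensen q0 qrow f ha) (hw a ha)
  have h2 : ∑ a ∈ Ω, w a * op Ω q f a ^ 2 = 4 * ∑ a ∈ Ω, w a * op Ω p f a ^ 2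
      - 4 * ∑ a ∈ Ω, w a * (f a * op Ω p f a) + ∑ a ∈ Ω, w a * f a ^ 2 := by
    simp only [mul_sum, ← sum_add_distrib, ← sum_sub_distrib]
    exact sum_congr rfl fun a ha => by rw [hop f a ha]; ring
  linarith

theorem decay {C : ℝ} (hC : 1 ≤ C) (hw : ∀ a ∈ Ω, 0 ≤ w a) (hZ : 0 < ∑ a ∈ Ω, w a)
    (hp : ∀ a ∈ Ω, ∀ b ∈ Ω, 0 ≤ p a b) (hrow : ∀ a ∈ Ω, ∑ b ∈ Ω, p a b = 1)
    (hrev : ∀ a ∈ Ω, ∀ b ∈ Ω, w a * p a b = w b * p b a) (hl : ∀ a ∈ Ω, 1 / 2 ≤ p a a)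
    (hP : ∀ f : σ → ℝ, (∑ a ∈ Ω, w a) * (∑ a ∈ Ω, w a * f a ^ 2) - (∑ a ∈ Ω, w a * f a) ^ 2 ≤
      C * (∑ a ∈ Ω, w a) * ∑ a ∈ Ω, ∑ b ∈ Ω, w a * p a b * (f a - f b) ^ 2)
    (f : σ → ℝ) (hf : ∑ a ∈ Ω, w a * f a = 0) (n : ℕ) :
    ∑ a ∈ Ω, w a * (op Ω p)^[n] f a = 0 ∧ ∑ a ∈ Ω, w a * (op Ω p)^[n] f a ^ 2
      ≤ Real.exp (-(n / (2 * C))) * ∑ a ∈ Ω, w a * f a ^ 2 := by
  induction n with
  | zero => simpa using hf
  | succ n ih =>
    rw [Function.iterate_succ_apply']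
    set g := (op Ω p)^[n] f
    refine ⟨by rw [stat hrow hrev, ih.1], ?_⟩
    have h1 := hP g
    rw [ih.1, dirichlet hrow hrev, mul_comm C, mul_assoc, zero_pow two_ne_zero, sub_zero] at h1
    have h2 := le_of_mul_le_mul_left h1 hZ
    have h3 := lazy_le hw hp hrow hrev hl g
    have N0 : 0 ≤ ∑ a ∈ Ω, w a * g a ^ 2 :=
      sum_nonneg fun a ha => mul_nonneg (hw a ha) (sq_nonneg _)
    have C0 : 0 < C := by linarith
    have h4 : ∑ a ∈ Ω, w a * (g a * op Ω p g a) ≤ (-(1 / (2 * C)) + 1) * ∑ a ∈ Ω, w a * g a ^ 2 := by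
      refine le_of_mul_le_mul_left ?_ (by positivity : 0 < 2 * C)
      have : 2 * C * ((-(1 / (2 * C)) + 1) * ∑ a ∈ Ω, w a * g a ^ 2)
          = (2 * C - 1) * ∑ a ∈ Ω, w a * g a ^ 2 := by field_simp; ring
      rw [this]; linarith
    have h5 := mul_le_mul_of_nonneg_right (Real.add_one_le_exp (-(1 / (2 * C)))) N0
    have h6 := mul_le_mul_of_nonneg_left ih.2 (Real.exp_pos (-(1 / (2 * C)))).le
    rw [← mul_assoc, ← Real.exp_add] at h6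
    have e : -(1 / (2 * C)) + -(n / (2 * C)) = -(((n + 1 : ℕ) : ℝ) / (2 * C)) := by
      push_cast; ring
    rw [e] at h6
    linarith

theorem Ex_iter (L : ℕ) (step : σ → Word → σ) (hcl : ∀ a ∈ Ω, ∀ r, step a r ∈ Ω) {a : σ}
    (ha : a ∈ Ω) (n : ℕ) (F : σ → ℝ) :
    Ex (n * L) (fun ω => F (iterR L step n a ω))
      = (op Ω fun a b => Pr L fun r => step a r = b)^[n] F a := by
  induction n generalizing F with
  | zero => simp [iterR]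
  | succ n ih =>
    rw [Ex_iterR_succ, Function.iterate_succ_apply, ← ih]
    refine Ex_congr fun ω _ => ?_
    have h : iterR L step n a ω ∈ Ω :=
      iterR_inv L step (fun _ s => s ∈ Ω) (fun _ s r hs => hcl s hs r) a ha n ω
    exact Ex_comp L Ω _ (fun r _ => hcl _ h r) F

end MixX
open MixX

theorem mixing {σ : Type} (Ω : Finset σ) (w : σ → ℝ) (L : ℕ) (step : σ → Word → σ) (C m : ℝ)
    (hm : 0 < m) (hC : 1 ≤ C) (hw : ∀ a ∈ Ω, m * ∑ b ∈ Ω, w b ≤ w a) (hw0 : ∀ a ∈ Ω, 0 < w a)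
    (hcl : ∀ a ∈ Ω, ∀ r, step a r ∈ Ω)
    (hrev : ∀ a ∈ Ω, ∀ b ∈ Ω, w a * Pr L (fun r => step a r = b) = w b * Pr L (fun r => step b r = a))
    (hlazy : ∀ a ∈ Ω, 1 / 2 ≤ Pr L fun r => step a r = a)
    (hP : ∀ f : σ → ℝ, (∑ a ∈ Ω, w a) * (∑ a ∈ Ω, w a * f a ^ 2) - (∑ a ∈ Ω, w a * f a) ^ 2 ≤
      C * (∑ a ∈ Ω, w a) * ∑ a ∈ Ω, ∑ b ∈ Ω, w a * Pr L (fun r => step a r = b) * (f a - f b) ^ 2)
    (n : ℕ) {a b : σ} (ha : a ∈ Ω) (hb : b ∈ Ω) :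
    |Pr (n * L) (fun ω => iterR L step n a ω = b) - w b / ∑ c ∈ Ω, w c| ≤
      Real.exp (-(n / (4 * C))) / m * (w b / ∑ c ∈ Ω, w c) := by
  classical
  have hZ : 0 < ∑ c ∈ Ω, w c := sum_pos hw0 ⟨a, ha⟩
  set Z := ∑ c ∈ Ω, w c with hZd
  set π := w b / Z with hπ
  have hrow : ∀ a ∈ Ω, ∑ b ∈ Ω, Pr L (fun r => step a r = b) = 1 := fun a ha => by
    have := Ex_comp L Ω (step a) (fun r _ => hcl a ha r) fun _ => 1
    simpa using this.symm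
  set F : σ → ℝ := fun s => (if s = b then 1 else 0) - π with hF
  have hπZ : π * Z = w b := div_mul_cancel₀ _ hZ.ne'
  have F0 : ∑ s ∈ Ω, w s * F s = 0 := by
    simp only [hF, mul_sub, sum_sub_distrib, ← sum_mul, mul_ite, mul_one, mul_zero, sum_ite_eq',
      if_pos hb]
    linarith
  have π0 : 0 < π := div_pos (hw0 b hb) hZ
  have F2 : ∑ s ∈ Ω, w s * F s ^ 2 ≤ w b := by
    have : ∀ s, w s * F s ^ 2 = (if s = b then w s * (1 - 2 * π) else 0) + w s * π ^ 2 := fun s => by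
      simp only [hF]; split_ifs <;> ring
    simp only [this, sum_add_distrib, ← sum_mul, sum_ite_eq', if_pos hb]
    have h1 : Z * π ^ 2 = w b * π := by rw [← hπZ]; ring
    have h2 := mul_pos (hw0 b hb) π0
    linarith
  have h1 := (decay hC (fun a ha => (hw0 a ha).le) hZ (fun a _ b _ => Pr_nonneg _ _) hrow hrev
    hlazy hP F F0 n).2
  have h2 := Ex_iter L step hcl ha n F
  have h3 : Ex (n * L) (fun ω => F (iterR L step n a ω))
      = Pr (n * L) (fun ω => iterR L step n a ω = b) - π := by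
    simp only [hF]
    rw [Ex_sub, Ex_const, Pr]
  rw [← h3, h2]
  set g := (op Ω fun a b => Pr L fun r => step a r = b)^[n] F
  have h4 : w a * g a ^ 2 ≤ ∑ s ∈ Ω, w s * g s ^ 2 :=
    single_le_sum (f := fun s => w s * g s ^ 2)
      (fun s hs => mul_nonneg (hw0 s hs).le (sq_nonneg _)) ha
  have E0 := Real.exp_pos (-(n / (2 * C)))
  have h5 : w a * g a ^ 2 ≤ Real.exp (-(n / (2 * C))) * w b :=
    h4.trans (h1.trans (mul_le_mul_of_nonneg_left F2 E0.le))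
  have hE : Real.exp (-(n / (4 * C))) ^ 2 = Real.exp (-(n / (2 * C))) := by
    rw [sq, ← Real.exp_add]; congr 1
    have : C ≠ 0 := by linarith
    field_simp; ring
  refine abs_le_of_sq_le_sq ?_ (by positivity)
  rw [mul_pow, div_pow, hE, div_mul_eq_mul_div, le_div_iff₀ (by positivity)]
  have h6 : m ≤ π := by rw [hπ, le_div_iff₀ hZ]; exact hw b hb
  have h7 : m * Z * g a ^ 2 ≤ Real.exp (-(n / (2 * C))) * (π * Z) := by
    rw [hπZ]; exact (mul_le_mul_of_nonneg_right (hw a ha) (sq_nonneg _)).trans h5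
  have h8 : m * g a ^ 2 ≤ Real.exp (-(n / (2 * C))) * π :=
    le_of_mul_le_mul_right (by linarith) hZ
  have h9 := mul_le_mul h8 h6 hm.le (by positivity)
  linarith

end Crest.Agent.R309
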