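import Crest.Agent.R309.Defs0

/-! Row 309: calculus of random tapes. -/

set_option autoImplicit false

namespace Crest.Agent.R309

open Crest.Agent.PT Finset

theorem Ex_congr {L : ℕ} {F G : Word → ℝ} (h : ∀ ω, ω.length = L → F ω = G ω) : Ex L F = Ex L G := by
  unfold Ex
  congr 1
  exact sum_congr rfl fun ω _ => h _ List.length_ofFn

theorem Ex_mono {L : ℕ} {F G : Word → ℝ} (h : ∀ ω, ω.length = L → F ω ≤ G ω) : Ex L F ≤ Ex L G := by
  unfold Ex
  exact div_le_div_of_nonneg_right (sum_le_sum fun ω _ => h _ List.length_ofFn) (by positivity)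

@[simp] theorem Ex_const (L : ℕ) (c : ℝ) : Ex L (fun _ => c) = c := by
  unfold Ex
  rw [sum_const, card_univ, Fintype.card_fun, Fintype.card_bool, Fintype.card_fin, nsmul_eq_mul]
  push_cast
  field_simp

theorem Ex_add (L : ℕ) (F G : Word → ℝ) : Ex L (fun ω => F ω + G ω) = Ex L F + Ex L G := by
  unfold Ex
  rw [sum_add_distrib, add_div]

theorem Ex_sub (L : ℕ) (F G : Word → ℝ) : Ex L (fun ω => F ω - G ω) = Ex L F - Ex L G := by
  unfold Ex
  rw [sum_sub_distrib, sub_div]

theorem Ex_mul_left (L : ℕ) (c : ℝ) (F : Word → ℝ) : Ex L (fun ω => c * F ω) = c * Ex L F := by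
  unfold Ex
  rw [← mul_sum, mul_div_assoc]

theorem Ex_sum {ι : Type} (L : ℕ) (S : Finset ι) (F : ι → Word → ℝ) :
    Ex L (fun ω => ∑ i ∈ S, F i ω) = ∑ i ∈ S, Ex L (F i) := by
  unfold Ex
  rw [sum_comm, sum_div]

theorem Ex_nonneg {L : ℕ} {F : Word → ℝ} (h : ∀ ω, ω.length = L → 0 ≤ F ω) : 0 ≤ Ex L F := by
  have := Ex_mono (F := fun _ => 0) h
  rwa [Ex_const] at this

theorem Ex_zero (F : Word → ℝ) : Ex 0 F = F [] := by
  unfold Ex
  simp

theorem Ex_succ (L : ℕ) (F : Word → ℝ) :
    Ex (L + 1) F = (Ex L (fun ω => F (false :: ω)) + Ex L (fun ω => F (true :: ω))) / 2 := by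
  unfold Ex
  rw [← (Fin.consEquiv (fun _ : Fin (L + 1) => Bool)).sum_comp, Fintype.sum_prod_type,
    Fintype.sum_bool]
  simp only [Fin.consEquiv, Equiv.coe_fn_mk, List.ofFn_succ, Fin.cons_zero, Fin.cons_succ]
  rw [pow_succ]
  field_simp
  ring

/-- Fubini -/
theorem Ex_append (L L' : ℕ) (F : Word → ℝ) :
    Ex (L + L') F = Ex L fun u => Ex L' fun v => F (u ++ v) := by
  induction L generalizing F with
  | zero => rw [Ex_zero, Nat.zero_add]; rfl
  | succ L ih =>
    rw [Nat.add_right_comm, Ex_succ, Ex_succ, ih, ih]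
    rfl

theorem Ex_split (L L' : ℕ) (F : Word → Word → ℝ) :
    Ex (L + L') (fun ω => F (ω.take L) (ω.drop L)) = Ex L fun u => Ex L' fun v => F u v := by
  rw [Ex_append]
  refine Ex_congr fun u hu => ?_
  simp only [List.take_left' hu, List.drop_left' hu]

theorem Ex_take {L L' : ℕ} (h : L ≤ L') (F : Word → ℝ) : Ex L' (fun ω => F (ω.take L)) = Ex L F := by
  obtain ⟨k, rfl⟩ := Nat.exists_eq_add_of_le h
  rw [Ex_split L k (fun u _ => F u)]
  simp only [Ex_const]

theorem Ex_blk {L i L' : ℕ} (h : (i + 1) * L ≤ L') (F : Word → ℝ) :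
    Ex L' (fun ω => F (blk L i ω)) = Ex L F := by
  have h1 : i * L + L ≤ L' := by rwa [Nat.add_mul, Nat.one_mul] at h
  obtain ⟨k, rfl⟩ := Nat.exists_eq_add_of_le (le_trans (Nat.le_add_right _ _) h1)
  unfold blk
  rw [Ex_split (i * L) k (fun _ v => F (v.take L)), Ex_const]
  exact Ex_take (by omega) F

theorem blk_take {L i m : ℕ} (h : (i + 1) * L ≤ m) (ω : Word) :
    blk L i (ω.take m) = blk L i ω := by
  have h1 : i * L + L ≤ m := by rwa [Nat.add_mul, Nat.one_mul] at h
  unfold blk
  rw [List.drop_take, List.take_take, min_eq_left (by omega)]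

theorem length_blk {L i : ℕ} {ω : Word} (h : (i + 1) * L ≤ ω.length) : (blk L i ω).length = L := by
  have h1 : i * L + L ≤ ω.length := by rwa [Nat.add_mul, Nat.one_mul] at h
  unfold blk
  rw [List.length_take, List.length_drop]
  omega

/-- the last block is independent of the prefix -/
theorem Ex_last (L n : ℕ) (F : Word → Word → ℝ) :
    Ex ((n + 1) * L) (fun ω => F (ω.take (n * L)) (blk L n ω))
      = Ex (n * L) fun u => Ex L fun v => F u v := by
  rw [Nat.add_mul, Nat.one_mul]
  unfold blk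
  rw [Ex_split (n * L) L (fun u v => F u (v.take L))]
  refine Ex_congr fun u _ => Ex_congr fun v hv => ?_
  rw [List.take_of_length_le hv.le]

/-- independence of blocks -/
theorem Ex_prod_blk (L n : ℕ) (F : ℕ → Word → ℝ) :
    Ex (n * L) (fun ω => ∏ i ∈ range n, F i (blk L i ω)) = ∏ i ∈ range n, Ex L (F i) := by
  induction n with
  | zero => simp
  | succ n ih =>
    have h := Ex_last L n (fun u v => (∏ i ∈ range n, F i (blk L i u)) * F n v)
    simp only [Ex_mul_left] at h
    simp only [mul_comm _ (Ex L (F n)), Ex_mul_left] at h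
    rw [prod_range_succ, ← ih, mul_comm _ (Ex L (F n)), ← h]
    refine Ex_congr fun ω _ => ?_
    rw [prod_range_succ]
    congr 1
    refine prod_congr rfl fun i hi => ?_
    rw [blk_take (Nat.mul_le_mul_right L (mem_range.1 hi))]

/-- the value of a tape is uniform -/
theorem Ex_ofB (L : ℕ) (F : ℕ → ℝ) : Ex L (fun ω => F (ofB ω)) = (∑ i ∈ range (2 ^ L), F i) / 2 ^ L := by
  have key : ∀ (n : ℕ) (F : ℕ → ℝ), ∑ i ∈ range (n * 2), F i
      = ∑ i ∈ range n, F (2 * i) + ∑ i ∈ range n, F (2 * i + 1) := by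
    intro n F
    induction n with
    | zero => simp
    | succ n ih =>
      rw [show (n + 1) * 2 = n * 2 + 1 + 1 by ring, sum_range_succ, sum_range_succ, ih,
        sum_range_succ, sum_range_succ, mul_comm n 2]
      ring
  induction L generalizing F with
  | zero => rw [Ex_zero]; simp [ofB]
  | succ L ih =>
    rw [Ex_succ]
    simp only [ofB, Nat.bit_val, Bool.toNat_false, Bool.toNat_true, Nat.add_zero]
    rw [ih (fun i => F (2 * i)), ih (fun i => F (2 * i + 1)), pow_succ, key, pow_succ]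
    field_simp

/-- tapes are enumerated by their values -/
theorem Ex_eq_sum_range (L : ℕ) (F : Word → ℝ) :
    Ex L F = (∑ i ∈ range (2 ^ L), F ((List.range L).map i.testBit)) / 2 ^ L := by
  rw [← Ex_ofB L (fun i => F ((List.range L).map i.testBit))]
  refine Ex_congr fun ω hω => ?_
  congr 1
  apply List.ext_getElem
  · simp [hω]
  · intro i h1 h2
    simp only [List.getElem_map, List.getElem_range, testBit_ofB]
    rw [List.getD_eq_getElem _ _ h1]

theorem Pr_nonneg (L : ℕ) (A : Word → Prop) : 0 ≤ Pr L A := by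
  exact Ex_nonneg fun ω _ => by split_ifs <;> norm_num

theorem Pr_le_one (L : ℕ) (A : Word → Prop) : Pr L A ≤ 1 := by
  refine le_trans (Ex_mono (G := fun _ => 1) fun ω _ => ?_) (Ex_const L 1).le
  split_ifs <;> norm_num

theorem Pr_mono {L : ℕ} {A B : Word → Prop} (h : ∀ ω, ω.length = L → A ω → B ω) : Pr L A ≤ Pr L B := by
  refine Ex_mono fun ω hω => ?_
  by_cases hA : A ω
  · rw [if_pos hA, if_pos (h ω hω hA)]
  · rw [if_neg hA]; split_ifs <;> norm_num

theorem Pr_congr {L : ℕ} {A B : Word → Prop} (h : ∀ ω, ω.length = L → (A ω ↔ B ω)) :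
    Pr L A = Pr L B := by
  exact le_antisymm (Pr_mono fun ω hω => (h ω hω).1) (Pr_mono fun ω hω => (h ω hω).2)

theorem Pr_not (L : ℕ) (A : Word → Prop) : Pr L (fun ω => ¬ A ω) = 1 - Pr L A := by
  unfold Pr
  rw [← Ex_const L 1, ← Ex_sub]
  refine Ex_congr fun ω _ => ?_
  by_cases hA : A ω <;> simp [hA]

theorem Pr_or_le (L : ℕ) (A B : Word → Prop) : Pr L (fun ω => A ω ∨ B ω) ≤ Pr L A + Pr L B := by
  unfold Pr
  rw [← Ex_add]
  refine Ex_mono fun ω _ => ?_
  by_cases hA : A ω <;> by_cases hB : B ω <;> simp [hA, hB]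

theorem Pr_exists_le {ι : Type} (L : ℕ) (S : Finset ι) (A : ι → Word → Prop) :
    Pr L (fun ω => ∃ i ∈ S, A i ω) ≤ ∑ i ∈ S, Pr L (A i) := by
  unfold Pr
  rw [← Ex_sum]
  refine Ex_mono fun ω _ => ?_
  have h0 : ∀ i ∈ S, (0 : ℝ) ≤ @ite ℝ (A i ω) (Classical.propDecidable _) 1 0 := fun i _ => by
    split_ifs <;> norm_num
  split_ifs with h
  · obtain ⟨i, hi, hA⟩ := h
    refine le_trans ?_ (single_le_sum h0 hi)
    rw [if_pos hA]
  · exact sum_nonneg h0

theorem Pr_ofB_lt {L k : ℕ} (h : k ≤ 2 ^ L) : Pr L (fun ω => ofB ω < k) = k / 2 ^ L := by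
  classical
  unfold Pr
  rw [Ex_ofB L (fun i => @ite ℝ (i < k) (Classical.propDecidable _) 1 0)]
  congr 1
  rw [← sum_subset (f := fun i => @ite ℝ (i < k) (Classical.propDecidable _) 1 0)
    (range_subset_range.2 h) (fun i _ hi => if_neg (by simpa using hi))]
  refine (sum_congr (g := fun _ => (1 : ℝ)) rfl (fun i hi => if_pos (mem_range.1 hi))).trans ?_
  simp

theorem Pr_ofB_eq {L k : ℕ} (h : k < 2 ^ L) : Pr L (fun ω => ofB ω = k) = 1 / 2 ^ L := by
  classical
  unfold Pr
  rw [Ex_ofB L (fun i => @ite ℝ (i = k) (Classical.propDecidable _) 1 0)]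
  congr 1
  exact (sum_eq_single k (fun i _ hi => if_neg hi) (fun hk => absurd (mem_range.2 h) hk)).trans
    (if_pos rfl)

theorem Pr_split (L L' : ℕ) (A : Word → Word → Prop) :
    Pr (L + L') (fun ω => A (ω.take L) (ω.drop L)) = Ex L fun u => Pr L' (A u) := by
  exact Ex_split L L' (fun u v => @ite ℝ (A u v) (Classical.propDecidable _) 1 0)

/-- law of total expectation for a finitely-valued function of the tape -/
theorem Ex_comp {σ : Type} (L : ℕ) (Ω : Finset σ) (g : Word → σ)
    (hg : ∀ ω, ω.length = L → g ω ∈ Ω) (F : σ → ℝ) :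
    Ex L (fun ω => F (g ω)) = ∑ a ∈ Ω, Pr L (fun ω => g ω = a) * F a := by
  unfold Pr
  simp only [mul_comm _ (F _), ← Ex_mul_left]
  rw [← Ex_sum]
  refine Ex_congr fun ω hω => ?_
  rw [sum_eq_single (g ω) (fun a _ ha => by rw [if_neg (Ne.symm ha), mul_zero])
    (fun hk => absurd (hg ω hω) hk), if_pos rfl, mul_one]

theorem uniformProb_eq (L : ℕ) (A : Word → Prop) :
    Crest.FinProb.uniformProb {ω : Fin L → Bool | A (List.ofFn ω)} = Pr L A := by
  unfold Crest.FinProb.uniformProb Pr Ex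
  rw [sum_boole, Fintype.card_fun, Fintype.card_bool, Fintype.card_fin]
  push_cast
  congr

theorem iterR_take {σ : Type} (L : ℕ) (step : σ → Word → σ) (n : ℕ) (s : σ) (ω : Word) {m : ℕ}
    (h : n * L ≤ m) : iterR L step n s (ω.take m) = iterR L step n s ω := by
  induction n with
  | zero => rfl
  | succ n ih =>
    have h1 : n * L ≤ m := le_trans (Nat.mul_le_mul_right L (Nat.le_succ n)) h
    simp only [iterR]
    rw [ih h1, blk_take h]

/-- Markov property -/
theorem Ex_iterR_succ {σ : Type} (L : ℕ) (step : σ → Word → σ) (n : ℕ) (s : σ) (F : σ → ℝ) :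
    Ex ((n + 1) * L) (fun ω => F (iterR L step (n + 1) s ω)) =
      Ex (n * L) fun ω => Ex L fun r => F (step (iterR L step n s ω) r) := by
  rw [← Ex_last L n (fun u r => F (step (iterR L step n s u) r))]
  refine Ex_congr fun ω _ => ?_
  rw [iterR_take L step n s ω le_rfl]
  rfl

/-- deterministic invariants -/
theorem iterR_inv {σ : Type} (L : ℕ) (step : σ → Word → σ) (I : ℕ → σ → Prop)
    (h : ∀ k s r, I k s → I (k + 1) (step s r)) (s : σ) (h0 : I 0 s) (n : ℕ) (ω : Word) :
    I n (iterR L step n s ω) := by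
  induction n with
  | zero => exact h0
  | succ n ih => exact h n _ _ ih

theorem Pr_iterR_succ {σ : Type} (L : ℕ) (step : σ → Word → σ) (n : ℕ) (s : σ) (A : σ → Prop) :
    Pr ((n + 1) * L) (fun ω => A (iterR L step (n + 1) s ω)) =
      Ex (n * L) fun ω => Pr L fun r => A (step (iterR L step n s ω) r) :=
  Ex_iterR_succ L step n s (fun x => @ite ℝ (A x) (Classical.propDecidable _) 1 0)

theorem Pr_true (L : ℕ) {A : Word → Prop} (h : ∀ ω, ω.length = L → A ω) : Pr L A = 1 := by
  rw [← Ex_const L 1]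
  exact Ex_congr fun ω hω => if_pos (h ω hω)

theorem Pr_false (L : ℕ) {A : Word → Prop} (h : ∀ ω, ω.length = L → ¬ A ω) : Pr L A = 0 := by
  rw [← Ex_const L 0]
  exact Ex_congr fun ω hω => if_neg (h ω hω)

/-- invariants that each round keeps with high probability -/
theorem Pr_iterR_inv {σ : Type} (L : ℕ) (step : σ → Word → σ) (I : ℕ → σ → Prop) (δ : ℝ) (n : ℕ)
    (hδ : 0 ≤ δ) (h : ∀ k < n, ∀ s, I k s → 1 - δ ≤ Pr L fun r => I (k + 1) (step s r)) (s : σ)
    (h0 : I 0 s) : 1 - n * δ ≤ Pr (n * L) fun ω => I n (iterR L step n s ω) := by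
  induction n with
  | zero => rw [Pr_true _ (A := fun ω => I 0 (iterR L step 0 s ω)) fun ω _ => h0]; simp
  | succ n ih =>
    have h1 := ih fun k hk => h k (Nat.lt_succ_of_lt hk)
    rw [Pr_iterR_succ L step n s (I (n + 1))]
    have h2 : Pr (n * L) (fun ω => I n (iterR L step n s ω)) - δ ≤
        Ex (n * L) fun ω => Pr L fun r => I (n + 1) (step (iterR L step n s ω) r) := by
      rw [← Ex_const (n * L) δ]
      unfold Pr
      rw [← Ex_sub]
      refine Ex_mono fun ω _ => ?_
      split_ifs with hI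
      · exact h n (Nat.lt_succ_self n) _ hI
      · exact le_trans (by linarith) (Pr_nonneg L _)
    push_cast
    linarith

theorem Pr_firstR_nil (L : ℕ) (f : Word → List ℕ) (n : ℕ) :
    Pr (n * L) (fun ω => firstR L f n ω = []) = Pr L (fun r => f r = []) ^ n := by
  induction n with
  | zero => rw [Pr_true _ (A := fun ω => firstR L f 0 ω = []) fun ω _ => rfl, pow_zero]
  | succ n ih =>
    unfold firstR at ih ⊢
    rw [Pr_iterR_succ L _ n [] (fun x => x = []), pow_succ, ← ih, mul_comm (Pr _ _)]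
    conv_rhs => rw [Pr.eq_1 (n * L), ← Ex_mul_left]
    refine Ex_congr fun ω _ => ?_
    generalize iterR L (fun s r => if s = [] then f r else s) n [] ω = x
    by_cases hx : x = []
    · simp only [hx, if_true, mul_one]
    · simp only [hx, if_false, mul_zero]
      exact Pr_false L fun _ _ => id

theorem Pr_firstR_eq (L : ℕ) (f : Word → List ℕ) (n : ℕ) {p : List ℕ} (hp : p ≠ []) :
    Pr (n * L) (fun ω => firstR L f n ω = p) =
      Pr L (fun r => f r = p) * ∑ i ∈ range n, Pr L (fun r => f r = []) ^ i := by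
  induction n with
  | zero => rw [Pr_false _ (A := fun ω => firstR L f 0 ω = p) fun ω _ => (Ne.symm hp)]; simp
  | succ n ih =>
    rw [sum_range_succ, mul_add, ← ih, ← Pr_firstR_nil]
    unfold firstR
    rw [Pr_iterR_succ L _ n [] (fun x => x = p)]
    conv_rhs => rw [Pr.eq_1 (n * L), Pr.eq_1 (n * L), ← Ex_mul_left, ← Ex_add]
    refine Ex_congr fun ω _ => ?_
    generalize iterR L (fun s r => if s = [] then f r else s) n [] ω = x
    by_cases hx : x = []
    · subst hx
      simp only [if_true, mul_one, if_neg (Ne.symm hp), zero_add]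
    · simp only [hx, if_false, mul_zero, add_zero]
      by_cases hxp : x = p
      · rw [if_pos hxp]; exact Pr_true L fun _ _ => hxp
      · rw [if_neg hxp]; exact Pr_false L fun _ _ => hxp

theorem firstR_mem (L : ℕ) (f : Word → List ℕ) (n : ℕ) (ω : Word) :
    firstR L f n ω = [] ∨ ∃ r, firstR L f n ω = f r := by
  refine iterR_inv L _ (fun _ s => s = [] ∨ ∃ r, s = f r) (fun _ s r h => ?_) [] (Or.inl rfl) n ω
  by_cases hs : s = []
  · exact Or.inr ⟨r, if_pos hs⟩
  · simp only [if_neg hs]; exact h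

/-- Markov's inequality in exponential form -/
theorem Pr_le_Ex {L : ℕ} {A : Word → Prop} {F : Word → ℝ} (h0 : ∀ ω, ω.length = L → 0 ≤ F ω)
    (h : ∀ ω, ω.length = L → A ω → 1 ≤ F ω) : Pr L A ≤ Ex L F := by
  refine Ex_mono fun ω hω => ?_
  split_ifs with hA
  · exact h ω hω hA
  · exact h0 ω hω

/-- one-sided bound for centred bounded variables -/
theorem hoeffding_one (L n : ℕ) (g : Word → ℝ) (R t : ℝ) (hR : 0 < R) (ht : 0 ≤ t)
    (hg : ∀ r, r.length = L → |g r| ≤ R) (h0 : Ex L g = 0) :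
    Pr (n * L) (fun ω => n * t < ∑ i ∈ range n, g (blk L i ω)) ≤
      Real.exp (-(n * t ^ 2 / (4 * R ^ 2))) := by
  by_cases htR : R ≤ t
  · rw [Pr_false]
    · exact (Real.exp_pos _).le
    · intro ω hω
      rw [not_lt]
      have : ∑ i ∈ range n, g (blk L i ω) ≤ ∑ i ∈ range n, t := sum_le_sum fun i hi =>
        (le_abs_self _).trans ((hg _ (length_blk (hω ▸ Nat.mul_le_mul_right L
          (mem_range.1 hi)))).trans htR)
      simpa using this
  push Not at htR
  set l := t / (2 * R ^ 2) with hl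
  have hl0 : 0 ≤ l := by positivity
  have hlR : l * R ≤ 1 := by
    rw [hl, div_mul_eq_mul_div, div_le_one (by positivity)]; nlinarith
  have h1 : Ex L (fun r => Real.exp (l * g r - l * t)) ≤ Real.exp (-(t ^ 2 / (4 * R ^ 2))) := by
    have h2 : Ex L (fun r => Real.exp (l * g r - l * t))
        ≤ Ex L (fun r => Real.exp (-(l * t)) * ((1 + (l * R) ^ 2) + l * g r)) := by
      refine Ex_mono fun r hr => ?_
      have t1 : |l * g r| ≤ l * R := by
        rw [abs_mul, abs_of_nonneg hl0]; exact mul_le_mul_of_nonneg_left (hg r hr) hl0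
      have t2 := (abs_le.1 (Real.abs_exp_sub_one_sub_id_le (t1.trans hlR))).2
      have t3 : (l * g r) ^ 2 ≤ (l * R) ^ 2 := by
        rw [← sq_abs]; exact pow_le_pow_left₀ (abs_nonneg _) t1 2
      rw [sub_eq_neg_add, Real.exp_add]
      exact mul_le_mul_of_nonneg_left (by linarith) (Real.exp_pos _).le
    rw [Ex_mul_left, Ex_add, Ex_const, Ex_mul_left, h0, mul_zero, add_zero] at h2
    refine h2.trans ?_
    have t4 : 1 + (l * R) ^ 2 ≤ Real.exp ((l * R) ^ 2) := by
      have := Real.add_one_le_exp ((l * R) ^ 2); linarith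
    refine (mul_le_mul_of_nonneg_left t4 (Real.exp_pos _).le).trans (le_of_eq ?_)
    rw [← Real.exp_add]
    congr 1
    rw [hl]; field_simp; ring
  calc Pr (n * L) (fun ω => n * t < ∑ i ∈ range n, g (blk L i ω))
      ≤ Ex (n * L) (fun ω => ∏ i ∈ range n, Real.exp (l * g (blk L i ω) - l * t)) := by
        refine Pr_le_Ex (fun ω _ => prod_nonneg fun _ _ => (Real.exp_pos _).le) fun ω _ hω => ?_
        rw [← Real.exp_sum]
        apply Real.one_le_exp
        rw [sum_sub_distrib, ← mul_sum, sum_const, card_range, nsmul_eq_mul]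
        have := mul_le_mul_of_nonneg_left hω.le hl0
        linarith
    _ = ∏ _i ∈ range n, Ex L (fun r => Real.exp (l * g r - l * t)) :=
        Ex_prod_blk L n (fun _ r => Real.exp (l * g r - l * t))
    _ ≤ ∏ _i ∈ range n, Real.exp (-(t ^ 2 / (4 * R ^ 2))) :=
        prod_le_prod (fun _ _ => Ex_nonneg fun _ _ => (Real.exp_pos _).le) fun _ _ => h1
    _ = _ := by
        rw [prod_const, card_range, ← Real.exp_nat_mul]
        congr 1
        ring

/-- Hoeffding's inequality for independent runs -/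
theorem hoeffding (L n : ℕ) (f : Word → ℤ) (lo R t : ℝ) (hR : 0 < R) (ht : 0 ≤ t)
    (hf : ∀ r, r.length = L → lo ≤ f r ∧ (f r : ℝ) ≤ lo + R) :
    Pr (n * L) (fun ω => n * t < |(repZ L f n ω : ℝ) - n * Ex L fun r => (f r : ℝ)|) ≤
      2 * Real.exp (-(n * t ^ 2 / (4 * R ^ 2))) := by
  set μ := Ex L fun r => (f r : ℝ) with hμ
  have h1 : lo ≤ μ := by
    have := Ex_mono (L := L) (F := fun _ => lo) (G := fun r => (f r : ℝ)) fun r hr => (hf r hr).1
    rwa [Ex_const] at this
  have h2 : μ ≤ lo + R := by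
    have := Ex_mono (L := L) (G := fun _ => lo + R) (F := fun r => (f r : ℝ))
      fun r hr => (hf r hr).2
    rwa [Ex_const] at this
  have a1 := hoeffding_one L n (fun r => (f r : ℝ) - μ) R t hR ht
    (fun r hr => by have := hf r hr; rw [abs_le]; constructor <;> linarith [this.1, this.2])
    (by rw [Ex_sub, Ex_const, sub_self])
  have a2 := hoeffding_one L n (fun r => μ - (f r : ℝ)) R t hR ht
    (fun r hr => by have := hf r hr; rw [abs_le]; constructor <;> linarith [this.1, this.2])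
    (by rw [Ex_sub, Ex_const, sub_self])
  refine le_trans (le_trans (Pr_mono fun ω _ h => ?_) (Pr_or_le _ _ _))
    ((add_le_add a1 a2).trans (le_of_eq (by ring)))
  simp only [sum_sub_distrib, sum_const, card_range, nsmul_eq_mul]
  unfold repZ at h
  push_cast at h
  rcases lt_abs.1 h with h | h
  · exact Or.inl h
  · exact Or.inr (by linarith)

end Crest.Agent.R309
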