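import Crest.Agent.R309.Defs0
import Crest.Prelude.Def_Randomized

/-! Row 309: polynomial-time operations on lists of numbers and random tapes. -/

set_option autoImplicit false

namespace Crest.Agent.R309

open Crest.Agent.PT Crest.Enc Finset

variable {α : Type} [Rp α]

namespace PTLX

/-- the word of a list of records -/
def code {ι : Type} (c : ι → Word) (l : List ι) : Word := (l.map c).flatten

theorem szN (l : List ℕ) : sz l = (code natCode l).length := by
  show ∑ _ : Unit, ((l.map natCode).flatten).length = _
  simp [code]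

theorem szZ (l : List ℤ) : sz l = (code intCode l).length := by
  show ∑ _ : Unit, ((l.map intCode).flatten).length = _
  simp [code]

theorem iffN {f : α → List ℕ} : PTime f ↔ PTime fun a => code natCode (f a) :=
  ⟨fun h _ => h (), fun h _ => h ()⟩

theorem iffZ {f : α → List ℤ} : PTime f ↔ PTime fun a => code intCode (f a) :=
  ⟨fun h _ => h (), fun h _ => h ()⟩

variable {ι : Type} {c : ι → Word}

theorem code_cons (x : ι) (l : List ι) : code c (x :: l) = c x ++ code c l := by simp [code]

theorem code_append (l l' : List ι) : code c (l ++ l') = code c l ++ code c l' := by simp [code]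

theorem length_le (hc : ∀ i, 1 ≤ (c i).length) (l : List ι) : l.length ≤ (code c l).length := by
  induction l with
  | nil => simp
  | cons x l ih =>
    have := hc x
    rw [code_cons, List.length_append, List.length_cons]; omega

theorem length_code_le {b : ℕ} (l : List ι) (h : ∀ x ∈ l, (c x).length ≤ b) :
    (code c l).length ≤ l.length * b := by
  induction l with
  | nil => simp [code]
  | cons x l ih =>
    have h1 := h x (by simp)
    have h2 := ih fun y hy => h y (by simp [hy])
    rw [code_cons, List.length_append, List.length_cons, add_mul]; omega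

theorem le_length_code (l : List ι) {x : ι} (hx : x ∈ l) : (c x).length ≤ (code c l).length := by
  induction l with
  | nil => simp at hx
  | cons y l ih =>
    rw [code_cons, List.length_append]
    rcases List.mem_cons.1 hx with rfl | h
    · omega
    · have := ih h; omega

theorem iter_code {skip : Word → Word} (h : ∀ i r, skip (c i ++ r) = r) (h0 : skip [] = [])
    (l : List ι) (k : ℕ) : skip^[k] (code c l) = code c (l.drop k) := by
  induction k generalizing l with
  | zero => simp
  | succ k ih =>
    cases l with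
    | nil => simpa [code] using Function.iterate_fixed h0 (k + 1)
    | cons x l => rw [Function.iterate_succ_apply, code_cons, h, ih, List.drop_succ_cons]

theorem code_eq_nil (hc : ∀ i, 1 ≤ (c i).length) (l : List ι) : code c l = [] ↔ l = [] := by
  refine ⟨fun h => ?_, fun h => by simp [h, code]⟩
  have := length_le hc l
  rw [h] at this
  exact List.eq_nil_of_length_eq_zero (by simpa using this)

theorem pu_length {skip : Word → Word} (hs : PTime skip) (hl : ∀ x, (skip x).length ≤ x.length)
    (h : ∀ i r, skip (c i ++ r) = r) (h0 : skip [] = []) (hc : ∀ i, 1 ≤ (c i).length)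
    {f : α → List ι} (hf : PTime fun a => code c (f a)) : PU fun a => (f a).length := by
  have h1 := PU.card_filter (n := fun a => (code c (f a)).length)
    (c := fun a k => ¬ skip^[k] (code c (f a)) = []) (PU.length hf)
    (PTime.iterate (α := α × Un) hs hl (hf.comp PTime.fst') (by fun_prop)).eq_nil.not
  refine PTime.congr h1 fun a => ?_
  congr 1
  have : (Finset.range (code c (f a)).length).filter (fun k => ¬ skip^[k] (code c (f a)) = [])
      = Finset.range (f a).length := by
    ext k
    have := length_le hc (f a)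
    simp only [Finset.mem_filter, Finset.mem_range, iter_code h h0, code_eq_nil hc,
      List.drop_eq_nil_iff]
    omega
  beta_reduce
  rw [this, Finset.card_range]

theorem val_iter {skip : Word → Word} {val : Word → ι} {d : ι} (h : ∀ i r, skip (c i ++ r) = r)
    (h0 : skip [] = []) (hc : ∀ i, 1 ≤ (c i).length) (hv : ∀ i r, val (c i ++ r) = i)
    (hv0 : val [] = d) (l : List ι) (i : ℕ) :
    l.getD i d = val (skip^[min i (code c l).length] (code c l)) := by
  rw [iter_code h h0]
  have := length_le hc l
  by_cases hi : i < l.length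
  · rw [min_eq_left (by omega), List.drop_eq_getElem_cons hi, code_cons, hv,
      List.getD_eq_getElem _ _ hi]
  · rw [List.drop_of_length_le (by omega), List.getD_eq_default _ _ (by omega)]
    exact hv0.symm

theorem one_le_natCode (n : ℕ) : 1 ≤ (natCode n).length := by rw [length_natCode]; omega
theorem length_intCode (z : ℤ) : (intCode z).length = 2 * z.natAbs.size + 3 := by
  rw [intCode, List.length_cons, length_natCode]
theorem one_le_intCode (z : ℤ) : 1 ≤ (intCode z).length := by rw [length_intCode]; omega

theorem ptime_natRest : PTime natRest := PTime.natRest PTime.id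
theorem ptime_intRest : PTime intRest := PTime.intRest PTime.id

theorem code_inj {skip : Word → Word} {val : Word → ι} (h : ∀ i r, skip (c i ++ r) = r)
    (hc : ∀ i, 1 ≤ (c i).length) (hv : ∀ i r, val (c i ++ r) = i) {l l' : List ι}
    (e : code c l = code c l') : l = l' := by
  induction l generalizing l' with
  | nil => exact ((code_eq_nil hc l').1 e.symm).symm
  | cons x l ih =>
    cases l' with
    | nil => exact (code_eq_nil hc _).1 e
    | cons y l' =>
      rw [code_cons, code_cons] at e
      have h1 := congrArg val e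
      have h2 := congrArg skip e
      rw [hv, hv] at h1
      rw [h, h] at h2
      rw [h1, ih h2]

theorem set_eq (l : List ι) (i : ℕ) (x d : ι) :
    l.set i x = (List.range l.length).map fun k => if k = i then x else l.getD k d := by
  refine List.ext_getElem (by simp) fun k h1 h2 => ?_
  have hk : k < l.length := by simpa using h1
  simp only [List.getElem_set, List.getElem_map, List.getElem_range, List.getD_eq_getElem _ _ hk]
  by_cases e : i = k
  · simp [e]
  · simp [e, Ne.symm e]

theorem replicate_eq (n : ℕ) (x : ι) : List.replicate n x = (List.range n).map fun _ => x := by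
  simp

/-- one step of Euclid's algorithm -/
def eu (s : ℕ × ℕ) : ℕ × ℕ := if s.1 = 0 then s else (s.2 % s.1, s.1)

theorem eu_gcd (s : ℕ × ℕ) : Nat.gcd (eu s).1 (eu s).2 = Nat.gcd s.1 s.2 := by
  unfold eu
  split_ifs
  · rfl
  · exact (Nat.gcd_rec _ _).symm

theorem eu_iter_gcd (s : ℕ × ℕ) (k : ℕ) : Nat.gcd (eu^[k] s).1 (eu^[k] s).2 = Nat.gcd s.1 s.2 := by
  induction k with
  | zero => rfl
  | succ k ih => rw [Function.iterate_succ_apply', eu_gcd, ih]

theorem eu_le (s : ℕ × ℕ) (M : ℕ) (h : s.1 ≤ M ∧ s.2 ≤ M) : (eu s).1 ≤ M ∧ (eu s).2 ≤ M := by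
  unfold eu
  split_ifs
  · exact h
  · exact ⟨(Nat.mod_le _ _).trans h.2, h.1⟩

theorem eu_iter_le (s : ℕ × ℕ) (M : ℕ) (h : s.1 ≤ M ∧ s.2 ≤ M) (k : ℕ) :
    (eu^[k] s).1 ≤ M ∧ (eu^[k] s).2 ≤ M := by
  induction k with
  | zero => exact h
  | succ k ih => rw [Function.iterate_succ_apply']; exact eu_le _ _ ih

theorem eu_half (s : ℕ × ℕ) : 2 * (eu (eu s)).1 ≤ s.1 := by
  obtain ⟨a, b⟩ := s
  unfold eu
  by_cases ha : a = 0
  · simp [ha]
  · simp only [ha, if_false]
    have h1 : b % a < a := Nat.mod_lt _ (by omega)
    generalize b % a = r at h1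
    by_cases hr : r = 0
    · simp [hr]
    · simp only [hr, if_false]
      have h2 : a % r < r := Nat.mod_lt _ (by omega)
      have h3 := Nat.div_add_mod a r
      have h4 : 1 ≤ a / r := Nat.div_pos h1.le (by omega)
      have h5 : r * 1 ≤ r * (a / r) := Nat.mul_le_mul_left _ h4
      omega

theorem eu_iter_half (s : ℕ × ℕ) (k : ℕ) : 2 ^ k * (eu^[2 * k] s).1 ≤ s.1 := by
  induction k with
  | zero => simp
  | succ k ih =>
    have e : 2 * (k + 1) = 2 * k + 1 + 1 := by ring
    rw [e, Function.iterate_succ_apply', Function.iterate_succ_apply', pow_succ, mul_assoc]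
    exact (Nat.mul_le_mul_left _ (eu_half _)).trans ih

theorem eu_final (a b : ℕ) : Nat.gcd a b = (eu^[2 * a.size] (a, b)).2 := by
  have h1 := eu_iter_half (a, b) a.size
  have h2 := Nat.lt_size_self a
  have h3 : (eu^[2 * a.size] (a, b)).1 = 0 := by
    by_contra h
    have : 2 ^ a.size * 1 ≤ 2 ^ a.size * (eu^[2 * a.size] (a, b)).1 :=
      Nat.mul_le_mul_left _ (by omega)
    simp only at h1
    omega
  have h4 := eu_iter_gcd (a, b) (2 * a.size)
  rw [h3, Nat.gcd_zero_left] at h4
  exact h4.symm

theorem length_blk_le (L i : ℕ) (ω : Word) : (blk L i ω).length ≤ ω.length := by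
  simp only [blk, List.length_take, List.length_drop]; omega

end PTLX

open PTLX

theorem length_le_szN (l : List ℕ) : l.length ≤ sz l := by
  rw [szN]; exact length_le one_le_natCode l

theorem length_le_szZ (l : List ℤ) : l.length ≤ sz l := by
  rw [szZ]; exact length_le one_le_intCode l

theorem szN_le {l : List ℕ} {b : ℕ} (h : ∀ x ∈ l, x < 2 ^ b) : sz l ≤ l.length * (2 * b + 2) := by
  rw [szN]
  refine length_code_le l fun x hx => ?_
  have := Nat.size_le.2 (h x hx)
  rw [length_natCode]; omega

theorem szZ_le {l : List ℤ} {b : ℕ} (h : ∀ x ∈ l, x.natAbs < 2 ^ b) :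
    sz l ≤ l.length * (2 * b + 3) := by
  rw [szZ]
  refine length_code_le l fun x hx => ?_
  have := Nat.size_le.2 (h x hx)
  rw [length_intCode]; omega

theorem getD_lt_szN (l : List ℕ) (i : ℕ) : l.getD i 0 < 2 ^ sz l := by
  by_cases hi : i < l.length
  · rw [List.getD_eq_getElem _ _ hi, szN]
    exact (lt_two_pow_length_natCode _).trans_le
      (Nat.pow_le_pow_right (by omega) (le_length_code l (List.getElem_mem hi)))
  · rw [List.getD_eq_default _ _ (by omega)]; positivity

theorem getD_lt_szZ (l : List ℤ) (i : ℕ) : (l.getD i 0).natAbs < 2 ^ sz l := by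
  by_cases hi : i < l.length
  · rw [List.getD_eq_getElem _ _ hi, szZ]
    have h1 := le_length_code (c := intCode) l (List.getElem_mem hi)
    rw [length_intCode] at h1
    exact Nat.size_le.1 (by omega)
  · rw [List.getD_eq_default _ _ (by omega)]; simp

theorem sz_int_le {z : ℤ} {b : ℕ} (h : z.natAbs < 2 ^ b) : sz z ≤ 2 * b := by
  have e : sz z = sz (z.toNat, (-z).toNat) := rfl
  have h1 : sz z.toNat ≤ b := sz_nat_le.2 (by omega)
  have h2 : sz (-z).toNat ≤ b := sz_nat_le.2 (by omega)
  rw [e, sz_prod]; omega

@[fun_prop] theorem lengthN {f : α → List ℕ} (hf : PTime f) : PU fun a => (f a).length :=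
  pu_length ptime_natRest length_natRest_le natRest_natCode rfl one_le_natCode (iffN.1 hf)

@[fun_prop] theorem lengthZ {f : α → List ℤ} (hf : PTime f) : PU fun a => (f a).length :=
  pu_length ptime_intRest length_intRest_le intRest_intCode rfl one_le_intCode (iffZ.1 hf)

@[fun_prop] theorem getDN {f : α → List ℕ} {i : α → ℕ} (hf : PTime f) (hi : PTime i) :
    PTime fun a => (f a).getD (i a) 0 :=
  (PTime.iterate_min ptime_natRest length_natRest_le (iffN.1 hf) (iffN.1 hf) hi).natVal.congr
    fun a => val_iter natRest_natCode rfl one_le_natCode natVal_natCode rfl (f a) (i a)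

@[fun_prop] theorem getDZ {f : α → List ℤ} {i : α → ℕ} (hf : PTime f) (hi : PTime i) :
    PTime fun a => (f a).getD (i a) 0 :=
  (PTime.iterate_min ptime_intRest length_intRest_le (iffZ.1 hf) (iffZ.1 hf) hi).intVal.congr
    fun a => val_iter intRest_intCode rfl one_le_intCode intVal_intCode rfl (f a) (i a)

theorem rangeMapN {n : α → ℕ} {g : α → ℕ → ℕ} (hn : PU n)
    (hg : PTime fun p : α × Un => g p.1 p.2.val) :
    PTime fun a => (List.range (n a)).map (g a) :=
  iffN.2 <| (PTime.flatRange (g := fun a k => natCode (g a k)) hn hg.natCode).congr fun a => by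
    rw [PTLX.code, List.map_map]; rfl

theorem rangeMapZ {n : α → ℕ} {g : α → ℕ → ℤ} (hn : PU n)
    (hg : PTime fun p : α × Un => g p.1 p.2.val) :
    PTime fun a => (List.range (n a)).map (g a) :=
  iffZ.2 <| (PTime.flatRange (g := fun a k => intCode (g a k)) hn hg.intCode).congr fun a => by
    rw [PTLX.code, List.map_map]; rfl

@[fun_prop] theorem consN {x : α → ℕ} {f : α → List ℕ} (hx : PTime x) (hf : PTime f) :
    PTime fun a => x a :: f a :=
  iffN.2 <| (hx.natCode.append (iffN.1 hf)).congr fun _ => code_cons _ _

@[fun_prop] theorem appendN {f g : α → List ℕ} (hf : PTime f) (hg : PTime g) :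
    PTime fun a => f a ++ g a :=
  iffN.2 <| ((iffN.1 hf).append (iffN.1 hg)).congr fun _ => code_append _ _

@[fun_prop] theorem appendZ {f g : α → List ℤ} (hf : PTime f) (hg : PTime g) :
    PTime fun a => f a ++ g a :=
  iffZ.2 <| ((iffZ.1 hf).append (iffZ.1 hg)).congr fun _ => code_append _ _

@[fun_prop] theorem tailN {f : α → List ℕ} (hf : PTime f) : PTime fun a => (f a).tail :=
  iffN.2 <| (iffN.1 hf).natRest.congr fun a => by
    have := iter_code natRest_natCode rfl (f a) 1
    rw [List.drop_one] at this
    exact this.symm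

@[fun_prop] theorem setN {f : α → List ℕ} {i x : α → ℕ} (hf : PTime f) (hi : PTime i)
    (hx : PTime x) : PTime fun a => (f a).set (i a) (x a) :=
  (rangeMapN (g := fun a k => if k = i a then x a else (f a).getD k 0) (lengthN hf)
    (by fun_prop)).congr fun a => set_eq _ _ _ 0

@[fun_prop] theorem setZ {f : α → List ℤ} {i : α → ℕ} {x : α → ℤ} (hf : PTime f) (hi : PTime i)
    (hx : PTime x) : PTime fun a => (f a).set (i a) (x a) :=
  (rangeMapZ (g := fun a k => if k = i a then x a else (f a).getD k 0) (lengthZ hf)
    (by fun_prop)).congr fun a => set_eq _ _ _ 0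

@[fun_prop] theorem replicateN {n x : α → ℕ} (hn : PU n) (hx : PTime x) :
    PTime fun a => List.replicate (n a) (x a) :=
  (rangeMapN (g := fun a _ => x a) hn (hx.comp PTime.fst')).congr fun _ => replicate_eq _ _

@[fun_prop] theorem replicateZ {n : α → ℕ} {x : α → ℤ} (hn : PU n) (hx : PTime x) :
    PTime fun a => List.replicate (n a) (x a) :=
  (rangeMapZ (g := fun a _ => x a) hn (hx.comp PTime.fst')).congr fun _ => replicate_eq _ _

@[fun_prop] theorem eqN {f g : α → List ℕ} (hf : PTime f) (hg : PTime g) :
    PTime fun a => f a = g a :=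
  ((iffN.1 hf).weq (iffN.1 hg)).congr fun _ => propext
    ⟨fun h => by rw [h], code_inj natRest_natCode one_le_natCode natVal_natCode⟩

@[fun_prop] theorem ptime_inc {f : α → List ℕ} {i : α → ℕ} (hf : PTime f) (hi : PTime i) :
    PTime fun a => inc (f a) (i a) := by
  unfold inc; fun_prop

@[fun_prop] theorem ptime_dec {f : α → List ℕ} {i : α → ℕ} (hf : PTime f) (hi : PTime i) :
    PTime fun a => dec (f a) (i a) := by
  unfold dec; fun_prop

@[fun_prop] theorem ptime_mem_bx {E : α → ℕ} {lo hi l : α → List ℕ} (hE : PU E) (h1 : PTime lo)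
    (h2 : PTime hi) (h3 : PTime l) : PTime fun a => l a ∈ bx (E a) (lo a) (hi a) := by
  have h4 := PTime.forall_lt (c := fun a i =>
    (lo a).getD i 0 ≤ (l a).getD i 0 ∧ (l a).getD i 0 ≤ (hi a).getD i 0) hE (by fun_prop)
  exact (((lengthN h3).ptime.eq hE.ptime).and h4).congr fun a => propext mem_bx

@[fun_prop] theorem ptime_enum {β n i : α → ℕ} (hβ : PU β) (hn : PU n) (hi : PTime i) :
    PTime fun a => enum (β a) (n a) (i a) :=
  rangeMapN (g := fun a j => i a / 2 ^ (β a * j) % 2 ^ β a) hn (by fun_prop)

@[fun_prop] theorem ptime_ofB {f : α → Word} (hf : PTime f) : PTime fun a => ofB (f a) :=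
  PTime.ofB hf

@[fun_prop] theorem ptime_blk {L i : α → ℕ} {f : α → Word} (hL : PU L) (hi : PU i) (hf : PTime f) :
    PTime fun a => blk (L a) (i a) (f a) := by
  have := hL.ptime
  unfold blk; fun_prop

/-- the words of a list of numbers, as one word -/
@[fun_prop] theorem ptime_codeN {f : α → List ℕ} (hf : PTime f) :
    PTime fun a => ((f a).map natCode).flatten := iffN.1 hf

/-- read `n` numbers -/
def readN (n : ℕ) (x : Word) : List ℕ := (List.range n).map fun i => natVal (natRest^[i] x)

theorem readN_code (l : List ℕ) (r : Word) : readN l.length ((l.map natCode).flatten ++ r) = l := by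
  refine List.ext_getElem (by simp [readN]) fun k h1 h2 => ?_
  simp only [readN, List.getElem_map, List.getElem_range]
  rw [iterate_skip natRest natCode natRest_natCode l r k h2.le, List.drop_eq_getElem_cons h2,
    List.map_cons, List.flatten_cons, List.append_assoc, natVal_natCode]

theorem iterate_natRest_code (l : List ℕ) (r : Word) :
    natRest^[l.length] ((l.map natCode).flatten ++ r) = r := by
  rw [iterate_skip natRest natCode natRest_natCode l r _ le_rfl]; simp

@[fun_prop] theorem ptime_readN {n : α → ℕ} {x : α → Word} (hn : PU n) (hx : PTime x) :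
    PTime fun a => readN (n a) (x a) :=
  rangeMapN (g := fun a i => natVal (natRest^[i] (x a))) hn
    (PTime.iterate (α := α × Un) ptime_natRest length_natRest_le (hx.comp PTime.fst')
      (by fun_prop)).natVal

theorem ptime_iterR {σ : Type} [Rp σ] {L n : α → ℕ} {step : α → σ → Word → σ} {init : α → σ}
    {ω : α → Word} (hL : PU L) (hn : PU n)
    (hs : PTime fun p : α × σ × Word => step p.1 p.2.1 p.2.2) (hi : PTime init) (hω : PTime ω)
    {B : α → ℕ} (hB : PB B)
    (hb : ∀ a k, k ≤ n a → sz (iterR (L a) (step a) k (init a) (ω a)) ≤ B a) :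
    PTime fun a => iterR (L a) (step a) (n a) (init a) (ω a) :=
  PTime.loop (fun a k => iterR (L a) (step a) k (init a) (ω a))
    (fun a s k => step a s (blk (L a) k (ω a))) hn hi
    (hs.comp (f := fun p : α × σ × Un => (p.1, p.2.1, blk (L p.1) p.2.2.val (ω p.1))) (by fun_prop))
    (fun _ _ _ => rfl) hB hb

theorem ptime_repZ {L n : α → ℕ} {f : α → Word → ℤ} {ω : α → Word} (hL : PU L) (hn : PU n)
    (hf : PTime fun p : α × Word => f p.1 p.2) (hω : PTime ω) :
    PTime fun a => repZ (L a) (f a) (n a) (ω a) :=
  PTime.isum_range (g := fun a i => f a (blk (L a) i (ω a))) hn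
    (hf.comp (f := fun p : α × Un => (p.1, blk (L p.1) p.2.val (ω p.1))) (by fun_prop))

theorem ptime_firstR {L n : α → ℕ} {f : α → Word → List ℕ} {ω : α → Word} (hL : PU L) (hn : PU n)
    (hf : PTime fun p : α × Word => f p.1 p.2) (hω : PTime ω) :
    PTime fun a => firstR (L a) (f a) (n a) (ω a) := by
  obtain ⟨B, hB, hb⟩ := bound_range (g := fun a i => f a (blk (L a) i (ω a))) hn
    (hf.comp (f := fun p : α × Un => (p.1, blk (L p.1) p.2.val (ω p.1))) (by fun_prop))
  refine ptime_iterR (step := fun a s r => if s = [] then f a r else s) hL hn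
    (PTime.ite (eqN (by fun_prop) (PTime.const _))
      (hf.comp (f := fun p : α × List ℕ × Word => (p.1, p.2.2)) (by fun_prop)) (by fun_prop))
    (PTime.const _) hω hB fun a k hk => ?_
  induction k with
  | zero => simp [iterR, szN, PTLX.code]
  | succ k ih =>
    rw [iterR]
    split_ifs
    · exact hb a k (by omega)
    · exact ih (by omega)

@[fun_prop] theorem ptime_gcd {f g : α → ℕ} (hf : PTime f) (hg : PTime g) :
    PTime fun a => Nat.gcd (f a) (g a) := by
  have h := PTime.iter (step := fun (_ : α) (s : ℕ × ℕ) => eu s) (init := fun a => (f a, g a))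
    (n := fun a => 2 * (f a).size) (by unfold eu; fun_prop) (hf.pair hg) (by fun_prop)
    ((PB.const 2).mul (hf.add hg).sz) fun a k _ => by
      obtain ⟨h1, h2⟩ := eu_iter_le (f a, g a) (f a + g a) ⟨by simp, by simp⟩ k
      have h3 := sz_nat_mono h1
      have h4 := sz_nat_mono h2
      rw [← Prod.mk.eta (p := (fun s => eu s)^[k] _), sz_prod]
      exact (Nat.add_le_add h3 h4).trans (by omega)
  exact h.snd.congr fun a => eu_final _ _

theorem ptime_ratCode_div {f g : α → ℕ} (hf : PTime f) (hg : PTime g) :
    PTime fun a => ratCode ((f a : ℚ) / (g a : ℚ)) := by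
  refine PTime.congr (f := fun a => false :: (natCode (if g a = 0 then 0 else f a / Nat.gcd (f a) (g a))
    ++ natCode (if g a = 0 then 1 else g a / Nat.gcd (f a) (g a)))) (by fun_prop) fun a => ?_
  have e : ((f a : ℚ) / (g a : ℚ)) = mkRat (f a) (g a) := by
    rw [Rat.mkRat_eq_div]; simp
  rw [e, ratCode, Rat.num_mkRat, Rat.den_mkRat]
  by_cases h : g a = 0
  · simp [h]
  · simp only [h, if_false, Int.natAbs_natCast]
    rw [← Int.natCast_div, Int.natAbs_natCast, Nat.gcd_comm (g a)]
    congr 1

/-- a unary-computable function of a unary number is bounded by a polynomial -/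
theorem exists_poly_of_PU {n : ℕ → ℕ} (hn : PU fun u : Un => n u.val) :
    ∃ q : Polynomial ℕ, ∀ k, n k ≤ q.eval k := by
  obtain ⟨q, hq⟩ := hn.pb
  exact ⟨q, fun k => by simpa using hq (Un.mk k)⟩

end Crest.Agent.R309
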