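import Crest.Agent.R309.RamDefs
import Crest.Agent.R309.PTL

/-! Row 309: the stack program of one trial. -/

set_option autoImplicit false

namespace Crest.Agent.R309

open Crest.Agent.PT Crest.Enc Function

namespace RB

/-- deterministic programs as randomized programs -/
def emb : Prog → RP
  | .skip => .skip
  | .push r b => .push r b
  | .pop r => .pop r
  | .seq p q => .seq (emb p) (emb q)
  | .ite r a b c => .ite r (emb a) (emb b) (emb c)
  | .loop r p => .loop r (emb p)

theorem emb_exec (ρ : ℕ → Bool) (k : ℕ) {p : Prog} {s s' : St} {t : ℕ} (h : Exec p s s' t) :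
    RExec ρ (emb p) (s, k) (s', k) t := by
  induction h with
  | skip s => exact .skip _
  | push r b s => exact .push r b s k
  | pop r s => exact .pop r s k
  | seq _ _ ih1 ih2 => exact .seq ih1 ih2
  | iteN h _ ih => exact .iteN h ih
  | iteT h _ ih => exact .iteT h ih
  | iteF h _ ih => exact .iteF h ih
  | loopN h => exact .loopN h
  | loopC h _ _ ih1 ih2 => exact .loopC h ih1 ih2

theorem bitsAt_succ (ρ : ℕ → Bool) (k n : ℕ) :
    bitsAt ρ k (n + 1) = ρ k :: bitsAt ρ (k + 1) n := by
  unfold bitsAt
  rw [List.range_succ_eq_map]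
  simp only [List.map_cons, List.map_map, Nat.add_zero, List.cons.injEq, true_and]
  refine List.map_congr_left fun i _ => ?_
  simp only [Function.comp, Nat.succ_eq_add_one]
  congr 1; omega

theorem length_bitsAt (ρ : ℕ → Bool) (k n : ℕ) : (bitsAt ρ k n).length = n := by
  simp [bitsAt]

/-- draw one bit onto `u` for every bit of `r` -/
def drawP (r u : ℕ) : RP := .loop r (.seq (.rand u) (.pop r))

theorem draw_exec (ρ : ℕ → Bool) {r u : ℕ} (hru : r ≠ u) (s : St) (k : ℕ) :
    RExec ρ (drawP r u) (s, k)
      (update (update s r []) u ((bitsAt ρ k (s r).length).reverse ++ s u), k + (s r).length)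
      (3 * (s r).length + 1) := by
  generalize hl : s r = l
  induction l generalizing s k with
  | nil =>
      have : update (update s r []) u ((bitsAt ρ k ([] : Word).length).reverse ++ s u) = s := by
        rw [← hl, update_eq_self]; simp [hl, bitsAt]
      rw [this]; exact RExec.loopN hl
  | cons b l ih =>
      have h2 := (RExec.rand (ρ := ρ) u s k).seq (RExec.pop r _ _)
      have h3 := ih (update (update s u (ρ k :: s u)) r (update s u (ρ k :: s u) r).tail) (k + 1)
        (by simp [update_of_ne hru, hl])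
      have h4 := RExec.loopC (by simp [hl]) h2 h3
      have e1 : update (update (update (update s u (ρ k :: s u)) r
          (update s u (ρ k :: s u) r).tail) r []) u ((bitsAt ρ (k + 1) l.length).reverse ++
            update (update s u (ρ k :: s u)) r (update s u (ρ k :: s u) r).tail u) =
          update (update s r []) u ((bitsAt ρ k (b :: l).length).reverse ++ s u) := by
        funext j
        by_cases hj : j = u
        · subst hj; simp [update_of_ne hru.symm, bitsAt_succ]
        · by_cases hj' : j = r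
          · subst hj'; simp [update_of_ne hj]
          · simp [update_of_ne hj, update_of_ne hj']
      rw [e1] at h4
      have e2 : k + 1 + l.length = k + (b :: l).length := by simp; omega
      have e3 : 3 * l.length + 1 + (1 + 1) + 1 = 3 * (b :: l).length + 1 := by simp; omega
      rw [e2, e3] at h4
      exact h4

/-- double register `3` once for every bit of register `8` -/
def dblP : Prog := .loop 8 (.seq (.seq (copyP 3 9 10) (move1 9 3)) (.pop 8))

theorem run_dbl (s : St) (m : ℕ) (h3 : s 3 = List.replicate m true) (h9 : s 9 = [])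
    (h10 : s 10 = []) :
    Run dblP s (update (update s 8 []) 3 (List.replicate (m * 2 ^ (s 8).length) true))
      (((s 8).length + 1) * (13 * (m * 2 ^ (s 8).length) + 5)) := by
  generalize hl : s 8 = l
  induction l generalizing s m with
  | nil =>
      have : update (update s 8 []) 3 (List.replicate (m * 2 ^ ([] : Word).length) true) = s := by
        rw [← hl, update_eq_self]; simp [hl, ← h3]
      rw [this]; exact (Run.loopN hl).mono (by simp)
  | cons b l ih =>
      have h1 := run_copy (x := 3) (y := 9) (t := 10) (by omega) (by omega) (by omega) s h10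
      have h2 := (h1.seq (run_move1 (r := 9) (u := 3) (by omega) _)).seq (Run.pop 8 _)
      have h4 := Run.loopC (by simp [hl]) h2 (ih _ (2 * m)
        (by simp [h3, h9, two_mul]) (by simp) (by simp [h10]) (by simp [hl]))
      refine h4.cast ?_ ?_
      · simp only [update_self, h3, h9, List.append_nil, List.length_replicate, List.length_cons,
          pow_succ]
        have : 1 ≤ 2 ^ l.length := Nat.one_le_two_pow
        nlinarith [Nat.zero_le (m * 2 ^ l.length), Nat.mul_le_mul_left m this]
      · funext j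
        by_cases hj : j = 3
        · subst hj; simp [pow_succ]; ring
        · by_cases hj' : j = 8
          · subst hj'; simp
          · by_cases hj'' : j = 9
            · subst hj''; simp [h9]
            · simp [update_of_ne hj, update_of_ne hj', update_of_ne hj'']

/-- states given by a list of registers -/
def stL (l : List Word) : St := fun r => l.getD r []

theorem upd_stL {l : List Word} {i : ℕ} (h : i < l.length) (v : Word) :
    update (stL l) i v = stL (l.set i v) := by
  funext j
  by_cases hj : j = i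
  · subst hj; simp [stL, h]
  · simp [stL, update_of_ne hj, List.getElem?_set_ne (Ne.symm hj)]

theorem stL_ge {l : List Word} {r : ℕ} (h : l.length ≤ r) : stL l r = [] := by
  simp [stL, List.getElem?_eq_none h]

theorem st0_eq (x : List ℕ) : st0 x = stL [codeN x, [], [], [], [], [], [], [], [], [], []] := by
  funext j
  by_cases hj : j < 11
  · interval_cases j <;> simp [st0, stL]
  · rw [stL_ge (by simp; omega), st0, update_of_ne (by omega)]

theorem poly_le (q : Polynomial ℕ) : ∃ c : ℕ, ∀ n, q.eval n ≤ c * (n + 1) ^ c := by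
  refine ⟨q.eval 1 + q.natDegree, fun n => ?_⟩
  calc q.eval n ≤ q.eval 1 * (n + 1) ^ q.natDegree := by
        rw [Polynomial.eval_eq_sum_range, Polynomial.eval_eq_sum_range, Finset.sum_mul]
        refine Finset.sum_le_sum fun i hi => ?_
        rw [one_pow, mul_one]
        refine Nat.mul_le_mul_left _ ((Nat.pow_le_pow_left (Nat.le_succ n) i).trans ?_)
        exact Nat.pow_le_pow_right (by omega) (by simpa [Nat.lt_succ_iff] using hi)
    _ ≤ _ := Nat.mul_le_mul (by omega) (Nat.pow_le_pow_right (by omega) (by omega))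

theorem pb_le {α : Type} [Rp α] {g : α → ℕ} (hg : PB g) :
    ∃ c : ℕ, ∀ a, g a ≤ c * (sz a + 1) ^ c := by
  obtain ⟨q, hq⟩ := hg
  obtain ⟨c, hc⟩ := poly_le q
  exact ⟨c, fun a => (hq a).trans (hc _)⟩

/-- the padding step -/
def padP : Prog := .ite 7 .skip (.seq (.push 3 true) dblP) (clearP 8)

theorem run_pad (c y ω : Word) (b : Bool) (B : ℕ) :
    Run padP (stL [c, [], y, [], ω, [], [], [b], List.replicate B true, [], []])
      (stL [c, [], y, if b then List.replicate (2 ^ B) true else [], ω, [], [], [b], [], [], []])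
      ((B + 1) * 20 * (if b then 2 ^ B else 1)) := by
  cases b
  · refine (Run.iteF (by simp [stL]) (run_clear 8 _)).cast ?_ ?_
    · simp [stL]; omega
    · rw [upd_stL (by simp)]; simp
  · have h1 := Run.push 3 true (stL [c, [], y, [], ω, [], [], [true], List.replicate B true, [], []])
    have h2 := h1.seq (run_dbl _ 1 (by simp [stL]) (by simp [stL]) (by simp [stL]))
    refine (Run.iteT (by simp [stL]) h2).cast ?_ ?_
    · have : 1 ≤ 2 ^ B := Nat.one_le_two_pow
      simp [stL]
      nlinarith [Nat.mul_le_mul_left B this]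
    · rw [upd_stL (by simp), upd_stL (by simp), upd_stL (by simp)]; simp [stL]

end RB

open RB

theorem exists_rp (F : Word × Word × Word → List ℕ) (hF : PTime F) : ∃ c : ℕ,
    ∀ (pre : List ℕ → Word) (Lf Bf : List ℕ → ℕ) (br : List ℕ × Word → Bool),
      PTime pre → PU Lf → PU Bf → PTime br →
      ∃ (q : RP) (c₂ : ℕ), ∀ (x : List ℕ) (ρ : ℕ → Bool) (pos : ℕ),
        ∃ t ≤ c₂ * (sz x + 1) ^ c₂ * (if br (x, bitsAt ρ pos (Lf x)) then 2 ^ (c * Bf x) else 1),
          RExec ρ q (st0 x, pos)
            (update (st0 x) 1 (codeN (trialF F (pre x) (Bf x) (fun ω => br (x, ω))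
              (bitsAt ρ pos (Lf x)))), pos + Lf x) t := by
  obtain ⟨TF, hTF, hF'⟩ := hF ()
  obtain ⟨c0, hc0⟩ := pb_le hTF
  refine ⟨c0 + 1, fun pre Lf Bf br hpre hL hB hbr => ?_⟩
  have hpl : PB fun x => (pre x).length := (hpre ()).length
  obtain ⟨T1, hT1, h1⟩ := PU.word_iff.1 hL ()
  obtain ⟨T2, hT2, h2⟩ := hpre ()
  obtain ⟨T3, ⟨q3, hq3⟩, h3⟩ := hbr ()
  obtain ⟨T4, hT4, h4⟩ := PU.word_iff.1 hB ()
  obtain ⟨p1, hp1⟩ := h1 (fun _ => 0) 5 11 (by simp) (by simp) (by simp)
  obtain ⟨p2, hp2⟩ := h2 (fun _ => 0) 2 11 (by simp) (by simp) (by simp)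
  obtain ⟨p3, hp3⟩ := h3 (Sum.elim (fun _ => 0) (fun _ => 4)) 7 11
    (by rintro (i | i) <;> simp) (by simp) (by rintro (i | i) <;> simp)
  obtain ⟨p4, hp4⟩ := h4 (fun _ => 0) 8 11 (by simp) (by simp) (by simp)
  obtain ⟨pF, hpF⟩ := hF' (Sum.elim (fun _ => 2) (Sum.elim (fun _ => 3) (fun _ => 4))) 1 11
    (by rintro (i | i | i) <;> simp) (by simp) (by rintro (i | i | i) <;> simp)
  have hG : PB fun x : List ℕ => T1 x + T2 x + q3.eval (sz x + Lf x) + T4 x + 9 * Lf x +
      2 * (pre x).length + (Bf x + 1) * 20 + 10 + c0 * ((pre x).length + Lf x + 2) ^ c0 :=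
    ((((((((hT1.add hT2).add ((PB.sz.add hL.pb).eval q3)).add hT4).add
      ((PB.const 9).mul hL.pb)).add ((PB.const 2).mul hpl)).add
      ((hB.pb.add (PB.const 1)).mul (PB.const 20))).add (PB.const 10)).add
      ((PB.const c0).mul (((hpl.add hL.pb).add (PB.const 2)).pow c0)))
  obtain ⟨c₂, hc₂⟩ := pb_le hG
  refine ⟨.seq (emb p1) (.seq (drawP 5 6) (emb (.seq (.seq (.seq (.seq (.seq (.seq (.seq (.seq
    (.seq (move1 6 4) p2) p3) p4) padP) pF) (clearP 2)) (clearP 3)) (clearP 4)) (clearP 7)))),
    c₂, fun x ρ pos => ?_⟩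
  set ω := bitsAt ρ pos (Lf x) with hω
  have hωl : ω.length = Lf x := length_bitsAt _ _ _
  set b := br (x, ω) with hb
  set pad : Word := if b then List.replicate (2 ^ Bf x) true else [] with hpad
  have hge : ∀ l : List Word, l.length = 11 → ∀ r, 11 ≤ r → stL l r = [] :=
    fun l hl r hr => stL_ge (by omega)
  rw [st0_eq]
  have e1 := hp1 x (stL [codeN x, [], [], [], [], [], [], [], [], [], []]) (fun _ => rfl) rfl
    (hge _ rfl)
  rw [upd_stL (by simp)] at e1
  obtain ⟨t1, ht1, e1⟩ := e1
  have e2 : RExec ρ (drawP 5 6)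
      (stL [codeN x, [], [], [], [], List.replicate (Lf x) true, [], [], [], [], []], pos)
      (stL [codeN x, [], [], [], [], [], ω.reverse, [], [], [], []], pos + Lf x)
      (3 * Lf x + 1) := by
    have := draw_exec ρ (r := 5) (u := 6) (by omega)
      (stL [codeN x, [], [], [], [], List.replicate (Lf x) true, [], [], [], [], []]) pos
    rw [upd_stL (by simp), upd_stL (by simp)] at this
    simpa [stL] using this
  have e3 : Run (move1 6 4) (stL [codeN x, [], [], [], [], [], ω.reverse, [], [], [], []])
      (stL [codeN x, [], [], [], ω, [], [], [], [], [], []]) (4 * Lf x + 1) := by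
    have := run_move1 (r := 6) (u := 4) (by omega)
      (stL [codeN x, [], [], [], [], [], ω.reverse, [], [], [], []])
    rw [upd_stL (by simp), upd_stL (by simp)] at this
    simpa [stL, hωl] using this
  have e4 : Run p2 (stL [codeN x, [], [], [], ω, [], [], [], [], [], []])
      (stL [codeN x, [], pre x, [], ω, [], [], [], [], [], []]) (T2 x) := by
    have := hp2 x (stL [codeN x, [], [], [], ω, [], [], [], [], [], []]) (fun _ => rfl) rfl
      (hge _ rfl)
    rwa [upd_stL (by simp)] at this
  have e5 : Run p3 (stL [codeN x, [], pre x, [], ω, [], [], [], [], [], []])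
      (stL [codeN x, [], pre x, [], ω, [], [], [b], [], [], []]) (T3 (x, ω)) := by
    have := hp3 (x, ω) (stL [codeN x, [], pre x, [], ω, [], [], [], [], [], []])
      (by rintro (i | i) <;> rfl) rfl (hge _ rfl)
    rwa [upd_stL (by simp)] at this
  have e6 : Run p4 (stL [codeN x, [], pre x, [], ω, [], [], [b], [], [], []])
      (stL [codeN x, [], pre x, [], ω, [], [], [b], List.replicate (Bf x) true, [], []])
      (T4 x) := by
    have := hp4 x (stL [codeN x, [], pre x, [], ω, [], [], [b], [], [], []]) (fun _ => rfl) rfl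
      (hge _ rfl)
    rwa [upd_stL (by simp)] at this
  have e7 := run_pad (codeN x) (pre x) ω b (Bf x)
  rw [← hpad] at e7
  have e8 : Run pF (stL [codeN x, [], pre x, pad, ω, [], [], [b], [], [], []])
      (stL [codeN x, codeN (F (pre x, pad, ω)), pre x, pad, ω, [], [], [b], [], [], []])
      (TF (pre x, pad, ω)) := by
    have := hpF (pre x, pad, ω) (stL [codeN x, [], pre x, pad, ω, [], [], [b], [], [], []])
      (by rintro (i | i | i) <;> rfl) rfl (hge _ rfl)
    rwa [upd_stL (by simp)] at this
  have e9 := ((((((((e3.seq e4).seq e5).seq e6).seq e7).seq e8).seq (run_clear 2 _)).seq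
    (run_clear 3 _)).seq (run_clear 4 _)).seq (run_clear 7 _)
  rw [upd_stL (by simp), upd_stL (by simp), upd_stL (by simp), upd_stL (by simp)] at e9
  obtain ⟨t9, ht9, e9⟩ := e9
  refine ⟨t1 + (3 * Lf x + 1 + t9), ?_, ?_⟩
  · simp only [stL, List.set_cons_succ, List.set_cons_zero, List.getD_cons_succ,
      List.getD_cons_zero, List.length_cons, List.length_nil, hωl] at ht9
    set M : ℕ := if b then 2 ^ Bf x else 1 with hM
    have hM1 : 1 ≤ M := by rw [hM]; split_ifs; exacts [Nat.one_le_two_pow, le_rfl]
    have hpM : pad.length ≤ M := by rw [hM, hpad]; split_ifs <;> simp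
    have hMc : (if b then 2 ^ ((c0 + 1) * Bf x) else 1) = M ^ c0 * M := by
      rw [hM, ← pow_succ]; split_ifs
      · rw [← pow_mul, mul_comm]
      · simp
    have h3' : T3 (x, ω) ≤ q3.eval (sz x + Lf x) := by simpa [hωl] using hq3 (x, ω)
    have hF1 : TF (pre x, pad, ω) ≤ c0 * ((pre x).length + Lf x + 2) ^ c0 * M ^ c0 := by
      refine (hc0 _).trans ?_
      rw [mul_assoc, ← mul_pow]
      refine Nat.mul_le_mul_left _ (Nat.pow_le_pow_left ?_ _)
      simp only [sz_prod, sz_word, hωl]
      nlinarith [Nat.mul_le_mul_left ((pre x).length + Lf x) hM1]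
    have hMc1 : 1 ≤ M ^ c0 := Nat.one_le_pow _ _ hM1
    rw [hMc]
    refine le_trans ?_ (Nat.mul_le_mul_right _ (hc₂ x))
    set A := T1 x + T2 x + q3.eval (sz x + Lf x) + T4 x + 9 * Lf x + 2 * (pre x).length with hA
    set D := c0 * ((pre x).length + Lf x + 2) ^ c0 with hD
    have k1 : M ≤ M ^ c0 * M := Nat.le_mul_of_pos_left _ hMc1
    have k2 : M ^ c0 ≤ M ^ c0 * M := Nat.le_mul_of_pos_right _ hM1
    have k3 := Nat.mul_le_mul_left A (hM1.trans k1)
    have k4 := Nat.mul_le_mul_left ((Bf x + 1) * 20) k1
    have k5 := Nat.mul_le_mul_left D k2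
    have k6 : (A + (Bf x + 1) * 20 + 10 + D) * (M ^ c0 * M) = A * (M ^ c0 * M) +
      (Bf x + 1) * 20 * (M ^ c0 * M) + 10 * (M ^ c0 * M) + D * (M ^ c0 * M) := by ring
    rw [k6]
    omega
  · rw [upd_stL (by simp)]
    exact (emb_exec ρ pos e1).seq (e2.seq (emb_exec ρ _ e9))

end Crest.Agent.R309
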