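import Crest.Agent.R309.RamDefs

/-! Row 309: averages over tables of random words. -/

set_option autoImplicit false

namespace Crest.Agent.R309

open Crest.Agent.PT Crest.Enc Function Finset Crest.WordRAM

namespace RamC

/-! ### Runs depend only on the words they can draw -/

theorem step_congr (P : Program) (w : ℕ) {ρ ρ' : ℕ → ℕ} (c : Crest.WordRAM.Cfg P.numRegs)
    (h : ρ c.drawn = ρ' c.drawn) : step P w ρ c = step P w ρ' c := by
  unfold step
  split_ifs
  · rfl
  · dsimp only
    split <;> first | rfl | rw [h]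

theorem step_drawn (P : Program) (w : ℕ) (ρ : ℕ → ℕ) (c : Crest.WordRAM.Cfg P.numRegs) :
    (step P w ρ c).drawn ≤ c.drawn + 1 := by
  unfold step
  split_ifs
  · omega
  · dsimp only
    split <;> simp

theorem iter_congr (P : Program) (w : ℕ) {ρ ρ' : ℕ → ℕ} {N : ℕ} (h : ∀ i < N, ρ i = ρ' i) :
    ∀ (T : ℕ) (c : Crest.WordRAM.Cfg P.numRegs), c.drawn + T ≤ N →
      (step P w ρ)^[T] c = (step P w ρ')^[T] c
  | 0, _, _ => rfl
  | T + 1, c, hc => by
    rw [iterate_succ_apply, iterate_succ_apply, ← step_congr P w c (h _ (by omega))]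
    exact iter_congr P w h T _ (by have := step_drawn P w ρ c; omega)

theorem run_congr (P : Program) (w : ℕ) (x : List ℕ) {ρ ρ' : ℕ → ℕ} {T : ℕ}
    (h : ∀ i < T, ρ i = ρ' i) : run P w ρ x T = run P w ρ' x T :=
  iter_congr P w h T _ (by simp [init])

theorem iter_halted (P : Program) (w : ℕ) (ρ : ℕ → ℕ) {c : Crest.WordRAM.Cfg P.numRegs}
    (h : c.halted = true) (T : ℕ) : (step P w ρ)^[T] c = c :=
  iterate_fixed (by unfold step; rw [if_pos h]) T

theorem run_add (P : Program) (w : ℕ) (ρ : ℕ → ℕ) (x : List ℕ) (T T' : ℕ) :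
    run P w ρ x (T + T') = (step P w ρ)^[T'] (run P w ρ x T) := by
  unfold run
  rw [add_comm, iterate_add_apply]

theorem run_halted (P : Program) (w : ℕ) (ρ : ℕ → ℕ) (x : List ℕ) {T T' : ℕ}
    (h : (run P w ρ x T).halted = true) (hT : T ≤ T') : run P w ρ x T' = run P w ρ x T := by
  obtain ⟨d, rfl⟩ := Nat.exists_eq_add_of_le hT
  rw [run_add, iter_halted P w ρ h]

/-! ### Averages over tables -/

/-- average over tables of `N` words -/
noncomputable def EW (w N : ℕ) (F : (ℕ → ℕ) → ℝ) : ℝ :=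
  (∑ tab : Fin N → Fin (2 ^ w), F (streamOf tab)) / ((2 : ℝ) ^ w) ^ N

theorem EW_mono {w N : ℕ} {F G : (ℕ → ℕ) → ℝ} (h : ∀ ρ, F ρ ≤ G ρ) : EW w N F ≤ EW w N G :=
  div_le_div_of_nonneg_right (Finset.sum_le_sum fun _ _ => h _) (by positivity)

theorem EW_sum {ι : Type} (w N : ℕ) (S : Finset ι) (F : ι → (ℕ → ℕ) → ℝ) :
    EW w N (fun ρ => ∑ i ∈ S, F i ρ) = ∑ i ∈ S, EW w N (F i) := by
  unfold EW
  rw [Finset.sum_comm, Finset.sum_div]

theorem EW_add (w N : ℕ) (F G : (ℕ → ℕ) → ℝ) :
    EW w N (fun ρ => F ρ + G ρ) = EW w N F + EW w N G := by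
  unfold EW
  rw [Finset.sum_add_distrib, add_div]

theorem EW_const (w N : ℕ) (c : ℝ) : EW w N (fun _ => c) = c := by
  unfold EW
  simp only [Finset.sum_const, Finset.card_univ, Fintype.card_fun, Fintype.card_fin, nsmul_eq_mul]
  push_cast
  field_simp

theorem streamOf_cons {N m : ℕ} (a : Fin m) (tab : Fin N → Fin m) :
    streamOf (Fin.cons a tab : Fin (N + 1) → Fin m) = fun i =>
      match i with
      | 0 => (a : ℕ)
      | i + 1 => streamOf tab i := by
  funext i
  cases i with
  | zero => simp [streamOf]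
  | succ i =>
    simp only [streamOf, Nat.add_lt_add_iff_right]
    split_ifs with h
    · exact congrArg Fin.val (Fin.cons_succ (α := fun _ => Fin m) a tab ⟨i, h⟩)
    · rfl

theorem EW_succ (w N : ℕ) (F : (ℕ → ℕ) → ℝ) :
    EW w (N + 1) F = (∑ a : Fin (2 ^ w), EW w N fun ρ => F fun i =>
      match i with
      | 0 => (a : ℕ)
      | i + 1 => ρ i) / 2 ^ w := by
  unfold EW
  rw [← (Fin.consEquiv fun _ : Fin (N + 1) => Fin (2 ^ w)).sum_comp, Fintype.sum_prod_type,
    ← Finset.sum_div, div_div, ← pow_succ]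
  congr 1
  refine Finset.sum_congr rfl fun a _ => Finset.sum_congr rfl fun tab _ => ?_
  exact congrArg F (streamOf_cons a tab)

theorem EW_zero (w : ℕ) (F : (ℕ → ℕ) → ℝ) : EW w 0 F = F fun _ => 0 := by
  unfold EW
  simp only [Finset.univ_unique, Finset.sum_singleton, pow_zero, div_one]
  congr 1

/-- more words than needed do not matter -/
theorem EW_ext (w : ℕ) : ∀ (T N : ℕ) (F : (ℕ → ℕ) → ℝ), T ≤ N →
    (∀ ρ ρ', (∀ i < T, ρ i = ρ' i) → F ρ = F ρ') → EW w N F = EW w T F
  | 0, N, F, _, h => by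
    have : F = fun _ => F fun _ => 0 := funext fun ρ => h _ _ (by simp)
    rw [this, EW_const, EW_const]
  | T + 1, 0, _, hT, _ => absurd hT (by omega)
  | T + 1, N + 1, F, hT, h => by
    rw [EW_succ, EW_succ]
    congr 1
    refine Finset.sum_congr rfl fun a _ => EW_ext w T N _ (by omega) fun ρ ρ' hρ => h _ _ ?_
    intro i hi
    cases i with
    | zero => rfl
    | succ i => exact hρ i (by omega)

theorem sum_bodd (n : ℕ) (H : Bool → ℝ) :
    ∑ a ∈ range (2 * n), H a.bodd = n * (H false + H true) := by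
  induction n with
  | zero => simp
  | succ n ih =>
    rw [show 2 * (n + 1) = 2 * n + 1 + 1 by ring, Finset.sum_range_succ, Finset.sum_range_succ, ih]
    have e1 : (2 * n).bodd = false := by simp
    have e2 : (2 * n + 1).bodd = true := by simp
    rw [e1, e2]
    push_cast; ring

theorem bitsAt_succ (f : ℕ → Bool) (N : ℕ) :
    bitsAt f 0 (N + 1) = f 0 :: bitsAt (fun i => f (i + 1)) 0 N := by
  simp [bitsAt, List.range_succ_eq_map, Function.comp_def]

/-- the low bits of the words are fair bits -/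
theorem EW_bits {w : ℕ} (hw : 1 ≤ w) : ∀ (N : ℕ) (G : Word → ℝ),
    EW w N (fun ρ => G (bitsAt (fun i => (ρ i).bodd) 0 N)) = Ex N G
  | 0, G => by rw [EW_zero, Ex_zero]; simp [bitsAt]
  | N + 1, G => by
    rw [EW_succ, Ex_succ]
    simp only [bitsAt_succ]
    have e : ∀ a : Fin (2 ^ w), EW w N (fun ρ => G ((a : ℕ).bodd ::
        bitsAt (fun i => (ρ i).bodd) 0 N)) = Ex N fun ω => G ((a : ℕ).bodd :: ω) := fun a =>
      EW_bits hw N fun ω => G ((a : ℕ).bodd :: ω)
    simp only [e]
    obtain ⟨w', rfl⟩ := Nat.exists_eq_add_of_le' hw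
    rw [Fin.sum_univ_eq_sum_range (fun a => Ex N fun ω => G (a.bodd :: ω)), pow_succ', 
      sum_bodd (2 ^ w') fun b => Ex N fun ω => G (b :: ω)]
    push_cast
    field_simp
    ring

open Classical in
theorem probAfter_eq (P : Program) (w : ℕ) (x : List ℕ) {T N : ℕ} (hT : T ≤ N)
    (E : Crest.WordRAM.Cfg P.numRegs → Prop) :
    probAfter P w x T E = EW w N fun ρ => if E (run P w ρ x T) then 1 else 0 := by
  rw [EW_ext w T N _ hT fun ρ ρ' h => by rw [run_congr P w x h]]
  unfold probAfter Crest.FinProb.uniformProb EW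
  simp only [Fintype.card_fun, Fintype.card_fin, Finset.sum_boole, Set.mem_setOf_eq]
  push_cast
  congr

/-! ### Blocks -/

theorem length_bitsAt (f : ℕ → Bool) (pos L : ℕ) : (bitsAt f pos L).length = L := by
  simp [bitsAt]

theorem blk_bitsAt (f : ℕ → Bool) {L k N : ℕ} (h : (k + 1) * L ≤ N) :
    blk L k (bitsAt f 0 N) = bitsAt f (k * L) L := by
  have h' : k * L + L ≤ N := by rwa [add_mul, one_mul] at h
  refine List.ext_getElem (by simp [blk, bitsAt]; omega) fun i h1 h2 => ?_
  simp [blk, bitsAt]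

theorem blk_take {L k m : ℕ} (h : (k + 1) * L ≤ m) (ω : Word) :
    blk L k (ω.take m) = blk L k ω := by
  have h' : k * L + L ≤ m := by rwa [add_mul, one_mul] at h
  unfold blk
  rw [List.drop_take, List.take_take, min_eq_left (by omega)]

open Classical in
/-- the first `k` blocks fail, then `g` of the next block -/
theorem EW_first {w : ℕ} (hw : 1 ≤ w) {L k N : ℕ} (h : (k + 1) * L ≤ N) (A : Word → Prop)
    (g : Word → ℝ) :
    EW w N (fun ρ => if ∀ j < k, A (bitsAt (fun i => (ρ i).bodd) (j * L) L) then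
      g (bitsAt (fun i => (ρ i).bodd) (k * L) L) else 0) = Pr L A ^ k * Ex L g := by
  let F : ℕ → Word → ℝ := fun j r => if j < k then (if A r then 1 else 0) else g r
  have h1 := Ex_prod_blk L (k + 1) F
  have h2 := Ex_take h fun ω => ∏ i ∈ range (k + 1), F i (blk L i ω)
  have h3 := EW_bits hw N fun ω => ∏ i ∈ range (k + 1), F i (blk L i (ω.take ((k + 1) * L)))
  rw [h2, h1] at h3
  have h4 : ∏ i ∈ range (k + 1), Ex L (F i) = Pr L A ^ k * Ex L g := by
    rw [Finset.prod_range_succ, Finset.prod_congr rfl (g := fun _ => Pr L A), Finset.prod_const,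
      Finset.card_range]
    · simp only [F, lt_irrefl, if_false]
    · intro j hj
      simp only [F, Finset.mem_range.1 hj, if_true]
      rfl
  rw [← h4, ← h3]
  congr 1
  funext ρ
  have h5 : ∀ i ∈ range (k + 1), F i (blk L i ((bitsAt (fun i => (ρ i).bodd) 0 N).take ((k + 1) * L)))
      = F i (bitsAt (fun i => (ρ i).bodd) (i * L) L) := fun i hi => by
    have hi' : (i + 1) * L ≤ (k + 1) * L := Nat.mul_le_mul_right _ (Finset.mem_range.1 hi)
    rw [blk_take hi', blk_bitsAt _ (hi'.trans h)]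
  rw [Finset.prod_congr rfl h5, Finset.prod_range_succ]
  simp only [F, lt_irrefl, if_false]
  rw [Finset.prod_congr rfl (g := fun j => if A (bitsAt (fun i => (ρ i).bodd) (j * L) L) then
    (1 : ℝ) else 0) fun j hj => by rw [if_pos (Finset.mem_range.1 hj)], Finset.prod_boole]
  simp only [Finset.mem_range]
  split_ifs <;> simp

end RamC

end Crest.Agent.R309
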