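import Crest.Agent.R309.RamS

/-! Row 309: encoding the input and decoding the output on the word RAM. -/

set_option autoImplicit false
set_option linter.unusedSimpArgs false

namespace Crest.Agent.R309.RW

open Crest.Agent.PT Crest.Enc Function

/-- the digit part of a code -/
def dig (v : ℕ) : Word := (v.bits.map fun b => [true, b]).flatten

theorem natCode_eq (v : ℕ) : natCode v = dig v ++ [false, false] := rfl

theorem dig_zero : dig 0 = [] := by simp [dig]

theorem dig_pos {v : ℕ} (h : v ≠ 0) : dig v = true :: v.bodd :: dig (v / 2) := by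
  have : v.bits = v.bodd :: (v / 2).bits := by
    conv_lhs => rw [← Nat.bit_bodd_div2 v]
    rw [Nat.bits_append_bit, Nat.div2_val]
    intro h0
    have h1 := Nat.bodd_add_div2 v
    rw [h0] at h1
    cases hb : v.bodd
    · rw [hb] at h1; simp at h1; omega
    · rfl
  simp [dig, this]

theorem codeN_cons (v : ℕ) (l : List ℕ) : codeN (v :: l) = natCode v ++ codeN l := by
  simp [codeN]

theorem codeN_snoc (v : ℕ) (l : List ℕ) : codeN (l ++ [v]) = codeN l ++ natCode v := by
  simp [codeN]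

theorem codeN_append (l l' : List ℕ) : codeN (l ++ l') = codeN l ++ codeN l' := by
  simp [codeN]

theorem codeN_eq_nil {l : List ℕ} : codeN l = [] ↔ l = [] := by
  cases l with
  | nil => simp [codeN]
  | cons v l => simp [codeN_cons, natCode_eq]

theorem two_length_le (l : List ℕ) : 2 * l.length ≤ (codeN l).length := by
  induction l with
  | nil => simp
  | cons v l ih => rw [codeN_cons, natCode_eq]; simp; omega

theorem lt_of_mem {l : List ℕ} {v : ℕ} (h : v ∈ l) : v < 2 ^ (codeN l).length := by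
  induction l with
  | nil => cases h
  | cons u l ih =>
    rw [codeN_cons, List.length_append]
    rcases List.mem_cons.1 h with rfl | h
    · exact (lt_two_pow_length_natCode v).trans_le (Nat.pow_le_pow_right (by omega) (by omega))
    · exact (ih h).trans_le (Nat.pow_le_pow_right (by omega) (by omega))

/-- consecutive cells, each pointing to the next -/
def Fwd (M : ℕ → ℕ) (a : ℕ) (l : Word) : Prop :=
  ∀ i < l.length, M (a + i) = 2 * (a + i + 1) + (l.getD i false).toNat

theorem Fwd.rep {M : ℕ → ℕ} {h : ℕ} : ∀ {l : Word} {a : ℕ}, Fwd M a l → a + l.length < h →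
    Rep M (a + l.length) h a l
  | [], _, _, _ => rfl
  | b :: l, a, H, hh => by
    have h0 := H 0 (by simp)
    have hb : b.toNat ≤ 1 := Bool.toNat_le b
    simp only [add_zero, List.getD_cons_zero] at h0
    rw [List.length_cons] at hh ⊢
    refine ⟨by omega, by omega, by omega, ?_⟩
    rw [show M a / 2 = a + 1 by omega, show a + (l.length + 1) = a + 1 + l.length by omega]
    refine Fwd.rep (fun i hi => ?_) (by omega)
    have := H (i + 1) (by simpa using hi)
    rw [List.getD_cons_succ] at this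
    rw [show a + 1 + i = a + (i + 1) by omega, this]

/-- invariant of the prologue -/
structure PI (x : List ℕ) (s : S) (l : Word) : Prop where
  one : s.R 6 = 1
  two : s.R 7 = 2
  zero : s.R 12 = 0
  r0 : s.R 0 = x.length
  r8 : s.R 8 = x.length
  hp : s.R 3 = x.length + l.length
  fwd : Fwd s.M x.length l
  inp : ∀ i < x.length, s.M i = x.getD i 0
  k : s.k = 0

/-- append the bit held in register `5` -/
def emit : W := .ops [.add 4 3 6, .add 13 4 4, .add 13 13 5, .store 13 3, .copy 3 4]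

/-- the digits of the number in register `11` -/
def pin : W := .whileNe 11 12 (.seq (.ops [.const 5 1]) (.seq emit (.seq (.ops [.rem 5 11 7])
  (.seq emit (.ops [.quot 11 11 7])))))

/-- all numbers from position `R 10` on -/
def pout : W := .whileNe 10 0 (.seq (.ops [.load 11 10]) (.seq pin (.seq (.ops [.const 5 0])
  (.seq emit (.seq emit (.ops [.add 10 10 6]))))))

/-- the prologue -/
def pro (R : ℕ) : W := .seq (.ops [.const 6 1, .const 7 2, .copy 3 0, .copy 8 0]) (.seq pout
  (.seq (.ops [.copy 2 3, .add 3 3 6, .copy 9 3])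
    (.ops ((List.range R).map fun j => .copy (j + 20) 2))))

theorem pro_ok {R N : ℕ} (h : R + 20 ≤ N) : (pro R).ok N := by
  simp only [pro, pout, pin, emit, W.ok, List.mem_map, List.mem_range, forall_exists_index, and_imp]
  simp [Op.mx]
  refine ⟨by omega, by omega, by omega, fun o j => by omega⟩

section
variable {w : ℕ} {ρ : ℕ → ℕ} {x : List ℕ}

theorem PI.scr {s : S} {l : Word} (h : PI x s l) {d : ℕ} (hd : d = 5 ∨ d = 10 ∨ d = 11) (v : ℕ) :
    PI x ⟨update s.R d v, s.M, s.k⟩ l := by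
  have e : ∀ i, i ≠ 5 → i ≠ 10 → i ≠ 11 → update s.R d v i = s.R i := fun i h1 h2 h3 =>
    update_of_ne (by omega) _ _
  refine ⟨?_, ?_, ?_, ?_, ?_, ?_, h.fwd, h.inp, h.k⟩ <;> simp only <;>
    rw [e _ (by omega) (by omega) (by omega)]
  exacts [h.one, h.two, h.zero, h.r0, h.r8, h.hp]

theorem emit_we {s : S} {l : Word} (h : PI x s l) {b : Bool} (hb : s.R 5 = b.toNat)
    (hw : 2 * (x.length + l.length + 1) + 1 < 2 ^ w) :
    ∃ s', WE w ρ emit s s' 5 ∧ PI x s' (l ++ [b]) ∧ s'.R 5 = s.R 5 ∧ s'.R 10 = s.R 10 ∧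
      s'.R 11 = s.R 11 := by
  have hb1 : b.toNat ≤ 1 := Bool.toNat_le b
  have a1 : (x.length + l.length + 1) % 2 ^ w = x.length + l.length + 1 :=
    Nat.mod_eq_of_lt (by omega)
  have a2 : (x.length + l.length + 1 + (x.length + l.length + 1)) % 2 ^ w =
      2 * (x.length + l.length + 1) := by rw [Nat.mod_eq_of_lt (by omega)]; omega
  have a3 : (2 * (x.length + l.length + 1) + b.toNat) % 2 ^ w =
      2 * (x.length + l.length + 1) + b.toNat := Nat.mod_eq_of_lt (by omega)
  have e : effs w ρ [.add 4 3 6, .add 13 4 4, .add 13 13 5, .store 13 3, .copy 3 4] s =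
      ⟨update (update (update s.R 4 (x.length + l.length + 1)) 13
        (2 * (x.length + l.length + 1) + b.toNat)) 3 (x.length + l.length + 1),
        update s.M (x.length + l.length) (2 * (x.length + l.length + 1) + b.toNat), s.k⟩ := by
    simp [effs, Op.eff, a1, a2, a3, hb, h.one, h.hp]
  refine ⟨_, WE.ops _ s, ?_⟩
  rw [e]
  refine ⟨⟨?_, ?_, ?_, ?_, ?_, ?_, fun i hi => ?_, fun i hi => ?_, h.k⟩, ?_, ?_, ?_⟩
  · simp [h.one]
  · simp [h.two]
  · simp [h.zero]
  · simp [h.r0]
  · simp [h.r8]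
  · simp [add_assoc]
  · simp only [List.length_append, List.length_singleton] at hi
    by_cases e' : i = l.length
    · subst e'; simp
    · have := h.fwd i (by omega)
      simp only
      rw [update_of_ne (by omega), this, List.getD_append _ _ _ _ (by omega)]
  · simp only
    rw [update_of_ne (by omega), h.inp i hi]
  · simp
  · simp
  · simp

theorem pin_we (hw2 : 2 ≤ w) (v : ℕ) : ∀ (s : S) (l : Word), PI x s l → s.R 11 = v →
    2 * (x.length + (l ++ dig v).length) + 1 < 2 ^ w →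
    ∃ s', WE w ρ pin s s' (8 * (dig v).length + 1) ∧ PI x s' (l ++ dig v) ∧ s'.R 10 = s.R 10 := by
  have h4 : 4 ≤ 2 ^ w := (Nat.pow_le_pow_right (by omega) hw2 : 2 ^ 2 ≤ 2 ^ w)
  induction v using Nat.strong_induction_on with
  | _ v ih =>
  intro s l h hv hw
  by_cases e : v = 0
  · subst e
    exact ⟨s, (WE.whT (hv.trans h.zero.symm)).mono (by omega), by simpa [dig_zero] using h, rfl⟩
  · rw [dig_pos e] at hw ⊢
    simp only [List.length_append, List.length_cons] at hw
    obtain ⟨s1, a1, a2, -, a4, a5⟩ := emit_we (w := w) (ρ := ρ) (h.scr (Or.inl rfl) (1 % 2 ^ w))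
      (b := true) (by simp [Nat.mod_eq_of_lt (show 1 < 2 ^ w by omega)]) (by omega)
    obtain ⟨s2, b1, b2, -, b4, b5⟩ := emit_we (w := w) (ρ := ρ)
      (a2.scr (Or.inl rfl) (s1.R 11 % s1.R 7)) (b := v.bodd)
      (by simp [a5, hv, a2.two, Nat.mod_two_of_bodd]) (by simp; omega)
    obtain ⟨s3, c1, c2, c3⟩ := ih (v / 2) (by omega) _ _
      (b2.scr (Or.inr (Or.inr rfl)) (s2.R 11 / s2.R 7)) (by simp [b5, a5, hv, b2.two])
      (by simp; omega)
    refine ⟨s3, (WE.whF (by rw [hv, h.zero]; exact e) ((WE.ops _ s).seq (a1.seq ((WE.ops _ s1).seq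
      (b1.seq (WE.ops _ s2))))) c1).mono (by simp; omega), by simpa using c2, ?_⟩
    simp at c3 b4 a4
    rw [c3, b4, a4]

theorem pout_we (hw2 : 2 ≤ w) (hw : 2 * (x.length + (codeN x).length) + 1 < 2 ^ w)
    (suf : List ℕ) : ∀ (pre : List ℕ) (s : S), x = pre ++ suf → PI x s (codeN pre) →
    s.R 10 = pre.length →
    ∃ s', WE w ρ pout s s' (8 * (codeN suf).length + 1) ∧ PI x s' (codeN x) := by
  have h4 : 4 ≤ 2 ^ w := (Nat.pow_le_pow_right (by omega) hw2 : 2 ^ 2 ≤ 2 ^ w)
  induction suf with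
  | nil =>
    intro pre s e h hi
    rw [List.append_nil] at e
    exact ⟨s, (WE.whT (by rw [hi, h.r0, e])).mono (by omega), e ▸ (e ▸ h)⟩
  | cons v suf ih =>
    intro pre s e h hi
    have hl : x.length = pre.length + (suf.length + 1) := by rw [e]; simp
    have hc : (codeN x).length = (codeN pre).length + ((dig v).length + 2 + (codeN suf).length) := by
      rw [e, codeN_append, codeN_cons, natCode_eq]; simp; omega
    have hv : s.M (s.R 10) = v := by
      rw [hi, h.inp _ (by omega), e]; simp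
    obtain ⟨s1, a1, a2, a3⟩ := pin_we (ρ := ρ) hw2 v _ _
      (h.scr (Or.inr (Or.inr rfl)) (s.M (s.R 10))) (by simpa using hv) (by simp; omega)
    obtain ⟨s2, b1, b2, b3, b4, -⟩ := emit_we (w := w) (ρ := ρ) (a2.scr (Or.inl rfl) (0 % 2 ^ w))
      (b := false) (by simp) (by simp; omega)
    obtain ⟨s3, c1, c2, -, c4, -⟩ := emit_we (w := w) (ρ := ρ) b2 (b := false)
      (by simpa using b3) (by simp; omega)
    simp at a3 b4
    obtain ⟨s4, d1, d2⟩ := ih (pre ++ [v]) _ (by simpa using e)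
      (by simpa [codeN_snoc, natCode_eq] using
        c2.scr (Or.inr (Or.inl rfl)) ((s3.R 10 + s3.R 6) % 2 ^ w))
      (by simp [c4, b4, a3, hi, c2.one]; exact Nat.mod_eq_of_lt (by omega))
    refine ⟨s4, (WE.whF (by rw [hi, h.r0]; omega) ((WE.ops _ s).seq (a1.seq ((WE.ops _ s1).seq
      (b1.seq (c1.seq (WE.ops _ s3)))))) d1).mono ?_, d2⟩
    simp [codeN_cons, natCode_eq]; omega

theorem effs_append (l l' : List Op) : ∀ s : S, effs w ρ (l ++ l') s = effs w ρ l' (effs w ρ l s) := by
  induction l with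
  | nil => intro s; rfl
  | cons o l ih => intro s; exact ih _

theorem effs_copy (s : S) (R : ℕ) : effs w ρ ((List.range R).map fun j => .copy (j + 20) 2) s =
    ⟨fun i => if 20 ≤ i ∧ i < R + 20 then s.R 2 else s.R i, s.M, s.k⟩ := by
  induction R with
  | zero =>
    simp only [List.range_zero, List.map_nil, effs]
    cases s
    congr 1
    funext i
    rw [if_neg (by omega)]
  | succ R ih =>
    rw [List.range_succ, List.map_append, effs_append, ih]
    simp only [List.map_cons, List.map_nil, effs, Op.eff]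
    congr 1
    funext i
    rw [update_apply]
    split_ifs <;> first | rfl | omega

theorem pro_we (hw2 : 2 ≤ w) (hw : 2 * (x.length + (codeN x).length) + 1 < 2 ^ w) (R : ℕ) {s : S}
    (h0 : s.R 0 = x.length) (h10 : s.R 10 = 0) (h12 : s.R 12 = 0)
    (hM : ∀ i < x.length, s.M i = x.getD i 0) (hk : s.k = 0) :
    ∃ s', WE w ρ (pro R) s s' (8 * (codeN x).length + 8 + R) ∧
      Inv R (x.length + (codeN x).length) (x.length + (codeN x).length + 1) (codeN x) s'
        (fun _ => []) ∧ s'.k = 0 := by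
  have h4 : 4 ≤ 2 ^ w := (Nat.pow_le_pow_right (by omega) hw2 : 2 ^ 2 ≤ 2 ^ w)
  have a1 : 1 % 2 ^ w = 1 := Nat.mod_eq_of_lt (by omega)
  have a2 : 2 % 2 ^ w = 2 := Nat.mod_eq_of_lt (by omega)
  have a3 : (x.length + (codeN x).length + 1) % 2 ^ w = x.length + (codeN x).length + 1 :=
    Nat.mod_eq_of_lt (by omega)
  obtain ⟨s1, b1, b2⟩ := pout_we (ρ := ρ) hw2 hw x []
    (effs w ρ [.const 6 1, .const 7 2, .copy 3 0, .copy 8 0] s) rfl
    (by
      refine ⟨?_, ?_, ?_, ?_, ?_, ?_, fun i hi => ?_, hM, hk⟩ <;>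
        simp [effs, Op.eff, a1, a2, h0, h12, codeN] at *)
    (by simp [effs, Op.eff, h10])
  refine ⟨_, ((WE.ops _ s).seq (b1.seq ((WE.ops _ s1).seq (WE.ops _ _)))).mono (by simp; omega),
    ?_, ?_⟩
  · rw [effs_copy]
    refine ⟨?_, ?_, ?_, ?_, ?_, by omega, ?_, ?_, fun j hj => ?_⟩
    · simp [effs, Op.eff, b2.one]
    · simp [effs, Op.eff, b2.two]
    · simp [effs, Op.eff, b2.zero]
    · simp [effs, Op.eff, b2.hp]
    · simp [effs, Op.eff, b2.hp, b2.one, a3]
    · simp [effs, Op.eff, b2.hp, b2.one, a3]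
    · simpa [effs, Op.eff, b2.r8] using b2.fwd.rep (Nat.lt_succ_self _)
    · simp [effs, Op.eff, Rep, hj, b2.hp]
  · rw [effs_copy]
    exact b2.k

end

/-- invariant of the epilogue -/
structure EI (nl o : ℕ) (s : S) (l : Word) (out : List ℕ) : Prop where
  one : s.R 6 = 1
  two : s.R 7 = 2
  zero : s.R 12 = 0
  nil : s.R 2 = nl
  r1 : s.R 1 = o + 1
  hp : s.R 3 = o + out.length
  out : ∀ i < out.length, s.M (o + i) = out.getD i 0
  rep : Rep s.M nl o (s.R 21) l

/-- pop a bit of stack `1` into register `5` -/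
def popb : W := .ops [.load 4 21, .rem 5 4 7, .quot 21 4 7]

/-- read the digits -/
def din : W := .whileNe 5 12 (.seq popb (.seq (.ops [.mul 4 5 10, .add 11 11 4, .mul 10 10 7]) popb))

/-- read all numbers -/
def dout : W := .whileNe 21 2 (.seq (.ops [.const 11 0, .const 10 1]) (.seq popb (.seq din
  (.seq popb (.ops [.store 11 3, .add 3 3 6])))))

/-- the epilogue -/
def epi : W := .seq (.ops [.add 1 3 6]) (.seq dout (.ops [.sub 0 3 1]))

theorem epi_ok {N : ℕ} (h : 21 ≤ N) : epi.ok N := by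
  simp [epi, dout, din, popb, W.ok, Op.mx]
  omega

section
variable {w : ℕ} {ρ : ℕ → ℕ} {nl o : ℕ}

theorem EI.scr {s s' : S} {l : Word} {out : List ℕ} (h : EI nl o s l out)
    (e : ∀ i, i ≠ 4 → i ≠ 10 → i ≠ 11 → s'.R i = s.R i) (hM : s'.M = s.M) : EI nl o s' l out := by
  refine ⟨?_, ?_, ?_, ?_, ?_, ?_, hM ▸ h.out, ?_⟩ <;> rw [e _ (by omega) (by omega) (by omega)]
  exacts [h.one, h.two, h.zero, h.nil, h.r1, h.hp, hM ▸ h.rep]

theorem popb_we {s : S} {b : Bool} {l : Word} {out : List ℕ} (h : EI nl o s (b :: l) out) :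
    ∃ s', WE w ρ popb s s' 3 ∧ EI nl o s' l out ∧ s'.R 5 = b.toNat ∧ s'.R 10 = s.R 10 ∧
      s'.R 11 = s.R 11 := by
  refine ⟨_, WE.ops _ s, ⟨?_, ?_, ?_, ?_, ?_, ?_, h.out, ?_⟩, ?_, ?_, ?_⟩
  · simp [effs, Op.eff, h.one]
  · simp [effs, Op.eff, h.two]
  · simp [effs, Op.eff, h.zero]
  · simp [effs, Op.eff, h.nil]
  · simp [effs, Op.eff, h.r1]
  · simp [effs, Op.eff, h.hp]
  · simpa [effs, Op.eff, h.two] using h.rep.2.2.2
  · simpa [effs, Op.eff, h.two] using h.rep.2.2.1
  · simp [effs, Op.eff]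
  · simp [effs, Op.eff]

theorem din_we {out : List ℕ} {rest : Word} (v : ℕ) : ∀ (s : S) (P : ℕ) (b : Bool) (l : Word),
    b :: l = dig v ++ false :: rest → EI nl o s l out → s.R 5 = b.toNat → s.R 10 = P % 2 ^ w →
    s.R 11 + P * v < 2 ^ w →
    ∃ s', WE w ρ din s s' (6 * (dig v).length + 1) ∧ EI nl o s' rest out ∧
      s'.R 11 = s.R 11 + P * v := by
  induction v using Nat.strong_induction_on with
  | _ v ih =>
  intro s P b l e h h5 h10 hw
  by_cases hv : v = 0
  · subst hv
    rw [dig_zero, List.nil_append, List.cons.injEq] at e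
    obtain ⟨rfl, rfl⟩ := e
    exact ⟨s, (WE.whT (h5.trans h.zero.symm)).mono (by omega), h, rfl⟩
  · rw [dig_pos hv, List.cons_append, List.cons_append, List.cons.injEq] at e
    obtain ⟨rfl, rfl⟩ := e
    obtain ⟨s1, a1, a2, a3, a4, a5⟩ := popb_we (w := w) (ρ := ρ) h
    obtain ⟨b', l', e'⟩ : ∃ b' l', b' :: l' = dig (v / 2) ++ false :: rest := by
      cases dig (v / 2) with
      | nil => exact ⟨_, _, rfl⟩
      | cons a t => exact ⟨_, _, rfl⟩
    rw [← e'] at a2
    have hP : P ≤ P * v := Nat.le_mul_of_pos_right _ (by omega)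
    have hv2 : P * v = v.bodd.toNat * P + P * 2 * (v / 2) := by
      conv_lhs => rw [← Nat.bodd_add_div2 v, Nat.div2_val]
      ring
    have c1 : P % 2 ^ w = P := Nat.mod_eq_of_lt (by omega)
    have c2 : v.bodd.toNat * P % 2 ^ w = v.bodd.toNat * P := Nat.mod_eq_of_lt (by omega)
    have c3 : (s.R 11 + v.bodd.toNat * P) % 2 ^ w = s.R 11 + v.bodd.toNat * P :=
      Nat.mod_eq_of_lt (by omega)
    obtain ⟨s2, b1, b2, b3, b4, b5⟩ := popb_we (w := w) (ρ := ρ) (a2.scr
      (s' := effs w ρ [.mul 4 5 10, .add 11 11 4, .mul 10 10 7] s1)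
      (fun i h1 h2 h3 => by simp [effs, Op.eff, h1, h2, h3]) rfl)
    have b6 : s2.R 11 = s.R 11 + v.bodd.toNat * P := by
      rw [b5]; simp only [effs, Op.eff]; simp [a3, a4, a5, h10, c1, c2, c3, -Nat.mul_mod_mod]
    obtain ⟨s3, d1, d2, d3⟩ := ih (v / 2) (by omega) s2 (P * 2) b' l' e' b2 b3
      (by rw [b4]; simp [effs, Op.eff, a4, h10, a2.two]) (by rw [b6]; omega)
    refine ⟨s3, (WE.whF (by rw [h5, h.zero]; simp) (a1.seq ((WE.ops _ s1).seq b1)) d1).mono
      (by simp [dig_pos hv]; omega), d2, by rw [d3, b6]; omega⟩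

theorem dout_we (suf : List ℕ) : ∀ (out : List ℕ) (s : S), EI nl o s (codeN suf) out →
    (∀ v ∈ suf, v < 2 ^ w) → o + out.length + suf.length < 2 ^ w →
    ∃ s', WE w ρ dout s s' (7 * (codeN suf).length + 1) ∧ EI nl o s' [] (out ++ suf) := by
  induction suf with
  | nil =>
    intro out s h _ _
    exact ⟨s, (WE.whT ((show s.R 21 = nl from h.rep).trans h.nil.symm)).mono (by omega),
      by simpa [codeN] using h⟩
  | cons v suf ih =>
    intro out s h hv hw
    rw [List.length_cons] at hw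
    obtain ⟨b, l, e⟩ : ∃ b l, b :: l = dig v ++ false :: false :: codeN suf := by
      cases dig v with
      | nil => exact ⟨_, _, rfl⟩
      | cons a t => exact ⟨_, _, rfl⟩
    have e' : codeN (v :: suf) = b :: l := by rw [e, codeN_cons, natCode_eq]; simp
    rw [e'] at h
    obtain ⟨s1, a1, a2, a3, a4, a5⟩ := popb_we (w := w) (ρ := ρ) (h.scr
      (s' := effs w ρ [.const 11 0, .const 10 1] s)
      (fun i h1 h2 h3 => by simp [effs, Op.eff, h1, h2, h3]) rfl)
    have a6 : s1.R 11 = 0 := by rw [a5]; simp [effs, Op.eff]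
    obtain ⟨s2, b1, b2, b3⟩ := din_we (w := w) (ρ := ρ) v s1 1 b l e a2 a3
      (by rw [a4]; simp [effs, Op.eff]) (by rw [a6]; simpa using hv v (by simp))
    obtain ⟨s3, c1, c2, -, -, c5⟩ := popb_we (w := w) (ρ := ρ) b2
    have c6 : s3.R 11 = v := by rw [c5, b3, a6]; simp
    have c7 : (o + out.length + 1) % 2 ^ w = o + out.length + 1 := Nat.mod_eq_of_lt (by omega)
    obtain ⟨s4, d1, d2⟩ := ih (out ++ [v]) (effs w ρ [.store 11 3, .add 3 3 6] s3) (by
      refine ⟨?_, ?_, ?_, ?_, ?_, ?_, fun i hi => ?_, ?_⟩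
      · simp [effs, Op.eff, c2.one]
      · simp [effs, Op.eff, c2.two]
      · simp [effs, Op.eff, c2.zero]
      · simp [effs, Op.eff, c2.nil]
      · simp [effs, Op.eff, c2.r1]
      · simp [effs, Op.eff, c2.hp, c2.one, ← add_assoc, c7]
      · simp only [List.length_append, List.length_singleton] at hi
        simp only [effs, Op.eff, c2.hp, c6]
        by_cases e2 : i = out.length
        · subst e2; simp
        · rw [update_of_ne (by omega), c2.out i (by omega), List.getD_append _ _ _ _ (by omega)]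
      · have : Rep (update s3.M (s3.R 3) (s3.R 11)) nl o (s3.R 21) (codeN suf) :=
          c2.rep.mono le_rfl fun a ha => update_of_ne (by rw [c2.hp]; omega) _ _
        simpa [effs, Op.eff] using this)
      (fun u hu => hv u (by simp [hu])) (by simp; omega)
    refine ⟨s4, (WE.whF (by rw [h.nil]; exact h.rep.1) ((WE.ops _ s).seq (a1.seq (b1.seq (c1.seq
      (WE.ops _ s3))))) d1).mono ?_, by simpa using d2⟩
    simp [codeN_cons, natCode_eq]; omega

theorem epi_we {R h0 : ℕ} {cx : Word} {s : S} {σ : St} (h : Inv R nl h0 cx s σ) (hR : 1 < R)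
    {out : List ℕ} (hσ : σ 1 = codeN out) (hv : ∀ v ∈ out, v < 2 ^ w)
    (hw : s.R 3 + 1 + out.length < 2 ^ w) :
    ∃ s', WE w ρ epi s s' (7 * (codeN out).length + 3) ∧
      ((List.range (s'.R 0)).map fun i => s'.M (s'.R 1 + i)) = out.tail := by
  have c1 : (s.R 3 + 1) % 2 ^ w = s.R 3 + 1 := Nat.mod_eq_of_lt (by omega)
  obtain ⟨s1, a1, a2⟩ := dout_we (w := w) (ρ := ρ) (nl := nl) (o := s.R 3) out []
    (effs w ρ [.add 1 3 6] s) (by
      refine ⟨?_, ?_, ?_, ?_, ?_, ?_, fun i hi => by simp at hi, ?_⟩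
      · simp [effs, Op.eff, h.one]
      · simp [effs, Op.eff, h.two]
      · simp [effs, Op.eff, h.zero]
      · simp [effs, Op.eff, h.nil]
      · simp [effs, Op.eff, h.one, c1]
      · simp [effs, Op.eff]
      · simpa [effs, Op.eff, hσ] using h.rep 1 hR) hv (by simp; omega)
  refine ⟨_, ((WE.ops _ s).seq (a1.seq (WE.ops _ s1))).mono (by simp; omega), ?_⟩
  rw [List.nil_append] at a2
  apply List.ext_getElem
  · simp [effs, Op.eff, a2.hp, a2.r1]; omega
  · intro i h1 h2
    have h3 : i + 1 < out.length := by simp at h2; omega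
    have := a2.out (i + 1) h3
    rw [List.getD_eq_getElem _ _ h3] at this
    simp [effs, Op.eff, a2.r1, ← this, add_assoc, add_comm 1 i]

end

end Crest.Agent.R309.RW
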