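import Crest.Agent.R309.Lor

/-! Row 309: block weights are locally Lorentzian. -/

set_option autoImplicit false

namespace Crest.Agent.R309

open Finset

/-- mixed second difference -/
def d2 (V : Cfg → ℝ) (α : Cfg) (i j : ℕ × Bool) : ℝ :=
  V (α + uv i + uv j) - V (α + uv i) - V (α + uv j) + V α

namespace BlockX

theorem blk_nonneg (D : Finset (ℕ × Bool)) (bl : ℕ × Bool → ℕ) (z : ℕ × Bool → ℝ) :
    0 ≤ ∑ i ∈ D, ∑ j ∈ D, z i * z j * (if bl i = bl j then 1 else 0) := by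
  have h : ∑ i ∈ D, ∑ j ∈ D, z i * z j * (if bl i = bl j then (1 : ℝ) else 0)
      = ∑ b ∈ D.image bl, (∑ i ∈ D, if bl i = b then z i else 0) ^ 2 := by
    simp only [sq, Finset.sum_mul_sum]
    rw [Finset.sum_comm (s := D.image bl)]
    refine Finset.sum_congr rfl fun i hi => ?_
    rw [Finset.sum_comm (s := D.image bl)]
    refine Finset.sum_congr rfl fun j _ => ?_
    rw [Finset.sum_eq_single (bl i)]
    · by_cases hij : bl i = bl j
      · simp [hij]
      · simp [hij, Ne.symm hij]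
    · intro b _ hb
      simp [Ne.symm hb]
    · intro hb
      exact absurd (Finset.mem_image_of_mem bl hi) hb
  rw [h]
  exact Finset.sum_nonneg fun _ _ => sq_nonneg _

theorem cube_rem (x t : ℝ) :
    |max (x + t) 0 ^ 3 - max x 0 ^ 3 - 3 * max x 0 ^ 2 * t - 3 * max x 0 * t ^ 2| ≤ |t| ^ 3 := by
  rcases le_total 0 x with hx | hx
  · rw [max_eq_left hx]
    rcases le_total 0 (x + t) with h | h
    · rw [max_eq_left h, ← abs_pow]
      exact le_of_eq (by congr 1; ring)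
    · rw [max_eq_right h]
      have ht : t ≤ 0 := by linarith
      rw [abs_of_nonpos ht]
      have e : (0 : ℝ) ^ 3 - x ^ 3 - 3 * x ^ 2 * t - 3 * x * t ^ 2
          = (-(x + t)) ^ 3 - (-t) ^ 3 := by ring
      have h1 : (-(x + t)) ^ 3 ≤ (-t) ^ 3 := pow_le_pow_left₀ (by linarith) (by linarith) 3
      have h2 : 0 ≤ (-(x + t)) ^ 3 := pow_nonneg (by linarith) 3
      rw [e, abs_le]
      constructor <;> linarith
  · rw [max_eq_right hx]
    have e : max (x + t) 0 ^ 3 - (0 : ℝ) ^ 3 - 3 * 0 ^ 2 * t - 3 * 0 * t ^ 2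
        = max (x + t) 0 ^ 3 := by ring
    rw [e, abs_of_nonneg (pow_nonneg (le_max_right _ _) 3)]
    refine pow_le_pow_left₀ (le_max_right _ _) (max_le ?_ (abs_nonneg t)) 3
    linarith [le_abs_self t]

end BlockX

open BlockX

/-- `exp (-V)` is locally Lorentzian when the second differences of `V` vanish between blocks and
inside a block `b` are a constant `g b ≥ 0` plus a matrix `L` with `exp (-L) - 1 ⪯ 0` -/
theorem SL_block {D : Finset (ℕ × Bool)} (V : Cfg → ℝ) (α : Cfg) (bl : ℕ × Bool → ℕ) (g : ℕ → ℝ)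
    (L : ℕ × Bool → ℕ × Bool → ℝ) (hg : ∀ b, 0 ≤ g b)
    (hV : ∀ i ∈ D, ∀ j ∈ D, d2 V α i j = if bl i = bl j then g (bl i) + L i j else 0)
    (hL : ∀ w : ℕ × Bool → ℝ, ∑ i ∈ D, ∑ j ∈ D,
      w i * w j * (if bl i = bl j then Real.exp (-L i j) - 1 else 0) ≤ 0) :
    SL D (fun β => Real.exp (-V β)) α := by
  intro w
  set c : Cfg → ℝ := fun β => Real.exp (-V β) with hc
  have h1 := hL fun i => w i * c (α + uv i) * Real.exp (-g (bl i) / 2)
  have h2 := blk_nonneg D bl fun i => w i * c (α + uv i) * √(1 - Real.exp (-g (bl i)))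
  refine le_trans (le_of_eq ?_) (sub_nonpos.2 (h1.trans h2))
  rw [← Finset.sum_sub_distrib]
  refine Finset.sum_congr rfl fun i hi => ?_
  rw [← Finset.sum_sub_distrib]
  refine Finset.sum_congr rfl fun j hj => ?_
  have e : c (α + uv i + uv j) * c α = c (α + uv i) * c (α + uv j) * Real.exp (-d2 V α i j) := by
    simp only [hc, ← Real.exp_add, d2]
    congr 1; ring
  rw [e, hV i hi j hj]
  by_cases hij : bl i = bl j
  · simp only [if_pos hij]
    rw [← hij]
    have a1 : Real.exp (-g (bl i) / 2) * Real.exp (-g (bl i) / 2) = Real.exp (-g (bl i)) := by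
      rw [← Real.exp_add]; congr 1; ring
    have a2 : √(1 - Real.exp (-g (bl i))) * √(1 - Real.exp (-g (bl i)))
        = 1 - Real.exp (-g (bl i)) :=
      Real.mul_self_sqrt (sub_nonneg.2 (Real.exp_le_one_iff.2 (neg_nonpos.2 (hg _))))
    have a3 : Real.exp (-(g (bl i) + L i j)) = Real.exp (-g (bl i)) * Real.exp (-L i j) := by
      rw [← Real.exp_add]; congr 1; ring
    rw [a3]
    linear_combination
      (-(w i * c (α + uv i) * (w j * c (α + uv j)) * (Real.exp (-L i j) - 1))) * a1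
        + (w i * c (α + uv i) * (w j * c (α + uv j))) * a2
  · simp [if_neg hij]

/-- a positive semidefinite part, a diagonal margin and small errors -/
theorem exp_neg_sub_one_nonpos {D : Finset (ℕ × Bool)} (bl : ℕ × Bool → ℕ)
    (L A : ℕ × Bool → ℕ × Bool → ℝ) (S : Finset (ℕ × Bool)) (μ ε δ : ℝ) (hSD : S ⊆ D)
    (hA : ∀ w : ℕ × Bool → ℝ, 0 ≤ ∑ i ∈ S, ∑ j ∈ S, w i * w j * (if bl i = bl j then A i j else 0))
    (h0 : ∀ i ∈ D, ∀ j ∈ D, i ∉ S ∨ j ∉ S → L i j = 0)
    (hε : ∀ i ∈ S, ∀ j ∈ S, bl i = bl j → |L i j - A i j - if i = j then μ else 0| ≤ ε)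
    (hδ : ∀ i ∈ S, ∀ j ∈ S, bl i = bl j → |L i j| ≤ δ) (hδ1 : δ ≤ 1)
    (hμ : (S.card : ℝ) * (ε + δ ^ 2) ≤ μ) (w : ℕ × Bool → ℝ) :
    ∑ i ∈ D, ∑ j ∈ D, w i * w j * (if bl i = bl j then Real.exp (-L i j) - 1 else 0) ≤ 0 := by
  have hred : ∑ i ∈ D, ∑ j ∈ D, w i * w j * (if bl i = bl j then Real.exp (-L i j) - 1 else 0)
      = ∑ i ∈ S, ∑ j ∈ S, w i * w j * (if bl i = bl j then Real.exp (-L i j) - 1 else 0) := by
    symm
    rw [← Finset.sum_subset hSD (f := fun i => ∑ j ∈ D,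
      w i * w j * (if bl i = bl j then Real.exp (-L i j) - 1 else 0))]
    · refine Finset.sum_congr rfl fun i hi => Finset.sum_subset hSD fun j hj hjS => ?_
      simp [h0 i (hSD hi) j hj (Or.inr hjS)]
    · intro i hi hiS
      refine Finset.sum_eq_zero fun j hj => ?_
      simp [h0 i hi j hj (Or.inl hiS)]
  rw [hred]
  have hterm : ∀ i ∈ S, ∀ j ∈ S,
      w i * w j * (if bl i = bl j then Real.exp (-L i j) - 1 else 0)
        ≤ -(w i * w j * (if bl i = bl j then A i j else 0)) - (if i = j then μ * w i ^ 2 else 0)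
          + (ε + δ ^ 2) / 2 * w i ^ 2 + (ε + δ ^ 2) / 2 * w j ^ 2 := by
    intro i hi j hj
    have ε0 : 0 ≤ ε := (abs_nonneg _).trans (hε i hi i hi rfl)
    have k0 : 0 ≤ ε + δ ^ 2 := by positivity
    by_cases hij : bl i = bl j
    · simp only [if_pos hij]
      have b1 := hε i hi j hj hij
      have b2 := hδ i hi j hj hij
      have b3 : |Real.exp (-L i j) - 1 - -L i j| ≤ (-L i j) ^ 2 :=
        Real.abs_exp_sub_one_sub_id_le (by rw [abs_neg]; linarith)
      have b4 : (-L i j) ^ 2 ≤ δ ^ 2 := by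
        rw [neg_sq, ← sq_abs]; exact pow_le_pow_left₀ (abs_nonneg _) b2 2
      obtain ⟨r, hr⟩ : ∃ r, r = (Real.exp (-L i j) - 1 - -L i j)
        - (L i j - A i j - if i = j then μ else 0) := ⟨_, rfl⟩
      have b5 : |r| ≤ ε + δ ^ 2 := by
        rw [hr]; refine (abs_sub _ _).trans ?_; linarith
      have b6 : w i * w j * r ≤ (ε + δ ^ 2) / 2 * w i ^ 2 + (ε + δ ^ 2) / 2 * w j ^ 2 := by
        have c1 : |w i * w j| ≤ (w i ^ 2 + w j ^ 2) / 2 := by
          rw [abs_le]; constructor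
          · nlinarith [sq_nonneg (w i + w j)]
          · nlinarith [sq_nonneg (w i - w j)]
        have c2 : |w i * w j * r| ≤ (w i ^ 2 + w j ^ 2) / 2 * (ε + δ ^ 2) := by
          rw [abs_mul]
          exact mul_le_mul c1 b5 (abs_nonneg _) (by positivity)
        linarith [le_abs_self (w i * w j * r)]
      have b7 : w i * w j * (if i = j then μ else 0) = if i = j then μ * w i ^ 2 else 0 := by
        split_ifs with h
        · rw [← h]; ring
        · ring
      have b8 : Real.exp (-L i j) - 1 = r - A i j - if i = j then μ else 0 := by rw [hr]; ring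
      rw [b8, ← b7]
      linarith
    · have hne : i ≠ j := fun h => hij (h ▸ rfl)
      simp only [if_neg hij, if_neg hne]
      have := mul_nonneg k0 (sq_nonneg (w i))
      have := mul_nonneg k0 (sq_nonneg (w j))
      linarith
  refine le_trans (Finset.sum_le_sum fun i hi => Finset.sum_le_sum fun j hj => hterm i hi j hj) ?_
  simp only [Finset.sum_add_distrib, Finset.sum_sub_distrib, Finset.sum_neg_distrib]
  have s1 : ∑ i ∈ S, ∑ j ∈ S, (if i = j then μ * w i ^ 2 else 0) = μ * ∑ i ∈ S, w i ^ 2 := by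
    rw [Finset.mul_sum]
    refine Finset.sum_congr rfl fun i hi => ?_
    rw [Finset.sum_ite_eq, if_pos hi]
  have s2 : ∑ i ∈ S, ∑ _j ∈ S, (ε + δ ^ 2) / 2 * w i ^ 2
      = S.card * ((ε + δ ^ 2) / 2) * ∑ i ∈ S, w i ^ 2 := by
    rw [Finset.mul_sum]
    refine Finset.sum_congr rfl fun i _ => ?_
    rw [Finset.sum_const, nsmul_eq_mul]; ring
  have s3 : ∑ _i ∈ S, ∑ j ∈ S, (ε + δ ^ 2) / 2 * w j ^ 2
      = S.card * ((ε + δ ^ 2) / 2) * ∑ i ∈ S, w i ^ 2 := by
    rw [Finset.sum_comm]; exact s2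
  rw [s1, s2, s3]
  have q0 : 0 ≤ ∑ i ∈ S, w i ^ 2 := Finset.sum_nonneg fun _ _ => sq_nonneg _
  have q1 := mul_le_mul_of_nonneg_right hμ q0
  have q2 := hA w
  linarith

/-- the cubic spline -/
theorem cube_d2 (x a b : ℝ) (ha : |a| ≤ 1) (hb : |b| ≤ 1) :
    |max (x + a + b) 0 ^ 3 - max (x + a) 0 ^ 3 - max (x + b) 0 ^ 3 + max x 0 ^ 3 -
      6 * a * b * max x 0| ≤ 10 := by
  have h1 := abs_le.1 (cube_rem x (a + b))
  have h2 := abs_le.1 (cube_rem x a)
  have h3 := abs_le.1 (cube_rem x b)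
  have a1 : |a| ^ 3 ≤ 1 := pow_le_one₀ (abs_nonneg _) ha
  have a2 : |b| ^ 3 ≤ 1 := pow_le_one₀ (abs_nonneg _) hb
  have a3 : |a + b| ^ 3 ≤ 2 ^ 3 :=
    pow_le_pow_left₀ (abs_nonneg _) ((abs_add_le a b).trans (by linarith)) 3
  rw [← add_assoc] at h1
  rw [abs_le]
  constructor <;> linarith [h1.1, h1.2, h2.1, h2.2, h3.1, h3.2]

theorem cube_d1 (x a : ℝ) (ha : |a| ≤ 1) :
    |max (x + a) 0 ^ 3 - max x 0 ^ 3| ≤ 3 * (max x 0 + 1) ^ 2 := by
  have h2 := abs_le.1 (cube_rem x a)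
  have a1 : |a| ^ 3 ≤ 1 := pow_le_one₀ (abs_nonneg _) ha
  have p0 : 0 ≤ max x 0 := le_max_right _ _
  generalize max x 0 = p at *
  have a2 := abs_le.1 ha
  have a3 : a ^ 2 ≤ 1 := by nlinarith
  have b1 := mul_le_mul_of_nonneg_left a2.1 (sq_nonneg p)
  have b2 := mul_le_mul_of_nonneg_left a2.2 (sq_nonneg p)
  have b3 := mul_le_mul_of_nonneg_left a3 p0
  have b4 := mul_nonneg p0 (sq_nonneg a)
  rw [abs_le]
  constructor <;> linarith [h2.1, h2.2]

end Crest.Agent.R309
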