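import Crest.Agent.R309.Basic
import Crest.Agent.R309.Block

/-! Row 309: how the terms of the ideal weight change along a unit vector. -/

set_option autoImplicit false

namespace Crest.Agent.R309

open Crest.Agent.PT Crest.Enc Finset

namespace HSX

/-- the variables `x_e` -/
abbrev cX (β : Cfg) : ℕ → ℕ := fun e => β (e, true)
/-- the variables `y_e` -/
abbrev cY (β : Cfg) : ℕ → ℕ := fun e => β (e, false)

theorem add_uv (β : Cfg) (i j : ℕ × Bool) : (β + uv i) j = β j + if j = i then 1 else 0 := by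
  rw [Pi.add_apply, LorX.uv_apply]

theorem mem_dirs' {E : ℕ} {i : ℕ × Bool} : i ∈ dirs E ↔ i.1 < E := by
  obtain ⟨e, b⟩ := i
  simp [dirs]

theorem card_dirs (E : ℕ) : (dirs E).card = 2 * E := by
  simp [dirs, mul_comm]

/-- a sum over the cells of a term linear in the variables -/
theorem sum_lin (E : ℕ) (p q : ℕ → ℤ) (β : Cfg) (i : ℕ × Bool) :
    ∑ e ∈ range E, (p e * ((β + uv i) (e, true) : ℤ) + q e * ((β + uv i) (e, false) : ℤ))
      = ∑ e ∈ range E, (p e * (β (e, true) : ℤ) + q e * (β (e, false) : ℤ))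
        + if i.1 < E then (if i.2 then p i.1 else q i.1) else 0 := by
  obtain ⟨e0, b⟩ := i
  have h : ∀ e, p e * ((β + uv (e0, b)) (e, true) : ℤ) + q e * ((β + uv (e0, b)) (e, false) : ℤ)
      = (p e * (β (e, true) : ℤ) + q e * (β (e, false) : ℤ))
        + if e0 = e then (if b then p e else q e) else 0 := by
    intro e
    rw [add_uv, add_uv]
    by_cases he : e0 = e
    · subst he
      cases b <;> simp <;> ring
    · have he' : e ≠ e0 := Ne.symm he
      simp [he, he']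
  simp only [h, sum_add_distrib (f := fun e => p e * (β (e, true) : ℤ) + q e * (β (e, false) : ℤ)),
    sum_ite_eq, mem_range]

variable (D : Dat)

theorem dK_eq (β : Cfg) (K : ℕ) : D.dK (cX β) (cY β) K =
    ∑ e ∈ range D.N.E, ((if D.lab (D.N.s e) = K then 1 else 0) * (β (e, true) : ℤ)
      + (if D.lab (D.N.d e) = K then 1 else 0) * (β (e, false) : ℤ))
      - (∑ e ∈ range D.N.E, if D.lab (D.N.d e) = K then (D.ρ e : ℤ) else 0) - D.bK K := by
  unfold Dat.dK
  rw [← sum_sub_distrib]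
  congr 1
  refine sum_congr rfl fun e _ => ?_
  split_ifs <;> ring

/-- the change of the defects -/
theorem dK_add (β : Cfg) (i : ℕ × Bool) (K₀ K : ℕ) :
    D.dK (cX (β + uv i)) (cY (β + uv i)) K = D.dK (cX β) (cY β) K
      + if i.1 < D.N.E then (if D.bl K₀ i = K then 1 else 0) else 0 := by
  rw [dK_eq, dK_eq, sum_lin]
  have : (if i.1 < D.N.E then (if i.2 then (if D.lab (D.N.s i.1) = K then (1 : ℤ) else 0)
      else if D.lab (D.N.d i.1) = K then 1 else 0) else 0)
      = if i.1 < D.N.E then (if D.bl K₀ i = K then 1 else 0) else 0 := by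
    unfold Dat.bl
    by_cases h1 : i.1 < D.N.E
    · simp only [h1, if_true]
      cases i.2 <;> simp
    · simp only [h1, if_false]
  rw [this]
  ring

/-- the change of `ell` along `uv i` -/
def al (f : ℕ) (i : ℕ × Bool) : ℤ :=
  if i.1 < D.N.E then (if i.2 then (if D.out f i.1 then -(D.t i.1 : ℤ) else 0)
    else if D.inn f i.1 then -(D.t i.1 : ℤ) else 0) else 0

theorem ell_eq (β : Cfg) (f : ℕ) : D.ell (cX β) (cY β) f =
    ∑ e ∈ range D.N.E, ((if D.out f e then -(D.t e : ℤ) else 0) * (β (e, true) : ℤ)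
      + (if D.inn f e then -(D.t e : ℤ) else 0) * (β (e, false) : ℤ))
      + (D.bU f + ∑ e ∈ range D.N.E, if D.inn f e then (D.t e : ℤ) * D.ρ e else 0) := by
  unfold Dat.ell Dat.cut
  have h1 : ∑ e ∈ range D.N.E, (if D.out f e then -(D.t e : ℤ) else 0) * (β (e, true) : ℤ)
      = -∑ e ∈ range D.N.E, if D.out f e then (D.t e : ℤ) * (cX β e) else 0 := by
    rw [← sum_neg_distrib]
    refine sum_congr rfl fun e _ => ?_
    split_ifs <;> simp
  have h2 : ∑ e ∈ range D.N.E, (if D.inn f e then (D.t e : ℤ) * ((D.ρ e : ℤ) - cY β e) else 0)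
      = ∑ e ∈ range D.N.E, (if D.inn f e then -(D.t e : ℤ) else 0) * (β (e, false) : ℤ)
        + ∑ e ∈ range D.N.E, if D.inn f e then (D.t e : ℤ) * D.ρ e else 0 := by
    rw [← sum_add_distrib]
    refine sum_congr rfl fun e _ => ?_
    split_ifs <;> ring
  rw [sum_add_distrib, h1, h2]
  ring

theorem ell_add (β : Cfg) (i : ℕ × Bool) (f : ℕ) :
    D.ell (cX (β + uv i)) (cY (β + uv i)) f = D.ell (cX β) (cY β) f + al D f i := by
  rw [ell_eq, ell_eq, sum_lin, al]
  ring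

theorem al_extra (f : ℕ) {i : ℕ × Bool} (hi : ¬ i.1 < D.N.E) : al D f i = 0 := if_neg hi

variable {D}

theorem abs_al (h : D.OK) {f : ℕ} (hf : f < D.N.E) (hT : D.T f = true) (i : ℕ × Bool) :
    |al D f i| ≤ D.t f := by
  have key : ∀ e < D.N.E, D.u f (D.N.s e) ≠ D.u f (D.N.d e) → |-(D.t e : ℤ)| ≤ D.t f := by
    intro e he hu
    rw [abs_neg, Nat.abs_cast]
    exact_mod_cast Nat.pow_le_pow_right (by norm_num) (h.u_τ f hf hT e he hu)
  unfold al
  split_ifs with h1 h2 h3 h4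
  · refine key _ h1 ?_
    simp only [Dat.out, Bool.and_eq_true, Bool.not_eq_true'] at h3
    rw [h3.1.2, h3.2]; simp
  · simp
  · refine key _ h1 ?_
    simp only [Dat.inn, Bool.and_eq_true, Bool.not_eq_true'] at h4
    rw [h4.1.2, h4.2]; simp
  · simp
  · simp

theorem bl_of_al (h : D.OK) {f : ℕ} (hf : f < D.N.E) (hT : D.T f = true) {i : ℕ × Bool} (K₀ : ℕ)
    (hi : al D f i ≠ 0) : D.bl K₀ i = D.lab (D.N.s f) := by
  unfold al at hi
  unfold Dat.bl
  split_ifs at hi ⊢ with h1 h2 h3 h4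
  · simp only [Dat.out, Bool.and_eq_true, Bool.not_eq_true'] at h3
    exact h.u_K f hf hT _ (h.wf _ h1).1 h3.1.2
  · exact absurd rfl hi
  · simp only [Dat.inn, Bool.and_eq_true, Bool.not_eq_true'] at h4
    exact h.u_K f hf hT _ (h.wf _ h1).2 h4.2
  · exact absurd rfl hi
  · exact absurd rfl hi

variable (D)

/-- normalised overshoot above the capacity -/
noncomputable def xA (β : Cfg) (f : ℕ) : ℝ :=
  ((D.ell (cX β) (cY β) f : ℝ) - D.c f) / D.t f - D.P
/-- normalised overshoot below zero -/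
noncomputable def xB (β : Cfg) (f : ℕ) : ℝ := -(D.ell (cX β) (cY β) f : ℝ) / D.t f - D.P
/-- normalised change -/
noncomputable def ar (f : ℕ) (i : ℕ × Bool) : ℝ := (al D f i : ℝ) / D.t f

theorem t_pos' (f : ℕ) : (0 : ℝ) < D.t f := by exact_mod_cast D.t_pos f

theorem xA_add (β : Cfg) (i : ℕ × Bool) (f : ℕ) : xA D (β + uv i) f = xA D β f + ar D f i := by
  unfold xA ar
  rw [ell_add]; push_cast; ring
theorem xB_add (β : Cfg) (i : ℕ × Bool) (f : ℕ) : xB D (β + uv i) f = xB D β f + -ar D f i := by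
  unfold xB ar
  rw [ell_add]; push_cast; ring

theorem cast_toNat (n : ℤ) : ((n.toNat : ℕ) : ℝ) = max (n : ℝ) 0 := by
  have : ((n.toNat : ℕ) : ℝ) = ((n.toNat : ℤ) : ℝ) := by norm_cast
  rw [this, Int.toNat_eq_max]; push_cast; rfl

theorem ovA_eq (β : Cfg) (f : ℕ) : (D.ovA (cX β) (cY β) f : ℝ) = D.t f * max (xA D β f) 0 := by
  have ht := t_pos' D f
  rw [Dat.ovA, cast_toNat, mul_max_of_nonneg _ _ ht.le, mul_zero, xA]
  congr 1
  push_cast
  field_simp
theorem ovB_eq (β : Cfg) (f : ℕ) : (D.ovB (cX β) (cY β) f : ℝ) = D.t f * max (xB D β f) 0 := by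
  have ht := t_pos' D f
  rw [Dat.ovB, cast_toNat, mul_max_of_nonneg _ _ ht.le, mul_zero, xB]
  congr 1
  push_cast
  field_simp

theorem phi_eq (β : Cfg) : D.phi (cX β) (cY β) = ∑ f ∈ range D.N.E, if D.T f then
    (max (xA D β f) 0 ^ 3 + max (xB D β f) 0 ^ 3) / (pW D.P : ℝ) ^ 3 else 0 := by
  unfold Dat.phi
  refine sum_congr rfl fun f _ => ?_
  split_ifs
  · have ht := t_pos' D f
    rw [ovA_eq, ovB_eq, mul_pow, mul_pow, mul_pow, ← mul_add, mul_comm ((pW D.P : ℝ) ^ 3),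
      mul_div_mul_left _ _ (by positivity)]
  · rfl

theorem mar_eq (β : Cfg) : D.mar (cX β) (cY β) = (∑ l ∈ dirs D.N.E, (β l : ℝ) ^ 2) / pQ D.P := by
  unfold Dat.mar dirs
  rw [sum_product]
  simp only [Fintype.sum_bool]

variable {D}

theorem abs_ar (h : D.OK) {f : ℕ} (hf : f < D.N.E) (hT : D.T f = true) (i : ℕ × Bool) :
    |ar D f i| ≤ 1 := by
  have ht := t_pos' D f
  rw [ar, abs_div, abs_of_pos ht, div_le_one ht]
  exact_mod_cast abs_al h hf hT i

theorem max_xA_le (h : D.OK) {β : Cfg} (hβ : ∀ i, β i ≤ pU D.P + 2) {f : ℕ} (hf : f < D.N.E)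
    (hT : D.T f = true) : max (xA D β f) 0 ≤ 8 * D.P * pM D.P := by
  have h1 : (D.ovA (cX β) (cY β) f : ℝ) ≤ 8 * D.P * pM D.P * D.t f := by
    exact_mod_cast (h.ov_le (fun e => hβ _) (fun e => hβ _) hf hT).1
  rw [ovA_eq, mul_comm] at h1
  exact le_of_mul_le_mul_right h1 (t_pos' D f)
theorem max_xB_le (h : D.OK) {β : Cfg} (hβ : ∀ i, β i ≤ pU D.P + 2) {f : ℕ} (hf : f < D.N.E)
    (hT : D.T f = true) : max (xB D β f) 0 ≤ 8 * D.P * pM D.P := by
  have h1 : (D.ovB (cX β) (cY β) f : ℝ) ≤ 8 * D.P * pM D.P * D.t f := by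
    exact_mod_cast (h.ov_le (fun e => hβ _) (fun e => hβ _) hf hT).2
  rw [ovB_eq, mul_comm] at h1
  exact le_of_mul_le_mul_right h1 (t_pos' D f)

end HSX

end Crest.Agent.R309
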