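import Crest.Agent.R309.Basic
import Crest.Agent.R309.Block
import Crest.Agent.R309.HSAux

/-! Row 309: the ideal weight is locally Lorentzian. -/

set_option autoImplicit false

namespace Crest.Agent.R309

open Crest.Agent.PT Crest.Enc Finset

namespace HSX

/-- second difference of the positive cube -/
noncomputable def c2 (x a b : ℝ) : ℝ :=
  max (x + a + b) 0 ^ 3 - max (x + a) 0 ^ 3 - max (x + b) 0 ^ 3 + max x 0 ^ 3

theorem c2_zero {x a b : ℝ} (h : a = 0 ∨ b = 0) : c2 x a b = 0 := by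
  unfold c2
  rcases h with rfl | rfl <;> simp

variable (D : Dat)

theorem d2_phi (β : Cfg) (i j : ℕ × Bool) :
    d2 (fun β => D.phi (cX β) (cY β)) β i j = ∑ f ∈ range D.N.E, if D.T f then
      (c2 (xA D β f) (ar D f i) (ar D f j) + c2 (xB D β f) (-ar D f i) (-ar D f j))
        / (pW D.P : ℝ) ^ 3 else 0 := by
  simp only [d2, phi_eq, xA_add, xB_add]
  rw [← sum_sub_distrib, ← sum_sub_distrib, ← sum_add_distrib]
  refine sum_congr rfl fun f _ => ?_
  split_ifs
  · unfold c2; ring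
  · simp

theorem d2_mar (β : Cfg) (i j : ℕ × Bool) :
    d2 (fun β => D.mar (cX β) (cY β)) β i j
      = if i = j ∧ i ∈ dirs D.N.E then 2 / (pQ D.P : ℝ) else 0 := by
  simp only [d2, mar_eq]
  rw [← sub_div, ← sub_div, ← add_div, ← sum_sub_distrib, ← sum_sub_distrib, ← sum_add_distrib]
  have : ∀ l, (((β + uv i + uv j) l : ℕ) : ℝ) ^ 2 - (((β + uv i) l : ℕ) : ℝ) ^ 2
      - (((β + uv j) l : ℕ) : ℝ) ^ 2 + ((β l : ℕ) : ℝ) ^ 2
      = if i = l then (if i = j then 2 else 0) else 0 := by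
    intro l
    simp only [add_uv]
    by_cases h1 : l = i <;> by_cases h2 : l = j
    · subst h1; subst h2; simp; ring
    · subst h1; simp [h2]
    · subst h2; simp [h1, Ne.symm h1]
    · simp [h1, h2, Ne.symm h1]
  simp only [this, sum_ite_eq]
  by_cases h1 : i = j <;> by_cases h2 : i ∈ dirs D.N.E <;> simp [h1, h2]
  all_goals simp_all

/-- the argument of the absolute value -/
noncomputable def Sb (K₀ : ℕ) (γ : ℤ) (β : Cfg) (K : ℕ) : ℝ :=
  (D.dK (cX β) (cY β) K : ℝ) + if K = K₀ then (β (D.N.E, true) : ℝ) + γ else 0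

theorem Sb_add (K₀ : ℕ) (γ : ℤ) (β : Cfg) {i : ℕ × Bool}
    (hi : i ∈ insert (D.N.E, true) (dirs D.N.E)) (K : ℕ) :
    Sb D K₀ γ (β + uv i) K = Sb D K₀ γ β K + if D.bl K₀ i = K then 1 else 0 := by
  unfold Sb
  rw [dK_add D β i K₀, add_uv]
  rcases mem_insert.1 hi with rfl | hi
  · have : D.bl K₀ (D.N.E, true) = K₀ := by simp [Dat.bl]
    rw [this]
    by_cases hK : K = K₀
    · simp [hK]; ring
    · simp [hK, Ne.symm hK]
  · have h1 := mem_dirs'.1 hi
    have h2 : (D.N.E, true) ≠ i := by rintro rfl; exact lt_irrefl _ h1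
    rw [if_pos h1, if_neg h2]
    split_ifs <;> push_cast <;> ring

noncomputable def gb (K₀ : ℕ) (γ : ℤ) (β : Cfg) (b : ℕ) : ℝ :=
  if b < D.N.V then |Sb D K₀ γ β b + 2| - 2 * |Sb D K₀ γ β b + 1| + |Sb D K₀ γ β b| else 0

theorem gb_nonneg (K₀ : ℕ) (γ : ℤ) (β : Cfg) (b : ℕ) : 0 ≤ gb D K₀ γ β b := by
  unfold gb
  split_ifs
  · generalize Sb D K₀ γ β b = s
    have := abs_add_le (s + 2) s
    rw [show s + 2 + s = 2 * (s + 1) by ring, abs_mul, abs_two] at this
    linarith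
  · exact le_rfl

theorem d2_abs (K₀ : ℕ) (γ : ℤ) (β : Cfg) {i j : ℕ × Bool}
    (hi : i ∈ insert (D.N.E, true) (dirs D.N.E)) (hj : j ∈ insert (D.N.E, true) (dirs D.N.E)) :
    d2 (fun β => ∑ K ∈ range D.N.V, |Sb D K₀ γ β K|) β i j
      = if D.bl K₀ i = D.bl K₀ j then gb D K₀ γ β (D.bl K₀ i) else 0 := by
  simp only [d2, Sb_add D K₀ γ _ hi, Sb_add D K₀ γ _ hj]
  rw [← sum_sub_distrib, ← sum_sub_distrib, ← sum_add_distrib]
  split_ifs with h
  · rw [← h]
    have : ∀ K, |Sb D K₀ γ β K + (if D.bl K₀ i = K then 1 else 0) + (if D.bl K₀ i = K then 1 else 0)|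
        - |Sb D K₀ γ β K + (if D.bl K₀ i = K then 1 else 0)|
        - |Sb D K₀ γ β K + (if D.bl K₀ i = K then 1 else 0)| + |Sb D K₀ γ β K|
        = if D.bl K₀ i = K then
          |Sb D K₀ γ β K + 2| - 2 * |Sb D K₀ γ β K + 1| + |Sb D K₀ γ β K| else 0 := by
      intro K
      split_ifs
      · rw [add_assoc, one_add_one_eq_two]; ring
      · simp
    simp only [this, sum_ite_eq, mem_range, gb]
  · refine sum_eq_zero fun K _ => ?_
    by_cases h1 : D.bl K₀ i = K
    · have h2 : D.bl K₀ j ≠ K := fun h2 => h (h1.trans h2.symm)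
      simp [h1, h2]
    · simp [h1]

theorem d2_lin (k : List ℤ) (β : Cfg) (i j : ℕ × Bool) :
    d2 (fun β => ∑ K ∈ range D.N.V, (k.getD K 0 : ℝ) * D.dK (cX β) (cY β) K) β i j = 0 := by
  simp only [d2, dK_add D _ _ 0]
  rw [← sum_sub_distrib, ← sum_sub_distrib, ← sum_add_distrib]
  refine sum_eq_zero fun K _ => ?_
  push_cast
  ring

theorem d2_V (k : List ℤ) (K₀ : ℕ) (γ : ℤ) (β : Cfg) (i j : ℕ × Bool) :
    d2 (fun β => Real.log 2 * D.Vr k K₀ γ β) β i j
      = Real.log 2 * ((pLam D.P : ℝ) * d2 (fun β => ∑ K ∈ range D.N.V, |Sb D K₀ γ β K|) β i j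
        + d2 (fun β => ∑ K ∈ range D.N.V, (k.getD K 0 : ℝ) * D.dK (cX β) (cY β) K) β i j
        + d2 (fun β => D.phi (cX β) (cY β)) β i j + d2 (fun β => D.mar (cX β) (cY β)) β i j) := by
  simp only [d2, Dat.Vr, Sb]
  ring

/-- the positive semidefinite part -/
noncomputable def Am (β : Cfg) (i j : ℕ × Bool) : ℝ :=
  ∑ f ∈ range D.N.E, if D.T f then
    6 * ar D f i * ar D f j * (max (xA D β f) 0 + max (xB D β f) 0) / (pW D.P : ℝ) ^ 3 else 0

theorem Am_psd (β : Cfg) (S : Finset (ℕ × Bool)) (w : ℕ × Bool → ℝ) :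
    0 ≤ ∑ i ∈ S, ∑ j ∈ S, w i * w j * Am D β i j := by
  have : ∑ i ∈ S, ∑ j ∈ S, w i * w j * Am D β i j
      = ∑ f ∈ range D.N.E, if D.T f then
        6 * (max (xA D β f) 0 + max (xB D β f) 0) / (pW D.P : ℝ) ^ 3
          * (∑ i ∈ S, w i * ar D f i) ^ 2 else 0 := by
    simp only [Am, mul_sum]
    calc _ = ∑ i ∈ S, ∑ f ∈ range D.N.E, ∑ j ∈ S, w i * w j * (if D.T f then
            6 * ar D f i * ar D f j * (max (xA D β f) 0 + max (xB D β f) 0) / (pW D.P : ℝ) ^ 3
            else 0) := sum_congr rfl fun i _ => sum_comm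
      _ = ∑ f ∈ range D.N.E, ∑ i ∈ S, ∑ j ∈ S, w i * w j * (if D.T f then
            6 * ar D f i * ar D f j * (max (xA D β f) 0 + max (xB D β f) 0) / (pW D.P : ℝ) ^ 3
            else 0) := sum_comm
      _ = _ := by
          refine sum_congr rfl fun f _ => ?_
          split_ifs
          · rw [sq, sum_mul_sum, mul_sum]
            refine sum_congr rfl fun i _ => ?_
            rw [mul_sum]
            exact sum_congr rfl fun j _ => by ring
          · simp
  rw [this]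
  refine sum_nonneg fun f _ => ?_
  split_ifs
  · have h1 := le_max_right (xA D β f) 0
    have h2 := le_max_right (xB D β f) 0
    positivity
  · exact le_rfl

variable {D}

theorem ar_zero (h : D.OK) {f : ℕ} (hf : f < D.N.E) (hT : D.T f = true) {K₀ : ℕ}
    {i j : ℕ × Bool} (hij : D.bl K₀ i ≠ D.bl K₀ j) : ar D f i = 0 ∨ ar D f j = 0 := by
  by_contra hc
  push Not at hc
  have h1 : al D f i ≠ 0 := fun h0 => hc.1 (by simp [ar, h0])
  have h2 : al D f j ≠ 0 := fun h0 => hc.2 (by simp [ar, h0])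
  exact hij ((bl_of_al h hf hT K₀ h1).trans (bl_of_al h hf hT K₀ h2).symm)

theorem d2_phi_zero (β : Cfg) {i j : ℕ × Bool}
    (h0 : ∀ f < D.N.E, D.T f = true → ar D f i = 0 ∨ ar D f j = 0) :
    d2 (fun β => D.phi (cX β) (cY β)) β i j = 0 := by
  rw [d2_phi]
  refine sum_eq_zero fun f hf => ?_
  split_ifs with hT
  · have := h0 f (mem_range.1 hf) hT
    rw [c2_zero this, c2_zero (by simpa using this)]; simp
  · rfl

theorem W_pos (h : D.OK) : (0 : ℝ) < pW D.P := by
  have := h.one_le_P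
  unfold pW; positivity

theorem sum_bd (h : D.OK) {F : ℕ → ℝ} {B : ℝ} (hB : 0 ≤ B)
    (hF : ∀ f < D.N.E, D.T f = true → |F f| ≤ B) :
    |∑ f ∈ range D.N.E, if D.T f then F f else 0| ≤ D.P * B := by
  refine (abs_sum_le_sum_abs _ _).trans ((sum_le_sum (g := fun _ => B) fun f hf => ?_).trans ?_)
  · split_ifs with hT
    · exact hF f (mem_range.1 hf) hT
    · simpa using hB
  · rw [sum_const, card_range, nsmul_eq_mul]
    exact mul_le_mul_of_nonneg_right (by exact_mod_cast h.E_le) hB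

theorem d2_phi_sub (h : D.OK) (β : Cfg) (i j : ℕ × Bool) :
    |d2 (fun β => D.phi (cX β) (cY β)) β i j - Am D β i j| ≤ D.P * (20 / (pW D.P : ℝ) ^ 3) := by
  have hW := W_pos h
  rw [d2_phi, Am, ← sum_sub_distrib]
  have : ∀ f, ((if D.T f then
      (c2 (xA D β f) (ar D f i) (ar D f j) + c2 (xB D β f) (-ar D f i) (-ar D f j))
        / (pW D.P : ℝ) ^ 3 else 0) - if D.T f then
      6 * ar D f i * ar D f j * (max (xA D β f) 0 + max (xB D β f) 0) / (pW D.P : ℝ) ^ 3 else 0)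
      = if D.T f then ((c2 (xA D β f) (ar D f i) (ar D f j)
          - 6 * ar D f i * ar D f j * max (xA D β f) 0)
        + (c2 (xB D β f) (-ar D f i) (-ar D f j)
          - 6 * (-ar D f i) * (-ar D f j) * max (xB D β f) 0)) / (pW D.P : ℝ) ^ 3 else 0 := by
    intro f
    split_ifs
    · ring
    · simp
  simp only [this]
  refine sum_bd h (by positivity) fun f hf hT => ?_
  have h1 := cube_d2 (xA D β f) _ _ (abs_ar h hf hT i) (abs_ar h hf hT j)
  have h2 := cube_d2 (xB D β f) (-ar D f i) (-ar D f j) (by rw [abs_neg]; exact abs_ar h hf hT i)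
    (by rw [abs_neg]; exact abs_ar h hf hT j)
  rw [abs_div, abs_of_pos (pow_pos hW 3)]
  refine div_le_div_of_nonneg_right ((abs_add_le _ _).trans ?_) (pow_pos hW 3).le
  unfold c2
  linarith

theorem abs_Am (h : D.OK) {β : Cfg} (hβ : ∀ i, β i ≤ pU D.P + 2) (i j : ℕ × Bool) :
    |Am D β i j| ≤ D.P * (96 * D.P * pM D.P / (pW D.P : ℝ) ^ 3) := by
  have hW := W_pos h
  refine sum_bd h (by positivity) fun f hf hT => ?_
  have h1 := max_xA_le h hβ hf hT
  have h2 := max_xB_le h hβ hf hT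
  have h3 := le_max_right (xA D β f) 0
  have h4 := le_max_right (xB D β f) 0
  have h5 : |ar D f i| * |ar D f j| ≤ 1 :=
    mul_le_one₀ (abs_ar h hf hT i) (abs_nonneg _) (abs_ar h hf hT j)
  rw [abs_div, abs_of_pos (pow_pos hW 3)]
  refine div_le_div_of_nonneg_right ?_ (pow_pos hW 3).le
  rw [abs_mul, abs_mul, abs_mul, abs_of_nonneg (add_nonneg h3 h4), abs_of_pos (by norm_num : (0 : ℝ) < 6)]
  have := mul_le_mul_of_nonneg_right h5 (add_nonneg h3 h4)
  nlinarith

/-- the numerical inequalities -/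
theorem numerics {P W M Q l : ℝ} (hP : 1 ≤ P) (hW : W = 2 ^ 40 * P ^ 10) (hM : M = 2 ^ 10 * P ^ 3 * W)
    (hQ : Q = 16 * P * M ^ 2) (hl : 1 / 2 ≤ l) :
    P * (20 / W ^ 3) + P * (96 * P * M / W ^ 3) + 2 / Q ≤ 2 ^ 18 * P ^ 5 / W ^ 2 ∧
      2 ^ 18 * P ^ 5 / W ^ 2 ≤ 1 ∧
      2 * P * (P * (20 / W ^ 3) + (2 ^ 18 * P ^ 5 / W ^ 2) ^ 2) ≤ l * (2 / Q) := by
  have hP0 : 0 < P := by linarith
  have pw : ∀ a b : ℕ, a ≤ b → P ^ a ≤ P ^ b := fun a b hab => pow_le_pow_right₀ hP hab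
  have hW0 : 0 < W := by rw [hW]; positivity
  have hQ' : Q = 2 ^ 24 * P ^ 7 * W ^ 2 := by rw [hQ, hM]; ring
  have hW1 : 20 ≤ W := by
    have := pw 0 10 (by norm_num)
    rw [hW]; nlinarith
  refine ⟨?_, ?_, ?_⟩
  · have h1 : P * (20 / W ^ 3) ≤ P ^ 5 / W ^ 2 := by
      have e : P * (20 / W ^ 3) = P * (20 / W) / W ^ 2 := by field_simp
      rw [e]
      refine div_le_div_of_nonneg_right ?_ (by positivity)
      have t1 : 20 / W ≤ 1 := (div_le_one hW0).2 hW1
      have t2 := pw 1 5 (by norm_num)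
      nlinarith
    have h2 : P * (96 * P * M / W ^ 3) = 98304 * (P ^ 5 / W ^ 2) := by rw [hM]; field_simp; ring
    have h3 : 2 / Q ≤ P ^ 5 / W ^ 2 := by
      rw [hQ', div_le_div_iff₀ (by positivity) (by positivity)]
      have t1 : 1 ≤ P ^ 12 := one_le_pow₀ hP
      have t2 : P ^ 5 * (2 ^ 24 * P ^ 7 * W ^ 2) = 2 ^ 24 * P ^ 12 * W ^ 2 := by ring
      rw [t2]
      exact mul_le_mul_of_nonneg_right (by nlinarith) (sq_nonneg W)
    have h4 : 0 ≤ P ^ 5 / W ^ 2 := by positivity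
    rw [mul_div_assoc (2 ^ 18)]
    linarith
  · rw [div_le_one (by positivity), hW]
    have := pw 5 20 (by norm_num)
    have h4 : 0 ≤ P ^ 20 := by positivity
    nlinarith
  · have h1 : 2 * P * (P * (20 / W ^ 3)) ≤ 1 / 2 * (1 / Q) := by
      have e1 : 2 * P * (P * (20 / W ^ 3)) = (40 * P ^ 2 / W) / W ^ 2 := by field_simp; ring
      have e2 : 1 / 2 * (1 / Q) = (1 / (2 ^ 25 * P ^ 7)) / W ^ 2 := by rw [hQ']; field_simp
      rw [e1, e2]
      refine div_le_div_of_nonneg_right ?_ (by positivity)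
      rw [div_le_div_iff₀ hW0 (by positivity), hW]
      have := pw 9 10 (by norm_num)
      have h4 : 0 ≤ P ^ 10 := by positivity
      nlinarith
    have h2 : 2 * P * (2 ^ 18 * P ^ 5 / W ^ 2) ^ 2 ≤ 1 / 2 * (1 / Q) := by
      have e1 : 2 * P * (2 ^ 18 * P ^ 5 / W ^ 2) ^ 2 = (2 ^ 37 * P ^ 11 / W ^ 2) / W ^ 2 := by
        field_simp
      have e2 : 1 / 2 * (1 / Q) = (1 / (2 ^ 25 * P ^ 7)) / W ^ 2 := by rw [hQ']; field_simp
      rw [e1, e2]
      refine div_le_div_of_nonneg_right ?_ (by positivity)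
      rw [div_le_div_iff₀ (by positivity) (by positivity), hW]
      have := pw 18 20 (by norm_num)
      have h4 : 0 ≤ P ^ 20 := by positivity
      nlinarith
    have h3 : 0 ≤ 1 / Q := by rw [hQ']; positivity
    have h4 : l * (2 / Q) = 2 * l * (1 / Q) := by ring
    rw [h4]
    nlinarith

end HSX
open HSX

theorem Dat.OK.SL_cI {D : Dat} (h : D.OK) (k : List ℤ) (K₀ : ℕ) (γ : ℤ) (β : Cfg)
    (hβ : ∀ i, β i ≤ pU D.P) : SL (insert (D.N.E, true) (dirs D.N.E)) (D.cI k K₀ γ) β := by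
  have hl0 : 0 < Real.log 2 := Real.log_pos (by norm_num)
  have hl1 : Real.log 2 ≤ 1 := by have := Real.log_two_lt_d9; linarith
  have hl2 : 1 / 2 ≤ Real.log 2 := by have := Real.log_two_gt_d9; linarith
  have hβ' : ∀ i, β i ≤ pU D.P + 2 := fun i => (hβ i).trans (Nat.le_add_right _ _)
  obtain ⟨n1, n2, n3⟩ := numerics (P := D.P) (W := pW D.P) (M := pM D.P) (Q := pQ D.P)
    (by exact_mod_cast h.one_le_P) (by unfold pW; push_cast; ring)
    (by unfold pM; push_cast; ring) (by unfold pQ; push_cast; ring) hl2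
  have hW := W_pos h
  have hQ : (0 : ℝ) ≤ 2 / (pQ D.P : ℝ) := by positivity
  have hab : ∀ x B : ℝ, |x| ≤ B → |Real.log 2 * x| ≤ B := fun x B hx => by
    rw [abs_mul, abs_of_pos hl0]
    exact (mul_le_of_le_one_left (abs_nonneg _) hl1).trans hx
  refine SL_block (fun β => Real.log 2 * D.Vr k K₀ γ β) β (D.bl K₀)
    (fun b => Real.log 2 * (pLam D.P * gb D K₀ γ β b))
    (fun i j => Real.log 2 * (d2 (fun β => D.phi (cX β) (cY β)) β i j
      + d2 (fun β => D.mar (cX β) (cY β)) β i j))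
    (fun b => mul_nonneg hl0.le (mul_nonneg (Nat.cast_nonneg _) (gb_nonneg D K₀ γ β b)))
    (fun i hi j hj => ?_) ?_
  · rw [d2_V, d2_abs D K₀ γ β hi hj, d2_lin]
    split_ifs with hij
    · ring
    · rw [d2_phi_zero β fun f hf hT => ar_zero h hf hT hij, d2_mar,
        if_neg fun h' => hij (by rw [h'.1])]
      ring
  · refine exp_neg_sub_one_nonpos (D.bl K₀) _ (fun i j => Real.log 2 * Am D β i j) (dirs D.N.E)
      (Real.log 2 * (2 / (pQ D.P : ℝ))) (D.P * (20 / (pW D.P : ℝ) ^ 3))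
      (2 ^ 18 * (D.P : ℝ) ^ 5 / (pW D.P : ℝ) ^ 2) (subset_insert _ _) (fun w => ?_)
      (fun i hi j hj hij => ?_) (fun i hi j hj _ => ?_) (fun i hi j hj _ => ?_) n2 ?_
    · have := mul_nonneg hl0.le (Am_psd D β (dirs D.N.E) w)
      refine this.trans (le_of_eq ?_)
      rw [mul_sum]
      refine sum_congr rfl fun i _ => ?_
      rw [mul_sum]
      refine sum_congr rfl fun j _ => ?_
      split_ifs with hij
      · ring
      · have : Am D β i j = 0 := sum_eq_zero fun f hf => by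
          split_ifs with hT
          · rcases ar_zero h (mem_range.1 hf) hT hij with h0 | h0 <;> simp [h0]
          · rfl
        rw [this]; ring
    · have h0 : ∀ i, i ∉ dirs D.N.E → ∀ f, ar D f i = 0 := fun i hi f => by
        rw [ar, al_extra D f fun h' => hi (mem_dirs'.2 h')]; simp
      rw [d2_phi_zero β fun f _ _ => hij.imp (fun h' => h0 i h' f) (fun h' => h0 j h' f), d2_mar,
        if_neg fun h' : i = j ∧ i ∈ dirs D.N.E =>
          hij.elim (fun h2 => h2 h'.2) (fun h2 => h2 (h'.1 ▸ h'.2))]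
      ring
    · have h1 := hab _ _ (d2_phi_sub h β i j)
      refine le_trans (le_of_eq ?_) h1
      congr 1
      rw [d2_mar]
      by_cases hij : i = j
      · rw [if_pos ⟨hij, hi⟩, if_pos hij]; ring
      · rw [if_neg fun h' => hij h'.1, if_neg hij]; ring
    · refine hab _ _ (le_trans ?_ n1)
      have h1 := abs_le.1 (d2_phi_sub h β i j)
      have h2 := abs_le.1 (abs_Am h hβ' i j)
      have h3 : 0 ≤ d2 (fun β => D.mar (cX β) (cY β)) β i j ∧
          d2 (fun β => D.mar (cX β) (cY β)) β i j ≤ 2 / (pQ D.P : ℝ) := by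
        rw [d2_mar]
        split_ifs
        · exact ⟨hQ, le_rfl⟩
        · exact ⟨le_rfl, hQ⟩
      rw [abs_le]
      constructor <;> linarith [h1.1, h1.2, h2.1, h2.2, h3.1, h3.2]
    · refine le_trans (mul_le_mul_of_nonneg_right ?_ (by positivity)) n3
      rw [card_dirs]
      have : (D.N.E : ℝ) ≤ D.P := by exact_mod_cast h.E_le
      push_cast
      linarith

end Crest.Agent.R309
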