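import Crest.Agent.R309.Basic
import Crest.Agent.R309.Block

/-! Row 309: ratios of the ideal weight. -/

set_option autoImplicit false

namespace Crest.Agent.R309

open Crest.Agent.PT Crest.Enc Finset

namespace RatioX

variable {D : Dat}

theorem uv_apply (i j : ℕ × Bool) : uv i j = if j = i then 1 else 0 := by
  simp [uv, Pi.single_apply]

theorem dK_add (β : Cfg) {i : ℕ × Bool} (hi : i.1 < D.N.E) (K : ℕ) :
    D.dK (fun e => (β + uv i) (e, true)) (fun e => (β + uv i) (e, false)) K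
      = D.dK (fun e => β (e, true)) (fun e => β (e, false)) K + if K = D.bl 0 i then 1 else 0 := by
  obtain ⟨e, b⟩ := i
  unfold Dat.dK
  have h : ∀ j ∈ range D.N.E,
      ((if D.lab (D.N.s j) = K then (((β + uv (e, b)) (j, true) : ℕ) : ℤ) else 0) +
        if D.lab (D.N.d j) = K then (((β + uv (e, b)) (j, false) : ℕ) : ℤ) - D.ρ j else 0)
      = ((if D.lab (D.N.s j) = K then (β (j, true) : ℤ) else 0) +
        if D.lab (D.N.d j) = K then (β (j, false) : ℤ) - D.ρ j else 0)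
        + if j = e then (if K = D.bl 0 (e, b) then 1 else 0) else 0 := by
    intro j _
    simp only [Pi.add_apply, uv_apply, Prod.mk.injEq, Dat.bl, hi, if_true]
    by_cases hj : j = e
    · subst hj
      cases b <;> simp only [true_and, Bool.true_eq_false, Bool.false_eq_true, if_true, if_false,
        eq_comm (a := K)] <;> split_ifs <;> push_cast <;> ring
    · simp [hj]
  rw [Finset.sum_congr rfl h, Finset.sum_add_distrib, Finset.sum_ite_eq', if_pos (mem_range.2 hi)]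
  ring

theorem sq_add (β : Cfg) {i : ℕ × Bool} (hi : i.1 < D.N.E) :
    ∑ e ∈ range D.N.E, ((((β + uv i) (e, true) : ℕ) : ℝ) ^ 2 + (((β + uv i) (e, false) : ℕ) : ℝ) ^ 2)
      = ∑ e ∈ range D.N.E, ((β (e, true) : ℝ) ^ 2 + (β (e, false) : ℝ) ^ 2) + (2 * β i + 1) := by
  obtain ⟨e, b⟩ := i
  have h : ∀ j ∈ range D.N.E,
      ((((β + uv (e, b)) (j, true) : ℕ) : ℝ) ^ 2 + (((β + uv (e, b)) (j, false) : ℕ) : ℝ) ^ 2)
      = ((β (j, true) : ℝ) ^ 2 + (β (j, false) : ℝ) ^ 2)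
        + if j = e then (2 * (β (e, b) : ℝ) + 1) else 0 := by
    intro j _
    simp only [Pi.add_apply, uv_apply, Prod.mk.injEq]
    by_cases hj : j = e
    · subst hj
      cases b <;> simp only [true_and, Bool.true_eq_false, Bool.false_eq_true, if_true,
        if_false] <;> push_cast <;> ring
    · simp [hj]
  rw [Finset.sum_congr rfl h, Finset.sum_add_distrib, Finset.sum_ite_eq', if_pos (mem_range.2 hi)]

theorem cube_diff {x y B a : ℝ} (x0 : 0 ≤ x) (y0 : 0 ≤ y) (hx : x ≤ B) (hy : y ≤ B)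
    (h : |x - y| ≤ a) : |x ^ 3 - y ^ 3| ≤ a * (3 * B ^ 2) := by
  have e : x ^ 3 - y ^ 3 = (x - y) * (x * x + x * y + y * y) := by ring
  have B0 : 0 ≤ B := x0.trans hx
  have h1 := mul_le_mul hx hx x0 B0
  have h2 := mul_le_mul hx hy y0 B0
  have h3 := mul_le_mul hy hy y0 B0
  rw [e, abs_mul, abs_of_nonneg (by positivity : 0 ≤ x * x + x * y + y * y)]
  exact mul_le_mul h (by linarith) (by positivity) ((abs_nonneg _).trans h)

theorem toNat_diff {x y : ℤ} {a : ℕ} (h : |x - y| ≤ a) :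
    |((x.toNat : ℕ) : ℝ) - ((y.toNat : ℕ) : ℝ)| ≤ a := by
  have h1 : |((x.toNat : ℕ) : ℤ) - ((y.toNat : ℕ) : ℤ)| ≤ a := by
    rw [abs_le] at h ⊢; omega
  exact_mod_cast h1

theorem phi_diff (h : D.OK) {X Y X' Y' : ℕ → ℕ} (hX : ∀ e, X e ≤ pU D.P + 2)
    (hY : ∀ e, Y e ≤ pU D.P + 2) (hX' : ∀ e, X' e ≤ pU D.P + 2) (hY' : ∀ e, Y' e ≤ pU D.P + 2)
    (dX : ∀ e, |(X' e : ℤ) - X e| ≤ 1) (dY : ∀ e, |(Y' e : ℤ) - Y e| ≤ 1) :
    |D.phi X' Y' - D.phi X Y| ≤ 1 / 2 := by
  have P1 : (1 : ℝ) ≤ D.P := by exact_mod_cast h.one_le_P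
  have EP : (D.N.E : ℝ) ≤ D.P := by exact_mod_cast h.E_le
  unfold Dat.phi
  rw [← Finset.sum_sub_distrib]
  refine (Finset.abs_sum_le_sum_abs _ _).trans ?_
  refine (Finset.sum_le_card_nsmul _ _ (1 / (2 * (D.P : ℝ))) fun f hf => ?_).trans ?_
  · have hf := mem_range.1 hf
    by_cases hT : D.T f = true
    swap
    · simp only [hT, Bool.false_eq_true, if_false, sub_self, abs_zero]; positivity
    simp only [hT, if_true]
    have t0 : (0 : ℝ) < D.t f := by exact_mod_cast D.t_pos f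
    have hl : |D.ell X' Y' f - D.ell X Y f| ≤ ((D.P * D.t f : ℕ) : ℤ) := by
      have := h.cut_sub (fun e => (D.t e : ℤ) * X' e) (fun e => (D.t e : ℤ) * ((D.ρ e : ℤ) - Y' e))
        (fun e => (D.t e : ℤ) * X e) (fun e => (D.t e : ℤ) * ((D.ρ e : ℤ) - Y e)) hf hT 1
        (fun e _ _ => by
          rw [← mul_sub, abs_mul, abs_of_nonneg (by positivity), Nat.cast_one, one_mul]
          exact mul_le_of_le_one_right (by positivity) (dX e))
        (fun e _ _ => by
          rw [← mul_sub, abs_mul, abs_of_nonneg (by positivity), Nat.cast_one, one_mul,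
            sub_sub_sub_cancel_left, abs_sub_comm]
          exact mul_le_of_le_one_right (by positivity) (dY e))
      rw [Nat.cast_one, mul_one] at this
      rw [Nat.cast_mul]
      exact this
    have o1 := h.ov_le hX hY hf hT
    have o2 := h.ov_le hX' hY' hf hT
    have cA : |(D.ovA X' Y' f : ℝ) ^ 3 - (D.ovA X Y f : ℝ) ^ 3|
        ≤ (D.P * D.t f : ℕ) * (3 * ((8 * D.P * pM D.P * D.t f : ℕ) : ℝ) ^ 2) := by
      refine cube_diff (Nat.cast_nonneg _) (Nat.cast_nonneg _) (Nat.cast_le.2 o2.1)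
        (Nat.cast_le.2 o1.1) (toNat_diff ?_)
      refine le_trans (le_of_eq ?_) hl
      congr 1; ring
    have cB : |(D.ovB X' Y' f : ℝ) ^ 3 - (D.ovB X Y f : ℝ) ^ 3|
        ≤ (D.P * D.t f : ℕ) * (3 * ((8 * D.P * pM D.P * D.t f : ℕ) : ℝ) ^ 2) := by
      refine cube_diff (Nat.cast_nonneg _) (Nat.cast_nonneg _) (Nat.cast_le.2 o2.2)
        (Nat.cast_le.2 o1.2) (toNat_diff ?_)
      refine le_trans (le_of_eq ?_) hl
      rw [abs_sub_comm (D.ell X' Y' f)]
      congr 1; ring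
    have W0 : (0 : ℝ) < pW D.P := by unfold pW; push_cast; positivity
    rw [← sub_div, abs_div, abs_of_pos (by positivity : (0 : ℝ) < ((pW D.P : ℝ) * D.t f) ^ 3),
      div_le_div_iff₀ (by positivity) (by positivity), add_sub_add_comm]
    refine (mul_le_mul_of_nonneg_right ((abs_add_le _ _).trans (add_le_add cA cB))
      (by positivity)).trans ?_
    have hW : (pW D.P : ℝ) = 2 ^ 40 * (D.P : ℝ) ^ 10 := by unfold pW; push_cast; ring
    have hM : (pM D.P : ℝ) = 2 ^ 10 * (D.P : ℝ) ^ 3 * pW D.P := by unfold pM; push_cast; ring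
    push_cast
    rw [hM]
    have key : (0 : ℝ) ≤ (D.P : ℝ) ^ 10 * (pW D.P : ℝ) ^ 2 * (D.t f : ℝ) ^ 3 := by positivity
    have e : ((pW D.P : ℝ) * D.t f) ^ 3
        = 2 ^ 40 * ((D.P : ℝ) ^ 10 * (pW D.P : ℝ) ^ 2 * (D.t f : ℝ) ^ 3) := by
      rw [mul_pow, pow_succ (pW D.P : ℝ) 2]
      nth_rewrite 2 [hW]
      ring
    rw [e]
    linarith
  · rw [Finset.card_range, nsmul_eq_mul, mul_one_div, div_le_div_iff₀ (by positivity) (by norm_num)]
    linarith

theorem mar_small (h : D.OK) {x : ℕ} (hx : x ≤ pU D.P) :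
    (2 * (x : ℝ) + 1) / pQ D.P ≤ 1 / 2 := by
  have P1 := h.one_le_P
  have M2 : 2 ≤ pM D.P := by
    unfold pM pW
    have : 1 ≤ D.P ^ 3 * D.P ^ 10 := Nat.mul_pos (by positivity) (by positivity)
    nlinarith
  have h1 : 2 * (2 * x + 1) ≤ pQ D.P := by
    unfold pU at hx
    unfold pQ
    have : pM D.P ^ 2 ≤ D.P * pM D.P ^ 2 := Nat.le_mul_of_pos_left _ P1
    nlinarith
  have h2 : (2 : ℝ) * (2 * x + 1) ≤ pQ D.P := by exact_mod_cast h1
  have h3 : (0 : ℝ) < 2 * (2 * x + 1) := by positivity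
  rw [div_le_div_iff₀ (by linarith) (by norm_num)]
  linarith

theorem bl_lt (h : D.OK) {i : ℕ × Bool} (hi : i.1 < D.N.E) : D.bl 0 i < D.N.V := by
  unfold Dat.bl
  rw [if_pos hi]
  split_ifs
  · exact h.lab_lt _ (h.wf _ hi).1
  · exact h.lab_lt _ (h.wf _ hi).2

theorem Vr_diff (h : D.OK) (k : List ℤ) (K₀ : ℕ) (γ : ℤ) (β : Cfg) (hβ : ∀ i, β i ≤ pU D.P) {i : ℕ × Bool}
    (hi : i.1 < D.N.E) :
    |D.Vr k K₀ γ (β + uv i) - D.Vr k K₀ γ β - k.getD (D.bl 0 i) 0| ≤ pLam D.P + 1 := by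
  have hb := mem_range.2 (bl_lt h hi)
  have hE : (β + uv i) (D.N.E, true) = β (D.N.E, true) := by
    rw [Pi.add_apply, uv_apply, if_neg (fun h' => by rw [← h'] at hi; exact lt_irrefl _ hi),
      add_zero]
  have hu : ∀ j, (β + uv i) j ≤ pU D.P + 2 := fun j => by
    have := hβ j
    rw [Pi.add_apply, uv_apply]; split_ifs <;> omega
  have hd : ∀ j, |(((β + uv i) j : ℕ) : ℤ) - β j| ≤ 1 := fun j => by
    rw [Pi.add_apply, uv_apply]; split_ifs <;> simp
  have h1 := abs_le.1 (phi_diff h (X := fun e => β (e, true)) (Y := fun e => β (e, false))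
    (X' := fun e => (β + uv i) (e, true)) (Y' := fun e => (β + uv i) (e, false))
    (fun e => (hβ _).trans (Nat.le_add_right _ _)) (fun e => (hβ _).trans (Nat.le_add_right _ _))
    (fun e => hu _) (fun e => hu _) (fun e => hd _) (fun e => hd _))
  have h2 : D.mar (fun e => (β + uv i) (e, true)) (fun e => (β + uv i) (e, false))
      = D.mar (fun e => β (e, true)) (fun e => β (e, false)) + (2 * β i + 1) / pQ D.P := by
    unfold Dat.mar
    rw [sq_add β hi, add_div]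
  have h3 := mar_small h (hβ i)
  have h3' : (0 : ℝ) ≤ (2 * β i + 1) / pQ D.P := by positivity
  have h4 : ∑ K ∈ range D.N.V, (k.getD K 0 : ℝ) *
        D.dK (fun e => (β + uv i) (e, true)) (fun e => (β + uv i) (e, false)) K
      = ∑ K ∈ range D.N.V, (k.getD K 0 : ℝ) * D.dK (fun e => β (e, true)) (fun e => β (e, false)) K
        + k.getD (D.bl 0 i) 0 := by
    simp only [dK_add β hi, Int.cast_add, Int.cast_ite, Int.cast_one, Int.cast_zero, mul_add,
      mul_ite, mul_one, mul_zero, Finset.sum_add_distrib, Finset.sum_ite_eq', if_pos hb]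
  have h5 : abs (∑ K ∈ range D.N.V,
        |(D.dK (fun e => (β + uv i) (e, true)) (fun e => (β + uv i) (e, false)) K : ℝ) +
          if K = K₀ then (β (D.N.E, true) : ℝ) + γ else 0| -
      ∑ K ∈ range D.N.V, |(D.dK (fun e => β (e, true)) (fun e => β (e, false)) K : ℝ) +
          if K = K₀ then (β (D.N.E, true) : ℝ) + γ else 0|) ≤ 1 := by
    rw [← Finset.sum_sub_distrib]
    refine (Finset.abs_sum_le_sum_abs _ _).trans ?_
    refine (Finset.sum_le_sum (g := fun K => if K = D.bl 0 i then (1 : ℝ) else 0)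
      fun K _ => ?_).trans ?_
    · refine (abs_abs_sub_abs_le_abs_sub _ _).trans ?_
      rw [dK_add β hi, add_sub_add_right_eq_sub]
      push_cast
      rw [add_sub_cancel_left]
      split_ifs <;> simp
    · rw [Finset.sum_ite_eq', if_pos hb]
  have L0 : (0 : ℝ) ≤ pLam D.P := Nat.cast_nonneg _
  have h6 := mul_le_mul_of_nonneg_left (abs_le.1 h5).1 L0
  have h7 := mul_le_mul_of_nonneg_left (abs_le.1 h5).2 L0
  unfold Dat.Vr
  rw [hE, h2, h4, abs_le]
  constructor <;> linarith [h1.1, h1.2]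

end RatioX

open RatioX

theorem Dat.OK.ratio_cI {D : Dat} (h : D.OK) (k : List ℤ) (β : Cfg) (hβ : ∀ i, β i ≤ pU D.P)
    {i : ℕ × Bool} (hi : i ∈ dirs D.N.E) :
    D.cI k 0 0 (β + uv i) ≤ (pK D.P : ℝ) * D.ζ k i * D.cI k 0 0 β ∧
      D.ζ k i * D.cI k 0 0 β ≤ (pK D.P : ℝ) * D.cI k 0 0 (β + uv i) := by
  have hi' : i.1 < D.N.E := by
    unfold dirs at hi
    exact mem_range.1 (mem_product.1 hi).1
  have hd := abs_le.1 (Vr_diff h k 0 0 β hβ hi')
  have l0 : 0 ≤ Real.log 2 := Real.log_nonneg (by norm_num)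
  have hK : (pK D.P : ℝ) = Real.exp (Real.log 2 * (pLam D.P + 1)) := by
    rw [← Real.rpow_def_of_pos (by norm_num), ← Nat.cast_succ, Real.rpow_natCast]
    unfold pK; push_cast; rfl
  have hζ : D.ζ k i = Real.exp (Real.log 2 * (-(k.getD (D.bl 0 i) 0 : ℤ))) := by
    rw [← Real.rpow_def_of_pos (by norm_num), ← Int.cast_neg, Real.rpow_intCast]
    rfl
  have h1 := mul_le_mul_of_nonneg_left hd.1 l0
  have h2 := mul_le_mul_of_nonneg_left hd.2 l0
  unfold Dat.cI
  rw [hK, hζ]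
  simp only [← Real.exp_add, Real.exp_le_exp]
  constructor <;> linarith

end Crest.Agent.R309
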