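import Crest.Agent.R309.Step
import Crest.Agent.R309.HS
import Crest.Agent.R309.Ratio
import Crest.Agent.R309.Bridge
import Crest.Agent.R309.Mix

/-! Row 309: mixing of the chain. -/

set_option autoImplicit false

namespace Crest.Agent.R309

open Crest.Agent.PT Crest.Enc Finset

namespace ChainX

theorem var_eq {σ : Type} (Ω : Finset σ) (w f : σ → ℝ) :
    2 * ((∑ a ∈ Ω, w a) * (∑ a ∈ Ω, w a * f a ^ 2) - (∑ a ∈ Ω, w a * f a) ^ 2)
      = ∑ a ∈ Ω, ∑ b ∈ Ω, w a * w b * (f a - f b) ^ 2 := by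
  have e1 : (∑ a ∈ Ω, w a) * (∑ a ∈ Ω, w a * f a ^ 2) = ∑ a ∈ Ω, ∑ b ∈ Ω, w a * (w b * f b ^ 2) :=
    sum_mul_sum _ _ _ _
  have e2 : (∑ a ∈ Ω, w a) * (∑ a ∈ Ω, w a * f a ^ 2) = ∑ a ∈ Ω, ∑ b ∈ Ω, w a * f a ^ 2 * w b := by
    rw [mul_comm]; exact sum_mul_sum _ _ _ _
  have e3 : (∑ a ∈ Ω, w a * f a) ^ 2 = ∑ a ∈ Ω, ∑ b ∈ Ω, w a * f a * (w b * f b) := by
    rw [sq]; exact sum_mul_sum _ _ _ _
  have e4 : ∑ a ∈ Ω, ∑ b ∈ Ω, w a * w b * (f a - f b) ^ 2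
      = ∑ a ∈ Ω, ∑ b ∈ Ω, w a * (w b * f b ^ 2) + ∑ a ∈ Ω, ∑ b ∈ Ω, w a * f a ^ 2 * w b
        - 2 * ∑ a ∈ Ω, ∑ b ∈ Ω, w a * f a * (w b * f b) := by
    simp only [mul_sum, ← sum_add_distrib, ← sum_sub_distrib]
    exact sum_congr rfl fun a _ => sum_congr rfl fun b _ => by ring
  linarith

theorem var_le {σ : Type} (Ω : Finset σ) (w c f : σ → ℝ) (h0 : ∀ a, 0 ≤ w a)
    (h : ∀ a, w a ≤ 2 * c a) :
    (∑ a ∈ Ω, w a) * (∑ a ∈ Ω, w a * f a ^ 2) - (∑ a ∈ Ω, w a * f a) ^ 2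
      ≤ 4 * ((∑ a ∈ Ω, c a) * (∑ a ∈ Ω, c a * f a ^ 2) - (∑ a ∈ Ω, c a * f a) ^ 2) := by
  have e1 := var_eq Ω w f
  have e2 := var_eq Ω c f
  have e3 : ∑ a ∈ Ω, ∑ b ∈ Ω, w a * w b * (f a - f b) ^ 2
      ≤ 4 * ∑ a ∈ Ω, ∑ b ∈ Ω, c a * c b * (f a - f b) ^ 2 := by
    simp only [mul_sum]
    refine sum_le_sum fun a _ => sum_le_sum fun b _ => ?_
    have h1 : w a * w b ≤ 2 * c a * (2 * c b) := mul_le_mul (h a) (h b) (h0 b) ((h0 a).trans (h a))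
    have h2 := mul_le_mul_of_nonneg_right h1 (sq_nonneg (f a - f b))
    linarith
  linarith

theorem getD_inc {a : List ℕ} {e : ℕ} (he : e < a.length) (i : ℕ) :
    (inc a e).getD i 0 = if i = e then a.getD e 0 + 1 else a.getD i 0 := by
  unfold inc
  split_ifs with h
  · subst h
    simp [List.getD_eq_getElem?_getD, he]
  · simp [List.getD_eq_getElem?_getD, Ne.symm h]

theorem exp_neg_le (n : ℕ) : Real.exp (-(n : ℝ)) ≤ (2 : ℝ)⁻¹ ^ n := by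
  have h : Real.exp (-1) ≤ 2⁻¹ := by
    rw [Real.exp_neg]
    exact inv_anti₀ (by norm_num) (by linarith [Real.add_one_le_exp (1 : ℝ)])
  rw [show -(n : ℝ) = n * (-1) by ring, Real.exp_nat_mul]
  exact pow_le_pow_left₀ (Real.exp_pos _).le h n

theorem one_le_pC (P : ℕ) : 1 ≤ pC P := by
  unfold pC pU pK
  exact Nat.succ_le_of_lt (by positivity)

end ChainX

namespace Dat

open ChainX

variable {D : Dat}

theorem inc_mem {a : List ℕ} (ha : a ∈ D.Ω) {e : ℕ} (he : e < D.N.E) (h : a.getD e 0 < D.ρ e) :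
    inc a e ∈ D.Ω := by
  obtain ⟨h1, h2⟩ := mem_Ω.1 ha
  refine mem_Ω.2 ⟨by simp [inc, h1], fun i hi => ?_⟩
  rw [getD_inc (by omega)]
  split_ifs with h3
  · subst h3; exact h
  · exact h2 i hi

theorem OK.poincare (h : D.OK) {k : List ℤ} (hk : D.KB k) (f : List ℕ → ℝ) :
    (∑ a ∈ D.Ω, D.wt k a) * (∑ a ∈ D.Ω, D.wt k a * f a ^ 2) - (∑ a ∈ D.Ω, D.wt k a * f a) ^ 2 ≤
      (pC D.P : ℝ) * (∑ a ∈ D.Ω, D.wt k a) * ∑ a ∈ D.Ω, ∑ b ∈ D.Ω,
        D.wt k a * Pr (L1 D.P) (fun r => D.step k a r = b) * (f a - f b) ^ 2 := by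
  have hK : (1 : ℝ) ≤ (pK D.P : ℝ) := by
    unfold pK; exact_mod_cast Nat.one_le_two_pow
  have hP := poincare_bx (E := D.N.E) (c := D.cI k 0 0) (D.cI_pos k 0 0) (U := pU D.P)
    (fun β hβ => (h.SL_cI k 0 0 β hβ).mono (subset_insert _ _)) hK (D.ζ k)
    (fun i => by unfold ζ; positivity) (fun β hβ i hi => h.ratio_cI k β hβ hi) D.ρL 0 [] D.ρL
    (by unfold pU; omega)
    (fun e he => by rw [getD_ρL he]; have := h.rho_lt e; unfold pU; omega)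
    (fun e he => ⟨by simp, le_rfl⟩) f
  set c : List ℕ → ℝ := fun a => D.cI k 0 0 (cfgOf D.N.E D.ρL 0 a) with hc
  have c1 : ∀ a, c a ≤ D.wt k a := fun a => (h.cI_wt k 0 a).1
  have c2 : ∀ a, D.wt k a ≤ 2 * c a := fun a => (h.cI_wt k 0 a).2
  have c0 : ∀ a, 0 < c a := fun a => D.cI_pos _ _ _ _
  have h1 := var_le D.Ω (D.wt k) c f (fun a => (D.wt_pos k a).le) c2
  set Q := ∑ a ∈ D.Ω, ∑ b ∈ D.Ω,
    D.wt k a * Pr (L1 D.P) (fun r => D.step k a r = b) * (f a - f b) ^ 2 with hQ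
  have t0 : ∀ a b, 0 ≤ D.wt k a * Pr (L1 D.P) (fun r => D.step k a r = b) * (f a - f b) ^ 2 :=
    fun a b => mul_nonneg (mul_nonneg (D.wt_pos k a).le (Pr_nonneg _ _)) (sq_nonneg _)
  have Q0 : 0 ≤ Q := sum_nonneg fun a _ => sum_nonneg fun b _ => t0 a b
  have h2 : ∑ e ∈ range D.N.E, ∑ a ∈ D.Ω.filter (fun a => a.getD e 0 < D.ρL.getD e 0),
      min (c a) (c (inc a e)) * (f (inc a e) - f a) ^ 2 ≤ 4 * 2 ^ Nat.size D.P * Q := by
    simp only [sum_filter]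
    rw [sum_comm, hQ, mul_sum]
    refine sum_le_sum fun a ha => ?_
    have hl := (mem_Ω.1 ha).1
    rw [← sum_filter]
    set A := (range D.N.E).filter fun e => a.getD e 0 < D.ρL.getD e 0 with hA
    have hA' : ∀ e ∈ A, e < D.N.E ∧ a.getD e 0 < D.ρ e := fun e he => by
      obtain ⟨a1, a2⟩ := mem_filter.1 he
      have a3 := mem_range.1 a1
      rw [getD_ρL a3] at a2
      exact ⟨a3, a2⟩
    have inj : Set.InjOn (inc a) A := by
      intro e he e' he' hee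
      by_contra hne
      have b1 := getD_inc (a := a) (e := e) (by rw [hl]; exact (hA' e he).1) e
      have b2 := getD_inc (a := a) (e := e') (by rw [hl]; exact (hA' e' he').1) e
      rw [if_pos rfl] at b1
      rw [if_neg hne, ← hee] at b2
      omega
    calc ∑ e ∈ A, min (c a) (c (inc a e)) * (f (inc a e) - f a) ^ 2
        ≤ ∑ e ∈ A, 4 * 2 ^ Nat.size D.P * (D.wt k a
          * Pr (L1 D.P) (fun r => D.step k a r = inc a e) * (f a - f (inc a e)) ^ 2) := by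
          refine sum_le_sum fun e he => ?_
          have b1 := h.step_mv hk ha (e := e) (up := true) ⟨(hA' e he).1, by simpa using (hA' e he).2⟩
          have e1 : mv a e true = inc a e := rfl
          rw [e1] at b1
          rw [b1]
          have b2 : min (c a) (c (inc a e)) ≤ min (D.wt k a) (D.wt k (inc a e)) :=
            min_le_min (c1 _) (c1 _)
          have b3 := mul_le_mul_of_nonneg_right b2 (sq_nonneg (f (inc a e) - f a))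
          refine b3.trans (le_of_eq ?_)
          field_simp
          ring
      _ = 4 * 2 ^ Nat.size D.P * ∑ b ∈ A.image (inc a), D.wt k a
          * Pr (L1 D.P) (fun r => D.step k a r = b) * (f a - f b) ^ 2 := by
          rw [sum_image inj, mul_sum]
      _ ≤ _ := by
          refine mul_le_mul_of_nonneg_left (sum_le_sum_of_subset_of_nonneg ?_ fun b _ _ => t0 a b)
            (by positivity)
          intro b hb
          obtain ⟨e, he, rfl⟩ := mem_image.1 hb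
          exact inc_mem ha (hA' e he).1 (hA' e he).2
  have h3 : ∑ a ∈ D.Ω, c a ≤ ∑ a ∈ D.Ω, D.wt k a := sum_le_sum fun a _ => c1 a
  have h30 : 0 ≤ ∑ a ∈ D.Ω, c a := sum_nonneg fun a _ => (c0 a).le
  have hE : ((D.N.E : ℝ) + 1) ^ 2 ≤ ((D.P : ℝ) + 1) ^ 2 := by
    have : (D.N.E : ℝ) ≤ D.P := by exact_mod_cast h.E_le
    gcongr
  have hP' : (∑ a ∈ D.Ω, c a) * (∑ a ∈ D.Ω, c a * f a ^ 2) - (∑ a ∈ D.Ω, c a * f a) ^ 2 ≤
      10 * ((D.N.E : ℝ) + 1) ^ 2 * (pU D.P : ℝ) ^ 4 * (pK D.P : ℝ) ^ 4 * (∑ a ∈ D.Ω, c a) *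
        ∑ e ∈ range D.N.E, ∑ a ∈ D.Ω.filter (fun a => a.getD e 0 < D.ρL.getD e 0),
          min (c a) (c (inc a e)) * (f (inc a e) - f a) ^ 2 := hP
  have h4 : 10 * ((D.N.E : ℝ) + 1) ^ 2 * (pU D.P : ℝ) ^ 4 * (pK D.P : ℝ) ^ 4 * (∑ a ∈ D.Ω, c a)
      ≤ 10 * ((D.P : ℝ) + 1) ^ 2 * (pU D.P : ℝ) ^ 4 * (pK D.P : ℝ) ^ 4 * (∑ a ∈ D.Ω, D.wt k a) := by
    gcongr
  have h5 := mul_le_mul_of_nonneg_left h2 (show 0 ≤ 10 * ((D.N.E : ℝ) + 1) ^ 2 * (pU D.P : ℝ) ^ 4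
    * (pK D.P : ℝ) ^ 4 * (∑ a ∈ D.Ω, c a) by positivity)
  have h6 := mul_le_mul_of_nonneg_right h4 (show 0 ≤ 4 * 2 ^ Nat.size D.P * Q by positivity)
  have e : (pC D.P : ℝ) * (∑ a ∈ D.Ω, D.wt k a) * Q = 4 * (10 * ((D.P : ℝ) + 1) ^ 2
      * (pU D.P : ℝ) ^ 4 * (pK D.P : ℝ) ^ 4 * (∑ a ∈ D.Ω, D.wt k a)
        * (4 * 2 ^ Nat.size D.P * Q)) := by
    unfold pC; push_cast; ring
  rw [e]
  linarith

theorem OK.wt_bounds (h : D.OK) {k : List ℤ} (hk : D.KB k) {a : List ℕ} (ha : a ∈ D.Ω) :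
    (2 : ℝ)⁻¹ ^ pX D.P ≤ D.wt k a ∧ D.wt k a ≤ 2 ^ pX D.P := by
  have h1 := h.ex_le hk ha
  unfold wt
  constructor
  · rw [inv_pow, ← zpow_natCast, ← zpow_neg]
    exact zpow_le_zpow_right₀ (by norm_num) (by omega)
  · rw [← zpow_natCast]
    exact zpow_le_zpow_right₀ (by norm_num) (by omega)

theorem OK.smp_mix (h : D.OK) {k : List ℤ} (hk : D.KB k) (G : ℕ) {b : List ℕ} (hb : b ∈ D.Ω) :
    |Pr (Ls D.P G) (fun ω => D.smp k G ω = b) - D.wt k b / D.Z k| ≤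
      (2 : ℝ)⁻¹ ^ pG D.P G * (D.wt k b / D.Z k) := by
  have hC : (1 : ℝ) ≤ (pC D.P : ℝ) := by exact_mod_cast one_le_pC D.P
  have hw : ∀ a ∈ D.Ω, (2 : ℝ)⁻¹ ^ (2 * pX D.P + pB1 D.P) * ∑ b ∈ D.Ω, D.wt k b ≤ D.wt k a := by
    intro a ha
    have h1 : ∑ b ∈ D.Ω, D.wt k b ≤ 2 ^ pB1 D.P * 2 ^ pX D.P := by
      refine (sum_le_card_nsmul _ _ _ fun b hb => (h.wt_bounds hk hb).2).trans ?_
      rw [nsmul_eq_mul]
      have : (D.Ω.card : ℝ) ≤ 2 ^ pB1 D.P := by exact_mod_cast h.card_Ω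
      gcongr
    refine (mul_le_mul_of_nonneg_left h1 (by positivity)).trans
      (le_trans (le_of_eq ?_) (h.wt_bounds hk ha).1)
    simp only [inv_pow, pow_add, two_mul]
    field_simp
  have hm := mixing D.Ω (D.wt k) (L1 D.P) (D.step k) (pC D.P) _ (by positivity) hC hw
    (fun a _ => D.wt_pos k a) (fun a ha r => step_mem k ha r) (fun a ha b hb => h.step_rev hk ha hb)
    (fun a _ => D.step_lazy k a) (h.poincare hk) (pT D.P G) D.zero_mem_Ω hb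
  refine le_trans hm (mul_le_mul_of_nonneg_right ?_
    (div_nonneg (D.wt_pos k b).le (zero_le_one.trans (h.one_le_Z k))))
  have e : ((pT D.P G : ℕ) : ℝ) / (4 * (pC D.P : ℝ))
      = ((pG D.P G + (2 * pX D.P + pB1 D.P) : ℕ) : ℝ) := by
    unfold pT; push_cast; field_simp; ring
  rw [e, div_le_iff₀ (by positivity), ← pow_add]
  exact exp_neg_le _

end Dat

end Crest.Agent.R309
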