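import Crest.Agent.R309.Defs

/-! Row 309: the algorithm is polynomial. -/

set_option autoImplicit false

namespace Crest.Agent.R309

open Crest.Agent.PT Crest.Enc Finset

variable {α : Type} [Rp α]

@[fun_prop] theorem pu_pW {P : α → ℕ} (h : PU P) : PU fun a => pW (P a) :=
  (PU.const (2 ^ 40)).mul (h.pow_const 10)
@[fun_prop] theorem pu_pM {P : α → ℕ} (h : PU P) : PU fun a => pM (P a) :=
  ((PU.const (2 ^ 10)).mul (h.pow_const 3)).mul (pu_pW h)
@[fun_prop] theorem pu_pQ {P : α → ℕ} (h : PU P) : PU fun a => pQ (P a) :=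
  ((PU.const 16).mul h).mul ((pu_pM h).pow_const 2)
@[fun_prop] theorem pu_pU {P : α → ℕ} (h : PU P) : PU fun a => pU (P a) :=
  ((PU.const 2).mul (pu_pM h)).add (PU.const 2)
@[fun_prop] theorem pu_pLam {P : α → ℕ} (h : PU P) : PU fun a => pLam (P a) :=
  PU.size ((PU.const 256).mul h).ptime
@[fun_prop] theorem pu_pK {P : α → ℕ} (h : PU P) : PU fun a => pK (P a) :=
  PTime.congr ((PU.two_pow_size ((PU.const 256).mul h)).mul (PU.const 2)) fun _ =>
    congrArg Un.mk (pow_succ 2 _)
@[fun_prop] theorem pu_pB1 {P : α → ℕ} (h : PU P) : PU fun a => pB1 (P a) :=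
  h.mul (PU.size ((PU.const 2).mul (pu_pM h)).ptime)
@[fun_prop] theorem pu_pI {P : α → ℕ} (h : PU P) : PU fun a => pI (P a) :=
  ((PU.const 64).mul h).mul ((pu_pB1 h).add (PU.const 1))
@[fun_prop] theorem pu_pX {P : α → ℕ} (h : PU P) : PU fun a => pX (P a) :=
  (((pu_pLam h).add (pu_pI h)).mul (((PU.const 2).mul h).mul (pu_pM h))).add
    ((PU.const (2 ^ 42)).mul (h.pow_const 13))
@[fun_prop] theorem pu_pC {P : α → ℕ} (h : PU P) : PU fun a => pC (P a) :=
  ((((PU.const 160).mul ((h.add (PU.const 1)).pow_const 2)).mul ((pu_pU h).pow_const 4)).mul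
    ((pu_pK h).pow_const 4)).mul (PU.two_pow_size h)
@[fun_prop] theorem pu_pG {P G : α → ℕ} (h : PU P) (hG : PU G) : PU fun a => pG (P a) (G a) :=
  (hG.add h).add (PU.const 8)
@[fun_prop] theorem pu_pT {P G : α → ℕ} (h : PU P) (hG : PU G) : PU fun a => pT (P a) (G a) :=
  ((PU.const 4).mul (pu_pC h)).mul
    (((pu_pG h hG).add ((PU.const 2).mul (pu_pX h))).add (pu_pB1 h))
@[fun_prop] theorem pu_pNs {P G : α → ℕ} (h : PU P) (hG : PU G) : PU fun a => pNs (P a) (G a) :=
  ((PU.const 4096).mul (h.pow_const 2)).mul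
    (hG.add (PU.size (((PU.const 4).mul h).mul (pu_pI h)).ptime))
@[fun_prop] theorem ptime_pDen {P : α → ℕ} (h : PU P) : PTime fun a => pDen (P a) :=
  (((pu_pW h).pow_const 3).mul (pu_pQ h)).ptime.mul ((PTime.const 2).pow ((PU.const 3).mul h))
@[fun_prop] theorem pu_L1 {P : α → ℕ} (h : PU P) : PU fun a => L1 (P a) :=
  ((PU.size h.ptime).add (PU.const 2)).add ((PU.const 2).mul (pu_pX h))
@[fun_prop] theorem pu_Ls {P G : α → ℕ} (h : PU P) (hG : PU G) : PU fun a => Ls (P a) (G a) :=
  (pu_pT h hG).mul (pu_L1 h)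
@[fun_prop] theorem pu_Lt {P G : α → ℕ} (h : PU P) (hG : PU G) : PU fun a => Lt (P a) (G a) :=
  (pu_Ls h hG).add (h.mul h)
@[fun_prop] theorem pu_Lr {P G : α → ℕ} (h : PU P) (hG : PU G) : PU fun a => Lr (P a) (G a) :=
  (pu_pNs h hG).mul (pu_Ls h hG)
@[fun_prop] theorem pu_Ll {P G : α → ℕ} (h : PU P) (hG : PU G) : PU fun a => Ll (P a) (G a) :=
  (pu_pI h).mul (pu_Lr h hG)
@[fun_prop] theorem pu_nF {G : α → ℕ} (hG : PU G) : PU fun a => nF (G a) :=
  (PU.const 64).mul (hG.add (PU.const 2))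
@[fun_prop] theorem pu_LS {P G : α → ℕ} (h : PU P) (hG : PU G) : PU fun a => LS (P a) (G a) :=
  (pu_Ll h hG).add ((pu_nF hG).mul (pu_Lt h hG))
@[fun_prop] theorem pu_LX {P G : α → ℕ} (h : PU P) (hG : PU G) : PU fun a => LX (P a) (G a) :=
  hG.add ((pu_Ll h hG).add (pu_Lt h hG))
@[fun_prop] theorem pu_pB2 {P : α → ℕ} (h : PU P) : PU fun a => pB2 (P a) :=
  ((pu_pB1 h).add (pu_L1 h)).add (h.mul h)
@[fun_prop] theorem ptime_br {G : α → ℕ} {ω : α → Word} (hG : PU G) (hω : PTime ω) :
    PTime fun a => br (G a) (ω a) :=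
  (((PTime.take hG.ptime hω).ofB).eq (PTime.const 0)).decide

/-- an indexed family, read in a context with one more index -/
theorem ptime_lift {β : Type} [Rp β] {X : α → ℕ → β}
    (h : PTime fun q : α × Un => X q.1 q.2.val) :
    PTime fun q : (α × Un) × Un => X q.1.1 q.2.val :=
  h.comp (f := fun q : (α × Un) × Un => (q.1.1, q.2)) (by fun_prop)

theorem ptime_idx : PTime fun q : α × Un => q.2.val := PTime.val PTime.snd'

namespace Dat

variable {D : α → Dat} {k : α → List ℤ} {G : α → ℕ} {ω : α → Word} {x : α → List ℕ}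

@[fun_prop] theorem ptime_c {e : α → ℕ} (hD : PTime D) (he : PTime e) :
    PTime fun a => (D a).c (e a) := getDN (ptime_cap hD) he

@[fun_prop] theorem ptime_T {e : α → ℕ} (hD : PTime D) (he : PTime e) :
    PTime fun a => (D a).T (e a) := (ptime_tr hD).getD he (PTime.const false)

@[fun_prop] theorem ptime_lab {e : α → ℕ} (hD : PTime D) (he : PTime e) :
    PTime fun a => (D a).lab (e a) := getDN (ptime_K hD) he

@[fun_prop] theorem ptime_u {f e : α → ℕ} (hD : PTime D) (hf : PTime f) (he : PTime e) :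
    PTime fun a => (D a).u (f a) (e a) :=
  (ptime_U hD).getD ((hf.mul (Net.ptime_V (ptime_N hD))).add he) (PTime.const false)

@[fun_prop] theorem pu_τ {e : α → ℕ} (hD : PTime D) (he : PTime e) : PU fun a => (D a).τ (e a) :=
  (PU.size ((ptime_c hD he).div (pu_pM (pu_P hD)).ptime)).sub (PU.const 1)

@[fun_prop] theorem ptime_t {e : α → ℕ} (hD : PTime D) (he : PTime e) :
    PTime fun a => (D a).t (e a) := (PTime.const 2).pow (pu_τ hD he)

@[fun_prop] theorem ptime_ρ {e : α → ℕ} (hD : PTime D) (he : PTime e) :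
    PTime fun a => (D a).ρ (e a) :=
  PTime.ite ((ptime_T hD he).beq (PTime.const true)) (PTime.const 0)
    ((ptime_c hD he).div (ptime_t hD he))

@[fun_prop] theorem ptime_bU {f : α → ℕ} (hD : PTime D) (hf : PTime f) :
    PTime fun a => (D a).bU (f a) :=
  PTime.isum_range (g := fun a w => if (D a).u (f a) w then (D a).N.b w else 0)
    (Net.pu_V (ptime_N hD)) (by fun_prop)

@[fun_prop] theorem ptime_bK {K : α → ℕ} (hD : PTime D) (hK : PTime K) :
    PTime fun a => (D a).bK (K a) :=
  PTime.isum_range (g := fun a w => if (D a).lab w = K a then (D a).N.b w else 0)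
    (Net.pu_V (ptime_N hD)) (by fun_prop)

@[fun_prop] theorem ptime_out {f e : α → ℕ} (hD : PTime D) (hf : PTime f) (he : PTime e) :
    PTime fun a => (D a).out (f a) (e a) := by
  unfold out; fun_prop

@[fun_prop] theorem ptime_inn {f e : α → ℕ} (hD : PTime D) (hf : PTime f) (he : PTime e) :
    PTime fun a => (D a).inn (f a) (e a) := by
  unfold inn; fun_prop

theorem ptime_cut {vX vY : α → ℕ → ℤ} {f : α → ℕ} (hD : PTime D)
    (hX : PTime fun q : α × Un => vX q.1 q.2.val) (hY : PTime fun q : α × Un => vY q.1 q.2.val)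
    (hf : PTime f) : PTime fun a => (D a).cut (vX a) (vY a) (f a) := by
  have hD' : PTime fun q : α × Un => D q.1 := hD.comp PTime.fst'
  have hf' : PTime fun q : α × Un => f q.1 := hf.comp PTime.fst'
  exact ((ptime_bU hD hf).isub (PTime.isum_range
    (g := fun a e => if (D a).out (f a) e then vX a e else 0) (Net.pu_E (ptime_N hD))
    (PTime.ite ((ptime_out hD' hf' ptime_idx).beq (PTime.const true)) hX (PTime.const 0)))).iadd
    (PTime.isum_range (g := fun a e => if (D a).inn (f a) e then vY a e else 0)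
      (Net.pu_E (ptime_N hD))
      (PTime.ite ((ptime_inn hD' hf' ptime_idx).beq (PTime.const true)) hY (PTime.const 0)))

section
variable {X Y : α → ℕ → ℕ} {f : α → ℕ}

theorem ptime_dK (hD : PTime D) (hX : PTime fun q : α × Un => X q.1 q.2.val)
    (hY : PTime fun q : α × Un => Y q.1 q.2.val) (hf : PTime f) :
    PTime fun a => (D a).dK (X a) (Y a) (f a) := by
  have hD' : PTime fun q : α × Un => D q.1 := hD.comp PTime.fst'
  have hf' : PTime fun q : α × Un => f q.1 := hf.comp PTime.fst'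
  exact (PTime.isum_range (g := fun a e => (if (D a).lab ((D a).N.s e) = f a then (X a e : ℤ) else 0) +
      if (D a).lab ((D a).N.d e) = f a then (Y a e : ℤ) - (D a).ρ e else 0) (Net.pu_E (ptime_N hD))
    ((PTime.ite ((ptime_lab hD' (Net.ptime_s (ptime_N hD') ptime_idx)).eq hf') hX.natCast
      (PTime.const 0)).iadd
      (PTime.ite ((ptime_lab hD' (Net.ptime_d (ptime_N hD') ptime_idx)).eq hf')
        (hY.natCast.isub (ptime_ρ hD' ptime_idx).natCast) (PTime.const 0)))).isub (ptime_bK hD hf)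

theorem ptime_ell (hD : PTime D) (hX : PTime fun q : α × Un => X q.1 q.2.val)
    (hY : PTime fun q : α × Un => Y q.1 q.2.val) (hf : PTime f) :
    PTime fun a => (D a).ell (X a) (Y a) (f a) := by
  have hD' : PTime fun q : α × Un => D q.1 := hD.comp PTime.fst'
  exact ptime_cut (vX := fun a e => ((D a).t e : ℤ) * X a e)
    (vY := fun a e => ((D a).t e : ℤ) * (((D a).ρ e : ℤ) - Y a e)) hD
    ((ptime_t hD' ptime_idx).natCast.imul hX.natCast)
    ((ptime_t hD' ptime_idx).natCast.imul ((ptime_ρ hD' ptime_idx).natCast.isub hY.natCast)) hf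

theorem ptime_ovA (hD : PTime D) (hX : PTime fun q : α × Un => X q.1 q.2.val)
    (hY : PTime fun q : α × Un => Y q.1 q.2.val) (hf : PTime f) :
    PTime fun a => (D a).ovA (X a) (Y a) (f a) :=
  (((ptime_ell hD hX hY hf).isub (ptime_c hD hf).natCast).isub
    ((pu_P hD).ptime.natCast.imul (ptime_t hD hf).natCast)).toNat

theorem ptime_ovB (hD : PTime D) (hX : PTime fun q : α × Un => X q.1 q.2.val)
    (hY : PTime fun q : α × Un => Y q.1 q.2.val) (hf : PTime f) :
    PTime fun a => (D a).ovB (X a) (Y a) (f a) :=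
  ((ptime_ell hD hX hY hf).ineg.isub
    ((pu_P hD).ptime.natCast.imul (ptime_t hD hf).natCast)).toNat

theorem ptime_num (hD : PTime D) (hX : PTime fun q : α × Un => X q.1 q.2.val)
    (hY : PTime fun q : α × Un => Y q.1 q.2.val) :
    PTime fun a => (D a).num (X a) (Y a) := by
  have hD' : PTime fun q : α × Un => D q.1 := hD.comp PTime.fst'
  have hP := pu_P hD
  have hA := ptime_ovA (X := fun q : α × Un => X q.1) (Y := fun q : α × Un => Y q.1) hD'
    (ptime_lift hX) (ptime_lift hY) ptime_idx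
  have hB := ptime_ovB (X := fun q : α × Un => X q.1) (Y := fun q : α × Un => Y q.1) hD'
    (ptime_lift hX) (ptime_lift hY) ptime_idx
  have h1 := PTime.sum_range (g := fun a f => if (D a).T f then
      ((D a).ovA (X a) (Y a) f ^ 3 + (D a).ovB (X a) (Y a) f ^ 3) *
        2 ^ (3 * ((D a).P - (D a).τ f)) else 0) (Net.pu_E (ptime_N hD))
    (PTime.ite ((ptime_T hD' ptime_idx).beq (PTime.const true))
      (((hA.pow (PU.const 3)).add (hB.pow (PU.const 3))).mul ((PTime.const 2).pow
        ((PU.const 3).mul ((pu_P hD').sub (pu_τ hD' ptime_idx))))) (PTime.const 0))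
  have h2 := PTime.sum_range (g := fun a e => X a e ^ 2 + Y a e ^ 2) (Net.pu_E (ptime_N hD))
    ((hX.pow (PU.const 2)).add (hY.pow (PU.const 2)))
  exact ((pu_pQ hP).ptime.mul h1).add
    ((((pu_pW hP).pow_const 3).ptime.mul ((PTime.const 2).pow ((PU.const 3).mul hP))).mul h2)

end

theorem ptime_xs (hx : PTime x) : PTime fun q : α × Un => xs (x q.1) q.2.val :=
  getDN (hx.comp PTime.fst') ptime_idx

theorem ptime_ys (hD : PTime D) (hx : PTime x) :
    PTime fun q : α × Un => (D q.1).ys (x q.1) q.2.val :=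
  (ptime_ρ (hD.comp PTime.fst') ptime_idx).sub (getDN (hx.comp PTime.fst') ptime_idx)

@[fun_prop] theorem ptime_mem_Fl (hD : PTime D) (hx : PTime x) : PTime fun a => x a ∈ (D a).Fl :=
  Net.ptime_mem_flows (ptime_N hD) (PTime.const []) (ptime_cap hD) hx

@[fun_prop] theorem ptime_dS {K : α → ℕ} (hD : PTime D) (hx : PTime x) (hK : PTime K) :
    PTime fun a => (D a).dS (x a) (K a) :=
  ptime_dK (X := fun a => xs (x a)) (Y := fun a => (D a).ys (x a)) hD (ptime_xs hx)
    (ptime_ys hD hx) hK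

@[fun_prop] theorem ptime_ex (hD : PTime D) (hk : PTime k) (hx : PTime x) :
    PTime fun a => (D a).ex (k a) (x a) := by
  have hS : PTime fun q : α × Un => (D q.1).dS (x q.1) q.2.val :=
    ptime_dS (hD.comp PTime.fst') (hx.comp PTime.fst') ptime_idx
  have h1 := PTime.isum_range (g := fun a K => (((D a).dS (x a) K).natAbs : ℤ))
    (Net.pu_V (ptime_N hD)) hS.natAbs.natCast
  have h2 := PTime.isum_range (g := fun a K => (k a).getD K 0 * (D a).dS (x a) K)
    (Net.pu_V (ptime_N hD)) ((getDZ (hk.comp PTime.fst') ptime_idx).imul hS)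
  have h3 := ptime_num (X := fun a => xs (x a)) (Y := fun a => (D a).ys (x a)) hD (ptime_xs hx)
    (ptime_ys hD hx)
  exact (((pu_pLam (pu_P hD)).ptime.natCast.imul h1).iadd h2).iadd
    (h3.div (ptime_pDen (pu_P hD))).natCast

@[fun_prop] theorem ptime_mv {e : α → ℕ} {up : α → Bool} (hx : PTime x) (he : PTime e)
    (hu : PTime up) : PTime fun a => mv (x a) (e a) (up a) :=
  PTime.ite (hu.beq (PTime.const true)) (ptime_inc hx he) (ptime_dec hx he)

@[fun_prop] theorem ptime_okMv {e : α → ℕ} {up : α → Bool} (hD : PTime D) (hx : PTime x)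
    (he : PTime e) (hu : PTime up) : PTime fun a => (D a).okMv (x a) (e a) (up a) :=
  (he.lt (Net.ptime_E (ptime_N hD))).and (PTime.ite (hu.beq (PTime.const true))
    ((getDN hx he).lt (ptime_ρ hD he)) ((PTime.const 0).lt (getDN hx he)))

@[fun_prop] theorem ptime_step (hD : PTime D) (hk : PTime k) (hx : PTime x) (hω : PTime ω) :
    PTime fun a => (D a).step (k a) (x a) (ω a) := by
  have hs : PU fun a => Nat.size (D a).P := PU.size (pu_P hD).ptime
  have he : PTime fun a => ofB ((ω a).take (Nat.size (D a).P)) := (PTime.take hs.ptime hω).ofB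
  have hu : PTime fun a => (ω a).getD (Nat.size (D a).P) false :=
    hω.getD hs.ptime (PTime.const false)
  have hm := ptime_mv hx he hu
  exact PTime.ite (((hω.getD (hs.add (PU.const 1)).ptime (PTime.const false)).beq
    (PTime.const true)).and ((ptime_okMv hD hx he hu).and
      ((PTime.drop (hs.add (PU.const 2)) hω).ofB.lt ((PTime.const 2).pow
        (((PU.const 2).mul (pu_pX (pu_P hD))).sub'
          ((ptime_ex hD hk hm).isub (ptime_ex hD hk hx)).toNat))))) hm hx

theorem mv_bound {l : List ℕ} {n : ℕ} (h : ∀ y ∈ l, y ≤ n) (e : ℕ) (up : Bool) :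
    (mv l e up).length = l.length ∧ ∀ y ∈ mv l e up, y ≤ n + 1 := by
  have h0 : l.getD e 0 ≤ n := by
    by_cases he : e < l.length
    · rw [List.getD_eq_getElem _ _ he]; exact h _ (List.getElem_mem he)
    · rw [List.getD_eq_default _ _ (by omega)]; omega
  unfold mv inc dec
  split_ifs
  · refine ⟨List.length_set, fun y hy => ?_⟩
    rcases List.mem_or_eq_of_mem_set hy with h1 | h1
    · have := h y h1; omega
    · omega
  · refine ⟨List.length_set, fun y hy => ?_⟩
    rcases List.mem_or_eq_of_mem_set hy with h1 | h1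
    · have := h y h1; omega
    · omega

theorem iter_step_bound (D : Dat) (k : List ℤ) (L E n : ℕ) (ω : Word) :
    (iterR L (D.step k) n (List.replicate E 0) ω).length = E ∧
      ∀ y ∈ iterR L (D.step k) n (List.replicate E 0) ω, y ≤ n := by
  induction n with
  | zero => exact ⟨List.length_replicate, fun y hy => (List.eq_of_mem_replicate hy).le⟩
  | succ n ih =>
    rw [iterR, step]
    split_ifs
    · exact ⟨(mv_bound ih.2 _ _).1.trans ih.1, (mv_bound ih.2 _ _).2⟩
    · exact ⟨ih.1, fun y hy => (ih.2 y hy).trans n.le_succ⟩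

@[fun_prop] theorem ptime_smp (hD : PTime D) (hk : PTime k) (hG : PU G) (hω : PTime ω) :
    PTime fun a => (D a).smp (k a) (G a) (ω a) := by
  have hE := Net.pu_E (ptime_N hD)
  have hT := pu_pT (pu_P hD) hG
  refine ptime_iterR (step := fun a => (D a).step (k a)) (pu_L1 (pu_P hD)) hT
    (ptime_step (hD.comp PTime.fst') (hk.comp PTime.fst') PTime.snd'.fst PTime.snd'.snd)
    (replicateN hE (PTime.const 0)) hω (hE.mul (((PU.const 2).mul hT).add (PU.const 2))).pb
    fun a n hn => ?_
  obtain ⟨h1, h2⟩ := iter_step_bound (D a) (k a) (L1 (D a).P) (D a).N.E n (ω a)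
  have h3 := szN_le (b := pT (D a).P (G a)) fun y hy =>
    ((h2 y hy).trans hn).trans_lt Nat.lt_two_pow_self
  rwa [h1] at h3

@[fun_prop] theorem ptime_val {e : α → ℕ} (hD : PTime D) (hx : PTime x) (hω : PTime ω)
    (he : PU e) : PTime fun a => (D a).val (x a) (ω a) (e a) :=
  ((ptime_t hD he.ptime).mul (getDN hx he.ptime)).add
    (PTime.take (pu_τ hD he.ptime).ptime (ptime_blk (pu_P hD) he hω)).ofB

@[fun_prop] theorem ptime_cand (hD : PTime D) (hx : PTime x) (hω : PTime ω) :
    PTime fun a => (D a).cand (x a) (ω a) := by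
  have hD' : PTime fun q : α × Un => D q.1 := hD.comp PTime.fst'
  have hv : PTime fun q : α × Un => (D q.1).val (x q.1) (ω q.1) q.2.val :=
    ptime_val hD' (hx.comp PTime.fst') (hω.comp PTime.fst') (PU.val PTime.snd')
  have hv' := ptime_lift (X := fun a e => ((D a).val (x a) (ω a) e : ℤ)) hv.natCast
  exact rangeMapN (g := fun a e => if (D a).T e then
      ((D a).cut (fun e => ((D a).val (x a) (ω a) e : ℤ))
        (fun e => ((D a).val (x a) (ω a) e : ℤ)) e).toNat
    else (D a).val (x a) (ω a) e) (Net.pu_E (ptime_N hD))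
    (PTime.ite ((ptime_T hD' ptime_idx).beq (PTime.const true))
      (ptime_cut (vX := fun (q : α × Un) e => ((D q.1).val (x q.1) (ω q.1) e : ℤ))
        (vY := fun (q : α × Un) e => ((D q.1).val (x q.1) (ω q.1) e : ℤ)) hD' hv' hv'
        ptime_idx).toNat hv)

@[fun_prop] theorem ptime_fin (hD : PTime D) (hx : PTime x) (hω : PTime ω) :
    PTime fun a => (D a).fin (x a) (ω a) :=
  PTime.ite (ptime_mem_Fl hD (ptime_cand hD hx hω)) (consN (PTime.const 1) (ptime_cand hD hx hω))
    (PTime.const [])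

@[fun_prop] theorem ptime_trial (hD : PTime D) (hk : PTime k) (hG : PU G) (hω : PTime ω) :
    PTime fun a => (D a).trial (k a) (G a) (ω a) :=
  ptime_fin hD (ptime_smp hD hk hG hω) (PTime.drop (pu_Ls (pu_P hD) hG) hω)

@[fun_prop] theorem ptime_evt {j : α → ℕ} (hD : PTime D) (hj : PTime j) (hx : PTime x) :
    PTime fun a => (D a).evt (j a) (x a) :=
  PTime.ite ((hj.mod (PTime.const 2)).eq (PTime.const 0))
    ((PTime.const 0).ilt (ptime_dS hD hx (hj.div (PTime.const 2))))
    ((ptime_dS hD hx (hj.div (PTime.const 2))).ilt (PTime.const 0))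

@[fun_prop] theorem ptime_cntE {j : α → ℕ} (hD : PTime D) (hk : PTime k) (hG : PU G)
    (hj : PTime j) (hω : PTime ω) : PTime fun a => (D a).cntE (k a) (G a) (j a) (ω a) :=
  ptime_repZ (f := fun a r => if (D a).evt (j a) ((D a).smp (k a) (G a) r) then 1 else 0)
    (pu_Ls (pu_P hD) hG) (pu_pNs (pu_P hD) hG)
    (PTime.ite (ptime_evt (hD.comp PTime.fst') (hj.comp PTime.fst')
      (ptime_smp (hD.comp PTime.fst') (hk.comp PTime.fst') (hG.comp PTime.fst') PTime.snd'))
      (PTime.const 1) (PTime.const 0)) hω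

@[fun_prop] theorem ptime_upd {j : α → ℕ} (hk : PTime k) (hj : PTime j) :
    PTime fun a => upd (k a) (j a) :=
  setZ hk (hj.div (PTime.const 2)) ((getDZ hk (hj.div (PTime.const 2))).iadd
    (PTime.ite ((hj.mod (PTime.const 2)).eq (PTime.const 0)) (PTime.const 1) (PTime.const (-1))))

@[fun_prop] theorem pu_jf (hD : PTime D) (hk : PTime k) (hG : PU G) (hω : PTime ω) :
    PU fun a => (D a).jf (k a) (G a) (ω a) := by
  have hD' : PTime fun q : α × Un => D q.1 := hD.comp PTime.fst'
  have hG' : PU fun q : α × Un => G q.1 := hG.comp PTime.fst'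
  exact PU.lead (PTime.rangeMap (g := fun a j =>
      !decide ((pNs (D a).P (G a) : ℤ) ≤ 8 * (D a).P * (D a).cntE (k a) (G a) j (ω a)))
    ((PU.const 2).mul (Net.pu_V (ptime_N hD)))
    ((pu_pNs (pu_P hD') hG').ptime.natCast.ile
      (((PTime.const 8).imul (pu_P hD').ptime.natCast).imul
        (ptime_cntE hD' (hk.comp PTime.fst') hG' ptime_idx (hω.comp PTime.fst')))).decide.bnot)

@[fun_prop] theorem ptime_lstep {s : α → List ℤ × Bool} (hD : PTime D) (hG : PU G) (hs : PTime s)
    (hω : PTime ω) : PTime fun a => (D a).lstep (G a) (s a) (ω a) := by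
  have hj := (pu_jf hD hs.fst hG hω).ptime
  exact PTime.ite (hs.snd.beq (PTime.const true)) hs
    (PTime.ite (hj.lt ((PTime.const 2).mul (Net.ptime_V (ptime_N hD))))
      ((ptime_upd hs.fst hj).pair (PTime.const false)) (hs.fst.pair (PTime.const true)))

theorem upd_bound {l : List ℤ} {n : ℕ} (h : ∀ y ∈ l, y.natAbs ≤ n) (j : ℕ) :
    (upd l j).length = l.length ∧ ∀ y ∈ upd l j, y.natAbs ≤ n + 1 := by
  have h0 : (l.getD (j / 2) 0).natAbs ≤ n := by
    by_cases he : j / 2 < l.length
    · rw [List.getD_eq_getElem _ _ he]; exact h _ (List.getElem_mem he)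
    · rw [List.getD_eq_default _ _ (by omega)]; simp
  unfold upd
  refine ⟨List.length_set, fun y hy => ?_⟩
  rcases List.mem_or_eq_of_mem_set hy with h1 | h1
  · have := h y h1; omega
  · split_ifs at h1 <;> omega

theorem iter_lstep_bound (D : Dat) (G L V n : ℕ) (ω : Word) :
    (iterR L (D.lstep G) n (List.replicate V 0, false) ω).1.length = V ∧
      ∀ y ∈ (iterR L (D.lstep G) n (List.replicate V 0, false) ω).1, y.natAbs ≤ n := by
  induction n with
  | zero =>
    exact ⟨List.length_replicate, fun y hy => by rw [List.eq_of_mem_replicate hy]; simp⟩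
  | succ n ih =>
    rw [iterR, lstep]
    split_ifs
    · exact ⟨ih.1, fun y hy => (ih.2 y hy).trans n.le_succ⟩
    · exact ⟨(upd_bound ih.2 _).1.trans ih.1, (upd_bound ih.2 _).2⟩
    · exact ⟨ih.1, fun y hy => (ih.2 y hy).trans n.le_succ⟩

@[fun_prop] theorem ptime_learn (hD : PTime D) (hG : PU G) (hω : PTime ω) :
    PTime fun a => (D a).learn (G a) (ω a) := by
  have hV := Net.pu_V (ptime_N hD)
  have hI := pu_pI (pu_P hD)
  refine PTime.fst (ptime_iterR (step := fun a => (D a).lstep (G a)) (pu_Lr (pu_P hD) hG) hI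
    (ptime_lstep (hD.comp PTime.fst') (hG.comp PTime.fst') PTime.snd'.fst PTime.snd'.snd)
    ((replicateZ hV (PTime.const 0)).pair (PTime.const false)) hω
    ((hV.mul (((PU.const 2).mul hI).add (PU.const 3))).add (PU.const 1)).pb fun a n hn => ?_)
  obtain ⟨h1, h2⟩ := iter_lstep_bound (D a) (G a) (Lr (D a).P (G a)) (D a).N.V n (ω a)
  have h3 := szZ_le (b := pI (D a).P) fun y hy =>
    ((h2 y hy).trans hn).trans_lt Nat.lt_two_pow_self
  rw [h1] at h3
  rw [← Prod.mk.eta (p := iterR _ _ _ _ _), sz_prod, sz_bool]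
  exact Nat.add_le_add_right h3 1

@[fun_prop] theorem ptime_samp (hD : PTime D) (hG : PU G) (hω : PTime ω) :
    PTime fun a => (D a).samp (G a) (ω a) :=
  ptime_firstR (f := fun a => (D a).trial ((D a).learn (G a) (ω a)) (G a)) (pu_Lt (pu_P hD) hG)
    (pu_nF hG) (ptime_trial (hD.comp PTime.fst') ((ptime_learn hD hG hω).comp PTime.fst')
      (hG.comp PTime.fst') PTime.snd') (PTime.drop (pu_Ll (pu_P hD) hG) hω)

end Dat

end Crest.Agent.R309
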