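import Crest.Agent.R309.Flow

/-! Row 309: approximate counting from almost uniform sampling. -/

set_option autoImplicit false

namespace Crest.Agent.R309

open Crest.Agent.PT Crest.Enc Finset

namespace CntX

abbrev Smp := Net × List ℕ × List ℕ × Un × Un × Word → List ℕ
abbrev Sta := List ℕ × List ℕ × ℕ × ℕ

def ns (P : ℕ) : ℕ := 1024 * P ^ 7
def gg (P : ℕ) : ℕ := 3 * P + 5
def mid (lo hi : List ℕ) (e : ℕ) : ℕ := (lo.getD e 0 + hi.getD e 0) / 2

def ind (S : Smp) (N : Net) (P : ℕ) (lo hi : List ℕ) (e : ℕ) (r : Word) : ℤ :=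
  if (S (N, lo, hi, ⟨P⟩, ⟨gg P⟩, r)).getD e 0 ≤ mid lo hi e then 1 else 0

def cnt (S : Smp) (L : ℕ → ℕ → ℕ) (N : Net) (P : ℕ) (lo hi : List ℕ) (e : ℕ) (ω : Word) : ℕ :=
  (repZ (L P (gg P)) (ind S N P lo hi e) (ns P) ω).toNat

/-- one round for the cell `e` with the count `k` -/
def upd (P : ℕ) (s : Sta) (e k : ℕ) : Sta :=
  if ns P ≤ 2 * k then (s.1, s.2.1.set e (mid s.1 s.2.1 e), s.2.2.1 * ns P, s.2.2.2 * k)
  else (s.1.set e (mid s.1 s.2.1 e + 1), s.2.1, s.2.2.1 * ns P, s.2.2.2 * (ns P - k))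

def stp (fe : Net × List ℕ × List ℕ → ℕ) (S : Smp) (L : ℕ → ℕ → ℕ) (N : Net) (P : ℕ) (s : Sta)
    (ω : Word) : Sta :=
  if fe (N, s.1, s.2.1) < N.E then
    upd P s (fe (N, s.1, s.2.1)) (cnt S L N P s.1 s.2.1 (fe (N, s.1, s.2.1)) ω)
  else s

def init (N : Net) (hi : List ℕ) : Sta :=
  (List.replicate N.E 0, (List.range N.E).map fun e => hi.getD e 0, 1, 1)

def run (fe : Net × List ℕ × List ℕ → ℕ) (S : Smp) (L : ℕ → ℕ → ℕ) (N : Net) (hi : List ℕ) (P : ℕ)
    (ω : Word) : Sta :=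
  iterR (ns P * L P (gg P)) (stp fe S L N P) (P * P) (init N hi) ω

def FeSpec (fe : Net × List ℕ × List ℕ → ℕ) : Prop :=
  ∀ N lo hi, (∀ i < fe (N, lo, hi), ¬ lo.getD i 0 < hi.getD i 0) ∧ fe (N, lo, hi) ≤ N.E ∧
    (fe (N, lo, hi) < N.E → lo.getD (fe (N, lo, hi)) 0 < hi.getD (fe (N, lo, hi)) 0)

theorem exists_fe : ∃ fe : Net × List ℕ × List ℕ → ℕ, PU fe ∧ FeSpec fe := by
  obtain ⟨f, hf, hs⟩ := PU.find_lt (α := Net × List ℕ × List ℕ) (n := fun a => a.1.E)
    (c := fun a i => a.2.1.getD i 0 < a.2.2.getD i 0) (Net.pu_E PTime.fst')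
    ((getDN (PTime.fst'.snd.fst) (PTime.val PTime.snd')).lt
      (getDN (PTime.fst'.snd.snd) (PTime.val PTime.snd')))
  exact ⟨f, hf, fun N lo hi => ⟨(hs (N, lo, hi)).2.1, (hs (N, lo, hi)).1, (hs (N, lo, hi)).2.2⟩⟩

theorem getD_set {l : List ℕ} {i : ℕ} (h : i < l.length) (x j : ℕ) :
    (l.set i x).getD j 0 = if i = j then x else l.getD j 0 := by
  simp only [List.getD_eq_getElem?_getD, List.getElem?_set]
  split_ifs with h1
  · rfl
  · rfl

theorem repZ_bd (L : ℕ) {f : Word → ℤ} (hf : ∀ r, 0 ≤ f r ∧ f r ≤ 1) (n : ℕ) (ω : Word) :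
    0 ≤ repZ L f n ω ∧ repZ L f n ω ≤ n := by
  unfold repZ
  refine ⟨Finset.sum_nonneg fun i _ => (hf _).1, ?_⟩
  calc ∑ i ∈ range n, f (blk L i ω) ≤ ∑ _i ∈ range n, (1 : ℤ) :=
        Finset.sum_le_sum fun i _ => (hf _).2
    _ = n := by simp

theorem ind_bd (S : Smp) (N : Net) (P : ℕ) (lo hi : List ℕ) (e : ℕ) (r : Word) :
    0 ≤ ind S N P lo hi e r ∧ ind S N P lo hi e r ≤ 1 := by
  unfold ind; split_ifs <;> simp

theorem cnt_le (S : Smp) (L : ℕ → ℕ → ℕ) (N : Net) (P : ℕ) (lo hi : List ℕ) (e : ℕ) (ω : Word) :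
    cnt S L N P lo hi e ω ≤ ns P := by
  have := repZ_bd (L P (gg P)) (ind_bd S N P lo hi e) (ns P) ω
  unfold cnt; omega

theorem cnt_cast (S : Smp) (L : ℕ → ℕ → ℕ) (N : Net) (P : ℕ) (lo hi : List ℕ) (e : ℕ) (ω : Word) :
    (cnt S L N P lo hi e ω : ℝ) = (repZ (L P (gg P)) (ind S N P lo hi e) (ns P) ω : ℝ) := by
  have := (repZ_bd (L P (gg P)) (ind_bd S N P lo hi e) (ns P) ω).1
  unfold cnt
  exact_mod_cast Int.toNat_of_nonneg this

/-! ### Polynomial time -/

theorem getD_lt {l : List ℕ} {b : ℕ} (h : ∀ x ∈ l, x < 2 ^ b) (i : ℕ) : l.getD i 0 < 2 ^ b := by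
  rw [List.getD_eq_getElem?_getD]
  rcases hi : l[i]? with _ | x
  · exact Nat.two_pow_pos b
  · exact h x (List.mem_of_getElem? hi)

def Sz (E b M k : ℕ) (s : Sta) : Prop :=
  s.1.length = E ∧ s.2.1.length = E ∧ (∀ x ∈ s.1, x < 2 ^ b) ∧ (∀ x ∈ s.2.1, x < 2 ^ b) ∧
    s.2.2.1 ≤ M ^ k ∧ s.2.2.2 ≤ M ^ k

theorem sz_stp {fe : Net × List ℕ × List ℕ → ℕ} (hfe : FeSpec fe) (S : Smp) (L : ℕ → ℕ → ℕ)
    (N : Net) (P E b k : ℕ) (s : Sta) (ω : Word) (h : Sz E b (ns P + 1) k s) :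
    Sz E b (ns P + 1) (k + 1) (stp fe S L N P s ω) := by
  obtain ⟨h1, h2, h3, h4, h5, h6⟩ := h
  have hp : (ns P + 1) ^ k ≤ (ns P + 1) ^ (k + 1) := Nat.pow_le_pow_right (by omega) (by omega)
  unfold stp
  split_ifs with he
  · have hlt := (hfe N s.1 s.2.1).2.2 he
    have hb := getD_lt h4 (fe (N, s.1, s.2.1))
    have hc := cnt_le S L N P s.1 s.2.1 (fe (N, s.1, s.2.1)) ω
    have hn : ∀ y z, y ≤ (ns P + 1) ^ k → z ≤ ns P → y * z ≤ (ns P + 1) ^ (k + 1) := fun y z hy hz => by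
      rw [pow_succ]; exact Nat.mul_le_mul hy (by omega)
    unfold upd
    split_ifs
    · refine ⟨h1, by simpa using h2, h3, fun x hx => ?_, hn _ _ h5 le_rfl, hn _ _ h6 hc⟩
      rcases List.mem_or_eq_of_mem_set hx with hx | rfl
      · exact h4 x hx
      · unfold mid; omega
    · refine ⟨by simpa using h1, h2, fun x hx => ?_, h4, hn _ _ h5 le_rfl, hn _ _ h6 (by omega)⟩
      rcases List.mem_or_eq_of_mem_set hx with hx | rfl
      · exact h3 x hx
      · unfold mid; omega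
  · exact ⟨h1, h2, h3, h4, h5.trans hp, h6.trans hp⟩

theorem sz_init (N : Net) (hi : List ℕ) (M : ℕ) : Sz N.E (sz hi) M 0 (init N hi) := by
  refine ⟨by simp [init], by simp [init], fun x hx => ?_, fun x hx => ?_, by simp [init],
    by simp [init]⟩
  · rw [List.eq_of_mem_replicate hx]; exact Nat.two_pow_pos _
  · obtain ⟨e, _, rfl⟩ := List.mem_map.1 hx
    exact getD_lt_szN hi e

theorem Sz.le {E b M k : ℕ} {s : Sta} (h : Sz E b M k s) :
    sz s ≤ 2 * (E * (2 * b + 2)) + 2 * (k * M + 1) := by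
  obtain ⟨lo, hi, nu, de⟩ := s
  obtain ⟨h1, h2, h3, h4, h5, h6⟩ := h
  simp only [sz_prod]
  have a1 := szN_le h3
  have a2 := szN_le h4
  have a3 := (sz_nat_mono h5).trans (sz_pow_le M k)
  have a4 := (sz_nat_mono h6).trans (sz_pow_le M k)
  have a5 : k * sz M ≤ k * M := Nat.mul_le_mul_left _ (sz_nat_le_self M)
  simp only at h1 h2
  rw [h1] at a1
  rw [h2] at a2
  simp only at a1 a2 a3 a4
  omega

section
variable {α : Type} [Rp α]

theorem pu_ns {P : α → ℕ} (h : PU P) : PU fun a => ns (P a) := (PU.const _).mul (h.pow_const 7)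
theorem pu_gg {P : α → ℕ} (h : PU P) : PU fun a => gg (P a) := ((PU.const _).mul h).add (PU.const _)

theorem pu_L {L : ℕ → ℕ → ℕ} (hL : PU fun u : Un × Un => L u.1.val u.2.val) {P : α → ℕ} (h : PU P) :
    PU fun a => L (P a) (gg (P a)) :=
  hL.comp (f := fun a => (Un.mk (P a), Un.mk (gg (P a)))) ((PTime.unMk h).pair (PTime.unMk (pu_gg h)))

theorem ptime_mid {lo hi : α → List ℕ} {e : α → ℕ} (h1 : PTime lo) (h2 : PTime hi) (he : PTime e) :
    PTime fun a => mid (lo a) (hi a) (e a) :=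
  ((getDN h1 he).add (getDN h2 he)).div (PTime.const _)

theorem ptime_cnt {S : Smp} {L : ℕ → ℕ → ℕ} (hS : PTime S)
    (hL : PU fun u : Un × Un => L u.1.val u.2.val) {N : α → Net} {P : α → ℕ} {lo hi : α → List ℕ}
    {e : α → ℕ} {ω : α → Word} (hN : PTime N) (hP : PU P) (h1 : PTime lo) (h2 : PTime hi)
    (he : PTime e) (hω : PTime ω) :
    PTime fun a => cnt S L (N a) (P a) (lo a) (hi a) (e a) (ω a) := by
  refine PTime.toNat (ptime_repZ (f := fun a => ind S (N a) (P a) (lo a) (hi a) (e a))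
    (pu_L hL hP) (pu_ns hP) ?_ hω)
  have g1 : PTime fun p : α × Word => lo p.1 := h1.comp PTime.fst'
  have g2 : PTime fun p : α × Word => hi p.1 := h2.comp PTime.fst'
  have g3 : PTime fun p : α × Word => e p.1 := he.comp PTime.fst'
  have g4 : PU fun p : α × Word => P p.1 := hP.comp PTime.fst'
  have g5 : PTime fun p : α × Word =>
      S (N p.1, lo p.1, hi p.1, ⟨P p.1⟩, ⟨gg (P p.1)⟩, p.2) :=
    hS.comp ((hN.comp PTime.fst').pair (g1.pair (g2.pair ((PTime.unMk g4).pair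
      ((PTime.unMk (pu_gg g4)).pair PTime.snd')))))
  exact PTime.ite ((getDN g5 g3).le (ptime_mid g1 g2 g3)) (PTime.const _) (PTime.const _)

theorem ptime_upd {P : α → ℕ} {s : α → Sta} {e k : α → ℕ} (hP : PU P) (hs : PTime s)
    (he : PTime e) (hk : PTime k) : PTime fun a => upd (P a) (s a) (e a) (k a) := by
  have g1 := hs.fst
  have g2 := hs.snd.fst
  have g3 := hs.snd.snd.fst
  have g4 := hs.snd.snd.snd
  have g5 := (pu_ns hP).ptime
  have g6 := ptime_mid g1 g2 he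
  exact PTime.ite (g5.le ((PTime.const _).mul hk))
    (g1.pair ((setN g2 he g6).pair ((g3.mul g5).pair (g4.mul hk))))
    ((setN g1 he (g6.add (PTime.const _))).pair (g2.pair ((g3.mul g5).pair (g4.mul (g5.sub hk)))))

theorem ptime_stp {fe : Net × List ℕ × List ℕ → ℕ} (hf : PU fe) {S : Smp} {L : ℕ → ℕ → ℕ}
    (hS : PTime S) (hL : PU fun u : Un × Un => L u.1.val u.2.val) {N : α → Net} {P : α → ℕ}
    {s : α → Sta} {ω : α → Word} (hN : PTime N) (hP : PU P) (hs : PTime s) (hω : PTime ω) :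
    PTime fun a => stp fe S L (N a) (P a) (s a) (ω a) := by
  have g1 : PTime fun a => fe (N a, (s a).1, (s a).2.1) :=
    hf.ptime.comp (hN.pair (hs.fst.pair hs.snd.fst))
  exact PTime.ite (g1.lt (Net.ptime_E hN))
    (ptime_upd hP hs g1 (ptime_cnt hS hL hN hP hs.fst hs.snd.fst g1 hω)) hs

theorem ptime_run {fe : Net × List ℕ × List ℕ → ℕ} (hf : PU fe) (hfe : FeSpec fe) {S : Smp}
    {L : ℕ → ℕ → ℕ} (hS : PTime S) (hL : PU fun u : Un × Un => L u.1.val u.2.val) {N : α → Net}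
    {P : α → ℕ} {hi : α → List ℕ} {ω : α → Word} (hN : PTime N) (hP : PU P) (hh : PTime hi)
    (hω : PTime ω) : PTime fun a => run fe S L (N a) (hi a) (P a) (ω a) := by
  refine ptime_iterR (step := fun a => stp fe S L (N a) (P a)) (init := fun a => init (N a) (hi a))
    ((pu_ns hP).mul (pu_L hL hP)) (hP.mul hP)
    (ptime_stp hf hS hL (hN.comp PTime.fst') (hP.comp PTime.fst') PTime.snd'.fst PTime.snd'.snd)
    ?_ hω (B := fun a => 2 * ((N a).E * (2 * sz (hi a) + 2)) + 2 * (P a * P a * (ns (P a) + 1) + 1))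
    ?_ ?_
  · exact (replicateN (Net.pu_E hN) (PTime.const _)).pair
      ((rangeMapN (g := fun a e => (hi a).getD e 0) (Net.pu_E hN)
        (getDN (hh.comp PTime.fst') (PTime.val PTime.snd'))).pair (PTime.const _))
  · exact ((PB.const _).mul ((Net.pu_E hN).pb.mul (((PB.const _).mul hh.sz).add (PB.const _)))).add
      ((PB.const _).mul ((((hP.mul hP).mul ((pu_ns hP).add (PU.const _))).pb).add (PB.const _)))
  · intro a k hk
    have := (iterR_inv (ns (P a) * L (P a) (gg (P a))) (stp fe S L (N a) (P a))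
      (Sz (N a).E (sz (hi a)) (ns (P a) + 1))
      (fun k s r h => sz_stp hfe S L (N a) (P a) _ _ k s r h) _ (sz_init (N a) (hi a) _) k (ω a)).le
    have h2 : k * (ns (P a) + 1) ≤ P a * P a * (ns (P a) + 1) := Nat.mul_le_mul_right _ hk
    omega

end

/-! ### Correctness -/

def pot (E : ℕ) (lo hi : List ℕ) : ℕ := ∑ e ∈ range E, (hi.getD e 0 - lo.getD e 0).size

theorem size_half {D D' : ℕ} (h : 0 < D) (h' : D' ≤ D / 2) : D'.size + 1 ≤ D.size := by
  have h1 : 0 < D.size := Nat.size_pos.2 h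
  have h2 := Nat.lt_size_self D
  have : D'.size ≤ D.size - 1 := by
    rw [Nat.size_le]
    obtain ⟨m, hm⟩ : ∃ m, D.size = m + 1 := ⟨D.size - 1, by omega⟩
    rw [hm, pow_succ] at h2
    rw [hm, Nat.add_sub_cancel]
    omega
  omega

theorem pot_lt {E e : ℕ} (he : e < E) {lo hi lo' hi' : List ℕ}
    (h : ∀ j, e ≠ j → lo'.getD j 0 = lo.getD j 0 ∧ hi'.getD j 0 = hi.getD j 0)
    (h1 : lo.getD e 0 < hi.getD e 0)
    (h2 : hi'.getD e 0 - lo'.getD e 0 ≤ (hi.getD e 0 - lo.getD e 0) / 2) :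
    pot E lo' hi' + 1 ≤ pot E lo hi := by
  unfold pot
  have he' : e ∈ range E := Finset.mem_range.2 he
  rw [← Finset.add_sum_erase _ _ he', ← Finset.add_sum_erase _ _ he']
  have h3 := size_half (by omega) h2
  have h4 : ∑ j ∈ (range E).erase e, (hi'.getD j 0 - lo'.getD j 0).size =
      ∑ j ∈ (range E).erase e, (hi.getD j 0 - lo.getD j 0).size :=
    Finset.sum_congr rfl fun j hj => by
      have := h j (Finset.ne_of_mem_erase hj).symm
      rw [this.1, this.2]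
  omega

theorem flows_left (N : Net) {lo hi : List ℕ} {e m : ℕ} (he : e < N.E) (hl : hi.length = N.E)
    (hm : m ≤ hi.getD e 0) :
    N.flows lo (hi.set e m) = (N.flows lo hi).filter fun p => p.getD e 0 ≤ m := by
  ext p
  simp only [Finset.mem_filter, Net.mem_flows, mem_bx, getD_set (hl ▸ he)]
  constructor
  · rintro ⟨⟨h1, h2⟩, h3⟩
    refine ⟨⟨⟨h1, fun i hi => ?_⟩, h3⟩, ?_⟩
    · have := h2 i hi
      split_ifs at this with h
      · subst h; omega
      · exact this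
    · have := h2 e he
      rw [if_pos rfl] at this
      exact this.2
  · rintro ⟨⟨⟨h1, h2⟩, h3⟩, h4⟩
    refine ⟨⟨h1, fun i hi => ?_⟩, h3⟩
    have := h2 i hi
    split_ifs with h
    · subst h; omega
    · exact this

theorem flows_right (N : Net) {lo hi : List ℕ} {e m : ℕ} (he : e < N.E) (hl : lo.length = N.E)
    (hm : lo.getD e 0 ≤ m + 1) :
    N.flows (lo.set e (m + 1)) hi = (N.flows lo hi).filter fun p => ¬ p.getD e 0 ≤ m := by
  ext p
  simp only [Finset.mem_filter, Net.mem_flows, mem_bx, getD_set (hl ▸ he)]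
  constructor
  · rintro ⟨⟨h1, h2⟩, h3⟩
    refine ⟨⟨⟨h1, fun i hi => ?_⟩, h3⟩, ?_⟩
    · have := h2 i hi
      split_ifs at this with h
      · subst h; omega
      · exact this
    · have := h2 e he
      rw [if_pos rfl] at this
      omega
  · rintro ⟨⟨⟨h1, h2⟩, h3⟩, h4⟩
    refine ⟨⟨h1, fun i hi => ?_⟩, h3⟩
    have := h2 i hi
    split_ifs with h
    · subst h; omega
    · exact this

theorem card_one (N : Net) {lo hi : List ℕ} (h : pot N.E lo hi = 0)
    (hne : (N.flows lo hi).Nonempty) : (N.flows lo hi).card = 1 := by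
  have h1 : ∀ e < N.E, hi.getD e 0 ≤ lo.getD e 0 := fun e he => by
    have := (Finset.sum_eq_zero_iff.1 h) e (Finset.mem_range.2 he)
    rw [Nat.size_eq_zero] at this
    omega
  refine le_antisymm (Finset.card_le_one.2 fun p hp q hq => ?_) hne.card_pos
  obtain ⟨hp1, hp2⟩ := mem_bx.1 (Net.mem_flows.1 hp).1
  obtain ⟨hq1, hq2⟩ := mem_bx.1 (Net.mem_flows.1 hq).1
  refine List.ext_getElem (hp1.trans hq1.symm) fun i hi hi' => ?_
  have hiE : i < N.E := hp1 ▸ hi
  have a1 := hp2 i hiE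
  have a2 := hq2 i hiE
  have a3 := h1 i hiE
  rw [List.getD_eq_getElem _ _ hi] at a1
  rw [List.getD_eq_getElem _ _ hi'] at a2
  omega

theorem flows_init (N : Net) (hi : List ℕ) : N.flows (init N hi).1 (init N hi).2.1 = N.flows [] hi := by
  have h1 : ∀ i < N.E, (init N hi).1.getD i 0 = ([] : List ℕ).getD i 0 := fun i h => by
    simp [init, List.getD_eq_getElem?_getD, h]
  have h2 : ∀ i < N.E, (init N hi).2.1.getD i 0 = hi.getD i 0 := fun i h => by
    simp [init, List.getD_eq_getElem?_getD, h]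
  ext p
  simp only [Net.mem_flows, mem_bx]
  refine and_congr (and_congr Iff.rfl (forall₂_congr fun i h => ?_)) Iff.rfl
  rw [h1 i h, h2 i h]

/-- the invariant -/
def Inv (N : Net) (P : ℕ) (c0 : ℝ) (k : ℕ) (s : Sta) : Prop :=
  s.1.length = N.E ∧ s.2.1.length = N.E ∧ N.Small s.2.1 P ∧ (N.flows s.1 s.2.1).Nonempty ∧
    (pot N.E s.1 s.2.1 + k ≤ P * P ∨ pot N.E s.1 s.2.1 = 0) ∧
    |(s.2.2.1 : ℝ) / s.2.2.2 * (N.flows s.1 s.2.1).card - c0| ≤ k / (P : ℝ) ^ 3 * c0

theorem ratio {q c c' c0 n k t y : ℝ} (hn : 0 < n) (hk : n ≤ 2 * k) (hc : 0 < c) (hc0 : 0 ≤ c0)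
    (ht : |k / n - c' / c| ≤ t / 4) (hy : y ≤ 1) (h : |q * c - c0| ≤ y * c0) :
    |q * (n / k) * c' - c0| ≤ (y + t) * c0 := by
  have hk0 : 0 < k := by linarith
  have h1 : |n / k * (c' / c) - 1| ≤ t / 2 := by
    have e : n / k * (c' / c) - 1 = n / k * -(k / n - c' / c) := by field_simp; ring
    have h2 : n / k ≤ 2 := by rw [div_le_iff₀ hk0]; linarith
    rw [e, abs_mul, abs_neg, abs_of_pos (div_pos hn hk0)]
    calc n / k * |k / n - c' / c| ≤ 2 * (t / 4) :=
          mul_le_mul h2 ht (abs_nonneg _) (by norm_num)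
      _ = t / 2 := by ring
  have h2 : |q * c| ≤ 2 * c0 := by
    have := abs_sub_abs_le_abs_sub (q * c) c0
    rw [abs_of_nonneg hc0] at this
    nlinarith
  have e : q * (n / k) * c' - c0 = q * c * (n / k * (c' / c) - 1) + (q * c - c0) := by
    field_simp; ring
  rw [e]
  calc |q * c * (n / k * (c' / c) - 1) + (q * c - c0)|
      ≤ |q * c * (n / k * (c' / c) - 1)| + |q * c - c0| := abs_add_le _ _
    _ ≤ 2 * c0 * (t / 2) + y * c0 := by
        rw [abs_mul]
        exact add_le_add (mul_le_mul h2 h1 (abs_nonneg _) (by linarith)) h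
    _ = (y + t) * c0 := by ring

theorem inv_upd {N : Net} {P : ℕ} {c0 : ℝ} (hc0 : 0 ≤ c0) {k : ℕ} (hk : k < P * P) {s : Sta}
    (h : Inv N P c0 k s) {e : ℕ} (he : e < N.E) (hlt : s.1.getD e 0 < s.2.1.getD e 0) {j : ℕ}
    (hj : j ≤ ns P)
    (ht : |(j : ℝ) / ns P - ((N.flows s.1 s.2.1).filter fun p => p.getD e 0 ≤ mid s.1 s.2.1 e).card /
      (N.flows s.1 s.2.1).card| ≤ 1 / (P : ℝ) ^ 3 / 4) :
    Inv N P c0 (k + 1) (upd P s e j) := by
  obtain ⟨h1, h2, h3, h4, h5, h6⟩ := h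
  have hP : 1 ≤ P := h3.1
  have hP1 : (1 : ℝ) ≤ P := by exact_mod_cast hP
  have hn : (0 : ℝ) < ns P := by
    have : 0 < ns P := by unfold ns; positivity
    exact_mod_cast this
  have hc : (0 : ℝ) < (N.flows s.1 s.2.1).card := by exact_mod_cast h4.card_pos
  have hP3 : (1 : ℝ) ≤ (P : ℝ) ^ 3 := one_le_pow₀ hP1
  have hy : (k : ℝ) / (P : ℝ) ^ 3 ≤ 1 := by
    rw [div_le_one (by linarith)]
    have : (k : ℝ) ≤ P * P := by exact_mod_cast hk.le
    nlinarith
  have ht4 : 1 / (P : ℝ) ^ 3 / 4 ≤ 1 / 4 := by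
    have : 1 / (P : ℝ) ^ 3 ≤ 1 := by rw [div_le_one (by linarith)]; exact hP3
    linarith
  have hpot : ∀ lo' hi', pot N.E lo' hi' + 1 ≤ pot N.E s.1 s.2.1 →
      pot N.E lo' hi' + (k + 1) ≤ P * P ∨ pot N.E lo' hi' = 0 := fun lo' hi' h => by omega
  have ek : ((k + 1 : ℕ) : ℝ) / (P : ℝ) ^ 3 = k / (P : ℝ) ^ 3 + 1 / (P : ℝ) ^ 3 := by
    push_cast; ring
  unfold upd
  split_ifs with hb
  · have hb' : (ns P : ℝ) ≤ 2 * j := by exact_mod_cast hb
    have hF := flows_left N (lo := s.1) he h2 (m := mid s.1 s.2.1 e) (by unfold mid; omega)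
    refine ⟨h1, by simpa using h2, ⟨h3.1, h3.2.1, h3.2.2.1, fun i hi => ?_⟩, ?_, hpot _ _ ?_, ?_⟩
    · have := h3.2.2.2 i hi
      simp only [getD_set (h2 ▸ he)]
      split_ifs with h
      · subst h; unfold mid; omega
      · exact this
    · simp only [hF]
      rw [← Finset.card_pos]
      by_contra h0
      rw [show ((N.flows s.1 s.2.1).filter fun p => p.getD e 0 ≤ mid s.1 s.2.1 e).card = 0 by omega]
        at ht
      have : 1 / 2 ≤ (j : ℝ) / ns P := by rw [le_div_iff₀ hn]; linarith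
      have := (abs_le.1 ht).2
      simp only [Nat.cast_zero, zero_div, sub_zero] at this
      linarith
    · refine pot_lt he (fun i hi => ⟨rfl, ?_⟩) hlt ?_
      · simp only [getD_set (h2 ▸ he), if_neg hi]
      · simp only [getD_set (h2 ▸ he), if_true]; unfold mid; omega
    · simp only [hF]
      rw [ek]
      have := ratio hn hb' hc hc0 ht hy h6
      push_cast
      rwa [mul_div_mul_comm]
  · have hb' : (ns P : ℝ) ≤ 2 * ((ns P - j : ℕ) : ℝ) := by exact_mod_cast (by omega : ns P ≤ 2 * (ns P - j))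
    have hF := flows_right N (hi := s.2.1) he h1 (m := mid s.1 s.2.1 e) (by unfold mid; omega)
    have hcard := Finset.card_filter_add_card_filter_not (s := N.flows s.1 s.2.1)
      (fun p => p.getD e 0 ≤ mid s.1 s.2.1 e)
    have hcard' : (((N.flows s.1 s.2.1).filter fun p => ¬ p.getD e 0 ≤ mid s.1 s.2.1 e).card : ℝ) =
        (N.flows s.1 s.2.1).card -
          ((N.flows s.1 s.2.1).filter fun p => p.getD e 0 ≤ mid s.1 s.2.1 e).card := by
      rw [← hcard]; push_cast; ring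
    have ht' : |((ns P - j : ℕ) : ℝ) / ns P -
        ((N.flows s.1 s.2.1).filter fun p => ¬ p.getD e 0 ≤ mid s.1 s.2.1 e).card /
          (N.flows s.1 s.2.1).card| ≤ 1 / (P : ℝ) ^ 3 / 4 := by
      rw [hcard', Nat.cast_sub hj, sub_div, sub_div, div_self hn.ne', div_self hc.ne', abs_sub_comm]
      convert ht using 2
      ring
    refine ⟨by simpa using h1, h2, h3, ?_, hpot _ _ ?_, ?_⟩
    · simp only [hF]
      rw [← Finset.card_pos]
      by_contra h0
      rw [show ((N.flows s.1 s.2.1).filter fun p => ¬ p.getD e 0 ≤ mid s.1 s.2.1 e).card = 0 by omega]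
        at ht'
      have : 1 / 2 ≤ ((ns P - j : ℕ) : ℝ) / ns P := by rw [le_div_iff₀ hn]; linarith
      have := (abs_le.1 ht').2
      simp only [Nat.cast_zero, zero_div, sub_zero] at this
      linarith
    · refine pot_lt he (fun i hi => ⟨?_, rfl⟩) hlt ?_
      · simp only [getD_set (h1 ▸ he), if_neg hi]
      · simp only [getD_set (h1 ▸ he), if_true]; unfold mid; omega
    · simp only [hF]
      rw [ek]
      have := ratio hn hb' hc hc0 ht' hy h6
      rw [Nat.cast_mul, Nat.cast_mul]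
      rwa [mul_div_mul_comm]

theorem bias {S : Smp} {L : ℕ → ℕ → ℕ} (h : SamplerSpec S L) {N : Net} (hN : N.WF) {P : ℕ}
    {lo hi : List ℕ} (hs : N.Small hi P) (hne : (N.flows lo hi).Nonempty) (e : ℕ) :
    |Ex (L P (gg P)) (fun r => (ind S N P lo hi e r : ℝ)) -
      ((N.flows lo hi).filter fun p => p.getD e 0 ≤ mid lo hi e).card / (N.flows lo hi).card| ≤
      1 / (P : ℝ) ^ 3 / 8 := by
  obtain ⟨h1, h2⟩ := h N lo hi P (gg P) hN hs hne
  have hP1 : (1 : ℝ) ≤ P := by exact_mod_cast hs.1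
  have e1 : Ex (L P (gg P)) (fun r => (ind S N P lo hi e r : ℝ)) =
      ∑ p ∈ N.flows lo hi, Pr (L P (gg P)) (fun ω => S (N, lo, hi, ⟨P⟩, ⟨gg P⟩, ω) = p) *
        if p.getD e 0 ≤ mid lo hi e then 1 else 0 := by
    rw [← Ex_comp (L P (gg P)) (N.flows lo hi) (fun ω => S (N, lo, hi, ⟨P⟩, ⟨gg P⟩, ω))
      (fun ω _ => h1 ω) fun p => if p.getD e 0 ≤ mid lo hi e then (1 : ℝ) else 0]
    refine Ex_congr fun ω _ => ?_
    unfold ind
    split_ifs <;> simp
  have e2 : (((N.flows lo hi).filter fun p => p.getD e 0 ≤ mid lo hi e).card : ℝ) /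
      (N.flows lo hi).card = ∑ p ∈ N.flows lo hi, 1 / ((N.flows lo hi).card : ℝ) *
        if p.getD e 0 ≤ mid lo hi e then 1 else 0 := by
    rw [← Finset.mul_sum, Finset.sum_boole]
    ring
  rw [e1, e2, ← Finset.sum_sub_distrib]
  refine (Finset.abs_sum_le_sum_abs _ _).trans (le_trans (Finset.sum_le_sum fun p _ => ?_)
    (h2.trans ?_))
  · rw [← sub_mul, abs_mul]
    refine mul_le_of_le_one_right (abs_nonneg _) ?_
    split_ifs <;> simp
  · have h3 : (P : ℝ) ≤ 2 ^ P := by exact_mod_cast (Nat.lt_two_pow_self (n := P)).le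
    have h4 : (P : ℝ) ^ 3 ≤ (2 ^ P) ^ 3 := pow_le_pow_left₀ (by linarith) h3 3
    have e3 : 4 * (2 : ℝ)⁻¹ ^ gg P = 1 / ((2 : ℝ) ^ P) ^ 3 / 8 := by
      unfold gg
      rw [inv_pow, pow_add, mul_comm 3 P, pow_mul]
      field_simp
      norm_num
    rw [e3]
    gcongr

theorem tail_le {P : ℕ} (hP : 1 ≤ P) :
    2 * Real.exp (-((ns P : ℝ) * (1 / (P : ℝ) ^ 3 / 8) ^ 2 / (4 * 1 ^ 2))) ≤
      (2 : ℝ)⁻¹ ^ P / ((P : ℝ) * P) := by
  have hP1 : (1 : ℝ) ≤ P := by exact_mod_cast hP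
  have e : (ns P : ℝ) * (1 / (P : ℝ) ^ 3 / 8) ^ 2 / (4 * 1 ^ 2) = (P : ℝ) * 4 := by
    unfold ns; push_cast; field_simp; norm_num
  rw [e, Real.exp_neg, Real.exp_mul, inv_pow]
  have h1 : (P : ℝ) + 1 ≤ Real.exp P := Real.add_one_le_exp _
  have h2 : (2 : ℝ) ^ P ≤ Real.exp P := by
    have : (2 : ℝ) ≤ Real.exp 1 := by have := Real.add_one_le_exp 1; linarith
    calc (2 : ℝ) ^ P ≤ Real.exp 1 ^ P := pow_le_pow_left₀ (by norm_num) this P
      _ = Real.exp P := by rw [← Real.exp_nat_mul, mul_one]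
  have h3 : 0 < Real.exp P := Real.exp_pos _
  rw [show (4 : ℝ) = ((4 : ℕ) : ℝ) by norm_num, Real.rpow_natCast, ← div_eq_mul_inv,
    inv_eq_one_div, div_div, div_le_div_iff₀ (by positivity) (by positivity), one_mul]
  calc 2 * ((2 : ℝ) ^ P * (P * P)) ≤ Real.exp P * (Real.exp P * (Real.exp P * Real.exp P)) := by
        gcongr <;> linarith
    _ = _ := by ring

theorem round {fe : Net × List ℕ × List ℕ → ℕ} (hfe : FeSpec fe) {S : Smp} {L : ℕ → ℕ → ℕ}
    (h : SamplerSpec S L) {N : Net} (hN : N.WF) {P : ℕ} {c0 : ℝ} (hc0 : 0 ≤ c0) {k : ℕ}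
    (hk : k < P * P) {s : Sta} (hs : Inv N P c0 k s) :
    1 - (2 : ℝ)⁻¹ ^ P / ((P : ℝ) * P) ≤
      Pr (ns P * L P (gg P)) fun r => Inv N P c0 (k + 1) (stp fe S L N P s r) := by
  have hP : 1 ≤ P := hs.2.2.1.1
  have hP1 : (1 : ℝ) ≤ P := by exact_mod_cast hP
  by_cases he : fe (N, s.1, s.2.1) < N.E
  · have hlt := (hfe N s.1 s.2.1).2.2 he
    set e := fe (N, s.1, s.2.1) with hedef
    have hH := hoeffding (L P (gg P)) (ns P) (ind S N P s.1 s.2.1 e) 0 1 (1 / (P : ℝ) ^ 3 / 8)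
      one_pos (by positivity) fun r _ => by
        have := ind_bd S N P s.1 s.2.1 e r
        rw [zero_add]
        exact ⟨by exact_mod_cast this.1, by exact_mod_cast this.2⟩
    have hB := bias h hN hs.2.2.1 hs.2.2.2.1 e
    have hn : (0 : ℝ) < ns P := by
      have : 0 < ns P := by unfold ns; positivity
      exact_mod_cast this
    refine le_trans ?_ (Pr_mono (A := fun ω => ¬ ((ns P : ℝ) * (1 / (P : ℝ) ^ 3 / 8) <
      |(repZ (L P (gg P)) (ind S N P s.1 s.2.1 e) (ns P) ω : ℝ) -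
        ns P * Ex (L P (gg P)) fun r => (ind S N P s.1 s.2.1 e r : ℝ)|)) fun ω _ hω => ?_)
    · rw [Pr_not]
      linarith [tail_le hP]
    · unfold stp
      rw [if_pos he]
      refine inv_upd hc0 hk hs he hlt (cnt_le ..) ?_
      rw [not_lt, ← cnt_cast] at hω
      have h1 : |(cnt S L N P s.1 s.2.1 e ω : ℝ) / ns P -
          Ex (L P (gg P)) fun r => (ind S N P s.1 s.2.1 e r : ℝ)| ≤ 1 / (P : ℝ) ^ 3 / 8 := by
        have e1 : (cnt S L N P s.1 s.2.1 e ω : ℝ) / ns P -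
            (Ex (L P (gg P)) fun r => (ind S N P s.1 s.2.1 e r : ℝ)) =
            ((cnt S L N P s.1 s.2.1 e ω : ℝ) -
              ns P * Ex (L P (gg P)) fun r => (ind S N P s.1 s.2.1 e r : ℝ)) / ns P := by
          field_simp
        rw [e1, abs_div, abs_of_pos hn, div_le_iff₀ hn]
        linarith
      have := abs_sub_le ((cnt S L N P s.1 s.2.1 e ω : ℝ) / ns P)
        (Ex (L P (gg P)) fun r => (ind S N P s.1 s.2.1 e r : ℝ))
        (((N.flows s.1 s.2.1).filter fun p => p.getD e 0 ≤ mid s.1 s.2.1 e).card /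
          (N.flows s.1 s.2.1).card)
      linarith
  · rw [Pr_true]
    · have : 0 ≤ (2 : ℝ)⁻¹ ^ P / ((P : ℝ) * P) := by positivity
      linarith
    · intro ω _
      unfold stp
      rw [if_neg he]
      obtain ⟨h1, h2, h3, h4, _, h6⟩ := hs
      refine ⟨h1, h2, h3, h4, Or.inr (Finset.sum_eq_zero fun i hi => ?_), h6.trans ?_⟩
      · have := (hfe N s.1 s.2.1).1 i (by have := Finset.mem_range.1 hi; omega)
        rw [Nat.size_eq_zero]; omega
      · push_cast
        gcongr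
        linarith

theorem inv_init {N : Net} {hi : List ℕ} {P : ℕ} (hs : N.Small hi P)
    (hne : (N.flows [] hi).Nonempty) : Inv N P (N.flows [] hi).card 0 (init N hi) := by
  have h2 : ∀ i < N.E, (init N hi).2.1.getD i 0 = hi.getD i 0 := fun i h => by
    simp [init, List.getD_eq_getElem?_getD, h]
  refine ⟨by simp [init], by simp [init], ⟨hs.1, hs.2.1, hs.2.2.1, fun e he => ?_⟩, ?_,
    Or.inl ?_, ?_⟩
  · rw [h2 e he]; exact hs.2.2.2 e he
  · rwa [flows_init]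
  · rw [add_zero]
    calc pot N.E (init N hi).1 (init N hi).2.1 ≤ ∑ _e ∈ range N.E, P := by
          refine Finset.sum_le_sum fun e he => ?_
          have he' := Finset.mem_range.1 he
          have := hs.2.2.2 e he'
          rw [Nat.size_le, h2 e he']
          omega
      _ = N.E * P := by simp
      _ ≤ P * P := Nat.mul_le_mul_right _ hs.2.1
  · rw [flows_init]; simp [init]

theorem fin_eq {P : ℕ} (hP : 1 ≤ P) (c : ℝ) : ((P * P : ℕ) : ℝ) / (P : ℝ) ^ 3 * c = c / P := by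
  have : (0 : ℝ) < P := by exact_mod_cast hP
  push_cast
  field_simp

end CntX

open CntX in
theorem counter_of_sampler {S : Net × List ℕ × List ℕ × Un × Un × Word → List ℕ} {L : ℕ → ℕ → ℕ}
    (hS : PTime S) (hL : PU fun u : Un × Un => L u.1.val u.2.val) (h : SamplerSpec S L) :
    ∃ (A : Net × List ℕ × Un × Word → ℕ × ℕ) (LC : ℕ → ℕ), PTime A ∧ (PU fun u : Un => LC u.val) ∧
      ∀ (N : Net) (hi : List ℕ) (P : ℕ), N.WF → N.Small hi P →
        (N.flows [] hi = ∅ → ∀ ω, (A (N, hi, ⟨P⟩, ω)).1 = 0) ∧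
        1 - (2 : ℝ)⁻¹ ^ P ≤ Pr (LC P) fun ω =>
          |((A (N, hi, ⟨P⟩, ω)).1 : ℝ) / (A (N, hi, ⟨P⟩, ω)).2 - (N.flows [] hi).card| ≤
            (N.flows [] hi).card / P := by
  obtain ⟨fe, hf, hfe⟩ := exists_fe
  refine ⟨fun a => if feas (a.1, [], a.2.1) = [] then (0, 1)
      else (run fe S L a.1 a.2.1 a.2.2.1.val a.2.2.2).2.2,
    fun P => P * P * (ns P * L P (gg P)), ?_, ?_, fun N hi P hN hs => ?_⟩
  · exact PTime.ite (eqN (ptime_feas.comp (PTime.fst'.pair ((PTime.const _).pair PTime.snd'.fst)))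
      (PTime.const _)) (PTime.const _)
      (ptime_run hf hfe hS hL PTime.fst' (PU.val PTime.snd'.snd.fst) PTime.snd'.fst
        PTime.snd'.snd.snd).snd.snd
  · have h1 : PU fun u : Un => u.val := PU.val PTime.id
    exact (h1.mul h1).mul ((pu_ns h1).mul (pu_L hL h1))
  · rcases feas_spec [] hi hN with ⟨h1, h2⟩ | ⟨p, hp, h1⟩
    · refine ⟨fun _ ω => by simp [h1], ?_⟩
      rw [Pr_true _ fun ω _ => by simp [h1, h2]]
      have : 0 ≤ (2 : ℝ)⁻¹ ^ P := by positivity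
      linarith
    · refine ⟨fun h0 => by simp [h0] at hp, ?_⟩
      have hP1 : (1 : ℝ) ≤ P := by exact_mod_cast hs.1
      have hR := Pr_iterR_inv (ns P * L P (gg P)) (stp fe S L N P) (Inv N P (N.flows [] hi).card)
        ((2 : ℝ)⁻¹ ^ P / ((P : ℝ) * P)) (P * P) (by positivity)
        (fun k hk s hs => round hfe h hN (Nat.cast_nonneg _) hk hs) _ (inv_init hs ⟨p, hp⟩)
      rw [Nat.cast_mul, mul_div_cancel₀ _ (by positivity)] at hR
      refine hR.trans (Pr_mono fun ω _ hω => ?_)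
      obtain ⟨_, _, _, h4, h5, h6⟩ := hω
      rw [card_one N (by omega) h4, Nat.cast_one, mul_one] at h6
      have h7 : ¬ feas (N, [], hi) = [] := by rw [h1]; exact List.cons_ne_nil _ _
      dsimp only
      rw [if_neg h7]
      exact h6.trans (fin_eq hs.1 _).le

end Crest.Agent.R309
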