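import Crest.Agent.R309.Basic

/-! Row 309: states without defect give extended flows. -/

set_option autoImplicit false

namespace Crest.Agent.R309

open Crest.Agent.PT Crest.Enc Finset

namespace Acc1

theorem getD_map_range {α : Type} (E : ℕ) (f : ℕ → α) (d : α) {e : ℕ} (he : e < E) :
    ((List.range E).map f).getD e d = f e := by
  simp [List.getD_eq_getElem?_getD, he]

theorem card_bx (E : ℕ) (hi : List ℕ) :
    (bx E [] hi).card = ∏ e ∈ range E, (hi.getD e 0 + 1) := by
  unfold bx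
  rw [card_image_of_injective _ List.ofFn_injective, Fintype.card_piFinset,
    ← Fin.prod_univ_eq_prod_range (fun e => hi.getD e 0 + 1) E]
  refine prod_congr rfl fun i _ => ?_
  simp

theorem list_ext {E : ℕ} {a b : List ℕ} (ha : a.length = E) (hb : b.length = E)
    (h : ∀ e < E, a.getD e 0 = b.getD e 0) : a = b := by
  apply List.ext_getElem (ha.trans hb.symm)
  intro i h1 h2
  have := h i (ha ▸ h1)
  rwa [List.getD_eq_getElem _ _ h1, List.getD_eq_getElem _ _ h2] at this

theorem dv_congr (N : Net) {p q : ℕ → ℤ} (h : ∀ e < N.E, p e = q e) (w : ℕ) :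
    N.dv p w = N.dv q w := by
  unfold Net.dv
  refine sum_congr rfl fun e he => ?_
  rw [h e (mem_range.1 he)]

theorem cons_congr (N : Net) {p q : ℕ → ℤ} (h : ∀ e < N.E, p e = q e) (hp : N.Cons p) :
    N.Cons q := fun w hw => by rw [← dv_congr N h w]; exact hp w hw

theorem cut_congr (D : Dat) {vX vY vX' vY' : ℕ → ℤ} (hX : ∀ e < D.N.E, D.T e = false → vX e = vX' e)
    (hY : ∀ e < D.N.E, D.T e = false → vY e = vY' e) (f : ℕ) :
    D.cut vX vY f = D.cut vX' vY' f := by
  unfold Dat.cut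
  congr 1
  · congr 1
    refine sum_congr rfl fun e he => ?_
    by_cases ho : D.out f e = true
    · rw [if_pos ho, if_pos ho]
      refine hX e (mem_range.1 he) ?_
      unfold Dat.out at ho
      cases hT : D.T e
      · rfl
      · simp [hT] at ho
    · rw [if_neg ho, if_neg ho]
  · refine sum_congr rfl fun e he => ?_
    by_cases ho : D.inn f e = true
    · rw [if_pos ho, if_pos ho]
      refine hY e (mem_range.1 he) ?_
      unfold Dat.inn at ho
      cases hT : D.T e
      · rfl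
      · simp [hT] at ho
    · rw [if_neg ho, if_neg ho]

theorem one_le_pW {P : ℕ} (hP : 1 ≤ P) : 1 ≤ pW P := by
  unfold pW
  exact Nat.succ_le_of_lt (by positivity)

theorem one_le_pM {P : ℕ} (hP : 1 ≤ P) : 1 ≤ pM P := by
  unfold pM
  have := one_le_pW hP
  exact Nat.succ_le_of_lt (by positivity)

variable (D : Dat)

/-- the offsets -/
def H : Finset (List ℕ) :=
  bx D.N.E [] ((List.range D.N.E).map fun e => if D.T e then 0 else D.t e - 1)

theorem card_H : (H D).card = D.tt := by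
  unfold H Dat.tt
  rw [card_bx]
  refine prod_congr rfl fun e he => ?_
  rw [getD_map_range _ _ _ (mem_range.1 he)]
  have := D.t_pos e
  split_ifs
  · rfl
  · omega

theorem mem_H {η : List ℕ} (h : η ∈ H D) : η.length = D.N.E ∧ ∀ e < D.N.E,
    η.getD e 0 < D.t e ∧ (D.T e = true → η.getD e 0 = 0) := by
  unfold H at h
  rw [mem_bx] at h
  refine ⟨h.1, fun e he => ?_⟩
  have h1 := (h.2 e he).2
  rw [getD_map_range _ _ _ he] at h1
  have := D.t_pos e
  by_cases hT : D.T e = true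
  · rw [if_pos hT] at h1
    exact ⟨by omega, fun _ => by omega⟩
  · rw [if_neg hT] at h1
    exact ⟨by omega, fun h => absurd h hT⟩

/-- the value of a cell outside the forest -/
def vl (a η : List ℕ) (e : ℕ) : ℕ := D.t e * a.getD e 0 + η.getD e 0

/-- the extended flow -/
def pz (a η : List ℕ) (e : ℕ) : ℤ :=
  if D.T e then D.cut (fun e => (vl D a η e : ℤ)) (fun e => (vl D a η e : ℤ)) e else vl D a η e

/-- the shifted extended flow -/
def xl (a η : List ℕ) : List ℕ := (List.range D.N.E).map fun e => (pz D a η e + D.R e).toNat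

variable {D}

theorem ta_le {a : List ℕ} (ha : a ∈ D.Ω) {e : ℕ} (he : e < D.N.E) :
    D.t e * a.getD e 0 ≤ D.c e := by
  have h1 := (Dat.mem_Ω.1 ha).2 e he
  unfold Dat.ρ at h1
  split_ifs at h1
  · have : a.getD e 0 = 0 := by omega
    rw [this]; omega
  · exact le_trans (Nat.mul_le_mul_left _ h1) (Nat.mul_div_le _ _)

theorem pz_range (h : D.OK) {a η : List ℕ} (ha : a ∈ D.Ω) (hη : η ∈ H D) {e : ℕ}
    (he : e < D.N.E) : -(D.R e : ℤ) ≤ pz D a η e ∧ pz D a η e ≤ D.c e + D.R e := by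
  have hM := one_le_pM h.one_le_P
  have hP := h.one_le_P
  unfold pz
  by_cases hT : D.T e = true
  · rw [if_pos hT]
    obtain ⟨q, hq⟩ := h.ne
    obtain ⟨-, hq1, hq2⟩ := Dat.mem_Fl.1 hq
    have hb : ∀ e < D.N.E, D.T e = false →
        |(vl D a η e : ℤ) - (q.getD e 0 : ℤ)| ≤ ((2 * pM D.P + 1 : ℕ) : ℤ) * D.t e := by
      intro e he _
      have h1 := ta_le ha he
      have h2 := ((mem_H D hη).2 e he).1
      have h3 := hq1 e he
      have h4 := h.c_lt e
      have h5 : vl D a η e ≤ (2 * pM D.P + 1) * D.t e := by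
        unfold vl; rw [Nat.add_mul]; omega
      have h6 : q.getD e 0 ≤ (2 * pM D.P + 1) * D.t e := by
        rw [Nat.add_mul]; omega
      have h7 : ((vl D a η e : ℕ) : ℤ) ≤ ((2 * pM D.P + 1 : ℕ) : ℤ) * D.t e := by exact_mod_cast h5
      have h8 : ((q.getD e 0 : ℕ) : ℤ) ≤ ((2 * pM D.P + 1 : ℕ) : ℤ) * D.t e := by exact_mod_cast h6
      rw [abs_le]
      constructor
      · have : (0 : ℤ) ≤ (vl D a η e : ℤ) := Int.natCast_nonneg _
        linarith
      · have : (0 : ℤ) ≤ (q.getD e 0 : ℤ) := Int.natCast_nonneg _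
        linarith
    have h1 := h.cut_sub _ _ _ _ he hT (2 * pM D.P + 1) hb hb
    rw [h.cut_cons hq2 he hT] at h1
    have hR : D.R e = 4 * D.P * pM D.P * D.t e := if_pos (h.tr_large e he hT)
    have h2 : D.P * (2 * pM D.P + 1) * D.t e ≤ D.R e := by
      rw [hR]
      refine Nat.mul_le_mul_right _ ?_
      nlinarith
    have h3 : (D.P : ℤ) * ((2 * pM D.P + 1 : ℕ) : ℤ) * D.t e ≤ D.R e := by exact_mod_cast h2
    have h4 : ((q.getD e 0 : ℕ) : ℤ) ≤ D.c e := by exact_mod_cast hq1 e he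
    have h5 : (0 : ℤ) ≤ (q.getD e 0 : ℤ) := Int.natCast_nonneg _
    rw [abs_le] at h1
    constructor <;> linarith [h1.1, h1.2]
  · rw [if_neg hT]
    have h1 := ta_le ha he
    have h2 := ((mem_H D hη).2 e he).1
    have h3 : vl D a η e ≤ D.c e + D.R e := by
      unfold vl Dat.R
      split_ifs with hL
      · have : D.t e ≤ 4 * D.P * pM D.P * D.t e := Nat.le_mul_of_pos_left _ (by positivity)
        omega
      · have h4 : D.t e = 1 := by
          unfold Dat.t; rw [Dat.small_tau (not_le.1 hL)]; rfl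
        omega
    constructor
    · have : (0 : ℤ) ≤ (vl D a η e : ℤ) := Int.natCast_nonneg _
      have : (0 : ℤ) ≤ (D.R e : ℤ) := Int.natCast_nonneg _
      linarith
    · exact_mod_cast h3

theorem getD_xl (h : D.OK) {a η : List ℕ} (ha : a ∈ D.Ω) (hη : η ∈ H D) {e : ℕ}
    (he : e < D.N.E) : (((xl D a η).getD e 0 : ℕ) : ℤ) - D.R e = pz D a η e := by
  unfold xl
  rw [getD_map_range _ _ _ he]
  have := (pz_range h ha hη he).1
  omega

theorem xl_mem_bx (h : D.OK) {a η : List ℕ} (ha : a ∈ D.Ω) (hη : η ∈ H D) :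
    xl D a η ∈ bx D.N.E [] D.capX := by
  rw [mem_bx]
  refine ⟨by simp [xl], fun e he => ⟨by simp, ?_⟩⟩
  unfold Dat.capX
  rw [getD_map_range _ _ _ he]
  have h1 := getD_xl h ha hη he
  have h2 := (pz_range h ha hη he).2
  omega

theorem pz_cons (h : D.OK) {a η : List ℕ} (ha : a ∈ D.Ω0) (hη : η ∈ H D) :
    D.N.Cons (pz D a η) := by
  obtain ⟨ha, h0⟩ := mem_filter.1 ha
  have key := h.span (fun w => D.N.b w - D.N.dv (pz D a η) w) (fun K hK => ?_) (fun f hf hT => ?_)
  · intro w hw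
    have := key w hw
    linarith
  · have h1 : ∑ w ∈ range D.N.V, (if D.lab w = K then D.N.b w - D.N.dv (pz D a η) w else 0) =
        D.bK K - ∑ w ∈ range D.N.V, (if D.lab w = K then D.N.dv (pz D a η) w else 0) := by
      unfold Dat.bK
      rw [← sum_sub_distrib]
      refine sum_congr rfl fun w _ => ?_
      split_ifs <;> simp
    rw [h1, h.sum_dv_K]
    have h2 := h0 K hK
    unfold Dat.dS Dat.dK at h2
    rw [sub_eq_zero] at h2
    rw [← h2, sub_eq_zero]
    refine sum_congr rfl fun e he => ?_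
    have he := mem_range.1 he
    have h3 := (Dat.mem_Ω.1 ha).2 e he
    have h4 : ((D.ys a e : ℕ) : ℤ) - D.ρ e = -(a.getD e 0 : ℤ) := by
      unfold Dat.ys; omega
    rw [h4]
    unfold Dat.xs
    by_cases hl : D.lab (D.N.s e) = D.lab (D.N.d e)
    · rw [hl]
      split_ifs <;> simp
    · have hs : D.c e < pM D.P := not_le.1 fun hL => hl (h.large_K e he hL)
      have hT : ¬ D.T e = true := fun hT => absurd (h.tr_large e he hT) (not_le.2 hs)
      have h5 : D.t e = 1 := by
        unfold Dat.t; rw [Dat.small_tau hs]; rfl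
      have h6 := ((mem_H D hη).2 e he).1
      have h7 : pz D a η e = a.getD e 0 := by
        unfold pz vl
        rw [if_neg hT, h5]
        have : η.getD e 0 = 0 := by omega
        rw [this]; simp
      rw [h7]
      split_ifs <;> simp
  · have h1 : ∑ w ∈ range D.N.V, (if D.u f w then D.N.b w - D.N.dv (pz D a η) w else 0) =
        D.bU f - ∑ w ∈ range D.N.V, (if D.u f w then D.N.dv (pz D a η) w else 0) := by
      unfold Dat.bU
      rw [← sum_sub_distrib]
      refine sum_congr rfl fun w _ => ?_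
      split_ifs <;> simp
    rw [h1, h.sum_dv_U _ hf hT]
    have h2 : pz D a η f = D.cut (pz D a η) (pz D a η) f := by
      have hc : ∀ e < D.N.E, D.T e = false → (vl D a η e : ℤ) = pz D a η e := by
        intro e _ hT
        unfold pz
        rw [if_neg (by simp [hT])]
      rw [← cut_congr D hc hc f]
      unfold pz
      rw [if_pos hT]
    rw [h2]
    unfold Dat.cut
    ring

theorem xl_inj (h : D.OK) {a η a' η' : List ℕ} (ha : a ∈ D.Ω) (hη : η ∈ H D) (ha' : a' ∈ D.Ω)
    (hη' : η' ∈ H D) (hx : xl D a η = xl D a' η') : a = a' ∧ η = η' := by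
  have key : ∀ e < D.N.E, a.getD e 0 = a'.getD e 0 ∧ η.getD e 0 = η'.getD e 0 := by
    intro e he
    by_cases hT : D.T e = true
    · have h1 := (Dat.mem_Ω.1 ha).2 e he
      have h2 := (Dat.mem_Ω.1 ha').2 e he
      have h3 : D.ρ e = 0 := if_pos hT
      have h4 := ((mem_H D hη).2 e he).2 hT
      have h5 := ((mem_H D hη').2 e he).2 hT
      omega
    · have h1 := getD_xl h ha hη he
      have h2 := getD_xl h ha' hη' he
      rw [hx, h2] at h1
      unfold pz at h1
      rw [if_neg hT, if_neg hT] at h1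
      have h3 : vl D a' η' e = vl D a η e := by exact_mod_cast h1
      unfold vl at h3
      have h4 := ((mem_H D hη).2 e he).1
      have h5 := ((mem_H D hη').2 e he).1
      have h6 := D.t_pos e
      have h7 : a'.getD e 0 = a.getD e 0 := by
        have := congrArg (· / D.t e) h3
        simp only [Nat.mul_add_div h6, Nat.div_eq_of_lt h4, Nat.div_eq_of_lt h5] at this
        omega
      rw [h7] at h3
      omega
  exact ⟨list_ext (Dat.mem_Ω.1 ha).1 (Dat.mem_Ω.1 ha').1 fun e he => (key e he).1,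
    list_ext (mem_H D hη).1 (mem_H D hη').1 fun e he => (key e he).2⟩

theorem cube_le {u v w : ℕ} (hw : 0 < w) (h : u ≤ v - w) : (u : ℝ) / w ≤ (v : ℝ) ^ 3 / (w : ℝ) ^ 3 := by
  have hw' : (0 : ℝ) < w := by exact_mod_cast hw
  rcases Nat.eq_zero_or_pos u with hu | hu
  · rw [hu]; simp only [Nat.cast_zero, zero_div]; positivity
  · have h1 : u ≤ v := by omega
    have h2 : w ≤ v := by omega
    have h3 : (u : ℝ) ≤ v := by exact_mod_cast h1
    have h4 : (w : ℝ) ≤ v := by exact_mod_cast h2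
    have h5 : 1 ≤ (v : ℝ) / w := by rw [le_div_iff₀ hw']; linarith
    rw [← div_pow]
    calc (u : ℝ) / w ≤ v / w := by gcongr
      _ ≤ _ := le_self_pow₀ h5 (by norm_num)

theorem weight (h : D.OK) {a η : List ℕ} (ha : a ∈ D.Ω) (hη : η ∈ H D) :
    (2 : ℝ) ^ (-D.phi (Dat.xs a) (D.ys a)) ≤ ∏ e ∈ range D.N.E, D.psi e (pz D a η e) := by
  unfold Dat.phi Dat.psi
  rw [← Real.rpow_sum_of_pos (by norm_num), ← sum_neg_distrib]
  refine Real.rpow_le_rpow_of_exponent_le (by norm_num) (sum_le_sum fun e he => ?_)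
  have he := mem_range.1 he
  rw [neg_le_neg_iff]
  have hW := one_le_pW h.one_le_P
  have ht := D.t_pos e
  have hP := h.one_le_P
  by_cases hT : D.T e = true
  · rw [if_pos hT]
    have hb : ∀ e < D.N.E, D.T e = false →
        |(vl D a η e : ℤ) - (D.t e : ℤ) * (Dat.xs a e : ℕ)| ≤ ((1 : ℕ) : ℤ) * D.t e := by
      intro e he _
      have h2 := ((mem_H D hη).2 e he).1
      unfold vl Dat.xs
      push_cast
      rw [add_sub_cancel_left, abs_of_nonneg (Int.natCast_nonneg _), one_mul]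
      exact_mod_cast h2.le
    have hb' : ∀ e < D.N.E, D.T e = false →
        |(vl D a η e : ℤ) - (D.t e : ℤ) * ((D.ρ e : ℤ) - (D.ys a e : ℕ))| ≤ ((1 : ℕ) : ℤ) * D.t e := by
      intro e he hT
      have h3 := (Dat.mem_Ω.1 ha).2 e he
      have h4 : (D.ρ e : ℤ) - (D.ys a e : ℕ) = (Dat.xs a e : ℕ) := by
        unfold Dat.ys Dat.xs; omega
      rw [h4]
      exact hb e he hT
    have h1 := h.cut_sub _ _ _ _ he hT 1 hb hb'
    have h2 : pz D a η e = D.cut (fun e => (vl D a η e : ℤ)) (fun e => (vl D a η e : ℤ)) e :=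
      if_pos hT
    rw [← h2] at h1
    change |pz D a η e - D.ell (Dat.xs a) (D.ys a) e| ≤ _ at h1
    rw [abs_le] at h1
    obtain ⟨h1, h1'⟩ := h1
    have hL : (D.Lw e : ℤ) = 2 * ((D.P : ℤ) * D.t e) + ((pW D.P * D.t e : ℕ) : ℤ) := by
      unfold Dat.Lw; push_cast; ring
    have hw : 0 < pW D.P * D.t e := by positivity
    simp only [Nat.cast_one, mul_one] at h1 h1'
    have hA : (pz D a η e - D.c e - D.Lw e).toNat ≤
        D.ovA (Dat.xs a) (D.ys a) e - pW D.P * D.t e := by
      unfold Dat.ovA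
      rw [hL]
      omega
    have hB : (-pz D a η e - D.Lw e).toNat ≤ D.ovB (Dat.xs a) (D.ys a) e - pW D.P * D.t e := by
      unfold Dat.ovB
      rw [hL]
      omega
    have h3 := cube_le hw hA
    have h4 := cube_le hw hB
    push_cast at h3 h4 ⊢
    rw [add_div, add_div]
    exact add_le_add h3 h4
  · rw [if_neg hT]
    have h1 := ta_le ha he
    have h2 := ((mem_H D hη).2 e he).1
    have h3 : pz D a η e = (vl D a η e : ℤ) := if_neg hT
    have h4 : D.t e ≤ D.Lw e := Nat.le_mul_of_pos_left _ (by omega)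
    have h5 : vl D a η e = D.t e * a.getD e 0 + η.getD e 0 := rfl
    have h6 : (pz D a η e - D.c e - D.Lw e).toNat + (-pz D a η e - D.Lw e).toNat = 0 := by
      omega
    rw [h6]
    simp

end Acc1

open Acc1 in
theorem Dat.OK.acc1 {D : Dat} (h : D.OK) :
    (∑ a ∈ D.Ω0, (2 : ℝ) ^ (-D.phi (Dat.xs a) (D.ys a))) * D.tt ≤ D.extN := by
  have hΩ : ∀ a ∈ D.Ω0, a ∈ D.Ω := fun a ha => (mem_filter.1 ha).1
  have h1 : (∑ a ∈ D.Ω0, (2 : ℝ) ^ (-D.phi (Dat.xs a) (D.ys a))) * D.tt =
      ∑ q ∈ D.Ω0 ×ˢ H D, (2 : ℝ) ^ (-D.phi (Dat.xs q.1) (D.ys q.1)) := by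
    rw [sum_product, sum_mul]
    refine sum_congr rfl fun a _ => ?_
    simp only [sum_const, nsmul_eq_mul, card_H, mul_comm]
  rw [h1]
  set Ψ : List ℕ → ℝ := fun x => ∏ e ∈ range D.N.E, D.psi e ((x.getD e 0 : ℤ) - D.R e) with hΨ
  have h2 : ∑ q ∈ D.Ω0 ×ˢ H D, (2 : ℝ) ^ (-D.phi (Dat.xs q.1) (D.ys q.1)) ≤
      ∑ q ∈ D.Ω0 ×ˢ H D, Ψ (xl D q.1 q.2) := by
    refine sum_le_sum fun q hq => ?_
    obtain ⟨hq1, hq2⟩ := mem_product.1 hq
    refine (weight h (hΩ _ hq1) hq2).trans (le_of_eq ?_)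
    refine prod_congr rfl fun e he => ?_
    rw [getD_xl h (hΩ _ hq1) hq2 (mem_range.1 he)]
  refine h2.trans ?_
  rw [← sum_image (f := Ψ) (g := fun q : List ℕ × List ℕ => xl D q.1 q.2) ?_]
  · unfold Dat.extN
    refine sum_le_sum_of_subset_of_nonneg ?_ fun x _ _ => prod_nonneg fun e _ => ?_
    · intro x hx
      obtain ⟨q, hq, rfl⟩ := mem_image.1 hx
      obtain ⟨hq1, hq2⟩ := mem_product.1 hq
      refine mem_filter.2 ⟨xl_mem_bx h (hΩ _ hq1) hq2, ?_⟩
      exact cons_congr D.N (fun e he => (getD_xl h (hΩ _ hq1) hq2 he).symm) (pz_cons h hq1 hq2)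
    · unfold Dat.psi
      positivity
  · intro q hq q' hq' hx
    obtain ⟨hq1, hq2⟩ := mem_product.1 (mem_coe.1 hq)
    obtain ⟨hq1', hq2'⟩ := mem_product.1 (mem_coe.1 hq')
    obtain ⟨e1, e2⟩ := xl_inj h (hΩ _ hq1) hq2 (hΩ _ hq1') hq2' hx
    exact Prod.ext e1 e2

end Crest.Agent.R309
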