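import Crest.Agent.R309.Block
import Crest.Agent.R309.Bridge

/-! Row 309: one-dimensional log-concave sequences and the soft flow model. -/

set_option autoImplicit false

namespace Crest.Agent.R309

open Finset

namespace Acc2X

/-- three-point inequality of a discretely concave function -/
theorem three_pt (f : ℕ → ℝ) (T : ℕ) (hc : ∀ i, i + 2 ≤ T → f i + f (i + 2) ≤ 2 * f (i + 1))
    (u p r : ℕ) (hT : u + p + r ≤ T) :
    (p : ℝ) * (f (u + p + r) - f (u + p)) ≤ r * (f (u + p) - f u) := by
  rcases Nat.eq_zero_or_pos r with rfl | hr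
  · simp
  have anti : ∀ k m, k + m + 1 ≤ T → f (k + m + 1) - f (k + m) ≤ f (k + 1) - f k := by
    intro k m
    induction m with
    | zero => intro _; simp
    | succ m ih =>
      intro h
      have h1 := ih (by omega)
      have h2 := hc (k + m) (by omega)
      have e1 : k + (m + 1) + 1 = k + m + 2 := by omega
      have e2 : k + (m + 1) = k + m + 1 := by omega
      rw [e1, e2]; linarith
  set x := f (u + p + 1) - f (u + p) with hx
  have h1 : ∀ m, m ≤ r → f (u + p + m) - f (u + p) ≤ m * x := by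
    intro m
    induction m with
    | zero => intro _; simp
    | succ m ih =>
      intro h
      have a1 := ih (by omega)
      have a2 := anti (u + p) m (by omega)
      have e1 : u + p + (m + 1) = u + p + m + 1 := by omega
      rw [e1]; push_cast; linarith
  have h2 : ∀ m, m ≤ p → (m : ℝ) * x ≤ f (u + p) - f (u + p - m) := by
    intro m
    induction m with
    | zero => intro _; simp
    | succ m ih =>
      intro h
      have a1 := ih (by omega)
      have a2 := anti (u + p - (m + 1)) (m + 1) (by omega)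
      have e1 : u + p - (m + 1) + (m + 1) = u + p := by omega
      have e2 : u + p - (m + 1) + 1 = u + p - m := by omega
      rw [e1, e2] at a2
      push_cast; linarith
  have a1 := h1 r le_rfl
  have a2 := h2 p le_rfl
  rw [Nat.add_sub_cancel] at a2
  have hp : (0 : ℝ) ≤ p := Nat.cast_nonneg p
  have hr' : (0 : ℝ) ≤ r := Nat.cast_nonneg r
  nlinarith [mul_le_mul_of_nonneg_left a1 hp, mul_le_mul_of_nonneg_left a2 hr']

theorem geom_le {x : ℝ} (hx : 0 < x) (m : ℕ) :
    ∑ i ∈ range m, Real.exp (-(x * (i + 1))) ≤ 1 / x := by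
  have key : ∀ m : ℕ, x * ∑ i ∈ range m, Real.exp (-(x * (i + 1))) ≤ 1 - Real.exp (-(x * m)) := by
    intro m
    induction m with
    | zero => simp
    | succ m ih =>
      rw [Finset.sum_range_succ, mul_add]
      have e : Real.exp (-(x * m)) = Real.exp (-(x * (m + 1))) * Real.exp x := by
        rw [← Real.exp_add]; congr 1; ring
      have h1 := Real.add_one_le_exp x
      have h2 := Real.exp_pos (-(x * (m + 1)))
      push_cast
      nlinarith [mul_le_mul_of_nonneg_left h1 h2.le]
  rw [le_div_iff₀ hx, mul_comm]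
  linarith [key m, Real.exp_pos (-(x * m))]

/-- the mass to the right of the window is small -/
theorem right_bd (n : ℕ → ℝ) (T a s k : ℕ) (x B : ℝ) (hpos : ∀ i ≤ T, 0 < n i)
    (hlc : ∀ i, i + 2 ≤ T → n i * n (i + 2) ≤ n (i + 1) ^ 2) (hs : 0 < s) (hT : a + s ≤ T)
    (h1 : 1 ≤ n a) (hB : n (a + s) ≤ Real.exp B) (hx : 0 < x) (hBx : B ≤ s * x)
    (hk0 : 0 < k) (hk : k ≤ s) (hB0 : 0 ≤ B) (hkB : k * B ≤ s * Real.log 2) :
    ∑ i ∈ range (T - (a + s)), n (a + s + 1 + i) * Real.exp (-(2 * x * (i + 1)))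
      ≤ 2 / (x * k) * ∑ i ∈ range (s + 1), n (a + i) := by
  set f : ℕ → ℝ := fun i => Real.log (n i) with hf
  have hc : ∀ i, i + 2 ≤ T → f i + f (i + 2) ≤ 2 * f (i + 1) := by
    intro i hi
    have p0 := hpos i (by omega)
    have p1 := hpos (i + 1) (by omega)
    have p2 := hpos (i + 2) hi
    have := Real.log_le_log (mul_pos p0 p2) (hlc i hi)
    rw [Real.log_mul p0.ne' p2.ne', Real.log_pow] at this
    simpa [hf] using this
  have hb0 := hpos (a + s) hT
  have hD : f (a + s) - f a ≤ B := by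
    have a1 : f (a + s) ≤ B := by
      have := Real.log_le_log hb0 hB
      rwa [Real.log_exp] at this
    have a2 : 0 ≤ f a := Real.log_nonneg h1
    linarith
  have hs' : (0 : ℝ) < s := by exact_mod_cast hs
  have hk' : (0 : ℝ) < k := by exact_mod_cast hk0
  have out : ∀ i ∈ range (T - (a + s)), n (a + s + 1 + i) * Real.exp (-(2 * x * (i + 1)))
      ≤ n (a + s) * Real.exp (-(x * (i + 1))) := by
    intro i hi
    have hi' := Finset.mem_range.1 hi
    have t := three_pt f T hc a s (i + 1) (by omega)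
    have e : a + s + (i + 1) = a + s + 1 + i := by omega
    rw [e] at t
    push_cast at t
    have hi0 : (0 : ℝ) ≤ (i : ℝ) + 1 := by positivity
    have t2 : f (a + s + 1 + i) - f (a + s) ≤ x * (i + 1) := by
      refine le_of_mul_le_mul_left ?_ hs'
      nlinarith [mul_le_mul_of_nonneg_left (hD.trans hBx) hi0]
    rw [← Real.exp_log (hpos (a + s + 1 + i) (by omega)), ← Real.exp_log hb0, ← Real.exp_add,
      ← Real.exp_add]
    refine Real.exp_le_exp.2 ?_
    simp only [hf] at t2
    linarith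
  have inn : ∀ i ∈ range k, n (a + s) / 2 ≤ n (a + (s - i)) := by
    intro i hi
    have hi' := Finset.mem_range.1 hi
    have t := three_pt f T hc a (s - i) i (by omega)
    have e : a + (s - i) + i = a + s := by omega
    rw [e, Nat.cast_sub (by omega : i ≤ s)] at t
    have hi0 : (0 : ℝ) ≤ i := Nat.cast_nonneg i
    have hik : (i : ℝ) ≤ k := by exact_mod_cast hi'.le
    have t2 : f (a + s) - f (a + (s - i)) ≤ Real.log 2 := by
      refine le_of_mul_le_mul_left ?_ hs'
      nlinarith [mul_le_mul_of_nonneg_left hD hi0, mul_le_mul_of_nonneg_right hik hB0]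
    have p1 := hpos (a + (s - i)) (by omega)
    rw [div_le_iff₀ two_pos, ← Real.exp_log hb0, ← Real.exp_log p1,
      ← Real.exp_log (two_pos (α := ℝ)), ← Real.exp_add]
    refine Real.exp_le_exp.2 ?_
    simp only [hf] at t2
    linarith
  have s1 : ∑ i ∈ range (T - (a + s)), n (a + s + 1 + i) * Real.exp (-(2 * x * (i + 1)))
      ≤ n (a + s) * (1 / x) := by
    refine (Finset.sum_le_sum out).trans ?_
    rw [← Finset.mul_sum]
    exact mul_le_mul_of_nonneg_left (geom_le hx _) hb0.le
  have s2 : (k : ℝ) * (n (a + s) / 2) ≤ ∑ i ∈ range (s + 1), n (a + i) := by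
    rw [← Finset.sum_range_reflect]
    have : ∑ i ∈ range k, n (a + s) / 2 ≤ ∑ i ∈ range k, n (a + (s + 1 - 1 - i)) :=
      Finset.sum_le_sum fun i hi => by simpa using inn i hi
    rw [Finset.sum_const, Finset.card_range, nsmul_eq_mul] at this
    refine this.trans (Finset.sum_le_sum_of_subset_of_nonneg
      (Finset.range_subset_range.2 (by omega)) fun i hi _ => (hpos _ (by omega)).le)
  refine s1.trans ?_
  calc n (a + s) * (1 / x) = 2 / (x * k) * ((k : ℝ) * (n (a + s) / 2)) := by field_simp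
    _ ≤ _ := mul_le_mul_of_nonneg_left s2 (by positivity)

/-- the one-dimensional comparison -/
theorem oneD (n ψ : ℕ → ℝ) (R s k : ℕ) (x B C : ℝ) (hpos : ∀ i ≤ s + 2 * R, 0 < n i)
    (hlc : ∀ i, i + 2 ≤ s + 2 * R → n i * n (i + 2) ≤ n (i + 1) ^ 2) (hs : 0 < s)
    (h1 : 1 ≤ n R) (h2 : 1 ≤ n (R + s)) (hB : ∀ i, n i ≤ Real.exp B) (hx : 0 < x)
    (hBx : B ≤ s * x) (hk0 : 0 < k) (hk : k ≤ s) (hB0 : 0 ≤ B) (hkB : k * B ≤ s * Real.log 2)
    (hC : 0 ≤ C) (hψ : ∀ i, ψ i ≤ 1)
    (hr : ∀ i, ψ (R + s + 1 + i) ≤ C * Real.exp (-(2 * x * (i + 1))))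
    (hl : ∀ i < R, ψ (R - 1 - i) ≤ C * Real.exp (-(2 * x * (i + 1)))) :
    ∑ i ∈ range (s + 2 * R + 1), n i * ψ i
      ≤ (1 + 4 * C / (x * k)) * ∑ i ∈ range (s + 1), n (R + i) := by
  have r1 := right_bd n (s + 2 * R) R s k x B hpos hlc hs (by omega) h1 (hB _) hx hBx hk0 hk hB0 hkB
  have r2 := right_bd (fun i => n (s + 2 * R - i)) (s + 2 * R) R s k x B
    (fun i _ => hpos _ (by omega)) (fun i hi => by
      have := hlc (s + 2 * R - (i + 2)) (by omega)
      have e1 : s + 2 * R - (i + 2) + 2 = s + 2 * R - i := by omega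
      have e2 : s + 2 * R - (i + 2) + 1 = s + 2 * R - (i + 1) := by omega
      rw [e1, e2, mul_comm] at this
      exact this) hs (by omega) (by
      have e : s + 2 * R - R = R + s := by omega
      simpa only [e] using h2) (hB _) hx hBx hk0 hk hB0 hkB
  have eR : s + 2 * R - (R + s) = R := by omega
  rw [eR] at r1 r2
  have e3 : ∑ i ∈ range (s + 1), n (s + 2 * R - (R + i)) = ∑ i ∈ range (s + 1), n (R + i) := by
    rw [← Finset.sum_range_reflect]
    refine Finset.sum_congr rfl fun i hi => ?_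
    have := Finset.mem_range.1 hi
    congr 1; omega
  rw [e3] at r2
  have e0 : s + 2 * R + 1 = R + ((s + 1) + R) := by omega
  rw [e0, Finset.sum_range_add, Finset.sum_range_add, ← Finset.sum_range_reflect _ R]
  have b1 : ∑ i ∈ range R, n (R - 1 - i) * ψ (R - 1 - i)
      ≤ C * ∑ i ∈ range R, n (s + 2 * R - (R + s + 1 + i)) * Real.exp (-(2 * x * (i + 1))) := by
    rw [Finset.mul_sum]
    refine Finset.sum_le_sum fun i hi => ?_
    have hi' := Finset.mem_range.1 hi
    have e : s + 2 * R - (R + s + 1 + i) = R - 1 - i := by omega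
    rw [e]
    have := mul_le_mul_of_nonneg_left (hl i hi') (hpos (R - 1 - i) (by omega)).le
    linarith
  have b2 : ∑ i ∈ range (s + 1), n (R + i) * ψ (R + i) ≤ ∑ i ∈ range (s + 1), n (R + i) := by
    refine Finset.sum_le_sum fun i hi => ?_
    have hi' := Finset.mem_range.1 hi
    have := mul_le_mul_of_nonneg_left (hψ (R + i)) (hpos (R + i) (by omega)).le
    linarith
  have b3 : ∑ i ∈ range R, n (R + (s + 1 + i)) * ψ (R + (s + 1 + i))
      ≤ C * ∑ i ∈ range R, n (R + s + 1 + i) * Real.exp (-(2 * x * (i + 1))) := by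
    rw [Finset.mul_sum]
    refine Finset.sum_le_sum fun i hi => ?_
    have hi' := Finset.mem_range.1 hi
    have e : R + (s + 1 + i) = R + s + 1 + i := by omega
    rw [e]
    have := mul_le_mul_of_nonneg_left (hr i) (hpos (R + s + 1 + i) (by omega)).le
    linarith
  have c1 := mul_le_mul_of_nonneg_left r1 hC
  have c2 := mul_le_mul_of_nonneg_left r2 hC
  have e4 : (1 + 4 * C / (x * k)) * ∑ i ∈ range (s + 1), n (R + i)
      = ∑ i ∈ range (s + 1), n (R + i) + C * (2 / (x * k) * ∑ i ∈ range (s + 1), n (R + i))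
        + C * (2 / (x * k) * ∑ i ∈ range (s + 1), n (R + i)) := by ring
  rw [e4]
  linarith

/-! ### The soft model -/

/-- block of a variable -/
def bl (s d : ℕ → ℕ) (i : ℕ × Bool) : ℕ := if i.2 then s i.1 else d i.1

/-- the imbalance at the vertex `w` -/
noncomputable def Sw (E : ℕ) (s d : ℕ → ℕ) (C : ℕ → ℝ) (β : Cfg) (w : ℕ) : ℝ :=
  (∑ e ∈ range E, ((if s e = w then (β (e, true) : ℝ) else 0)
    + if d e = w then (β (e, false) : ℝ) else 0)) - C w

noncomputable def Vm (E V : ℕ) (s d : ℕ → ℕ) (l : ℝ) (C : ℕ → ℝ) (v : ℕ → ℕ → ℝ) (β : Cfg) : ℝ :=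
  l * (∑ w ∈ range V, |Sw E s d C β w|) + ∑ e ∈ range E, v e (β (e, true))

theorem Sw_uv {E : ℕ} (s d : ℕ → ℕ) (C : ℕ → ℝ) (β : Cfg) (w : ℕ) {i : ℕ × Bool}
    (hi : i ∈ dirs E) : Sw E s d C (β + uv i) w = Sw E s d C β w + if bl s d i = w then 1 else 0 := by
  obtain ⟨e₀, b⟩ := i
  have he : e₀ < E := BridgeX.mem_dirs.1 hi
  have key : ∀ e, ((if s e = w then ((β + uv (e₀, b)) (e, true) : ℝ) else 0)
      + if d e = w then ((β + uv (e₀, b)) (e, false) : ℝ) else 0)
      = ((if s e = w then (β (e, true) : ℝ) else 0) + if d e = w then (β (e, false) : ℝ) else 0)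
        + if e = e₀ then (if bl s d (e₀, b) = w then 1 else 0) else 0 := by
    intro e
    simp only [Pi.add_apply, LorX.uv_apply, bl, Prod.mk.injEq]
    by_cases h : e = e₀
    · subst h
      cases b <;> simp <;> split_ifs <;> ring
    · simp [h]
  unfold Sw
  rw [Finset.sum_congr rfl fun e _ => key e, Finset.sum_add_distrib (s := range E)
    (g := fun e => if e = e₀ then (if bl s d (e₀, b) = w then (1 : ℝ) else 0) else 0),
    Finset.sum_ite_eq', if_pos (Finset.mem_range.2 he)]
  ring

theorem SL_model (E V : ℕ) (s d : ℕ → ℕ) {l : ℝ} (hl : 0 ≤ l) (C : ℕ → ℝ) (v : ℕ → ℕ → ℝ)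
    (hv : ∀ e y, 2 * v e (y + 1) ≤ v e y + v e (y + 2)) (β : Cfg) :
    SL (dirs E) (fun β => Real.exp (-Vm E V s d l C v β)) β := by
  refine SL_block (Vm E V s d l C v) β (bl s d)
    (fun b => l * ∑ w ∈ range V, if b = w then
      |Sw E s d C β w + 2| - 2 * |Sw E s d C β w + 1| + |Sw E s d C β w| else 0)
    (fun i j => if i = j ∧ i.2 = true then
      v i.1 (β i + 2) - 2 * v i.1 (β i + 1) + v i.1 (β i) else 0) ?_ ?_ ?_
  · intro b
    refine mul_nonneg hl (Finset.sum_nonneg fun w _ => ?_)
    split_ifs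
    · have := abs_add_le (Sw E s d C β w + 2) (Sw E s d C β w)
      have e : Sw E s d C β w + 2 + Sw E s d C β w = 2 * (Sw E s d C β w + 1) := by ring
      rw [e, abs_mul, abs_two] at this
      linarith
    · exact le_rfl
  · intro i hi j hj
    have e1 : d2 (Vm E V s d l C v) β i j
        = l * (∑ w ∈ range V, (|Sw E s d C (β + uv i + uv j) w| - |Sw E s d C (β + uv i) w|
            - |Sw E s d C (β + uv j) w| + |Sw E s d C β w|))
          + ∑ e ∈ range E, (v e ((β + uv i + uv j) (e, true)) - v e ((β + uv i) (e, true))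
            - v e ((β + uv j) (e, true)) + v e (β (e, true))) := by
      simp only [d2, Vm, Finset.sum_add_distrib, Finset.sum_sub_distrib]
      ring
    have e2 : ∑ e ∈ range E, (v e ((β + uv i + uv j) (e, true)) - v e ((β + uv i) (e, true))
            - v e ((β + uv j) (e, true)) + v e (β (e, true)))
        = if i = j ∧ i.2 = true then v i.1 (β i + 2) - 2 * v i.1 (β i + 1) + v i.1 (β i) else 0 := by
      have key : ∀ e, (v e ((β + uv i + uv j) (e, true)) - v e ((β + uv i) (e, true))
            - v e ((β + uv j) (e, true)) + v e (β (e, true)))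
          = if e = i.1 then (if i = j ∧ i.2 = true then
              v i.1 (β i + 2) - 2 * v i.1 (β i + 1) + v i.1 (β i) else 0) else 0 := by
        intro e
        simp only [Pi.add_apply, LorX.uv_apply]
        by_cases h1 : (e, true) = i
        · subst h1
          by_cases h2 : (e, true) = j
          · subst h2
            simp only [if_true, and_self]
            ring
          · simp [h2]
        · rw [if_neg h1]
          have : ¬ (e = i.1 ∧ i = j ∧ i.2 = true) := by
            rintro ⟨rfl, -, h⟩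
            exact h1 (Prod.ext rfl h.symm)
          split_ifs with h3 h4 h5 h6 h7 <;> first | (exfalso; tauto) | simp
      rw [Finset.sum_congr rfl fun e _ => key e, Finset.sum_ite_eq',
        if_pos (Finset.mem_range.2 (BridgeX.mem_dirs.1 (show (i.1, i.2) ∈ dirs E from hi)))]
    rw [e1, e2]
    simp only [Sw_uv s d C _ _ hi, Sw_uv s d C _ _ hj]
    by_cases hij : bl s d i = bl s d j
    · rw [if_pos hij, ← hij]
      congr 2
      refine Finset.sum_congr rfl fun w _ => ?_
      by_cases hw : bl s d i = w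
      · simp only [hw, if_true]
        rw [add_assoc, one_add_one_eq_two]; ring
      · simp [hw]
    · rw [if_neg hij, if_neg (fun h : i = j ∧ i.2 = true => hij (by rw [h.1])), add_zero]
      refine mul_eq_zero_of_right _ (Finset.sum_eq_zero fun w _ => ?_)
      by_cases h1 : bl s d i = w
      · have h2 : ¬ bl s d j = w := fun h => hij (h1.trans h.symm)
        simp [h1, h2]
      · simp [h1]
  · intro w
    refine Finset.sum_nonpos fun i _ => Finset.sum_nonpos fun j _ => ?_
    by_cases hij : i = j ∧ i.2 = true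
    · obtain ⟨rfl, h2⟩ := hij
      simp only [h2, and_self, if_true]
      refine mul_nonpos_of_nonneg_of_nonpos (mul_self_nonneg _) ?_
      have := hv i.1 (β i)
      rw [sub_nonpos, Real.exp_le_one_iff]
      linarith
    · simp [hij]

/-- a convex piecewise linear penalty -/
noncomputable def hat (κ A B : ℝ) (y : ℕ) : ℝ := κ * (max ((y : ℝ) - A) 0 + max (B - y) 0)

theorem hat_nonneg {κ : ℝ} (hκ : 0 ≤ κ) (A B : ℝ) (y : ℕ) : 0 ≤ hat κ A B y :=
  mul_nonneg hκ (add_nonneg (le_max_right _ _) (le_max_right _ _))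

theorem hat_conv {κ : ℝ} (hκ : 0 ≤ κ) (A B : ℝ) (y : ℕ) :
    2 * hat κ A B (y + 1) ≤ hat κ A B y + hat κ A B (y + 2) := by
  unfold hat
  push_cast
  have a1 : 2 * max ((y : ℝ) + 1 - A) 0 ≤ max ((y : ℝ) - A) 0 + max ((y : ℝ) + 2 - A) 0 := by
    have := le_max_left ((y : ℝ) - A) 0
    have := le_max_right ((y : ℝ) - A) 0
    have := le_max_left ((y : ℝ) + 2 - A) 0
    have := le_max_right ((y : ℝ) + 2 - A) 0
    rcases le_total ((y : ℝ) + 1 - A) 0 with h | h
    · rw [max_eq_right h]; linarith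
    · rw [max_eq_left h]; linarith
  have a2 : 2 * max (B - ((y : ℝ) + 1)) 0 ≤ max (B - y) 0 + max (B - ((y : ℝ) + 2)) 0 := by
    have := le_max_left (B - (y : ℝ)) 0
    have := le_max_right (B - (y : ℝ)) 0
    have := le_max_left (B - ((y : ℝ) + 2)) 0
    have := le_max_right (B - ((y : ℝ) + 2)) 0
    rcases le_total (B - ((y : ℝ) + 1)) 0 with h | h
    · rw [max_eq_right h]; linarith
    · rw [max_eq_left h]; linarith
  nlinarith [mul_le_mul_of_nonneg_left a1 hκ, mul_le_mul_of_nonneg_left a2 hκ]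

theorem hat_zero (κ : ℝ) {A B : ℝ} {y : ℕ} (h1 : (y : ℝ) ≤ A) (h2 : B ≤ y) : hat κ A B y = 0 := by
  unfold hat
  rw [max_eq_right (by linarith), max_eq_right (by linarith)]; ring

theorem card_bx_le (E : ℕ) (hi : List ℕ) (m : ℕ) (h : ∀ e < E, hi.getD e 0 + 1 ≤ m) :
    (bx E [] hi).card ≤ m ^ E := by
  unfold bx
  refine Finset.card_image_le.trans ?_
  rw [Fintype.card_piFinset]
  refine (Finset.prod_le_pow_card _ _ m fun i _ => ?_).trans (by simp)
  simpa using h i i.2

end Acc2X

end Crest.Agent.R309
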