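import Crest.Agent.R309.Basic
import Crest.Agent.R309.Block
import Crest.Agent.R309.Bridge
import Crest.Agent.R309.Acc2Aux

/-! Row 309: extended flows are not much more numerous than flows. -/

set_option autoImplicit false

namespace Crest.Agent.R309

open Crest.Agent.PT Crest.Enc Finset

namespace Acc2X

variable (D : Dat) (l : ℝ)

def box : Finset (List ℕ) := bx D.N.E [] D.capX

noncomputable def Cw (w : ℕ) : ℝ := (D.N.b w : ℝ) + ∑ e ∈ range D.N.E,
  ((if D.N.s e = w then (D.R e : ℝ) else 0) + if D.N.d e = w then (D.c e : ℝ) + D.R e else 0)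

noncomputable def kap (e : ℕ) : ℝ := Real.log 2 / ((pW D.P : ℝ) * D.t e)
noncomputable def vψ (e : ℕ) : ℕ → ℝ :=
  hat (kap D e) ((D.R e : ℝ) + D.c e + D.Lw e) ((D.R e : ℝ) - D.Lw e)
noncomputable def vq (e : ℕ) : ℕ → ℝ := hat l ((D.R e : ℝ) + D.c e) (D.R e)
noncomputable def uu (j e : ℕ) : ℕ → ℝ := if e < j then vψ D e else vq D l e
noncomputable def uu' (j e : ℕ) : ℕ → ℝ := if e = j then fun _ => 0 else uu D l j e
noncomputable def wt (v : ℕ → ℕ → ℝ) (x : List ℕ) : ℝ :=
  Real.exp (-Vm D.N.E D.N.V D.N.s D.N.d l (Cw D) v (cfgOf D.N.E D.capX 0 x))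
noncomputable def NN (j : ℕ) : ℝ := ∑ x ∈ box D, wt D l (uu D l j) x
noncomputable def sl (j i : ℕ) : ℝ :=
  ∑ x ∈ (box D).filter (fun x => x.getD j 0 = i), wt D l (uu' D l j) x
/-- shift of a flow -/
def up (p : List ℕ) : List ℕ := (List.range D.N.E).map fun e => p.getD e 0 + D.R e

variable {D l}

theorem getD_map_range {E e : ℕ} (he : e < E) (f : ℕ → ℕ) :
    ((List.range E).map f).getD e 0 = f e := by
  simp [List.getD_eq_getElem?_getD, he]

theorem getD_capX {e : ℕ} (he : e < D.N.E) : D.capX.getD e 0 = D.c e + 2 * D.R e :=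
  getD_map_range he _

theorem mem_box {x : List ℕ} :
    x ∈ box D ↔ x.length = D.N.E ∧ ∀ e < D.N.E, x.getD e 0 ≤ D.c e + 2 * D.R e := by
  unfold box
  rw [mem_bx]
  refine and_congr_right fun _ => forall₂_congr fun e he => ?_
  rw [getD_capX he]; simp

theorem kap_nonneg (e : ℕ) : 0 ≤ kap D e :=
  div_nonneg (Real.log_nonneg one_le_two) (by positivity)

theorem uu_nonneg (hl : 0 ≤ l) (j e y : ℕ) : 0 ≤ uu D l j e y := by
  unfold uu
  split_ifs
  · exact hat_nonneg (kap_nonneg e) _ _ _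
  · exact hat_nonneg hl _ _ _

theorem uu'_nonneg (hl : 0 ≤ l) (j e y : ℕ) : 0 ≤ uu' D l j e y := by
  unfold uu'
  split_ifs
  · exact le_rfl
  · exact uu_nonneg hl j e y

theorem uu'_conv (hl : 0 ≤ l) (j e y : ℕ) :
    2 * uu' D l j e (y + 1) ≤ uu' D l j e y + uu' D l j e (y + 2) := by
  unfold uu' uu
  split_ifs
  · simp
  · exact hat_conv (kap_nonneg e) _ _ _
  · exact hat_conv hl _ _ _

theorem uu_zero (j : ℕ) {e y : ℕ} (h1 : D.R e ≤ y) (h2 : y ≤ D.R e + D.c e) :
    uu D l j e y = 0 := by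
  have a1 : (D.R e : ℝ) ≤ y := by exact_mod_cast h1
  have a2 : (y : ℝ) ≤ D.R e + D.c e := by exact_mod_cast h2
  have a3 : (0 : ℝ) ≤ D.Lw e := Nat.cast_nonneg _
  unfold uu
  split_ifs
  · exact hat_zero _ (by linarith) (by linarith)
  · exact hat_zero _ a2 a1

theorem wt_eq {x : List ℕ} (hx : x ∈ box D) (v : ℕ → ℕ → ℝ) :
    wt D l v x = Real.exp (-(l * (∑ w ∈ range D.N.V,
      |((D.N.dv (fun e => (x.getD e 0 : ℤ) - D.R e) w - D.N.b w : ℤ) : ℝ)|)
      + ∑ e ∈ range D.N.E, v e (x.getD e 0))) := by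
  obtain ⟨-, hb⟩ := mem_box.1 hx
  unfold wt Vm
  congr 3
  · congr 1
    refine Finset.sum_congr rfl fun w _ => ?_
    congr 1
    unfold Sw Cw Net.dv
    push_cast
    rw [← sub_sub, sub_right_comm, ← Finset.sum_sub_distrib]
    congr 1
    refine Finset.sum_congr rfl fun e he => ?_
    have he' := Finset.mem_range.1 he
    have h1 : cfgOf D.N.E D.capX 0 x (e, true) = x.getD e 0 := by simp [cfgOf, he']
    have h2 : (cfgOf D.N.E D.capX 0 x (e, false) : ℝ) = D.c e + 2 * D.R e - x.getD e 0 := by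
      have : cfgOf D.N.E D.capX 0 x (e, false) = D.capX.getD e 0 - x.getD e 0 := by
        simp [cfgOf, he']
      rw [this, getD_capX he', Nat.cast_sub (hb e he')]
      push_cast; ring
    rw [h1, h2]
    split_ifs <;> ring
  · refine Finset.sum_congr rfl fun e he => ?_
    have he' := Finset.mem_range.1 he
    have h1 : cfgOf D.N.E D.capX 0 x (e, true) = x.getD e 0 := by simp [cfgOf, he']
    rw [h1]

theorem wt_pos (v : ℕ → ℕ → ℝ) (x : List ℕ) : 0 < wt D l v x := Real.exp_pos _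

theorem wt_le_one (hl : 0 ≤ l) {v : ℕ → ℕ → ℝ} (hv : ∀ e y, 0 ≤ v e y) (x : List ℕ) :
    wt D l v x ≤ 1 := by
  unfold wt Vm
  rw [Real.exp_le_one_iff, neg_nonpos]
  exact add_nonneg (mul_nonneg hl (Finset.sum_nonneg fun _ _ => abs_nonneg _))
    (Finset.sum_nonneg fun _ _ => hv _ _)

theorem wt_split {j : ℕ} (hj : j < D.N.E) {v : ℕ → ℕ → ℝ} (hv : ∀ e ≠ j, v e = uu D l j e)
    {x : List ℕ} (hx : x ∈ box D) :
    wt D l v x = wt D l (uu' D l j) x * Real.exp (-v j (x.getD j 0)) := by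
  rw [wt_eq hx, wt_eq hx, ← Real.exp_add]
  congr 1
  have : ∀ e, v e (x.getD e 0) = uu' D l j e (x.getD e 0)
      + if e = j then v j (x.getD j 0) else 0 := by
    intro e
    by_cases h : e = j
    · subst h; simp [uu']
    · simp [uu', h, hv e h]
  rw [Finset.sum_congr rfl fun e _ => this e, Finset.sum_add_distrib, Finset.sum_ite_eq',
    if_pos (Finset.mem_range.2 hj)]
  ring

theorem sum_sl {j : ℕ} (hj : j < D.N.E) {v : ℕ → ℕ → ℝ} (hv : ∀ e ≠ j, v e = uu D l j e) :
    ∑ x ∈ box D, wt D l v x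
      = ∑ i ∈ range (D.c j + 2 * D.R j + 1), sl D l j i * Real.exp (-v j i) := by
  rw [← Finset.sum_fiberwise_of_maps_to (t := range (D.c j + 2 * D.R j + 1))
    (g := fun x : List ℕ => x.getD j 0)
    (fun x hx => Finset.mem_range.2 (Nat.lt_succ_of_le ((mem_box.1 hx).2 j hj)))]
  refine Finset.sum_congr rfl fun i _ => ?_
  unfold sl
  rw [Finset.sum_mul]
  refine Finset.sum_congr rfl fun x hx => ?_
  obtain ⟨h1, h2⟩ := Finset.mem_filter.1 hx
  rw [wt_split hj hv h1, h2]

theorem sl_nonneg (j i : ℕ) : 0 ≤ sl D l j i := Finset.sum_nonneg fun x _ => (wt_pos _ x).le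

theorem sl_pos {j : ℕ} (hj : j < D.N.E) {i : ℕ} (hi : i ≤ D.c j + 2 * D.R j) : 0 < sl D l j i := by
  refine Finset.sum_pos (fun x _ => wt_pos _ x)
    ⟨(List.range D.N.E).map fun e => if e = j then i else 0, Finset.mem_filter.2 ⟨?_, ?_⟩⟩
  · refine mem_box.2 ⟨by simp, fun e he => ?_⟩
    rw [getD_map_range he]
    split_ifs with h
    · rw [h]; exact hi
    · exact Nat.zero_le _
  · rw [getD_map_range hj, if_pos rfl]

theorem sl_le (hl : 0 ≤ l) (j i : ℕ) : sl D l j i ≤ (box D).card := by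
  unfold sl
  refine (Finset.sum_le_card_nsmul _ _ 1 fun x _ => wt_le_one hl (uu'_nonneg hl j) x).trans ?_
  rw [nsmul_eq_mul, mul_one]
  exact_mod_cast Finset.card_filter_le _ _

theorem sl_lc (hl : 0 ≤ l) {j : ℕ} (hj : j < D.N.E) (i : ℕ) (hi : i + 2 ≤ D.c j + 2 * D.R j) :
    sl D l j i * sl D l j (i + 2) ≤ sl D l j (i + 1) ^ 2 :=
  lc_slice (c := fun β => Real.exp (-Vm D.N.E D.N.V D.N.s D.N.d l (Cw D) (uu' D l j) β))
    (fun _ => Real.exp_pos _) (SL_model _ _ _ _ hl _ _ (uu'_conv hl j)) D.capX hj i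
    (by rwa [getD_capX hj])

theorem up_mem {p : List ℕ} (hp : p ∈ D.Fl) : up D p ∈ box D := by
  obtain ⟨-, h2, -⟩ := Dat.mem_Fl.1 hp
  refine mem_box.2 ⟨by simp [up], fun e he => ?_⟩
  have := h2 e he
  rw [up, getD_map_range he]; omega

theorem dv_congr {p q : ℕ → ℤ} (h : ∀ e < D.N.E, p e = q e) (w : ℕ) : D.N.dv p w = D.N.dv q w := by
  unfold Net.dv
  exact Finset.sum_congr rfl fun e he => by rw [h e (Finset.mem_range.1 he)]

theorem one_le_sl {j : ℕ} (hj : j < D.N.E) {p : List ℕ} (hp : p ∈ D.Fl) :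
    1 ≤ sl D l j (D.R j + p.getD j 0) := by
  obtain ⟨-, h2, h3⟩ := Dat.mem_Fl.1 hp
  have hm : up D p ∈ (box D).filter (fun x => x.getD j 0 = D.R j + p.getD j 0) :=
    Finset.mem_filter.2 ⟨up_mem hp, by rw [up, getD_map_range hj, add_comm]⟩
  refine le_trans (le_of_eq ?_) (Finset.single_le_sum (fun x _ => (wt_pos _ x).le) hm)
  rw [wt_eq (up_mem hp), Finset.sum_eq_zero, Finset.sum_eq_zero]
  · simp
  · intro e he
    have he' := Finset.mem_range.1 he
    have := h2 e he'
    unfold uu'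
    split_ifs
    · rfl
    · rw [up, getD_map_range he']
      exact uu_zero j (by omega) (by omega)
  · intro w hw
    rw [dv_congr (q := fun e => (p.getD e 0 : ℤ)) (fun e he => by
      rw [up, getD_map_range he]; push_cast; ring), h3 w (Finset.mem_range.1 hw)]
    simp

theorem R_le (h : D.OK) (e : ℕ) : D.R e ≤ 4 * D.P * D.c e := by
  unfold Dat.R
  split_ifs with he
  · rw [mul_assoc (4 * D.P)]
    exact Nat.mul_le_mul_left _ (h.large he)
  · exact Nat.zero_le _

theorem card_box (h : D.OK) : (box D).card ≤ 2 ^ (6 * D.P ^ 2) := by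
  have hP := h.one_le_P
  have a1 : 1 + 8 * D.P ≤ 2 ^ (5 * D.P) := by
    have : 5 * D.P = 3 + 1 + (5 * D.P - 4) := by omega
    have h2 := Nat.lt_two_pow_self (n := 5 * D.P - 4)
    rw [this, pow_add]
    omega
  refine (card_bx_le _ _ (2 ^ (6 * D.P)) fun e he => ?_).trans ?_
  · rw [getD_capX he]
    have h1 := h.c_lt_pow he
    have h2 := R_le h e
    calc D.c e + 2 * D.R e + 1 ≤ (D.c e + 1) * (1 + 8 * D.P) := by nlinarith
      _ ≤ 2 ^ D.P * 2 ^ (5 * D.P) := Nat.mul_le_mul h1 a1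
      _ = _ := by rw [← pow_add]; congr 1; ring
  · rw [← pow_mul]
    refine Nat.pow_le_pow_right two_pos ?_
    have := h.E_le
    nlinarith

theorem step (h : D.OK) (hl : 0 ≤ l) {j : ℕ} (hj : j < D.N.E) :
    NN D l (j + 1) ≤ (1 + 1 / (2 * D.P)) * NN D l j := by
  have hP := h.one_le_P
  have hP' : (1 : ℝ) ≤ D.P := by exact_mod_cast hP
  have e1 : NN D l (j + 1)
      = ∑ i ∈ range (D.c j + 2 * D.R j + 1), sl D l j i * Real.exp (-vψ D j i) := by
    unfold NN
    rw [sum_sl hj (fun e he => by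
      unfold uu
      have : e < j + 1 ↔ e < j := by omega
      simp only [this])]
    simp only [uu, Nat.lt_succ_self, if_true]
  have e2 : ∑ i ∈ range (D.c j + 1), sl D l j (D.R j + i) ≤ NN D l j := by
    unfold NN
    rw [sum_sl hj (fun _ _ => rfl)]
    have e0 : D.c j + 2 * D.R j + 1 = D.R j + ((D.c j + 1) + D.R j) := by omega
    rw [e0, Finset.sum_range_add _ (D.R j), Finset.sum_range_add _ (D.c j + 1) (D.R j)]
    have p1 : ∀ i, 0 ≤ sl D l j i * Real.exp (-uu D l j j i) :=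
      fun i => mul_nonneg (sl_nonneg _ _) (Real.exp_pos _).le
    have p2 : ∑ i ∈ range (D.c j + 1), sl D l j (D.R j + i) * Real.exp (-uu D l j j (D.R j + i))
        = ∑ i ∈ range (D.c j + 1), sl D l j (D.R j + i) := by
      refine Finset.sum_congr rfl fun i hi => ?_
      have := Finset.mem_range.1 hi
      rw [uu_zero j (by omega) (by omega)]; simp
    rw [p2]
    have p3 := Finset.sum_nonneg (s := range (D.R j)) fun i _ => p1 i
    have p4 := Finset.sum_nonneg (s := range (D.R j)) fun i _ => p1 (D.R j + (D.c j + 1 + i))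
    linarith
  have hψ : ∀ i, Real.exp (-vψ D j i) ≤ 1 := fun i => by
    rw [Real.exp_le_one_iff, neg_nonpos]; exact hat_nonneg (kap_nonneg j) _ _ _
  have s0 : 0 ≤ ∑ i ∈ range (D.c j + 1), sl D l j (D.R j + i) :=
    Finset.sum_nonneg fun i _ => sl_nonneg _ _
  refine le_trans ?_ (mul_le_mul_of_nonneg_left e2 (by positivity))
  rw [e1]
  by_cases hc : pM D.P ≤ D.c j
  swap
  · have hR : D.R j = 0 := by simp [Dat.R, hc]
    rw [hR]
    simp only [mul_zero, add_zero, zero_add]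
    have : ∑ i ∈ range (D.c j + 1), sl D l j i * Real.exp (-vψ D j i)
        ≤ ∑ i ∈ range (D.c j + 1), sl D l j i :=
      Finset.sum_le_sum fun i _ => mul_le_of_le_one_right (sl_nonneg _ _) (hψ i)
    rw [hR] at s0
    simp only [zero_add] at s0
    have : (0 : ℝ) ≤ 1 / (2 * D.P) * ∑ i ∈ range (D.c j + 1), sl D l j i := by positivity
    linarith
  have hlarge := h.large hc
  have ht := D.t_pos j
  have hW2 : 2 * D.P ≤ pW D.P := by
    unfold pW
    have : D.P ≤ D.P ^ 10 := Nat.le_self_pow (by norm_num) _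
    omega
  have hW : 0 < pW D.P := by omega
  set m : ℕ := pW D.P * D.t j with hm
  have hm0 : 0 < m := Nat.mul_pos hW ht
  have hm' : (0 : ℝ) < m := by exact_mod_cast hm0
  have hmc : 1024 * D.P ^ 3 * m ≤ D.c j := by
    refine le_trans (le_of_eq ?_) hlarge
    rw [hm, pM]; ring
  have hmc' : (1024 : ℝ) * D.P ^ 3 * m ≤ D.c j := by exact_mod_cast hmc
  have hP3 : D.P ≤ D.P ^ 3 := Nat.le_self_pow (by norm_num) _
  have hlog := Real.log_pos one_lt_two
  have hlog2 := Real.log_two_gt_d9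
  have hk : kap D j = Real.log 2 / m := by simp [kap, hm]
  have hLw : (D.Lw j : ℝ) ≤ 2 * m := by
    have : D.Lw j ≤ 2 * m := by
      rw [Dat.Lw, hm, ← mul_assoc]
      exact Nat.mul_le_mul_right _ (by omega)
    exact_mod_cast this
  have h4 : Real.exp (2 * Real.log 2) = 4 := by
    rw [two_mul, Real.exp_add, Real.exp_log two_pos]; norm_num
  have tail : ∀ (i : ℕ) (z : ℝ), Real.log 2 / m * ((i : ℝ) + 1 - D.Lw j) ≤ z →
      Real.exp (-z) ≤ 4 * Real.exp (-(2 * (Real.log 2 / (2 * m)) * (i + 1))) := by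
    intro i z hz
    rw [← h4, ← Real.exp_add]
    refine Real.exp_le_exp.2 ?_
    have a1 : Real.log 2 / m * (D.Lw j : ℝ) ≤ 2 * Real.log 2 := by
      rw [div_mul_eq_mul_div, div_le_iff₀ hm']
      nlinarith
    have a2 : 2 * (Real.log 2 / (2 * m)) = Real.log 2 / m := by field_simp
    rw [a2]
    linarith
  obtain ⟨⟨p0, hp0, hp0'⟩, ⟨p1, hp1, hp1'⟩⟩ := h.tight j hj
  have o0 := one_le_sl (l := l) hj (show p0 ∈ D.Fl from hp0)
  have o1 := one_le_sl (l := l) hj (show p1 ∈ D.Fl from hp1)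
  rw [hp0', add_zero] at o0
  rw [hp1'] at o1
  have hP2 : (D.P : ℝ) ^ 2 ≤ D.P ^ 3 := pow_le_pow_right₀ hP' (by norm_num)
  have key := oneD (sl D l j) (fun i => Real.exp (-vψ D j i)) (D.R j) (D.c j) (100 * D.P * m)
    (Real.log 2 / (2 * m)) (6 * D.P ^ 2 * Real.log 2) 4 (fun i hi => sl_pos hj hi)
    (sl_lc hl hj) (by nlinarith) o0 o1 (fun i => by
      refine (sl_le hl j i).trans ?_
      have : Real.exp (6 * D.P ^ 2 * Real.log 2) = ((2 ^ (6 * D.P ^ 2) : ℕ) : ℝ) := by
        have e : (6 * D.P ^ 2 * Real.log 2 : ℝ) = ((6 * D.P ^ 2 : ℕ) : ℝ) * Real.log 2 := by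
          push_cast; ring
        rw [e, Real.exp_nat_mul, Real.exp_log two_pos]; push_cast; rfl
      rw [this]
      exact_mod_cast card_box h) (by positivity) (by
      rw [← mul_div_assoc, le_div_iff₀ (by positivity)]
      have : 12 * (D.P : ℝ) ^ 2 * m ≤ D.c j := by nlinarith
      nlinarith) (by positivity) (by nlinarith) (by positivity) (by
      push_cast
      have : 600 * (D.P : ℝ) ^ 3 * m ≤ D.c j := by nlinarith [pow_pos (zero_lt_one.trans_le hP') 3]
      nlinarith) (by norm_num) hψ (fun i => by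
      refine tail i _ ?_
      unfold vψ hat
      rw [hk]
      refine mul_le_mul_of_nonneg_left ?_ (by positivity)
      have a1 := le_max_left (((D.R j + D.c j + 1 + i : ℕ) : ℝ) - ((D.R j : ℝ) + D.c j + D.Lw j)) 0
      have a2 := le_max_right ((D.R j : ℝ) - D.Lw j - ((D.R j + D.c j + 1 + i : ℕ) : ℝ)) 0
      push_cast at a1 a2 ⊢
      linarith) (fun i hi => by
      refine tail i _ ?_
      unfold vψ hat
      rw [hk]
      refine mul_le_mul_of_nonneg_left ?_ (by positivity)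
      have e : ((D.R j - 1 - i : ℕ) : ℝ) = D.R j - 1 - i := by
        rw [Nat.sub_sub, Nat.cast_sub (by omega)]; push_cast; ring
      have a1 := le_max_right (((D.R j - 1 - i : ℕ) : ℝ) - ((D.R j : ℝ) + D.c j + D.Lw j)) 0
      have a2 := le_max_left ((D.R j : ℝ) - D.Lw j - ((D.R j - 1 - i : ℕ) : ℝ)) 0
      rw [e] at a1 a2 ⊢
      linarith)
  refine key.trans (mul_le_mul_of_nonneg_right ?_ s0)
  have : (4 : ℝ) * 4 / (Real.log 2 / (2 * m) * ((100 * D.P * m : ℕ) : ℝ)) ≤ 1 / (2 * D.P) := by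
    have e : Real.log 2 / (2 * m) * ((100 * D.P * m : ℕ) : ℝ) = 50 * D.P * Real.log 2 := by
      push_cast; field_simp; ring
    rw [e, div_le_div_iff₀ (by positivity) (by positivity)]
    nlinarith
  linarith

theorem NN_nonneg (j : ℕ) : 0 ≤ NN D l j := Finset.sum_nonneg fun x _ => (wt_pos _ x).le

theorem NN_le (h : D.OK) (hl : 0 ≤ l) : NN D l D.N.E ≤ 2 * NN D l 0 := by
  have hP := h.one_le_P
  have hP' : (1 : ℝ) ≤ D.P := by exact_mod_cast hP
  have key : ∀ j ≤ D.N.E, NN D l j ≤ Real.exp (j / (2 * D.P)) * NN D l 0 := by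
    intro j
    induction j with
    | zero => intro _; simp
    | succ j ih =>
      intro hj
      have a1 := step h hl (show j < D.N.E by omega)
      have a2 := ih (by omega)
      have a3 : 1 + 1 / (2 * (D.P : ℝ)) ≤ Real.exp (1 / (2 * D.P)) := by
        rw [add_comm]; exact Real.add_one_le_exp _
      have e : Real.exp (((j + 1 : ℕ) : ℝ) / (2 * D.P))
          = Real.exp (1 / (2 * D.P)) * Real.exp (j / (2 * D.P)) := by
        rw [← Real.exp_add]; congr 1; push_cast; ring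
      rw [e, mul_assoc]
      exact a1.trans (mul_le_mul a3 a2 (NN_nonneg j) (Real.exp_pos _).le)
  refine (key _ le_rfl).trans (mul_le_mul_of_nonneg_right ?_ (NN_nonneg 0))
  rw [← Real.exp_log (two_pos (α := ℝ))]
  refine Real.exp_le_exp.2 ?_
  rw [Real.exp_log two_pos, div_le_iff₀ (by positivity)]
  have a1 : (D.N.E : ℝ) ≤ D.P := by exact_mod_cast h.E_le
  nlinarith [Real.log_two_gt_d9]

theorem psi_eq (e y : ℕ) : D.psi e ((y : ℤ) - D.R e) = Real.exp (-vψ D e y) := by
  unfold Dat.psi vψ hat kap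
  rw [Real.rpow_def_of_pos two_pos]
  congr 1
  have a1 : ∀ a : ℤ, ((a.toNat : ℕ) : ℝ) = max (a : ℝ) 0 := by
    intro a
    have : ((a.toNat : ℕ) : ℝ) = (((a.toNat : ℕ) : ℤ) : ℝ) := by norm_cast
    rw [this, Int.toNat_eq_max]; push_cast; rfl
  rw [Nat.cast_add, a1, a1]
  push_cast
  have e1 : (y : ℝ) - D.R e - D.c e - D.Lw e = y - (D.R e + D.c e + D.Lw e) := by ring
  have e2 : -((y : ℝ) - D.R e) - D.Lw e = D.R e - D.Lw e - y := by ring
  rw [e1, e2]
  ring

theorem extN_le : D.extN ≤ NN D l D.N.E := by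
  unfold Dat.extN NN
  refine le_trans (le_of_eq ?_) (Finset.sum_le_sum_of_subset_of_nonneg (Finset.filter_subset
    (fun x : List ℕ => D.N.Cons fun e => (x.getD e 0 : ℤ) - D.R e) (box D))
    fun x _ _ => (wt_pos _ x).le)
  refine Finset.sum_congr rfl fun x hx => ?_
  obtain ⟨h1, h2⟩ := Finset.mem_filter.1 hx
  rw [wt_eq h1, Finset.sum_eq_zero (s := range D.N.V), mul_zero, zero_add,
    ← Finset.sum_neg_distrib, Real.exp_sum]
  · refine Finset.prod_congr rfl fun e he => ?_
    rw [psi_eq, uu, if_pos (Finset.mem_range.1 he)]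
  · intro w hw
    rw [h2 w (Finset.mem_range.1 hw)]; simp

theorem NN_zero (hl : 0 ≤ l) : NN D l 0 ≤ D.Fl.card + Real.exp (-l) * (box D).card := by
  have key : ∀ x ∈ box D, wt D l (uu D l 0) x
      ≤ (if x ∈ D.Fl.image (up D) then 1 else 0) + Real.exp (-l) := by
    intro x hx
    split_ifs with hm
    · linarith [wt_le_one (D := D) hl (uu_nonneg (D := D) hl 0) x, Real.exp_pos (-l)]
    rw [zero_add, wt_eq hx]
    refine Real.exp_le_exp.2 (neg_le_neg ?_)
    obtain ⟨hlen, hb⟩ := mem_box.1 hx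
    have n1 : 0 ≤ l * ∑ w ∈ range D.N.V,
        |((D.N.dv (fun e => (x.getD e 0 : ℤ) - D.R e) w - D.N.b w : ℤ) : ℝ)| :=
      mul_nonneg hl (Finset.sum_nonneg fun _ _ => abs_nonneg _)
    have n2 : 0 ≤ ∑ e ∈ range D.N.E, uu D l 0 e (x.getD e 0) :=
      Finset.sum_nonneg fun _ _ => uu_nonneg hl _ _ _
    by_cases hr : ∀ e < D.N.E, D.R e ≤ x.getD e 0 ∧ x.getD e 0 ≤ D.R e + D.c e
    · by_cases hc : D.N.Cons fun e => (x.getD e 0 : ℤ) - D.R e
      · exfalso
        refine hm (Finset.mem_image.2 ⟨(List.range D.N.E).map fun e => x.getD e 0 - D.R e,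
          Dat.mem_Fl.2 ⟨by simp, fun e he => ?_, fun w hw => ?_⟩, ?_⟩)
        · rw [getD_map_range he]; have := hr e he; omega
        · rw [← hc w hw]
          refine dv_congr (fun e he => ?_) w
          rw [getD_map_range he, Nat.cast_sub (hr e he).1]
        · refine List.ext_getElem (by simp [up, hlen]) fun i h1 h2 => ?_
          have hi : i < D.N.E := by omega
          have := (hr i hi).1
          rw [← List.getD_eq_getElem _ 0 h1, ← List.getD_eq_getElem _ 0 h2, up,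
            getD_map_range hi, getD_map_range hi]
          omega
      · unfold Net.Cons at hc
        push Not at hc
        obtain ⟨w, hw, hne⟩ := hc
        have a1 : (1 : ℝ) ≤ |((D.N.dv (fun e => (x.getD e 0 : ℤ) - D.R e) w - D.N.b w : ℤ) : ℝ)| := by
          have := Int.one_le_abs (sub_ne_zero.2 hne)
          exact_mod_cast this
        have a2 := Finset.single_le_sum (f := fun w =>
          |((D.N.dv (fun e => (x.getD e 0 : ℤ) - D.R e) w - D.N.b w : ℤ) : ℝ)|)
          (fun _ _ => abs_nonneg _) (Finset.mem_range.2 hw)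
        nlinarith [mul_le_mul_of_nonneg_left (a1.trans a2) hl]
    · push Not at hr
      obtain ⟨e, he, hne⟩ := hr
      have a2 := Finset.single_le_sum (f := fun e => uu D l 0 e (x.getD e 0))
        (fun _ _ => uu_nonneg hl _ _ _) (Finset.mem_range.2 he)
      have a1 : l ≤ uu D l 0 e (x.getD e 0) := by
        simp only [uu, Nat.not_lt_zero, if_false, vq, hat]
        refine le_mul_of_one_le_right hl ?_
        have b1 := le_max_left ((x.getD e 0 : ℝ) - ((D.R e : ℝ) + D.c e)) 0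
        have b2 := le_max_right ((x.getD e 0 : ℝ) - ((D.R e : ℝ) + D.c e)) 0
        have b3 := le_max_left ((D.R e : ℝ) - (x.getD e 0 : ℝ)) 0
        have b4 := le_max_right ((D.R e : ℝ) - (x.getD e 0 : ℝ)) 0
        by_cases h1 : D.R e ≤ x.getD e 0
        · have : D.R e + D.c e + 1 ≤ x.getD e 0 := hne h1
          have : (D.R e : ℝ) + D.c e + 1 ≤ x.getD e 0 := by exact_mod_cast this
          linarith
        · have : x.getD e 0 + 1 ≤ D.R e := by omega
          have : (x.getD e 0 : ℝ) + 1 ≤ D.R e := by exact_mod_cast this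
          linarith
      linarith
  refine (Finset.sum_le_sum key).trans ?_
  rw [Finset.sum_add_distrib, Finset.sum_const, nsmul_eq_mul, mul_comm, Finset.sum_boole]
  refine add_le_add ?_ le_rfl
  have : ((box D).filter fun x => x ∈ D.Fl.image (up D)).card ≤ D.Fl.card :=
    (Finset.card_le_card fun x hx => (Finset.mem_filter.1 hx).2).trans Finset.card_image_le
  exact_mod_cast this

end Acc2X

open Acc2X in
theorem Dat.OK.acc2 {D : Dat} (h : D.OK) : D.extN ≤ 3 * (D.Fl.card : ℝ) := by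
  set b : ℝ := ((box D).card : ℝ) with hb
  have hb0 : 0 ≤ b := Nat.cast_nonneg _
  have hl : 0 ≤ Real.log (2 * b + 1) := Real.log_nonneg (by linarith)
  have a1 := extN_le (D := D) (l := Real.log (2 * b + 1))
  have a2 := NN_le h hl
  have a3 := NN_zero (D := D) hl
  rw [Real.exp_neg, Real.exp_log (by positivity), ← hb] at a3
  have a4 : (2 * b + 1)⁻¹ * b ≤ 1 / 2 := by
    rw [inv_mul_le_iff₀ (by positivity)]; linarith
  have a5 : (1 : ℝ) ≤ D.Fl.card := by exact_mod_cast h.ne.card_pos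
  linarith

end Crest.Agent.R309
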