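import Crest.Agent.R309.Defs

/-! Row 309: basic facts on the model. -/

set_option autoImplicit false

namespace Crest.Agent.R309

open Crest.Agent.PT Crest.Enc Finset

namespace Dat

variable {D : Dat}

theorem OK.one_le_P (h : D.OK) : 1 ≤ D.P := h.small.1
theorem OK.E_le (h : D.OK) : D.N.E ≤ D.P := h.small.2.1
theorem OK.V_le (h : D.OK) : D.N.V ≤ D.P := h.small.2.2.1
theorem OK.c_lt_pow (h : D.OK) {e : ℕ} (he : e < D.N.E) : D.c e < 2 ^ D.P := h.small.2.2.2 e he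

theorem OK.pW_pos (h : D.OK) : 0 < pW D.P := by
  have := h.one_le_P
  unfold pW; positivity

theorem OK.pM_pos (h : D.OK) : 0 < pM D.P := by
  have := h.one_le_P
  have := h.pW_pos
  unfold pM; positivity

theorem OK.pQ_pos (h : D.OK) : 0 < pQ D.P := by
  have := h.one_le_P
  have := h.pM_pos
  unfold pQ; positivity

theorem OK.pDen_pos (h : D.OK) : 0 < pDen D.P := by
  have := h.pW_pos
  have := h.pQ_pos
  unfold pDen; positivity

theorem t_pos (D : Dat) (e : ℕ) : 0 < D.t e := by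
  unfold t; positivity

theorem OK.tau_le (h : D.OK) {e : ℕ} (he : e < D.N.E) : D.τ e ≤ D.P := by
  have : (D.c e / pM D.P).size ≤ D.P :=
    Nat.size_le.2 ((Nat.div_le_self _ _).trans_lt (h.c_lt_pow he))
  unfold τ; omega

theorem OK.c_lt (h : D.OK) (e : ℕ) : D.c e < 2 * pM D.P * D.t e := by
  have h1 := Nat.lt_size_self (D.c e / pM D.P)
  have h2 : 2 ^ (D.c e / pM D.P).size ≤ 2 * D.t e := by
    unfold t τ
    rw [← pow_succ']
    exact Nat.pow_le_pow_right (by omega) (by omega)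
  have h3 := Nat.lt_mul_div_succ (D.c e) h.pM_pos
  have h4 : pM D.P * (D.c e / pM D.P + 1) ≤ pM D.P * (2 * D.t e) := Nat.mul_le_mul_left _ (by omega)
  nlinarith

theorem OK.large (h : D.OK) {e : ℕ} (he : pM D.P ≤ D.c e) : pM D.P * D.t e ≤ D.c e := by
  have h1 : 0 < D.c e / pM D.P := Nat.div_pos he h.pM_pos
  have h2 : D.t e ≤ D.c e / pM D.P := by
    unfold t τ
    have := Nat.size_pos.2 h1
    exact Nat.lt_size.1 (by omega)
  exact (Nat.mul_le_mul_left _ h2).trans (Nat.mul_div_le _ _)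

theorem small_tau {e : ℕ} (he : D.c e < pM D.P) : D.τ e = 0 := by
  unfold τ
  rw [Nat.div_eq_of_lt he]
  rfl

theorem OK.rho_lt (h : D.OK) (e : ℕ) : D.ρ e < 2 * pM D.P := by
  unfold ρ
  split_ifs
  · have := h.pM_pos; omega
  · exact Nat.div_lt_of_lt_mul (by rw [mul_comm]; exact h.c_lt e)

theorem getD_ρL {e : ℕ} (he : e < D.N.E) : D.ρL.getD e 0 = D.ρ e := by
  simp [ρL, List.getD_eq_getElem?_getD, he]

theorem mem_Ω {a : List ℕ} : a ∈ D.Ω ↔ a.length = D.N.E ∧ ∀ e < D.N.E, a.getD e 0 ≤ D.ρ e := by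
  unfold Ω
  rw [mem_bx]
  refine and_congr_right fun _ => forall₂_congr fun e he => ?_
  rw [getD_ρL he]
  simp

theorem mem_Fl {p : List ℕ} : p ∈ D.Fl ↔ p.length = D.N.E ∧ (∀ e < D.N.E, p.getD e 0 ≤ D.c e) ∧
    D.N.Cons fun e => (p.getD e 0 : ℤ) := by
  unfold Fl
  rw [Net.mem_flows, mem_bx, and_assoc]
  simp [c]

theorem zero_mem_Ω (D : Dat) : List.replicate D.N.E 0 ∈ D.Ω := by
  refine mem_Ω.2 ⟨by simp, fun e he => ?_⟩
  simp [List.getD_eq_getElem?_getD, he]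

theorem OK.card_Ω (h : D.OK) : D.Ω.card ≤ 2 ^ pB1 D.P := by
  unfold Ω bx
  refine card_image_le.trans ?_
  rw [Fintype.card_piFinset]
  refine (prod_le_pow_card _ _ (2 ^ Nat.size (2 * pM D.P)) fun i _ => ?_).trans ?_
  · rw [getD_ρL i.2, Nat.card_Icc]
    have := h.rho_lt i
    have := Nat.lt_size_self (2 * pM D.P)
    omega
  · rw [← pow_mul, card_univ, Fintype.card_fin, pB1, mul_comm]
    exact Nat.pow_le_pow_right (by omega) (Nat.mul_le_mul_right _ h.E_le)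

theorem phi_nonneg (D : Dat) (X Y : ℕ → ℕ) : 0 ≤ D.phi X Y := by
  unfold phi
  refine sum_nonneg fun f _ => ?_
  split_ifs
  · positivity
  · exact le_rfl

theorem mar_nonneg (D : Dat) (X Y : ℕ → ℕ) : 0 ≤ D.mar X Y := by
  unfold mar; positivity

theorem OK.phi_mar (h : D.OK) (X Y : ℕ → ℕ) :
    D.phi X Y + D.mar X Y = (D.num X Y : ℝ) / pDen D.P := by
  have hW : (0 : ℝ) < pW D.P := by exact_mod_cast h.pW_pos
  have hQ : (0 : ℝ) < pQ D.P := by exact_mod_cast h.pQ_pos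
  unfold phi mar num pDen
  push_cast
  rw [add_div]
  congr 1
  · rw [mul_sum, sum_div]
    refine sum_congr rfl fun f hf => ?_
    split_ifs
    · have e : (2 : ℝ) ^ (3 * D.P) = ((2 : ℝ) ^ D.τ f) ^ 3 * 2 ^ (3 * (D.P - D.τ f)) := by
        have := h.tau_le (mem_range.1 hf)
        rw [← pow_mul, ← pow_add]
        congr 1
        omega
      rw [e, t]
      push_cast
      field_simp
    · simp
  · field_simp

theorem OK.floor_spec (h : D.OK) (X Y : ℕ → ℕ) :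
    ((D.num X Y / pDen D.P : ℕ) : ℝ) ≤ D.phi X Y + D.mar X Y ∧
      D.phi X Y + D.mar X Y < ((D.num X Y / pDen D.P : ℕ) : ℝ) + 1 := by
  have hd : (0 : ℝ) < pDen D.P := by exact_mod_cast h.pDen_pos
  rw [h.phi_mar]
  refine ⟨Nat.cast_div_le, ?_⟩
  rw [div_lt_iff₀ hd]
  have := Nat.lt_mul_div_succ (D.num X Y) h.pDen_pos
  rw [mul_comm]
  exact_mod_cast this

theorem OK.sum_dv (h : D.OK) (p : ℕ → ℤ) (q : ℕ → Prop) [DecidablePred q] :
    ∑ w ∈ range D.N.V, (if q w then D.N.dv p w else 0) =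
      ∑ e ∈ range D.N.E, ((if q (D.N.s e) then p e else 0) - if q (D.N.d e) then p e else 0) := by
  have : ∀ w, (if q w then D.N.dv p w else 0) = ∑ e ∈ range D.N.E,
      ((if D.N.s e = w then (if q w then p e else 0) else 0) -
        if D.N.d e = w then (if q w then p e else 0) else 0) := by
    intro w
    unfold Net.dv
    split_ifs <;> simp
  simp only [this]
  rw [sum_comm]
  refine sum_congr rfl fun e he => ?_
  obtain ⟨h1, h2⟩ := h.wf e (mem_range.1 he)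
  rw [sum_sub_distrib, sum_ite_eq, sum_ite_eq, if_pos (mem_range.2 h1), if_pos (mem_range.2 h2)]

/-- the net outflow of a component -/
theorem OK.sum_dv_K (h : D.OK) (p : ℕ → ℤ) (K : ℕ) :
    ∑ w ∈ range D.N.V, (if D.lab w = K then D.N.dv p w else 0) =
      ∑ e ∈ range D.N.E, ((if D.lab (D.N.s e) = K then p e else 0) -
        if D.lab (D.N.d e) = K then p e else 0) := by
  exact h.sum_dv p fun w => D.lab w = K

/-- the net outflow of the side of a forest cell -/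
theorem OK.sum_dv_U (h : D.OK) (p : ℕ → ℤ) {f : ℕ} (hf : f < D.N.E) (hT : D.T f = true) :
    ∑ w ∈ range D.N.V, (if D.u f w then D.N.dv p w else 0) =
      p f + (∑ e ∈ range D.N.E, if D.out f e then p e else 0) -
        ∑ e ∈ range D.N.E, if D.inn f e then p e else 0 := by
  rw [h.sum_dv p fun w => D.u f w = true]
  have e1 : p f = ∑ e ∈ range D.N.E, if f = e then p e else 0 := by
    rw [sum_ite_eq, if_pos (mem_range.2 hf)]
  rw [e1, ← sum_add_distrib, ← sum_sub_distrib]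
  refine sum_congr rfl fun e he => ?_
  by_cases e2 : f = e
  · subst e2
    simp [out, inn, hT, h.u_src f hf hT, h.u_dst f hf hT]
  · rw [if_neg e2]
    cases hTe : D.T e
    · cases h1 : D.u f (D.N.s e) <;> cases h2 : D.u f (D.N.d e) <;> simp [out, inn, hTe, h1, h2]
    · simp [out, inn, hTe, h.u_tr f hf hT e (mem_range.1 he) hTe (Ne.symm e2)]

theorem OK.cut_cons (h : D.OK) {p : ℕ → ℤ} (hp : D.N.Cons p) {f : ℕ} (hf : f < D.N.E)
    (hT : D.T f = true) : D.cut p p f = p f := by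
  have h1 := h.sum_dv_U p hf hT
  have h2 : D.bU f = ∑ w ∈ range D.N.V, (if D.u f w then D.N.dv p w else 0) :=
    sum_congr rfl fun w hw => by rw [hp w (mem_range.1 hw)]
  unfold cut
  rw [h2, h1]
  ring

theorem OK.cut_sub (h : D.OK) (vX vY vX' vY' : ℕ → ℤ) {f : ℕ} (hf : f < D.N.E) (hT : D.T f = true)
    (B : ℕ) (hX : ∀ e < D.N.E, D.T e = false → |vX e - vX' e| ≤ B * D.t e)
    (hY : ∀ e < D.N.E, D.T e = false → |vY e - vY' e| ≤ B * D.t e) :
    |D.cut vX vY f - D.cut vX' vY' f| ≤ D.P * B * D.t f := by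
  have e1 : D.cut vX vY f - D.cut vX' vY' f = ∑ e ∈ range D.N.E,
      ((if D.inn f e then vY e - vY' e else 0) - if D.out f e then vX e - vX' e else 0) := by
    have a1 : ∀ (b : Bool) (x y : ℤ), (if b then x - y else 0) =
        (if b then x else 0) - if b then y else 0 := by
      intro b x y; cases b <;> simp
    simp only [a1, sum_sub_distrib]
    unfold cut
    ring
  rw [e1]
  refine (abs_sum_le_sum_abs _ _).trans ((sum_le_card_nsmul _ _ ((B : ℤ) * D.t f)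
    fun e he => ?_).trans ?_)
  · have he' := mem_range.1 he
    have ht : D.u f (D.N.s e) ≠ D.u f (D.N.d e) → (B : ℤ) * D.t e ≤ B * D.t f := fun hne => by
      have : D.t e ≤ D.t f := Nat.pow_le_pow_right (by omega) (h.u_τ f hf hT e he' hne)
      exact_mod_cast Nat.mul_le_mul_left B this
    have h0 : (0 : ℤ) ≤ B * D.t f := by positivity
    cases hTe : D.T e
    · cases h1 : D.u f (D.N.s e) <;> cases h2 : D.u f (D.N.d e)
      · simpa [out, inn, hTe, h1, h2] using h0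
      · simpa [out, inn, hTe, h1, h2] using (hY e he' hTe).trans (ht (by simp [h1, h2]))
      · simpa [out, inn, hTe, h1, h2, abs_sub_comm] using
          (hX e he' hTe).trans (ht (by simp [h1, h2]))
      · simpa [out, inn, hTe, h1, h2] using h0
    · simpa [out, inn, hTe] using h0
  · rw [card_range, nsmul_eq_mul, mul_assoc]
    exact mul_le_mul_of_nonneg_right (by exact_mod_cast h.E_le) (by positivity)

/-- the overshoots are bounded, also off the shell `X + Y = ρ` -/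
theorem OK.ov_le (h : D.OK) {X Y : ℕ → ℕ} (hX : ∀ e, X e ≤ pU D.P + 2) (hY : ∀ e, Y e ≤ pU D.P + 2)
    {f : ℕ} (hf : f < D.N.E) (hT : D.T f = true) :
    D.ovA X Y f ≤ 8 * D.P * pM D.P * D.t f ∧ D.ovB X Y f ≤ 8 * D.P * pM D.P * D.t f := by
  obtain ⟨p, hp⟩ := h.ne
  obtain ⟨-, h1, h2⟩ := mem_Fl.1 hp
  have h3 := h.cut_cons h2 hf hT
  have hM := h.pM_pos
  have hb : ∀ e < D.N.E, (0 : ℤ) ≤ p.getD e 0 ∧ (p.getD e 0 : ℤ) ≤ 2 * pM D.P * D.t e :=
    fun e he => ⟨by positivity, by exact_mod_cast (h1 e he).trans (h.c_lt e).le⟩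
  have h4 := h.cut_sub (fun e => (D.t e : ℤ) * X e) (fun e => (D.t e : ℤ) * ((D.ρ e : ℤ) - Y e))
    (fun e => (p.getD e 0 : ℤ)) (fun e => (p.getD e 0 : ℤ)) hf hT (4 * pM D.P + 4)
    (fun e he _ => by
      obtain ⟨a1, a2⟩ := hb e he
      have a3 : (X e : ℤ) ≤ 2 * pM D.P + 4 := by have := hX e; unfold pU at this; omega
      have a4 : (0 : ℤ) ≤ D.t e := by positivity
      have a5 : (0 : ℤ) ≤ X e := by positivity
      have a6 : (0 : ℤ) ≤ pM D.P := by positivity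
      push_cast
      rw [abs_le]
      constructor <;> nlinarith)
    (fun e he _ => by
      obtain ⟨a1, a2⟩ := hb e he
      have a3 : (Y e : ℤ) ≤ 2 * pM D.P + 4 := by have := hY e; unfold pU at this; omega
      have a4 : (0 : ℤ) ≤ D.t e := by positivity
      have a5 : (0 : ℤ) ≤ Y e := by positivity
      have a6 : (0 : ℤ) ≤ pM D.P := by positivity
      have a7 : (D.ρ e : ℤ) ≤ 2 * pM D.P := by exact_mod_cast (h.rho_lt e).le
      have a8 : (0 : ℤ) ≤ D.ρ e := by positivity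
      push_cast
      rw [abs_le]
      constructor <;> nlinarith)
  rw [h3, abs_le] at h4
  have h5 : (p.getD f 0 : ℤ) ≤ D.c f := by exact_mod_cast h1 f hf
  have h6 := (hb f hf).1
  have h7 : (D.P : ℤ) * ((4 * pM D.P + 4 : ℕ) : ℤ) * D.t f ≤ ((8 * D.P * pM D.P * D.t f : ℕ) : ℤ) := by
    have : D.P * (4 * pM D.P + 4) * D.t f ≤ 8 * D.P * pM D.P * D.t f :=
      Nat.mul_le_mul_right _ (by nlinarith)
    exact_mod_cast this
  have h8 : (0 : ℤ) ≤ D.P * D.t f := by positivity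
  unfold ovA ovB ell
  constructor <;> rw [Int.toNat_le] <;> linarith [h4.1, h4.2]

theorem getD_rnd (p : List ℕ) {e : ℕ} (he : e < D.N.E) :
    (D.rnd p).getD e 0 = if D.T e then 0 else p.getD e 0 / D.t e := by
  simp [rnd, List.getD_eq_getElem?_getD, he]

theorem OK.rnd_mem_Ω (_h : D.OK) {p : List ℕ} (hp : p ∈ D.Fl) : D.rnd p ∈ D.Ω := by
  refine mem_Ω.2 ⟨by simp [rnd], fun e he => ?_⟩
  rw [getD_rnd p he, ρ]
  split_ifs
  · exact le_rfl
  · exact Nat.div_le_div_right ((mem_Fl.1 hp).2.1 e he)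

/-- a cell between two components is small -/
theorem OK.cross (h : D.OK) {e : ℕ} (he : e < D.N.E)
    (hne : D.lab (D.N.s e) ≠ D.lab (D.N.d e)) : D.c e < pM D.P ∧ D.T e = false ∧ D.t e = 1 := by
  have h1 : D.c e < pM D.P := lt_of_not_ge fun h1 => hne (h.large_K e he h1)
  refine ⟨h1, ?_, by rw [t, small_tau h1, pow_zero]⟩
  cases hT : D.T e
  · rfl
  · exact absurd (h.tr_large e he hT) (not_le.2 h1)

theorem OK.dS_eq (h : D.OK) {a p : List ℕ} (ha : a ∈ D.Ω) (hp : p ∈ D.Fl) (K : ℕ) :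
    D.dS a K = ∑ e ∈ range D.N.E,
      ((if D.lab (D.N.s e) = K then (a.getD e 0 : ℤ) - p.getD e 0 else 0) -
        if D.lab (D.N.d e) = K then (a.getD e 0 : ℤ) - p.getD e 0 else 0) := by
  have h1 : D.bK K = ∑ w ∈ range D.N.V,
      (if D.lab w = K then D.N.dv (fun e => (p.getD e 0 : ℤ)) w else 0) :=
    sum_congr rfl fun w hw => by rw [(mem_Fl.1 hp).2.2 w (mem_range.1 hw)]
  unfold dS dK
  rw [h1, h.sum_dv_K, ← sum_sub_distrib]
  refine sum_congr rfl fun e he => ?_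
  have := (mem_Ω.1 ha).2 e (mem_range.1 he)
  unfold xs ys
  rw [Nat.cast_sub this]
  split_ifs <;> ring

theorem OK.rnd_mem (h : D.OK) {p : List ℕ} (hp : p ∈ D.Fl) : D.rnd p ∈ D.Ω0 := by
  have h1 := h.rnd_mem_Ω hp
  refine mem_filter.2 ⟨h1, fun K _ => ?_⟩
  rw [h.dS_eq h1 hp]
  refine sum_eq_zero fun e he => ?_
  by_cases e1 : D.lab (D.N.s e) = D.lab (D.N.d e)
  · rw [e1, sub_self]
  · obtain ⟨-, a2, a3⟩ := h.cross (mem_range.1 he) e1
    rw [getD_rnd p (mem_range.1 he), a2, a3]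
    simp

theorem OK.mar_lt (h : D.OK) {a : List ℕ} (ha : a ∈ D.Ω) : D.mar (xs a) (D.ys a) < 1 := by
  have hQ : (0 : ℝ) < pQ D.P := by exact_mod_cast h.pQ_pos
  unfold mar
  rw [div_lt_one hQ]
  have h1 : ∑ e ∈ range D.N.E, (xs a e ^ 2 + D.ys a e ^ 2) ≤ D.N.E * (2 * pM D.P) ^ 2 := by
    refine (sum_le_card_nsmul _ _ ((2 * pM D.P) ^ 2) fun e he => ?_).trans (by simp)
    have a1 := (mem_Ω.1 ha).2 e (mem_range.1 he)
    have a2 := h.rho_lt e
    have a3 : xs a e + D.ys a e ≤ 2 * pM D.P := by unfold xs ys; omega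
    nlinarith [Nat.pow_le_pow_left a3 2]
  have h2 : D.N.E * (2 * pM D.P) ^ 2 < pQ D.P := by
    have := h.E_le
    have := h.one_le_P
    have : 0 < pM D.P ^ 2 := pow_pos h.pM_pos 2
    unfold pQ
    nlinarith
  exact_mod_cast h1.trans_lt h2

theorem ex_Ω0 {a : List ℕ} (ha : a ∈ D.Ω0) (k : List ℤ) :
    D.ex k a = (D.num (xs a) (D.ys a) / pDen D.P : ℕ) := by
  have h2 := (mem_filter.1 ha).2
  unfold ex
  rw [sum_eq_zero fun K hK => by rw [h2 K (mem_range.1 hK)]; rfl,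
    sum_eq_zero fun K hK => by rw [h2 K (mem_range.1 hK), mul_zero]]
  simp

theorem OK.ex_rnd (h : D.OK) {p : List ℕ} (hp : p ∈ D.Fl) (k : List ℤ) : D.ex k (D.rnd p) = 0 := by
  obtain ⟨h1, h2⟩ := mem_filter.1 (h.rnd_mem hp)
  obtain ⟨-, h3, h4⟩ := mem_Fl.1 hp
  have hphi : D.phi (xs (D.rnd p)) (D.ys (D.rnd p)) = 0 := by
    refine sum_eq_zero fun f hf => ?_
    have hf' := mem_range.1 hf
    split_ifs with hT
    · have hb : ∀ e < D.N.E, D.T e = false →
          |(D.t e : ℤ) * ((D.rnd p).getD e 0 : ℕ) - p.getD e 0| ≤ (1 : ℕ) * D.t e := by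
        intro e he hTe
        rw [getD_rnd p he, hTe]
        have a1 := Nat.div_add_mod (p.getD e 0) (D.t e)
        have a2 := Nat.mod_lt (p.getD e 0) (D.t_pos e)
        simp only [Bool.false_eq_true, if_false]
        rw [← Nat.cast_mul, abs_le]
        omega
      have h5 := h.cut_sub (fun e => (D.t e : ℤ) * xs (D.rnd p) e)
        (fun e => (D.t e : ℤ) * ((D.ρ e : ℤ) - D.ys (D.rnd p) e))
        (fun e => (p.getD e 0 : ℤ)) (fun e => (p.getD e 0 : ℤ)) hf' hT 1 hb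
        (fun e he hTe => by
          have := hb e he hTe
          rwa [ys, Nat.cast_sub ((mem_Ω.1 h1).2 e he), sub_sub_cancel])
      rw [h.cut_cons h4 hf' hT, abs_le] at h5
      have h6 : (p.getD f 0 : ℤ) ≤ D.c f := by exact_mod_cast h3 f hf'
      have h7 : (0 : ℤ) ≤ p.getD f 0 := by positivity
      have a1 : D.ovA (xs (D.rnd p)) (D.ys (D.rnd p)) f = 0 := by
        unfold ovA ell
        rw [Int.toNat_eq_zero]
        have := h5.2
        push_cast at this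
        linarith
      have a2 : D.ovB (xs (D.rnd p)) (D.ys (D.rnd p)) f = 0 := by
        unfold ovB ell
        rw [Int.toNat_eq_zero]
        have := h5.1
        push_cast at this
        linarith
      simp [a1, a2]
    · rfl
  have h8 := (h.floor_spec (xs (D.rnd p)) (D.ys (D.rnd p))).1
  have h9 := h.mar_lt h1
  have h10 : D.num (xs (D.rnd p)) (D.ys (D.rnd p)) / pDen D.P = 0 := by
    have : ((D.num (xs (D.rnd p)) (D.ys (D.rnd p)) / pDen D.P : ℕ) : ℝ) < 1 := by linarith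
    exact Nat.lt_one_iff.1 (by exact_mod_cast this)
  rw [ex_Ω0 (h.rnd_mem hp), h10]
  rfl

theorem OK.sum_dS_le (h : D.OK) {a : List ℕ} (ha : a ∈ D.Ω) :
    ∑ K ∈ range D.N.V, (D.dS a K).natAbs ≤ 2 * D.P * pM D.P := by
  obtain ⟨p, hp⟩ := h.ne
  have h1 : ∑ K ∈ range D.N.V, |D.dS a K| ≤ 2 * D.P * pM D.P := by
    simp only [h.dS_eq ha hp]
    refine (sum_le_sum fun K _ => abs_sum_le_sum_abs _ _).trans ?_
    rw [sum_comm]
    refine (sum_le_card_nsmul _ _ (2 * pM D.P : ℤ) fun e he => ?_).trans ?_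
    · have he' := mem_range.1 he
      by_cases e1 : D.lab (D.N.s e) = D.lab (D.N.d e)
      · simp [e1]
      · obtain ⟨a1, a2, a3⟩ := h.cross he' e1
        have a4 := (mem_Ω.1 ha).2 e he'
        have a5 := (mem_Fl.1 hp).2.1 e he'
        rw [ρ, a2, a3] at a4
        simp only [Bool.false_eq_true, if_false, Nat.div_one] at a4
        have a6 : |(a.getD e 0 : ℤ) - p.getD e 0| ≤ pM D.P := by rw [abs_le]; omega
        refine (sum_le_sum (g := fun K => (if D.lab (D.N.s e) = K then (pM D.P : ℤ) else 0) +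
          if D.lab (D.N.d e) = K then (pM D.P : ℤ) else 0) fun K _ => ?_).trans ?_
        · refine (abs_sub _ _).trans (add_le_add ?_ ?_) <;> split_ifs <;> first | exact a6 | simp
        · rw [sum_add_distrib, sum_ite_eq, sum_ite_eq]
          split_ifs <;> omega
    · rw [card_range, nsmul_eq_mul]
      have : (D.N.E : ℤ) ≤ D.P := by exact_mod_cast h.E_le
      have : (0 : ℤ) ≤ pM D.P := by positivity
      nlinarith
  simp only [← Int.natCast_natAbs] at h1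
  exact_mod_cast h1

theorem OK.phi_le (h : D.OK) {a : List ℕ} (ha : a ∈ D.Ω) :
    D.phi (xs a) (D.ys a) ≤ 2 ^ 40 * (D.P : ℝ) ^ 13 := by
  have hX : ∀ e, xs a e ≤ pU D.P + 2 := fun e => by
    unfold xs pU
    by_cases he : e < D.N.E
    · have := (mem_Ω.1 ha).2 e he
      have := h.rho_lt e
      omega
    · rw [List.getD_eq_default _ _ (by rw [(mem_Ω.1 ha).1]; omega)]
      omega
  have hY : ∀ e, D.ys a e ≤ pU D.P + 2 := fun e => by
    have := h.rho_lt e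
    unfold ys pU
    omega
  unfold phi
  refine (sum_le_card_nsmul _ _ (2 ^ 40 * (D.P : ℝ) ^ 12) fun f hf => ?_).trans ?_
  · split_ifs with hT
    · obtain ⟨a1, a2⟩ := h.ov_le hX hY (mem_range.1 hf) hT
      have hW : (0 : ℝ) < pW D.P := by exact_mod_cast h.pW_pos
      have ht : (0 : ℝ) < D.t f := by exact_mod_cast D.t_pos f
      have e1 : ((8 * D.P * pM D.P * D.t f : ℕ) : ℝ) = 2 ^ 13 * (D.P : ℝ) ^ 4 * (pW D.P * D.t f) := by
        unfold pM; push_cast; ring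
      have b1 : (D.ovA (xs a) (D.ys a) f : ℝ) ≤ 2 ^ 13 * (D.P : ℝ) ^ 4 * (pW D.P * D.t f) := by
        rw [← e1]; exact_mod_cast a1
      have b2 : (D.ovB (xs a) (D.ys a) f : ℝ) ≤ 2 ^ 13 * (D.P : ℝ) ^ 4 * (pW D.P * D.t f) := by
        rw [← e1]; exact_mod_cast a2
      rw [div_le_iff₀ (by positivity)]
      have c1 := pow_le_pow_left₀ (by positivity) b1 3
      have c2 := pow_le_pow_left₀ (by positivity) b2 3
      have e2 : (2 ^ 13 * (D.P : ℝ) ^ 4 * (pW D.P * D.t f)) ^ 3 * 2 =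
          2 ^ 40 * (D.P : ℝ) ^ 12 * ((pW D.P : ℝ) * D.t f) ^ 3 := by ring
      linarith
    · positivity
  · rw [card_range, nsmul_eq_mul]
    have : (D.N.E : ℝ) ≤ D.P := by exact_mod_cast h.E_le
    calc (D.N.E : ℝ) * (2 ^ 40 * (D.P : ℝ) ^ 12) ≤ D.P * (2 ^ 40 * (D.P : ℝ) ^ 12) :=
          mul_le_mul_of_nonneg_right this (by positivity)
      _ = _ := by ring

theorem OK.ex_le (h : D.OK) {k : List ℤ} (hk : D.KB k) {a : List ℕ} (ha : a ∈ D.Ω) :
    (D.ex k a).natAbs ≤ pX D.P := by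
  have h1 := h.sum_dS_le ha
  have h2 := (h.floor_spec (xs a) (D.ys a)).1
  have h3 := h.mar_lt ha
  have h4 := h.phi_le ha
  have hP : (1 : ℝ) ≤ (D.P : ℝ) ^ 13 := one_le_pow₀ (by exact_mod_cast h.one_le_P)
  have h5 : D.num (xs a) (D.ys a) / pDen D.P ≤ 2 ^ 42 * D.P ^ 13 := by
    have : ((D.num (xs a) (D.ys a) / pDen D.P : ℕ) : ℝ) ≤ 2 ^ 42 * (D.P : ℝ) ^ 13 := by linarith
    exact_mod_cast this
  have h6 : (∑ K ∈ range D.N.V, k.getD K 0 * D.dS a K).natAbs ≤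
      pI D.P * ∑ K ∈ range D.N.V, (D.dS a K).natAbs := by
    refine (Int.natAbs_sum_le _ _).trans ?_
    rw [mul_sum]
    refine sum_le_sum fun K _ => ?_
    rw [Int.natAbs_mul]
    exact Nat.mul_le_mul_right _ (hk K)
  unfold ex pX
  rw [← Nat.cast_sum, ← Nat.cast_mul]
  have h7 := Nat.mul_le_mul_left (pLam D.P) h1
  have h8 := Nat.mul_le_mul_left (pI D.P) h1
  rw [add_mul]
  generalize D.num (xs a) (D.ys a) / pDen D.P = n at h5 ⊢
  generalize ∑ K ∈ range D.N.V, k.getD K 0 * D.dS a K = z at h6 ⊢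
  generalize ∑ K ∈ range D.N.V, (D.dS a K).natAbs = S at h6 h7 h8 ⊢
  generalize pLam D.P * S = A at h7 ⊢
  omega

theorem wt_pos (D : Dat) (k : List ℤ) (a : List ℕ) : 0 < D.wt k a := by
  unfold wt; positivity

theorem OK.one_le_Z (h : D.OK) (k : List ℤ) : 1 ≤ D.Z k := by
  obtain ⟨p, hp⟩ := h.ne
  have := single_le_sum (f := D.wt k) (fun a _ => (D.wt_pos k a).le) (h.rnd_mem_Ω hp)
  rwa [wt, h.ex_rnd hp, neg_zero, zpow_zero] at this

theorem OK.Z_zero_le (h : D.OK) : D.Z (List.replicate D.N.V 0) ≤ 2 ^ pB1 D.P := by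
  refine (sum_le_card_nsmul _ _ (1 : ℝ) fun a _ => ?_).trans ?_
  · refine zpow_le_one_of_nonpos₀ (by norm_num) (neg_nonpos.2 ?_)
    have : ∀ K, (List.replicate D.N.V (0 : ℤ)).getD K 0 = 0 := fun K => by
      simp only [List.getD_eq_getElem?_getD, List.getElem?_replicate]
      split_ifs <;> rfl
    unfold ex
    simp only [this, zero_mul, sum_const_zero, add_zero]
    positivity
  · rw [nsmul_eq_mul, mul_one]
    exact_mod_cast h.card_Ω

theorem wt_Ω0 {a : List ℕ} (ha : a ∈ D.Ω0) (k : List ℤ) : D.wt k a = D.wt [] a := by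
  unfold wt
  rw [ex_Ω0 ha, ex_Ω0 ha]

theorem OK.wt_Ω0_le (h : D.OK) {a : List ℕ} (ha : a ∈ D.Ω0) :
    D.wt [] a ≤ 2 * (2 : ℝ) ^ (-D.phi (xs a) (D.ys a)) := by
  have h1 := (h.floor_spec (xs a) (D.ys a)).2
  have h2 := D.mar_nonneg (xs a) (D.ys a)
  rw [wt, ex_Ω0 ha, ← Real.rpow_intCast, mul_comm, ← Real.rpow_add_one two_ne_zero]
  refine Real.rpow_le_rpow_of_exponent_le one_le_two ?_
  rw [Int.cast_neg, Int.cast_natCast]
  linarith

theorem cI_pos (D : Dat) (k : List ℤ) (K₀ : ℕ) (γ : ℤ) (β : Cfg) : 0 < D.cI k K₀ γ β := by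
  exact Real.exp_pos _

theorem cI_eq (D : Dat) (k : List ℤ) (K₀ : ℕ) (γ : ℤ) (β : Cfg) :
    D.cI k K₀ γ β = (2 : ℝ) ^ (-D.Vr k K₀ γ β) := by
  rw [cI, Real.rpow_def_of_pos two_pos, mul_neg]

theorem dK_congr {X Y X' Y' : ℕ → ℕ} (hX : ∀ e < D.N.E, X e = X' e)
    (hY : ∀ e < D.N.E, Y e = Y' e) (K : ℕ) : D.dK X Y K = D.dK X' Y' K := by
  unfold dK
  rw [sum_congr rfl fun e he => by rw [hX e (mem_range.1 he), hY e (mem_range.1 he)]]

theorem ell_congr {X Y X' Y' : ℕ → ℕ} (hX : ∀ e < D.N.E, X e = X' e)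
    (hY : ∀ e < D.N.E, Y e = Y' e) (f : ℕ) : D.ell X Y f = D.ell X' Y' f := by
  unfold ell cut
  congr 1
  · congr 1
    exact sum_congr rfl fun e he => by simp only [hX e (mem_range.1 he)]
  · exact sum_congr rfl fun e he => by simp only [hY e (mem_range.1 he)]

theorem phi_congr {X Y X' Y' : ℕ → ℕ} (hX : ∀ e < D.N.E, X e = X' e)
    (hY : ∀ e < D.N.E, Y e = Y' e) : D.phi X Y = D.phi X' Y' := by
  unfold phi ovA ovB
  simp only [ell_congr hX hY]

theorem mar_congr {X Y X' Y' : ℕ → ℕ} (hX : ∀ e < D.N.E, X e = X' e)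
    (hY : ∀ e < D.N.E, Y e = Y' e) : D.mar X Y = D.mar X' Y' := by
  unfold mar
  rw [sum_congr rfl fun e he => by rw [hX e (mem_range.1 he), hY e (mem_range.1 he)]]

theorem Vr_cfg (D : Dat) (k : List ℤ) (K₀ : ℕ) (γ : ℤ) (σ : ℕ) (a : List ℕ) :
    D.Vr k K₀ γ (cfgOf D.N.E D.ρL σ a) =
      (pLam D.P : ℝ) * (∑ K ∈ range D.N.V, |(D.dS a K : ℝ) + if K = K₀ then (σ : ℝ) + γ else 0|) +
        (∑ K ∈ range D.N.V, (k.getD K 0 : ℝ) * D.dS a K) + D.phi (xs a) (D.ys a) +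
        D.mar (xs a) (D.ys a) := by
  have hX : ∀ e < D.N.E, cfgOf D.N.E D.ρL σ a (e, true) = xs a e := fun e he => by
    simp [cfgOf, he, xs]
  have hY : ∀ e < D.N.E, cfgOf D.N.E D.ρL σ a (e, false) = D.ys a e := fun e he => by
    simp only [cfgOf, he, if_true, Bool.false_eq_true, if_false, getD_ρL he, ys]
  have hE : cfgOf D.N.E D.ρL σ a (D.N.E, true) = σ := by simp [cfgOf]
  unfold Vr dS
  simp only [dK_congr hX hY, phi_congr hX hY, mar_congr hX hY, hE]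

/-- the weight of the chain is within a factor two of the ideal weight -/
theorem OK.cI_wt (h : D.OK) (k : List ℤ) (K₀ : ℕ) (a : List ℕ) :
    D.cI k K₀ 0 (cfgOf D.N.E D.ρL 0 a) ≤ D.wt k a ∧
      D.wt k a ≤ 2 * D.cI k K₀ 0 (cfgOf D.N.E D.ρL 0 a) := by
  obtain ⟨h1, h2⟩ := h.floor_spec (xs a) (D.ys a)
  have e : (D.ex k a : ℝ) = (pLam D.P : ℝ) * (∑ K ∈ range D.N.V, |(D.dS a K : ℝ)|) +
      (∑ K ∈ range D.N.V, (k.getD K 0 : ℝ) * D.dS a K) +
      ((D.num (xs a) (D.ys a) / pDen D.P : ℕ) : ℝ) := by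
    unfold ex
    simp only [Int.natCast_natAbs, Int.cast_add, Int.cast_mul, Int.cast_sum, Int.cast_abs,
      Int.cast_natCast]
  rw [cI_eq, Vr_cfg, wt, ← Real.rpow_intCast, mul_comm (2 : ℝ), ← Real.rpow_add_one two_ne_zero,
    Int.cast_neg, e]
  simp only [Nat.cast_zero, Int.cast_zero, add_zero, ite_self]
  constructor <;> refine Real.rpow_le_rpow_of_exponent_le one_le_two ?_ <;> linarith

theorem cI_shift (D : Dat) (k : List ℤ) (K₀ : ℕ) (γ : ℤ) (σ : ℕ) (a : List ℕ) :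
    D.cI k K₀ γ (cfgOf D.N.E D.ρL σ a) = D.cI k K₀ (γ + σ) (cfgOf D.N.E D.ρL 0 a) := by
  rw [cI_eq, cI_eq, Vr_cfg, Vr_cfg]
  simp only [Nat.cast_zero, zero_add, Int.cast_add, Int.cast_natCast, add_comm (σ : ℝ)]

theorem cI_gamma (D : Dat) (k : List ℤ) {K₀ : ℕ} (hK : K₀ < D.N.V) (γ : ℤ) (a : List ℕ) :
    D.cI k K₀ γ (cfgOf D.N.E D.ρL 0 a) = D.cI k K₀ 0 (cfgOf D.N.E D.ρL 0 a) *
      (2 : ℝ) ^ (-((pLam D.P : ℤ) * (|D.dS a K₀ + γ| - |D.dS a K₀|))) := by
  rw [cI_eq, cI_eq, Vr_cfg, Vr_cfg, ← Real.rpow_intCast, ← Real.rpow_add two_pos]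
  congr 1
  have e : ∑ K ∈ range D.N.V, |(D.dS a K : ℝ) + if K = K₀ then ((0 : ℕ) : ℝ) + γ else 0| =
      ∑ K ∈ range D.N.V, |(D.dS a K : ℝ) + if K = K₀ then ((0 : ℕ) : ℝ) + (0 : ℤ) else 0| +
        (|(D.dS a K₀ : ℝ) + γ| - |(D.dS a K₀ : ℝ)|) := by
    rw [← add_sum_erase _ _ (mem_range.2 hK), ← add_sum_erase _ _ (mem_range.2 hK),
      sum_congr rfl fun K hK => by rw [if_neg (ne_of_mem_erase hK)],
      sum_congr (f := fun K => |(D.dS a K : ℝ) + if K = K₀ then ((0 : ℕ) : ℝ) + (0 : ℤ) else 0|) rfl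
        fun K hK => by rw [if_neg (ne_of_mem_erase hK)]]
    simp
    ring
  rw [e]
  push_cast
  ring

end Dat

end Crest.Agent.R309
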