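import Crest.Agent.R309.Net

/-! Row 309: the coarse-grained model, the chain, the learning of the fields, the trials. -/

set_option autoImplicit false

namespace Crest.Agent.R309

open Crest.Agent.PT Crest.Enc Finset

/-! ### Parameters -/

def pW (P : ℕ) : ℕ := 2 ^ 40 * P ^ 10
def pM (P : ℕ) : ℕ := 2 ^ 10 * P ^ 3 * pW P
def pQ (P : ℕ) : ℕ := 16 * P * pM P ^ 2
def pU (P : ℕ) : ℕ := 2 * pM P + 2
def pLam (P : ℕ) : ℕ := Nat.size (256 * P)
def pK (P : ℕ) : ℕ := 2 ^ (pLam P + 1)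
def pB1 (P : ℕ) : ℕ := P * Nat.size (2 * pM P)
def pI (P : ℕ) : ℕ := 64 * P * (pB1 P + 1)
def pX (P : ℕ) : ℕ := (pLam P + pI P) * (2 * P * pM P) + 2 ^ 42 * P ^ 13
def pC (P : ℕ) : ℕ := 160 * (P + 1) ^ 2 * pU P ^ 4 * pK P ^ 4 * 2 ^ Nat.size P
def pG (P G : ℕ) : ℕ := G + P + 8
def pT (P G : ℕ) : ℕ := 4 * pC P * (pG P G + 2 * pX P + pB1 P)
def pNs (P G : ℕ) : ℕ := 4096 * P ^ 2 * (G + Nat.size (4 * P * pI P))
def pDen (P : ℕ) : ℕ := pW P ^ 3 * pQ P * 2 ^ (3 * P)
/-- bits of one step of the chain -/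
def L1 (P : ℕ) : ℕ := Nat.size P + 2 + 2 * pX P
/-- bits of one sample -/
def Ls (P G : ℕ) : ℕ := pT P G * L1 P
/-- bits of one trial -/
def Lt (P G : ℕ) : ℕ := Ls P G + P * P
/-- bits of one round of learning -/
def Lr (P G : ℕ) : ℕ := pNs P G * Ls P G
/-- bits of the learning phase -/
def Ll (P G : ℕ) : ℕ := pI P * Lr P G
/-- number of trials of the sampler -/
def nF (G : ℕ) : ℕ := 64 * (G + 2)
/-- bits of the sampler -/
def LS (P G : ℕ) : ℕ := Ll P G + nF G * Lt P G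
/-- bits of one trial of the exact sampler -/
def LX (P G : ℕ) : ℕ := G + (Ll P G + Lt P G)
/-- logarithm of the padding of the rare branch -/
def pB2 (P : ℕ) : ℕ := pB1 P + L1 P + P * P

/-! ### The data -/

/-- a network with capacities, a forest `tr` of large cells, the labels `K` of its components and
for each cell `f` of the forest the side `U f` of its source -/
structure Dat where
  N : Net
  cap : List ℕ
  tr : Word
  K : List ℕ
  U : Word
  P : ℕ

instance : Rp Dat := ⟨Rp.I (Net × List ℕ × Word × List ℕ × Word × Un),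
  fun D => Rp.w (D.N, D.cap, D.tr, D.K, D.U, Un.mk D.P)⟩

namespace Dat

variable (D : Dat)

def c (e : ℕ) : ℕ := D.cap.getD e 0
def T (e : ℕ) : Bool := D.tr.getD e false
def lab (w : ℕ) : ℕ := D.K.getD w 0
def u (f w : ℕ) : Bool := D.U.getD (f * D.N.V + w) false
/-- the flows -/
def Fl : Finset (List ℕ) := D.N.flows [] D.cap
def τ (e : ℕ) : ℕ := (D.c e / pM D.P).size - 1
/-- the scale of a cell -/
def t (e : ℕ) : ℕ := 2 ^ D.τ e
/-- the range of the coarse variable -/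
def ρ (e : ℕ) : ℕ := if D.T e then 0 else D.c e / D.t e
def ρL : List ℕ := (List.range D.N.E).map D.ρ
/-- the states of the chain -/
def Ω : Finset (List ℕ) := bx D.N.E [] D.ρL
def bU (f : ℕ) : ℤ := ∑ w ∈ range D.N.V, if D.u f w then D.N.b w else 0
def bK (K : ℕ) : ℤ := ∑ w ∈ range D.N.V, if D.lab w = K then D.N.b w else 0
def out (f e : ℕ) : Bool := !D.T e && D.u f (D.N.s e) && !D.u f (D.N.d e)
def inn (f e : ℕ) : Bool := !D.T e && !D.u f (D.N.s e) && D.u f (D.N.d e)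
/-- the value of the forest cell `f` forced by the values of the other cells -/
def cut (vX vY : ℕ → ℤ) (f : ℕ) : ℤ :=
  D.bU f - (∑ e ∈ range D.N.E, if D.out f e then vX e else 0) +
    ∑ e ∈ range D.N.E, if D.inn f e then vY e else 0
/-- the defect of the component `K` -/
def dK (X Y : ℕ → ℕ) (K : ℕ) : ℤ :=
  (∑ e ∈ range D.N.E, ((if D.lab (D.N.s e) = K then (X e : ℤ) else 0) +
    if D.lab (D.N.d e) = K then (Y e : ℤ) - D.ρ e else 0)) - D.bK K
def ell (X Y : ℕ → ℕ) (f : ℕ) : ℤ :=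
  D.cut (fun e => (D.t e : ℤ) * X e) (fun e => (D.t e : ℤ) * ((D.ρ e : ℤ) - Y e)) f
def ovA (X Y : ℕ → ℕ) (f : ℕ) : ℕ := (D.ell X Y f - D.c f - D.P * D.t f).toNat
def ovB (X Y : ℕ → ℕ) (f : ℕ) : ℕ := (-D.ell X Y f - D.P * D.t f).toNat
/-- the soft bounds of the forest cells -/
noncomputable def phi (X Y : ℕ → ℕ) : ℝ :=
  ∑ f ∈ range D.N.E, if D.T f then
    ((D.ovA X Y f : ℝ) ^ 3 + (D.ovB X Y f : ℝ) ^ 3) / ((pW D.P : ℝ) * D.t f) ^ 3 else 0
/-- the margin -/
noncomputable def mar (X Y : ℕ → ℕ) : ℝ :=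
  (∑ e ∈ range D.N.E, ((X e : ℝ) ^ 2 + (Y e : ℝ) ^ 2)) / pQ D.P
/-- numerator of `phi + mar` over `pDen` -/
def num (X Y : ℕ → ℕ) : ℕ :=
  pQ D.P * (∑ f ∈ range D.N.E, if D.T f then
      (D.ovA X Y f ^ 3 + D.ovB X Y f ^ 3) * 2 ^ (3 * (D.P - D.τ f)) else 0) +
    pW D.P ^ 3 * 2 ^ (3 * D.P) * ∑ e ∈ range D.N.E, (X e ^ 2 + Y e ^ 2)
def xs (a : List ℕ) (e : ℕ) : ℕ := a.getD e 0
def ys (a : List ℕ) (e : ℕ) : ℕ := D.ρ e - a.getD e 0
/-- the defect of a state -/
def dS (a : List ℕ) (K : ℕ) : ℤ := D.dK (xs a) (D.ys a) K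
/-- the weight of the state `a` is `2 ^ (-ex k a)` -/
def ex (k : List ℤ) (a : List ℕ) : ℤ :=
  (pLam D.P : ℤ) * (∑ K ∈ range D.N.V, ((D.dS a K).natAbs : ℤ)) +
    (∑ K ∈ range D.N.V, k.getD K 0 * D.dS a K) + (D.num (xs a) (D.ys a) / pDen D.P : ℕ)
noncomputable def wt (k : List ℤ) (a : List ℕ) : ℝ := (2 : ℝ) ^ (-D.ex k a)
noncomputable def Z (k : List ℤ) : ℝ := ∑ a ∈ D.Ω, D.wt k a
/-- the states without defect -/
def Ω0 : Finset (List ℕ) := D.Ω.filter fun a => ∀ K < D.N.V, D.dS a K = 0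
noncomputable def Z0 : ℝ := ∑ a ∈ D.Ω0, D.wt [] a
def Good (k : List ℤ) : Prop := D.Z k ≤ 2 * D.Z0
/-- bounded fields -/
def KB (k : List ℤ) : Prop := ∀ K, (k.getD K 0).natAbs ≤ pI D.P
/-- product of the scales -/
def tt : ℕ := ∏ e ∈ range D.N.E, if D.T e then 1 else D.t e
/-- the state of a flow -/
def rnd (p : List ℕ) : List ℕ :=
  (List.range D.N.E).map fun e => if D.T e then 0 else p.getD e 0 / D.t e

/-! ### The ideal weight -/

noncomputable def Vr (k : List ℤ) (K₀ : ℕ) (γ : ℤ) (β : Cfg) : ℝ :=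
  (pLam D.P : ℝ) * (∑ K ∈ range D.N.V, |(D.dK (fun e => β (e, true)) (fun e => β (e, false)) K : ℝ) +
      if K = K₀ then (β (D.N.E, true) : ℝ) + γ else 0|) +
    (∑ K ∈ range D.N.V, (k.getD K 0 : ℝ) * D.dK (fun e => β (e, true)) (fun e => β (e, false)) K) +
    D.phi (fun e => β (e, true)) (fun e => β (e, false)) +
    D.mar (fun e => β (e, true)) (fun e => β (e, false))
noncomputable def cI (k : List ℤ) (K₀ : ℕ) (γ : ℤ) (β : Cfg) : ℝ :=
  Real.exp (-(Real.log 2 * D.Vr k K₀ γ β))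
/-- the block of a variable -/
def bl (K₀ : ℕ) (i : ℕ × Bool) : ℕ :=
  if i.1 < D.N.E then (if i.2 then D.lab (D.N.s i.1) else D.lab (D.N.d i.1)) else K₀
/-- the field of a variable -/
noncomputable def ζ (k : List ℤ) (i : ℕ × Bool) : ℝ := (2 : ℝ) ^ (-k.getD (D.bl 0 i) 0)

/-! ### Extended flows -/

def R (e : ℕ) : ℕ := if pM D.P ≤ D.c e then 4 * D.P * pM D.P * D.t e else 0
def Lw (e : ℕ) : ℕ := (2 * D.P + pW D.P) * D.t e
noncomputable def psi (e : ℕ) (z : ℤ) : ℝ :=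
  (2 : ℝ) ^ (-((((z - D.c e - D.Lw e).toNat + (-z - D.Lw e).toNat : ℕ) : ℝ) / ((pW D.P : ℝ) * D.t e)))
def capX : List ℕ := (List.range D.N.E).map fun e => D.c e + 2 * D.R e
noncomputable def extN : ℝ :=
  ∑ x ∈ (bx D.N.E [] D.capX).filter (fun x => D.N.Cons fun e => (x.getD e 0 : ℤ) - D.R e),
    ∏ e ∈ range D.N.E, D.psi e ((x.getD e 0 : ℤ) - D.R e)

/-! ### The algorithm -/

/-- proposed move: coordinate `e`, direction `up` -/
def mv (a : List ℕ) (e : ℕ) (up : Bool) : List ℕ := if up then inc a e else dec a e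
def okMv (a : List ℕ) (e : ℕ) (up : Bool) : Prop :=
  e < D.N.E ∧ if up then a.getD e 0 < D.ρ e else 0 < a.getD e 0
instance (a : List ℕ) (e : ℕ) (up : Bool) : Decidable (D.okMv a e up) := by
  unfold okMv; infer_instance
/-- one step of the lazy Metropolis chain -/
def step (k : List ℤ) (a : List ℕ) (r : Word) : List ℕ :=
  if r.getD (Nat.size D.P + 1) false = true ∧
      D.okMv a (ofB (r.take (Nat.size D.P))) (r.getD (Nat.size D.P) false) ∧
      ofB (r.drop (Nat.size D.P + 2)) < 2 ^ (2 * pX D.P -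
        (D.ex k (mv a (ofB (r.take (Nat.size D.P))) (r.getD (Nat.size D.P) false)) - D.ex k a).toNat)
    then mv a (ofB (r.take (Nat.size D.P))) (r.getD (Nat.size D.P) false) else a
/-- a sample of the chain -/
def smp (k : List ℤ) (G : ℕ) (ω : Word) : List ℕ :=
  iterR (L1 D.P) (D.step k) (pT D.P G) (List.replicate D.N.E 0) ω
/-- the value of a cell outside the forest -/
def val (a : List ℕ) (r : Word) (e : ℕ) : ℕ :=
  D.t e * a.getD e 0 + ofB ((blk D.P e r).take (D.τ e))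
def cand (a : List ℕ) (r : Word) : List ℕ :=
  (List.range D.N.E).map fun e =>
    if D.T e then (D.cut (fun e => (D.val a r e : ℤ)) (fun e => (D.val a r e : ℤ)) e).toNat
    else D.val a r e
def fin (a : List ℕ) (r : Word) : List ℕ := if D.cand a r ∈ D.Fl then 1 :: D.cand a r else []
/-- one trial -/
def trial (k : List ℤ) (G : ℕ) (ω : Word) : List ℕ := D.fin (D.smp k G ω) (ω.drop (Ls D.P G))
/-- the event number `j`: the defect of the component `j / 2` has the sign given by `j % 2` -/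
def evt (j : ℕ) (a : List ℕ) : Prop := if j % 2 = 0 then 0 < D.dS a (j / 2) else D.dS a (j / 2) < 0
instance (j : ℕ) (a : List ℕ) : Decidable (D.evt j a) := by unfold evt; infer_instance
def cntE (k : List ℤ) (G j : ℕ) (ω : Word) : ℤ :=
  repZ (Ls D.P G) (fun r => if D.evt j (D.smp k G r) then 1 else 0) (pNs D.P G) ω
/-- the update of the fields for the event `j` -/
def upd (k : List ℤ) (j : ℕ) : List ℤ :=
  k.set (j / 2) (k.getD (j / 2) 0 + if j % 2 = 0 then 1 else -1)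
/-- the first frequent event (`2 V` if there is none) -/
def jf (k : List ℤ) (G : ℕ) (ω : Word) : ℕ :=
  lead ((List.range (2 * D.N.V)).map fun j =>
    !decide ((pNs D.P G : ℤ) ≤ 8 * D.P * D.cntE k G j ω))
def lstep (G : ℕ) (s : List ℤ × Bool) (ω : Word) : List ℤ × Bool :=
  if s.2 then s else if D.jf s.1 G ω < 2 * D.N.V then (upd s.1 (D.jf s.1 G ω), false) else (s.1, true)
/-- the learned fields -/
def learn (G : ℕ) (ω : Word) : List ℤ :=
  (iterR (Lr D.P G) (D.lstep G) (pI D.P) (List.replicate D.N.V 0, false) ω).1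
/-- the sampler (`[]` on failure) -/
def samp (G : ℕ) (ω : Word) : List ℕ :=
  firstR (Lt D.P G) (D.trial (D.learn G ω) G) (nF G) (ω.drop (Ll D.P G))

/-! ### The exact correction -/

/-- the number of tapes on which the trial gives `p` -/
def cntT (k : List ℤ) (G : ℕ) (p : List ℕ) : ℕ :=
  ((range (2 ^ Lt D.P G)).filter fun i =>
    D.trial k G ((List.range (Lt D.P G)).map i.testBit) = 1 :: p).card
def gap (k : List ℤ) (G j : ℕ) : ℕ :=
  if enum D.P D.N.E j ∈ D.Fl then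
    (2 ^ G - 1) * (D.Fl.sup (D.cntT k G) - D.cntT k G (enum D.P D.N.E j)) else 0
def jr (k : List ℤ) (G : ℕ) (ω : Word) : ℕ :=
  lead ((List.range (2 ^ (D.P * D.N.E))).map fun j =>
    !decide (ofB (ω.take (Lt D.P G)) < ∑ i ∈ range (j + 1), D.gap k G i))
def rare (k : List ℤ) (G : ℕ) (ω : Word) : List ℕ :=
  if D.jr k G ω < 2 ^ (D.P * D.N.E) then 1 :: enum D.P D.N.E (D.jr k G ω) else []
/-- one trial of the exact sampler -/
def xtrial (G : ℕ) (ω : Word) : List ℕ :=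
  if br G ω then D.rare (D.learn G (ω.drop G)) G ((ω.drop G).drop (Ll D.P G))
  else D.trial (D.learn G (ω.drop G)) G ((ω.drop G).drop (Ll D.P G))

/-! ### Correct data -/

structure Forest : Prop where
  tr_large : ∀ f < D.N.E, D.T f = true → pM D.P ≤ D.c f
  large_K : ∀ e < D.N.E, pM D.P ≤ D.c e → D.lab (D.N.s e) = D.lab (D.N.d e)
  lab_lt : ∀ w < D.N.V, D.lab w < D.N.V
  u_src : ∀ f < D.N.E, D.T f = true → D.u f (D.N.s f) = true
  u_dst : ∀ f < D.N.E, D.T f = true → D.u f (D.N.d f) = false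
  u_K : ∀ f < D.N.E, D.T f = true → ∀ w < D.N.V, D.u f w = true → D.lab w = D.lab (D.N.s f)
  u_tr : ∀ f < D.N.E, D.T f = true → ∀ e < D.N.E, D.T e = true → e ≠ f →
    D.u f (D.N.s e) = D.u f (D.N.d e)
  u_τ : ∀ f < D.N.E, D.T f = true → ∀ e < D.N.E, D.u f (D.N.s e) ≠ D.u f (D.N.d e) → D.τ e ≤ D.τ f
  span : ∀ r : ℕ → ℤ, (∀ K < D.N.V, ∑ w ∈ range D.N.V, (if D.lab w = K then r w else 0) = 0) →
    (∀ f < D.N.E, D.T f = true → ∑ w ∈ range D.N.V, (if D.u f w then r w else 0) = 0) →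
    ∀ w < D.N.V, r w = 0

structure OK : Prop extends D.Forest where
  wf : D.N.WF
  small : D.N.Small D.cap D.P
  ne : D.Fl.Nonempty
  tight : D.N.Tight D.cap

/-! ### Projections are polynomial -/

section
variable {α : Type} [Rp α]

theorem ptime_iff {f : α → Dat} : PTime f ↔
    PTime fun a => ((f a).N, (f a).cap, (f a).tr, (f a).K, (f a).U, Un.mk (f a).P) := Iff.rfl

theorem ptime_mk {N : α → Net} {cap K : α → List ℕ} {tr U : α → Word} {P : α → ℕ} (h1 : PTime N)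
    (h2 : PTime cap) (h3 : PTime tr) (h4 : PTime K) (h5 : PTime U) (h6 : PU P) :
    PTime fun a => Dat.mk (N a) (cap a) (tr a) (K a) (U a) (P a) :=
  ptime_iff.2 (h1.pair (h2.pair (h3.pair (h4.pair (h5.pair (PTime.unMk h6))))))
@[fun_prop] theorem ptime_N {f : α → Dat} (hf : PTime f) : PTime fun a => (f a).N :=
  (ptime_iff.1 hf).fst
@[fun_prop] theorem ptime_cap {f : α → Dat} (hf : PTime f) : PTime fun a => (f a).cap :=
  (ptime_iff.1 hf).snd.fst
@[fun_prop] theorem ptime_tr {f : α → Dat} (hf : PTime f) : PTime fun a => (f a).tr :=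
  (ptime_iff.1 hf).snd.snd.fst
@[fun_prop] theorem ptime_K {f : α → Dat} (hf : PTime f) : PTime fun a => (f a).K :=
  (ptime_iff.1 hf).snd.snd.snd.fst
@[fun_prop] theorem ptime_U {f : α → Dat} (hf : PTime f) : PTime fun a => (f a).U :=
  (ptime_iff.1 hf).snd.snd.snd.snd.fst
@[fun_prop] theorem pu_P {f : α → Dat} (hf : PTime f) : PU fun a => (f a).P :=
  (ptime_iff.1 hf).snd.snd.snd.snd.snd

end

end Dat

theorem realize_defs : True := by
  have := @Dat.lstep.eq_1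
  have := @Dat.bl.eq_1
  trivial

end Crest.Agent.R309
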