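import Crest.Agent.R290.PTx
import Crest.Agent.Lib.PT.Int
import Crest.Prelude.Def_FinProb
import Crest.Prelude.Def_BitEnc

/-! Row 309 (contingency tables): generic definitions (lists, random tapes, Lorentzian weights). -/

set_option autoImplicit false

namespace Crest.Agent.R309

open Crest.Agent.PT Crest.Enc Finset

/-! ### Lists of numbers as represented types -/

instance : Rp (List ℕ) := ⟨Unit, fun l _ => (l.map natCode).flatten⟩
instance : Rp (List ℤ) := ⟨Unit, fun l _ => (l.map intCode).flatten⟩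

/-- lists of length `E` with `lo[i] ≤ l[i] ≤ hi[i]` (missing entries of `lo`, `hi` are `0`) -/
def bx (E : ℕ) (lo hi : List ℕ) : Finset (List ℕ) :=
  (Fintype.piFinset fun i : Fin E => Finset.Icc (lo.getD i 0) (hi.getD i 0)).image List.ofFn

theorem mem_bx {E : ℕ} {lo hi l : List ℕ} :
    l ∈ bx E lo hi ↔ l.length = E ∧ ∀ i < E, lo.getD i 0 ≤ l.getD i 0 ∧ l.getD i 0 ≤ hi.getD i 0 := by
  unfold bx
  simp only [Finset.mem_image, Fintype.mem_piFinset, Finset.mem_Icc]
  constructor
  · rintro ⟨a, ha, rfl⟩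
    refine ⟨List.length_ofFn, fun i hi => ?_⟩
    have : (List.ofFn a).getD i 0 = a ⟨i, hi⟩ := by
      simp [List.getD_eq_getElem?_getD, hi]
    rw [this]
    exact ha ⟨i, hi⟩
  · rintro ⟨rfl, h⟩
    refine ⟨fun i => l.get i, fun i => ?_, List.ofFn_get l⟩
    have := h i i.2
    rwa [List.getD_eq_getElem _ _ i.2] at this

/-- raise coordinate `e` by one -/
def inc (a : List ℕ) (e : ℕ) : List ℕ := a.set e (a.getD e 0 + 1)
/-- lower coordinate `e` by one -/
def dec (a : List ℕ) (e : ℕ) : List ℕ := a.set e (a.getD e 0 - 1)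

/-- the list of `n` numbers of `β` bits each written by `i` -/
def enum (β n i : ℕ) : List ℕ := (List.range n).map fun j => i / 2 ^ (β * j) % 2 ^ β

/-! ### Random tapes -/

/-- average over tapes of length `L` -/
noncomputable def Ex (L : ℕ) (F : Word → ℝ) : ℝ :=
  (∑ ω : Fin L → Bool, F (List.ofFn ω)) / 2 ^ L

open Classical in
/-- probability over tapes of length `L` -/
noncomputable def Pr (L : ℕ) (A : Word → Prop) : ℝ := Ex L fun ω => if A ω then 1 else 0

/-- block number `i` of length `L` -/
def blk (L i : ℕ) (ω : Word) : Word := (ω.drop (i * L)).take L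

/-- `n` randomized steps, each reading a fresh block of `L` bits -/
def iterR {σ : Type} (L : ℕ) (step : σ → Word → σ) : ℕ → σ → Word → σ
  | 0, s, _ => s
  | n + 1, s, ω => step (iterR L step n s ω) (blk L n ω)

/-- sum of `n` independent runs -/
def repZ (L : ℕ) (f : Word → ℤ) (n : ℕ) (ω : Word) : ℤ := ∑ i ∈ range n, f (blk L i ω)

/-- first nonempty result among `n` independent runs (`[]` if none) -/
def firstR (L : ℕ) (f : Word → List ℕ) (n : ℕ) (ω : Word) : List ℕ :=
  iterR L (fun s r => if s = [] then f r else s) n [] ω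

/-! ### Locally Lorentzian weights -/

/-- configurations: `(e, true)` is the variable `x_e`, `(e, false)` is `y_e` -/
abbrev Cfg := ℕ × Bool → ℕ

/-- unit vector -/
def uv (i : ℕ × Bool) : Cfg := Pi.single i 1

/-- `c` is strongly log-concave at `α` in the directions `D` -/
def SL (D : Finset (ℕ × Bool)) (c : Cfg → ℝ) (α : Cfg) : Prop :=
  ∀ w : ℕ × Bool → ℝ, ∑ i ∈ D, ∑ j ∈ D,
    w i * w j * (c (α + uv i + uv j) * c α - c (α + uv i) * c (α + uv j)) ≤ 0

/-- sum over the splittings of the total `s` between `x_e` and `y_e` -/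
def T1 (e s : ℕ) (F : Cfg → ℝ) (α : Cfg) : ℝ :=
  ∑ j ∈ range (s + 1), F (α + j • uv (e, true) + (s - j) • uv (e, false))

/-- sum over the splittings for all bundles of the list -/
def TL (s : ℕ → ℕ) : List ℕ → (Cfg → ℝ) → Cfg → ℝ
  | [], F => F
  | e :: l, F => T1 e (s e) (TL s l F)

/-- the variables of the bundles `e < E` -/
def dirs (E : ℕ) : Finset (ℕ × Bool) := range E ×ˢ univ

/-- the configuration of the state `a` (totals `ρ`, extra variable `(E, true)` equal to `σ`) -/
def cfgOf (E : ℕ) (ρ : List ℕ) (σ : ℕ) (a : List ℕ) : Cfg := fun i =>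
  if i.1 < E then (if i.2 then a.getD i.1 0 else ρ.getD i.1 0 - a.getD i.1 0)
  else if i = (E, true) then σ else 0

theorem realize_defs0 : True := by
  have := @cfgOf.eq_1
  have := @dirs.eq_1
  have := @iterR.eq_def
  have := @iterR.eq_1
  have := @iterR.eq_2
  have := @blk.eq_1
  have := @uv.eq_1
  have := @inc.eq_1
  have := @dec.eq_1
  have := @TL.eq_def
  have := @TL.eq_1
  have := @TL.eq_2
  have := @T1.eq_1
  have := @enum.eq_1
  have := @repZ.eq_1
  have := @firstR.eq_1
  have := @Ex.eq_1
  have := @Pr.eq_1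
  have := @bx.eq_1
  trivial

end Crest.Agent.R309
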