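import Crest.Agent.R309.HS
import Crest.Agent.R309.Bridge

/-! Row 309: the effect of a change of the fields. -/

set_option autoImplicit false

namespace Crest.Agent.R309

open Crest.Agent.PT Crest.Enc Finset

namespace StatX

theorem geom_le {q : ℝ} (h0 : 0 ≤ q) (h1 : q ≤ 1 / 2) (n : ℕ) :
    ∑ i ∈ range n, q ^ (i + 1) ≤ 2 * q := by
  have key : ∑ i ∈ range n, q ^ (i + 1) + 2 * q ^ (n + 1) ≤ 2 * q := by
    induction n with
    | zero => simp
    | succ n ih =>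
        rw [sum_range_succ, pow_succ q (n + 1)]
        have : 0 ≤ q ^ (n + 1) := by positivity
        nlinarith
  have : 0 ≤ q ^ (n + 1) := by positivity
  linarith

theorem lc_pow {z : ℤ → ℝ} (hz : ∀ γ, 0 < z γ) (hlc : ∀ γ, z (γ + 1) * z (γ - 1) ≤ z γ ^ 2)
    {r : ℝ} (h : z 0 ≤ r * z (-1)) (i : ℕ) : z i ≤ r ^ i * z 0 := by
  have hr : 0 ≤ r := by
    by_contra h1
    nlinarith [hz 0, hz (-1)]
  have key : ∀ i : ℕ, z i ≤ r * z (i - 1) := by
    intro i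
    induction i with
    | zero => simpa using h
    | succ i ih =>
        push_cast
        rw [add_sub_cancel_right]
        have h1 := hlc i
        have h2 := hz (i - 1)
        have h3 := hz i
        refine le_of_mul_le_mul_right ?_ h2
        nlinarith
  induction i with
  | zero => simp
  | succ i ih =>
      have h1 := key (i + 1)
      push_cast at h1 ⊢
      rw [add_sub_cancel_right] at h1
      calc z (i + 1) ≤ r * z i := h1
        _ ≤ r * (r ^ i * z 0) := mul_le_mul_of_nonneg_left ih hr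
        _ = _ := by ring

theorem core {α : Type} (Ω : Finset α) (hΩ : Ω.Nonempty) (w : α → ℝ) (t : α → ℤ → ℝ) (d : α → ℤ)
    {P Λ : ℝ} (hP : 1 ≤ P) (hΛ : 256 * P ≤ Λ) (ht : ∀ a γ, 0 < t a γ)
    (hw : ∀ a, t a 0 ≤ w a ∧ w a ≤ 2 * t a 0) (h1 : ∀ a, 0 < d a → t a (-1) = Λ * t a 0)
    (h2 : ∀ a (i : ℕ), d a = -i → t a i = Λ ^ i * t a 0)
    (hlc : ∀ γ, (∑ a ∈ Ω, t a (γ + 1)) * (∑ a ∈ Ω, t a (γ - 1)) ≤ (∑ a ∈ Ω, t a γ) ^ 2)
    (hp : 1 / (16 * P) * ∑ a ∈ Ω, w a ≤ ∑ a ∈ Ω.filter fun a => 0 < d a, w a) :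
    ∑ a ∈ Ω, w a * (2 : ℝ) ^ (-d a) ≤ (1 - 1 / (64 * P)) * ∑ a ∈ Ω, w a := by
  have hP0 : 0 < P := by linarith
  have hΛ0 : 0 < Λ := by linarith
  set Z := ∑ a ∈ Ω, w a with hZ
  set m := ∑ a ∈ Ω.filter fun a => 0 < d a, w a with hm
  have hz : ∀ γ, 0 < ∑ a ∈ Ω, t a γ := fun γ => sum_pos (fun a _ => ht a γ) hΩ
  have hz0 : ∑ a ∈ Ω, t a 0 ≤ Z := sum_le_sum fun a _ => (hw a).1
  have hm1 : Λ * m ≤ 2 * ∑ a ∈ Ω, t a (-1) := by
    rw [hm, mul_sum, mul_sum]
    refine le_trans (sum_le_sum fun a ha => ?_)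
      (sum_le_sum_of_subset_of_nonneg (filter_subset (fun a => 0 < d a) Ω) fun a _ _ =>
        (mul_pos two_pos (ht a (-1))).le)
    rw [h1 a (mem_filter.1 ha).2]
    nlinarith [(hw a).2]
  have hr : ∑ a ∈ Ω, t a 0 ≤ 32 * P / Λ * ∑ a ∈ Ω, t a (-1) := by
    rw [div_mul_eq_mul_div, le_div_iff₀ hΛ0]
    rw [div_mul_eq_mul_div, div_le_iff₀ (by positivity)] at hp
    nlinarith
  have hpow := lc_pow (z := fun γ => ∑ a ∈ Ω, t a γ) hz hlc hr
  obtain ⟨B, hB⟩ : ∃ B : ℕ, ∀ a ∈ Ω, (d a).natAbs ≤ B :=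
    ⟨Ω.sup fun a => (d a).natAbs, fun a ha => le_sup (f := fun a => (d a).natAbs) ha⟩
  have hpt : ∀ a ∈ Ω, w a * (2 : ℝ) ^ (-d a) ≤ w a - (if 0 < d a then w a else 0) / 2
      + 2 * ∑ i ∈ range B, (2 / Λ) ^ (i + 1) * t a ((i + 1 : ℕ) : ℤ) := by
    intro a ha
    have hw0 : 0 < w a := (ht a 0).trans_le (hw a).1
    have hs : 0 ≤ ∑ i ∈ range B, (2 / Λ) ^ (i + 1) * t a ((i + 1 : ℕ) : ℤ) :=
      sum_nonneg fun i _ => (mul_pos (by positivity) (ht a _)).le
    rcases lt_trichotomy 0 (d a) with h | h | h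
    · rw [if_pos h]
      have h3 : (2 : ℝ) ^ (-d a) ≤ 2 ^ (-1 : ℤ) := zpow_le_zpow_right₀ (by norm_num) (by omega)
      have h4 : (2 : ℝ) ^ (-1 : ℤ) = 1 / 2 := by norm_num
      rw [h4] at h3
      have h5 := mul_le_mul_of_nonneg_left h3 hw0.le
      linarith
    · rw [← h, if_neg (lt_irrefl _), neg_zero, zpow_zero]; linarith
    · rw [if_neg h.not_gt]
      obtain ⟨i, hi⟩ : ∃ i : ℕ, d a = -((i + 1 : ℕ) : ℤ) := ⟨(-d a - 1).toNat, by omega⟩
      have h3 := single_le_sum (f := fun i => (2 / Λ) ^ (i + 1) * t a ((i + 1 : ℕ) : ℤ))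
        (s := range B) (fun i _ => (mul_pos (by positivity) (ht a _)).le)
        (a := i) (mem_range.2 (by have := hB a ha; omega))
      rw [h2 a _ hi, ← mul_assoc, ← mul_pow, div_mul_cancel₀ _ hΛ0.ne'] at h3
      rw [hi, neg_neg, zpow_natCast]
      have h4 : (0 : ℝ) < 2 ^ (i + 1) := by positivity
      nlinarith [(hw a).2]
  refine (sum_le_sum hpt).trans ?_
  rw [sum_add_distrib, sum_sub_distrib, ← sum_div, ← sum_filter, ← mul_sum, sum_comm, ← hZ, ← hm]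
  have hq0 : 0 ≤ 2 / Λ * (32 * P / Λ) := by positivity
  have hq1 : 2 / Λ * (32 * P / Λ) ≤ 1 / (1024 * P) := by
    rw [div_mul_div_comm, div_le_div_iff₀ (by positivity) (by positivity)]
    nlinarith
  have hq2 : 1 / (1024 * P) ≤ 1 / 2 := one_div_le_one_div_of_le (by norm_num) (by linarith)
  have hZ0 : 0 ≤ Z := (hz 0).le.trans hz0
  have h5 : ∑ i ∈ range B, ∑ a ∈ Ω, (2 / Λ) ^ (i + 1) * t a ((i + 1 : ℕ) : ℤ)
      ≤ 2 * (1 / (1024 * P)) * Z := by
    calc _ ≤ ∑ i ∈ range B, (2 / Λ * (32 * P / Λ)) ^ (i + 1) * Z := by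
          refine sum_le_sum fun i _ => ?_
          rw [← mul_sum, mul_pow, mul_assoc]
          refine mul_le_mul_of_nonneg_left ((hpow (i + 1)).trans ?_) (by positivity)
          exact mul_le_mul_of_nonneg_left hz0 (by positivity)
      _ ≤ 2 * (2 / Λ * (32 * P / Λ)) * Z := by
          rw [← sum_mul]
          exact mul_le_mul_of_nonneg_right (geom_le hq0 (hq1.trans hq2) B) hZ0
      _ ≤ _ := by gcongr
  have e1 : 1 / (16 * P) = 4 * (1 / (64 * P)) := by field_simp; norm_num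
  have e2 : 1 / (1024 * P) = 1 / (64 * P) / 16 := by field_simp; norm_num
  rw [e1] at hp
  rw [e2] at h5
  have hx : 0 ≤ 1 / (64 * P) * Z := by positivity
  nlinarith

end StatX

namespace Dat

variable {D : Dat}

/-- the stationary probability of the event `j` -/
noncomputable def prE (D : Dat) (k : List ℤ) (j : ℕ) : ℝ :=
  (∑ a ∈ D.Ω.filter (D.evt j), D.wt k a) / D.Z k

theorem OK.lc (h : D.OK) (k : List ℤ) (K : ℕ) (γ : ℤ) :
    (∑ a ∈ D.Ω, D.cI k K (γ + 1) (cfgOf D.N.E D.ρL 0 a)) *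
      (∑ a ∈ D.Ω, D.cI k K (γ - 1) (cfgOf D.N.E D.ρL 0 a)) ≤
      (∑ a ∈ D.Ω, D.cI k K γ (cfgOf D.N.E D.ρL 0 a)) ^ 2 := by
  have h1 := lc_extra (E := D.N.E) (c := D.cI k K (γ - 1)) (D.cI_pos k K _) (U := pU D.P)
    (fun β hβ => h.SL_cI k K _ β hβ) D.ρL fun e he => by
      rw [getD_ρL he]; have := h.rho_lt e; unfold pU; omega
  simp only [D.cI_shift k K (γ - 1) 2, D.cI_shift k K (γ - 1) 1] at h1
  rw [show γ - 1 + ((2 : ℕ) : ℤ) = γ + 1 by push_cast; ring,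
    show γ - 1 + ((1 : ℕ) : ℤ) = γ by push_cast; ring] at h1
  exact h1

theorem wt_set {k : List ℤ} (hk : k.length = D.N.V) {K : ℕ} (hK : K < D.N.V) (s : ℤ) (a : List ℕ) :
    D.wt (k.set K (k.getD K 0 + s)) a = D.wt k a * (2 : ℝ) ^ (-(s * D.dS a K)) := by
  have h1 : ∑ K' ∈ range D.N.V, (k.set K (k.getD K 0 + s)).getD K' 0 * D.dS a K'
      = ∑ K' ∈ range D.N.V, k.getD K' 0 * D.dS a K' + s * D.dS a K := by
    have h2 : s * D.dS a K = ∑ K' ∈ range D.N.V, if K' = K then s * D.dS a K' else 0 := by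
      rw [sum_ite_eq', if_pos (mem_range.2 hK)]
    rw [h2, ← sum_add_distrib]
    refine sum_congr rfl fun K' _ => ?_
    split_ifs with h3
    · subst h3
      rw [List.getD_eq_getElem?_getD, List.getElem?_set_self (by omega), Option.getD_some, add_mul]
    · rw [List.getD_eq_getElem?_getD, List.getElem?_set_ne (Ne.symm h3),
        ← List.getD_eq_getElem?_getD, add_zero]
  unfold wt ex
  rw [h1, ← zpow_add₀ two_ne_zero]
  congr 1
  ring

theorem OK.decrease' (h : D.OK) {k : List ℤ} (hk : k.length = D.N.V) {K : ℕ} (hK : K < D.N.V)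
    {s : ℤ} (hs : s = 1 ∨ s = -1)
    (hp : 1 / (16 * (D.P : ℝ)) ≤ (∑ a ∈ D.Ω.filter fun a => 0 < s * D.dS a K, D.wt k a) / D.Z k) :
    D.Z (k.set K (k.getD K 0 + s)) ≤ (1 - 1 / (64 * (D.P : ℝ))) * D.Z k := by
  have hZ : 0 < D.Z k := lt_of_lt_of_le one_pos (h.one_le_Z k)
  have hg : ∀ a γ, D.cI k K (s * γ) (cfgOf D.N.E D.ρL 0 a) = D.cI k K 0 (cfgOf D.N.E D.ρL 0 a) *
      ((2 : ℝ) ^ pLam D.P) ^ (|s * D.dS a K| - |s * D.dS a K + γ|) := by
    intro a γ
    rw [D.cI_gamma k hK, ← zpow_natCast, ← zpow_mul]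
    congr 2
    rcases hs with rfl | rfl
    · simp only [one_mul]; ring
    · rw [show D.dS a K + -1 * γ = -(-1 * D.dS a K + γ) by ring, abs_neg, neg_one_mul, abs_neg]
      ring
  unfold Z
  simp only [wt_set hk hK]
  refine StatX.core D.Ω ⟨_, D.zero_mem_Ω⟩ (D.wt k)
    (fun a γ => D.cI k K (s * γ) (cfgOf D.N.E D.ρL 0 a)) (fun a => s * D.dS a K)
    (Λ := (2 : ℝ) ^ pLam D.P) (by exact_mod_cast h.one_le_P) ?_ (fun a γ => D.cI_pos _ _ _ _)
    (fun a => by simpa using h.cI_wt k K a) (fun a ha => ?_) (fun a i ha => ?_) (fun γ => ?_)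
    ((le_div_iff₀ hZ).1 hp)
  · exact_mod_cast (Nat.lt_size_self (256 * D.P)).le
  · rw [hg, mul_zero, abs_of_pos ha, abs_of_nonneg (by omega), mul_comm]
    simp
  · rw [hg, mul_zero, ha, mul_comm]
    simp
  · rcases hs with rfl | rfl
    · simpa only [one_mul] using h.lc k K γ
    · have := h.lc k K (-γ)
      rw [mul_comm] at this
      simpa only [neg_one_mul, neg_add, neg_sub, sub_eq_add_neg, neg_neg] using this

theorem OK.decrease (h : D.OK) {k : List ℤ} (hk : k.length = D.N.V) {j : ℕ} (hj : j < 2 * D.N.V)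
    (hp : 1 / (16 * (D.P : ℝ)) ≤ D.prE k j) : D.Z (upd k j) ≤ (1 - 1 / (64 * (D.P : ℝ))) * D.Z k := by
  refine h.decrease' hk (K := j / 2) (by omega) (s := if j % 2 = 0 then 1 else -1)
    (by split_ifs <;> simp) (hp.trans (le_of_eq ?_))
  unfold prE
  congr 2
  refine filter_congr fun a _ => ?_
  unfold evt
  split_ifs <;> simp

theorem OK.good_of_small (h : D.OK) {k : List ℤ}
    (hp : ∀ j < 2 * D.N.V, D.prE k j ≤ 3 / (16 * (D.P : ℝ))) : D.Good k := by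
  have hZ : 0 < D.Z k := lt_of_lt_of_le one_pos (h.one_le_Z k)
  have hP : (1 : ℝ) ≤ D.P := by exact_mod_cast h.one_le_P
  have hV : (D.N.V : ℝ) ≤ D.P := by exact_mod_cast h.V_le
  have h1 : D.Z k ≤ D.Z0 + ∑ j ∈ range (2 * D.N.V), ∑ a ∈ D.Ω.filter (D.evt j), D.wt k a := by
    have e : D.Z0 = ∑ a ∈ D.Ω0, D.wt k a := sum_congr rfl fun a ha => (wt_Ω0 ha k).symm
    rw [e]
    simp only [Ω0, sum_filter]
    rw [sum_comm, ← sum_add_distrib]
    refine sum_le_sum fun a _ => ?_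
    have h0 : ∀ j ∈ range (2 * D.N.V), 0 ≤ if D.evt j a then D.wt k a else 0 := fun j _ => by
      split_ifs
      · exact (D.wt_pos k a).le
      · exact le_rfl
    split_ifs with h2
    · exact le_add_of_nonneg_right (sum_nonneg h0)
    · push Not at h2
      obtain ⟨K, hK, h3⟩ := h2
      obtain ⟨j, hj, h4⟩ : ∃ j < 2 * D.N.V, D.evt j a := by
        rcases lt_or_gt_of_ne h3 with h4 | h4
        · refine ⟨2 * K + 1, by omega, ?_⟩
          unfold evt
          rw [if_neg (by omega), show (2 * K + 1) / 2 = K by omega]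
          exact h4
        · refine ⟨2 * K, by omega, ?_⟩
          unfold evt
          rw [if_pos (by omega), show 2 * K / 2 = K by omega]
          exact h4
      have h5 := single_le_sum h0 (mem_range.2 hj)
      rw [if_pos h4] at h5
      linarith
  have h2 : ∑ j ∈ range (2 * D.N.V), ∑ a ∈ D.Ω.filter (D.evt j), D.wt k a
      ≤ ∑ _j ∈ range (2 * D.N.V), 3 / (16 * (D.P : ℝ)) * D.Z k :=
    sum_le_sum fun j hj => (div_le_iff₀ hZ).1 (hp j (mem_range.1 hj))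
  rw [sum_const, card_range, nsmul_eq_mul] at h2
  push_cast at h2
  have h3 : 2 * (D.N.V : ℝ) * (3 / (16 * (D.P : ℝ))) ≤ 1 / 2 := by
    rw [← mul_div_assoc, div_le_div_iff₀ (by positivity) (by norm_num)]
    linarith
  unfold Good
  nlinarith

end Dat

end Crest.Agent.R309
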