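import Crest.Agent.R309.Chain
import Crest.Agent.R309.Stat

/-! Row 309: learning the fields. -/

set_option autoImplicit false

namespace Crest.Agent.R309

open Crest.Agent.PT Crest.Enc Finset

namespace LearnX

theorem lead_spec (m : ℕ) : ∀ (d : ℕ → Prop) [DecidablePred d],
    (∀ i < lead ((List.range m).map fun i => !decide (d i)), ¬ d i) ∧
      (lead ((List.range m).map fun i => !decide (d i)) < m →
        d (lead ((List.range m).map fun i => !decide (d i)))) := by
  induction m with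
  | zero => intro d _; simp [lead]
  | succ m ih =>
    intro d _
    obtain ⟨h2, h3⟩ := ih fun i => d (i + 1)
    by_cases h0 : d 0
    · simp [lead, List.range_succ_eq_map, h0]
    · have e : lead ((List.range (m + 1)).map fun i => !decide (d i)) =
          lead ((List.range m).map fun i => !decide (d (i + 1))) + 1 := by
        simp [lead, List.range_succ_eq_map, h0, Function.comp_def]
      rw [e]
      refine ⟨fun i hi => ?_, fun h => h3 (by omega)⟩
      cases i with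
      | zero => exact h0
      | succ i => exact h2 i (by omega)

theorem upd_bound {k : List ℤ} {n : ℕ} (h : ∀ K, (k.getD K 0).natAbs ≤ n) (j K : ℕ) :
    ((Dat.upd k j).getD K 0).natAbs ≤ n + 1 := by
  unfold Dat.upd
  have h1 := h K
  have h2 := h (j / 2)
  generalize hx : (if j % 2 = 0 then (1 : ℤ) else -1) = x
  have hx' : x.natAbs = 1 := by rw [← hx]; split_ifs <;> rfl
  rw [List.getD_eq_getElem?_getD, List.getElem?_set]
  split_ifs
  · rw [Option.getD_some]; omega
  · simp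
  · rw [← List.getD_eq_getElem?_getD]; omega

theorem lstep_bound (D : Dat) (G n : ℕ) (s : List ℤ × Bool) (r : Word)
    (h : ∀ K, (s.1.getD K 0).natAbs ≤ n) (K : ℕ) : ((D.lstep G s r).1.getD K 0).natAbs ≤ n + 1 := by
  unfold Dat.lstep
  split_ifs
  · exact (h K).trans (Nat.le_succ _)
  · exact upd_bound h _ K
  · exact (h K).trans (Nat.le_succ _)

theorem zero_bound (V K : ℕ) : ((List.replicate V (0 : ℤ)).getD K 0).natAbs ≤ 0 := by
  simp only [List.getD_eq_getElem?_getD, List.getElem?_replicate]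
  split_ifs <;> simp

end LearnX

namespace Dat

open LearnX ChainX

variable {D : Dat}

theorem learn_KB (D : Dat) (G : ℕ) (ω : Word) : D.KB (D.learn G ω) :=
  iterR_inv (Lr D.P G) (D.lstep G) (fun n s => ∀ K, (s.1.getD K 0).natAbs ≤ n)
    (fun n s r h => lstep_bound D G n s r h) _ (zero_bound _) _ ω

theorem learn_take (D : Dat) (G : ℕ) (ω : Word) {m : ℕ} (hm : Ll D.P G ≤ m) :
    D.learn G (ω.take m) = D.learn G ω := by
  unfold learn
  rw [iterR_take _ _ _ _ _ hm]

theorem OK.bias (h : D.OK) {k : List ℤ} (hk : D.KB k) (G j : ℕ) :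
    |(Ex (Ls D.P G) fun r => (((if D.evt j (D.smp k G r) then 1 else 0 : ℤ)) : ℝ)) - D.prE k j|
      ≤ 1 / (32 * (D.P : ℝ)) := by
  have Z0 : 0 < D.Z k := lt_of_lt_of_le one_pos (h.one_le_Z k)
  have e1 := Ex_comp (Ls D.P G) D.Ω (D.smp k G) (fun ω _ => D.smp_mem k G ω)
    (fun a => (((if D.evt j a then 1 else 0 : ℤ)) : ℝ))
  have e2 : D.prE k j = ∑ a ∈ D.Ω, D.wt k a / D.Z k * (((if D.evt j a then 1 else 0 : ℤ)) : ℝ) := by
    unfold prE
    rw [sum_filter, sum_div]
    refine sum_congr rfl fun a _ => ?_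
    split_ifs <;> simp
  rw [e1, e2, ← sum_sub_distrib]
  refine (abs_sum_le_sum_abs _ _).trans ?_
  have h1 : ∑ a ∈ D.Ω, |Pr (Ls D.P G) (fun ω => D.smp k G ω = a)
      * (((if D.evt j a then 1 else 0 : ℤ)) : ℝ)
        - D.wt k a / D.Z k * (((if D.evt j a then 1 else 0 : ℤ)) : ℝ)|
      ≤ ∑ a ∈ D.Ω, (2 : ℝ)⁻¹ ^ pG D.P G * (D.wt k a / D.Z k) := by
    refine sum_le_sum fun a ha => ?_
    have := h.smp_mix hk G ha
    split_ifs
    · simpa using this
    · simpa using (abs_nonneg _).trans this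
  refine h1.trans ?_
  rw [← mul_sum, ← sum_div]
  have e3 : (∑ a ∈ D.Ω, D.wt k a) / D.Z k = 1 := div_self Z0.ne'
  rw [e3, mul_one, inv_pow, ← one_div]
  have P0 : (0 : ℝ) < D.P := by exact_mod_cast h.one_le_P
  refine one_div_le_one_div_of_le (by positivity) ?_
  have h2 : 32 * D.P ≤ 2 ^ pG D.P G := by
    have a1 : D.P < 2 ^ D.P := Nat.lt_two_pow_self
    have a2 : 1 ≤ 2 ^ G := Nat.one_le_two_pow
    unfold pG
    rw [pow_add, pow_add]
    nlinarith
  exact_mod_cast h2

theorem OK.round (h : D.OK) {k : List ℤ} (hk : D.KB k) (G : ℕ) :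
    1 - (2 : ℝ)⁻¹ ^ G / pI D.P ≤ Pr (Lr D.P G) fun ω => ∀ j < 2 * D.N.V,
      |(D.cntE k G j ω : ℝ) - pNs D.P G * D.prE k j| ≤ pNs D.P G / (16 * (D.P : ℝ)) := by
  have P0 : (0 : ℝ) < D.P := by exact_mod_cast h.one_le_P
  have I0 : (0 : ℝ) < pI D.P := by
    have := h.one_le_P
    unfold pI
    exact_mod_cast (by positivity : 0 < 64 * D.P * (pB1 D.P + 1))
  set μ : ℕ → ℝ := fun j =>
    Ex (Ls D.P G) fun r => (((if D.evt j (D.smp k G r) then 1 else 0 : ℤ)) : ℝ) with hμ
  set B : ℕ → Word → Prop := fun j ω => (pNs D.P G : ℝ) * (1 / (32 * (D.P : ℝ)))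
    < |(D.cntE k G j ω : ℝ) - pNs D.P G * μ j| with hB
  have hb : ∀ j, Pr (Lr D.P G) (B j) ≤ 2 * ((2 : ℝ)⁻¹ ^ G / (4 * D.P * pI D.P)) := by
    intro j
    have h1 := hoeffding (Ls D.P G) (pNs D.P G)
      (fun r => if D.evt j (D.smp k G r) then 1 else 0) 0 1 (1 / (32 * (D.P : ℝ))) one_pos
      (by positivity) (fun r _ => by split_ifs <;> simp)
    refine le_trans h1 (mul_le_mul_of_nonneg_left ?_ (by norm_num))
    have e : (pNs D.P G : ℝ) * (1 / (32 * (D.P : ℝ))) ^ 2 / (4 * 1 ^ 2)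
        = ((G + Nat.size (4 * D.P * pI D.P) : ℕ) : ℝ) := by
      unfold pNs; push_cast; field_simp; ring
    rw [e]
    refine (exp_neg_le _).trans ?_
    rw [pow_add, div_eq_mul_inv, inv_pow 2 (Nat.size _)]
    refine mul_le_mul_of_nonneg_left (inv_anti₀ (by positivity) ?_) (by positivity)
    exact_mod_cast (Nat.lt_size_self (4 * D.P * pI D.P)).le
  have h2 := (Pr_exists_le (Lr D.P G) (range (2 * D.N.V)) B).trans
    (sum_le_card_nsmul _ _ _ fun j _ => hb j)
  rw [card_range, nsmul_eq_mul] at h2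
  have h3 : ((2 * D.N.V : ℕ) : ℝ) * (2 * ((2 : ℝ)⁻¹ ^ G / (4 * D.P * pI D.P)))
      ≤ (2 : ℝ)⁻¹ ^ G / pI D.P := by
    have hV : ((2 * D.N.V : ℕ) : ℝ) ≤ 2 * D.P := by exact_mod_cast Nat.mul_le_mul_left 2 h.V_le
    refine (mul_le_mul_of_nonneg_right hV (by positivity)).trans (le_of_eq ?_)
    field_simp
    ring
  have h4 := Pr_not (Lr D.P G) fun ω => ∃ j ∈ range (2 * D.N.V), B j ω
  refine le_trans (by linarith) (h4.symm.le.trans (Pr_mono fun ω _ hω j hj => ?_))
  have a1 : |(D.cntE k G j ω : ℝ) - pNs D.P G * μ j| ≤ (pNs D.P G : ℝ) * (1 / (32 * (D.P : ℝ))) :=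
    not_lt.1 fun hlt => hω ⟨j, mem_range.2 hj, hlt⟩
  have a2 : |(pNs D.P G : ℝ) * μ j - pNs D.P G * D.prE k j|
      ≤ (pNs D.P G : ℝ) * (1 / (32 * (D.P : ℝ))) := by
    rw [← mul_sub, abs_mul, Nat.abs_cast]
    exact mul_le_mul_of_nonneg_left (h.bias hk G j) (Nat.cast_nonneg _)
  refine (abs_sub_le _ _ _).trans ((add_le_add a1 a2).trans (le_of_eq ?_))
  field_simp
  ring

theorem OK.learn_good (h : D.OK) (G : ℕ) :
    1 - (2 : ℝ)⁻¹ ^ G ≤ Pr (Ll D.P G) fun ω => D.Good (D.learn G ω) := by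
  have P1 : (1 : ℝ) ≤ D.P := by exact_mod_cast h.one_le_P
  have P0 : (0 : ℝ) < D.P := by linarith
  have I0 : (0 : ℝ) < pI D.P := by
    have := h.one_le_P
    unfold pI
    exact_mod_cast (by positivity : 0 < 64 * D.P * (pB1 D.P + 1))
  have N0 : (0 : ℝ) < pNs D.P G := by
    have := h.one_le_P
    have h1 : 0 < pI D.P := by exact_mod_cast I0
    have h2 : 0 < Nat.size (4 * D.P * pI D.P) := Nat.size_pos.2 (by positivity)
    unfold pNs
    exact_mod_cast (by positivity : 0 < 4096 * D.P ^ 2 * (G + Nat.size (4 * D.P * pI D.P)))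
  have q0 : 0 ≤ 1 - 1 / (64 * (D.P : ℝ)) := by
    rw [sub_nonneg, div_le_one (by positivity)]; linarith
  set I : ℕ → List ℤ × Bool → Prop := fun n s => s.1.length = D.N.V ∧
    (∀ K, (s.1.getD K 0).natAbs ≤ n) ∧ (s.2 = true → D.Good s.1) ∧
    (s.2 = false → D.Z s.1 ≤ (1 - 1 / (64 * (D.P : ℝ))) ^ n * D.Z (List.replicate D.N.V 0)) with hI
  have key := Pr_iterR_inv (Lr D.P G) (D.lstep G) I ((2 : ℝ)⁻¹ ^ G / pI D.P) (pI D.P)
    (by positivity) ?_ (List.replicate D.N.V 0, false)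
    ⟨by simp, zero_bound _, by simp, fun _ => by simp⟩
  · rw [mul_div_cancel₀ _ I0.ne'] at key
    refine key.trans (Pr_mono fun ω _ hω => ?_)
    obtain ⟨-, -, a3, a4⟩ := hω
    refine a3 ?_
    by_contra hf
    have a5 := (h.one_le_Z _).trans (a4 (by simpa using hf))
    have a6 : (1 - 1 / (64 * (D.P : ℝ))) ^ pI D.P ≤ (2 : ℝ)⁻¹ ^ (pB1 D.P + 1) := by
      refine le_trans ?_ (exp_neg_le _)
      have b1 : 1 - 1 / (64 * (D.P : ℝ)) ≤ Real.exp (-(1 / (64 * (D.P : ℝ)))) := by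
        linarith [Real.add_one_le_exp (-(1 / (64 * (D.P : ℝ))))]
      refine (pow_le_pow_left₀ q0 b1 _).trans (le_of_eq ?_)
      rw [← Real.exp_nat_mul]
      congr 1
      unfold pI; push_cast; field_simp
    have a7 := mul_le_mul a6 h.Z_zero_le (zero_le_one.trans (h.one_le_Z _)) (by positivity)
    have a8 : (2 : ℝ)⁻¹ ^ (pB1 D.P + 1) * 2 ^ pB1 D.P = 2⁻¹ := by
      rw [pow_succ, inv_pow]; field_simp
    linarith
  · rintro n hn ⟨k, fl⟩ ⟨a1, a2, a3, a4⟩
    have δ0 : 0 ≤ (2 : ℝ)⁻¹ ^ G / pI D.P := by positivity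
    cases fl with
    | true =>
      rw [Pr_true]
      · linarith
      · intro r _
        have e : D.lstep G (k, true) r = (k, true) := by simp [lstep]
        rw [e]
        exact ⟨a1, fun K => (a2 K).trans (Nat.le_succ _), a3, fun hh => by simp at hh⟩
    | false =>
      have hk : D.KB k := fun K => (a2 K).trans hn.le
      refine (h.round hk G).trans (Pr_mono fun ω _ hω => ?_)
      obtain ⟨s1, s2⟩ := lead_spec (2 * D.N.V)
        fun j => (pNs D.P G : ℤ) ≤ 8 * D.P * D.cntE k G j ω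
      by_cases hj : D.jf k G ω < 2 * D.N.V
      · have e : D.lstep G (k, false) ω = (upd k (D.jf k G ω), false) := by simp [lstep, hj]
        rw [e]
        refine ⟨by simpa [upd] using a1, upd_bound a2 _, fun hh => by simp at hh, fun _ => ?_⟩
        have b1 : (pNs D.P G : ℤ) ≤ 8 * D.P * D.cntE k G (D.jf k G ω) ω := s2 hj
        have b2 : (pNs D.P G : ℝ) ≤ 8 * D.P * (D.cntE k G (D.jf k G ω) ω : ℝ) := by
          exact_mod_cast b1
        have b3 := (abs_le.1 (hω _ hj)).2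
        have b4 : 1 / (16 * (D.P : ℝ)) ≤ D.prE k (D.jf k G ω) := by
          refine le_of_mul_le_mul_left ?_ N0
          have b5 : (pNs D.P G : ℝ) / (8 * D.P) ≤ (D.cntE k G (D.jf k G ω) ω : ℝ) := by
            rw [div_le_iff₀ (by positivity)]; linarith
          have b6 : (pNs D.P G : ℝ) / (8 * D.P) = 2 * ((pNs D.P G : ℝ) / (16 * D.P)) := by
            field_simp; ring
          rw [mul_one_div]
          linarith
        refine (h.decrease a1 hj b4).trans ?_
        rw [pow_succ', mul_assoc]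
        exact mul_le_mul_of_nonneg_left (a4 rfl) q0
      · have e : D.lstep G (k, false) ω = (k, true) := by simp [lstep, hj]
        rw [e]
        refine ⟨a1, fun K => (a2 K).trans (Nat.le_succ _), fun _ => ?_, fun hh => by simp at hh⟩
        refine h.good_of_small fun j hj' => ?_
        have b1 : ¬ (pNs D.P G : ℤ) ≤ 8 * D.P * D.cntE k G j ω :=
          s1 j (lt_of_lt_of_le hj' (not_lt.1 hj))
        have b2 : 8 * D.P * (D.cntE k G j ω : ℝ) ≤ (pNs D.P G : ℝ) := by
          exact_mod_cast (not_le.1 b1).le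
        have b3 := (abs_le.1 (hω _ hj')).1
        refine le_of_mul_le_mul_left ?_ N0
        have b5 : (D.cntE k G j ω : ℝ) ≤ (pNs D.P G : ℝ) / (8 * D.P) := by
          rw [le_div_iff₀ (by positivity)]; linarith
        have b6 : (pNs D.P G : ℝ) / (8 * D.P) = 2 * ((pNs D.P G : ℝ) / (16 * D.P)) := by
          field_simp; ring
        have b7 : (pNs D.P G : ℝ) * (3 / (16 * (D.P : ℝ)))
            = 3 * ((pNs D.P G : ℝ) / (16 * D.P)) := by ring
        linarith

end Dat

end Crest.Agent.R309
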