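import Crest.Agent.R309.Trial
import Crest.Agent.R309.Learn

/-! Row 309: auxiliary facts for the samplers. -/

set_option autoImplicit false

namespace Crest.Agent.R309.SX

open Crest.Agent.PT Crest.Enc Finset

theorem abs_Ex_le (L : ℕ) (F : Word → ℝ) : |Ex L F| ≤ Ex L fun ω => |F ω| := by
  refine abs_le.2 ⟨?_, Ex_mono fun ω _ => le_abs_self _⟩
  have h1 : Ex L (fun ω => (-1) * |F ω|) ≤ Ex L F := Ex_mono fun ω _ => by
    linarith [neg_abs_le (F ω)]
  rw [Ex_mul_left] at h1
  linarith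

theorem Pr_ne_eq_sum {L : ℕ} {f : Word → List ℕ} {S : Finset (List ℕ)}
    (h : ∀ ω, f ω = [] ∨ ∃ p ∈ S, f ω = 1 :: p) :
    Pr L (fun ω => f ω ≠ []) = ∑ p ∈ S, Pr L fun ω => f ω = 1 :: p := by
  unfold Pr
  rw [← Ex_sum]
  refine Ex_congr fun ω _ => ?_
  rcases h ω with h | ⟨p, hp, h⟩
  · simp [h]
  · simp [h, hp]

theorem Pr_nil (L : ℕ) (f : Word → List ℕ) :
    Pr L (fun ω => f ω = []) = 1 - Pr L (fun ω => f ω ≠ []) := by
  rw [Pr_not]; ring

theorem eps_le (P G : ℕ) : (2 : ℝ)⁻¹ ^ pG P G ≤ (2 : ℝ)⁻¹ ^ G / 256 := by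
  unfold pG
  rw [pow_add, pow_add]
  have h1 : (2 : ℝ)⁻¹ ^ P ≤ 1 := pow_le_one₀ (by norm_num) (by norm_num)
  have h2 : (0 : ℝ) ≤ (2 : ℝ)⁻¹ ^ G := by positivity
  nlinarith

theorem half_pow_le (G : ℕ) : (2 : ℝ)⁻¹ ^ G ≤ 1 := pow_le_one₀ (by norm_num) (by norm_num)

variable {D : Dat}

theorem q_lower (h : D.OK) {k : List ℤ} (hk : D.KB k) (G : ℕ) {p : List ℕ} (hp : p ∈ D.Fl) :
    3 / 4 * D.A0 k ≤ Pr (Lt D.P G) (fun ω => D.trial k G ω = 1 :: p) := by
  have h1 := (abs_le.1 (h.trial_law hk G hp)).1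
  have h2 := h.A0_pos k
  have h3 := eps_le D.P G
  have h4 := half_pow_le G
  nlinarith

theorem q_sum_lower (h : D.OK) {k : List ℤ} (hk : D.KB k) (G : ℕ) :
    3 / 4 * ((D.Fl.card : ℝ) * D.A0 k) ≤
      ∑ p ∈ D.Fl, Pr (Lt D.P G) (fun ω => D.trial k G ω = 1 :: p) := by
  have := Finset.card_nsmul_le_sum D.Fl _ _ fun p hp => q_lower h hk G hp
  rw [nsmul_eq_mul] at this
  linarith

theorem lead_spec (m : ℕ) (d : ℕ → Prop) [DecidablePred d] :
    lead ((List.range m).map fun i => !decide (d i)) ≤ m ∧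
      (∀ i < lead ((List.range m).map fun i => !decide (d i)), ¬ d i) ∧
      (lead ((List.range m).map fun i => !decide (d i)) < m →
        d (lead ((List.range m).map fun i => !decide (d i)))) := by
  induction m generalizing d with
  | zero => simp [lead]
  | succ m ih =>
    obtain ⟨h1, h2, h3⟩ := ih fun i => d (i + 1)
    by_cases h0 : d 0
    · simp [lead, List.range_succ_eq_map, h0]
    · have e : lead ((List.range (m + 1)).map fun i => !decide (d i)) =
          lead ((List.range m).map fun i => !decide (d (i + 1))) + 1 := by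
        simp [lead, List.range_succ_eq_map, h0, Function.comp_def]
      rw [e]
      refine ⟨by omega, fun i hi => ?_, fun h => h3 (by omega)⟩
      cases i with
      | zero => exact h0
      | succ i => exact h2 i (by omega)

/-- the first index whose cumulated weight exceeds `R` -/
theorem lead_cum (m R : ℕ) (g : ℕ → ℕ) {j : ℕ} (hj : j < m) :
    lead ((List.range m).map fun j => !decide (R < ∑ i ∈ range (j + 1), g i)) = j ↔
      ∑ i ∈ range j, g i ≤ R ∧ R < ∑ i ∈ range (j + 1), g i := by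
  obtain ⟨h1, h2, h3⟩ := lead_spec m fun j => R < ∑ i ∈ range (j + 1), g i
  set l := lead ((List.range m).map fun j => !decide (R < ∑ i ∈ range (j + 1), g i))
  constructor
  · rintro rfl
    refine ⟨?_, h3 hj⟩
    rcases hl : l with _ | l'
    · simp
    · exact not_lt.1 (h2 l' (by omega))
  · rintro ⟨h4, h5⟩
    rcases lt_trichotomy l j with h | h | h
    · have h6 := h3 (h.trans hj)
      have h7 : ∑ i ∈ range (l + 1), g i ≤ ∑ i ∈ range j, g i :=
        sum_le_sum_of_subset (range_subset_range.2 h)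
      omega
    · exact h
    · exact absurd h5 (h2 j h)

theorem enum_succ (β n j : ℕ) : enum β (n + 1) j = (j % 2 ^ β) :: enum β n (j / 2 ^ β) := by
  unfold enum
  rw [List.range_succ_eq_map]
  simp only [List.map_cons, List.map_map, mul_zero, pow_zero, Nat.div_one, List.cons.injEq, true_and]
  refine List.map_congr_left fun i _ => ?_
  simp only [Function.comp, Nat.succ_eq_add_one]
  rw [Nat.div_div_eq_div_mul, ← pow_add, mul_add, mul_one, add_comm]

theorem exists_enum (β : ℕ) (l : List ℕ) (h : ∀ x ∈ l, x < 2 ^ β) :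
    ∃ j < 2 ^ (β * l.length), enum β l.length j = l := by
  induction l with
  | nil => exact ⟨0, by simp, rfl⟩
  | cons x l ih =>
    obtain ⟨j, hj, e⟩ := ih fun y hy => h y (List.mem_cons_of_mem _ hy)
    have hx := h x List.mem_cons_self
    refine ⟨x + 2 ^ β * j, ?_, ?_⟩
    · rw [List.length_cons, mul_add, mul_one, pow_add, mul_comm (2 ^ (β * l.length))]
      calc x + 2 ^ β * j < 2 ^ β * (j + 1) := by rw [mul_add]; omega
        _ ≤ _ := Nat.mul_le_mul_left _ hj
    · rw [List.length_cons, enum_succ, Nat.add_mul_mod_self_left, Nat.mod_eq_of_lt hx,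
        Nat.add_mul_div_left _ _ (by positivity), Nat.div_eq_of_lt hx, zero_add, e]

theorem enum_inj (β n : ℕ) {j j' : ℕ} (hj : j < 2 ^ (β * n)) (hj' : j' < 2 ^ (β * n))
    (h : enum β n j = enum β n j') : j = j' := by
  induction n generalizing j j' with
  | zero => simp at hj hj'; omega
  | succ n ih =>
    rw [enum_succ, enum_succ, List.cons.injEq] at h
    rw [mul_add, mul_one, pow_add] at hj hj'
    have := ih ((Nat.div_lt_iff_lt_mul (by positivity)).2 hj)
      ((Nat.div_lt_iff_lt_mul (by positivity)).2 hj') h.2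
    rw [← Nat.mod_add_div j (2 ^ β), ← Nat.mod_add_div j' (2 ^ β), h.1, this]

end Crest.Agent.R309.SX
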