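import Crest.Agent.R309.Trial
import Crest.Agent.R309.Learn
import Crest.Agent.R309.SampAux

/-! Row 309: the law of the exact trial. -/

set_option autoImplicit false

namespace Crest.Agent.R309

open Crest.Agent.PT Crest.Enc Finset SX

namespace Dat

variable {D : Dat}

theorem Pr_eq_cntT (D : Dat) (k : List ℤ) (G : ℕ) (p : List ℕ) :
    Pr (Lt D.P G) (fun ω => D.trial k G ω = 1 :: p) = (D.cntT k G p : ℝ) / 2 ^ Lt D.P G := by
  unfold Pr cntT
  rw [Ex_eq_sum_range, ← sum_boole]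
  congr!

theorem jr_eq (D : Dat) (k : List ℤ) (G : ℕ) (ω : Word) {j : ℕ} (hj : j < 2 ^ (D.P * D.N.E)) :
    D.jr k G ω = j ↔ ∑ i ∈ range j, D.gap k G i ≤ ofB (ω.take (Lt D.P G)) ∧
      ofB (ω.take (Lt D.P G)) < ∑ i ∈ range (j + 1), D.gap k G i :=
  lead_cum _ _ _ hj

theorem rare_cases (D : Dat) (k : List ℤ) (G : ℕ) (ω : Word) :
    D.rare k G ω = [] ∨ ∃ p ∈ D.Fl, D.rare k G ω = 1 :: p := by
  unfold rare
  split_ifs with h
  · refine Or.inr ⟨_, ?_, rfl⟩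
    obtain ⟨h1, h2⟩ := (D.jr_eq k G ω h).1 rfl
    rw [sum_range_succ] at h2
    by_contra hn
    rw [gap, if_neg hn] at h2
    omega
  · exact Or.inl rfl

theorem xtrial_cases (D : Dat) (G : ℕ) (ω : Word) :
    D.xtrial G ω = [] ∨ ∃ p ∈ D.Fl, D.xtrial G ω = 1 :: p := by
  unfold xtrial
  split_ifs
  · exact D.rare_cases _ _ _
  · exact D.trial_cases _ _ _

theorem OK.gap_one (h : D.OK) {k : List ℤ} (hk : D.KB k) (G : ℕ) {p : List ℕ} (hp : p ∈ D.Fl) :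
    (((2 ^ G - 1) * (D.Fl.sup (D.cntT k G) - D.cntT k G p) : ℕ) : ℝ) ≤
      D.A0 k / 2 * 2 ^ Lt D.P G := by
  obtain ⟨p', hp', e⟩ := exists_mem_eq_sup D.Fl h.ne (D.cntT k G)
  have hle : D.cntT k G p ≤ D.cntT k G p' := e ▸ le_sup (f := D.cntT k G) hp
  have h1 := (abs_le.1 (h.trial_law hk G hp)).1
  have h2 := (abs_le.1 (h.trial_law hk G hp')).2
  rw [Pr_eq_cntT] at h1 h2
  have hA := h.A0_pos k
  have hε := eps_le D.P G
  have hL : (0 : ℝ) < 2 ^ Lt D.P G := by positivity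
  have h3 : ((D.cntT k G p' : ℝ) - D.cntT k G p) ≤
      2 * ((2 : ℝ)⁻¹ ^ G / 256 * D.A0 k) * 2 ^ Lt D.P G := by
    rw [← div_le_iff₀ hL, sub_div]
    nlinarith
  have h4 : (2 : ℝ) ^ G * (2 : ℝ)⁻¹ ^ G = 1 := by rw [← mul_pow]; norm_num
  have h5 : (0 : ℝ) ≤ (D.cntT k G p' : ℝ) - D.cntT k G p := sub_nonneg.2 (by exact_mod_cast hle)
  rw [e, Nat.cast_mul, Nat.cast_sub hle, Nat.cast_sub Nat.one_le_two_pow]
  push_cast
  have h6 : (0 : ℝ) ≤ D.A0 k * 2 ^ Lt D.P G := by positivity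
  calc ((2 : ℝ) ^ G - 1) * ((D.cntT k G p' : ℝ) - D.cntT k G p)
      ≤ 2 ^ G * (2 * ((2 : ℝ)⁻¹ ^ G / 256 * D.A0 k) * 2 ^ Lt D.P G) :=
        mul_le_mul (by linarith) h3 h5 (by positivity)
    _ = (2 ^ G * (2 : ℝ)⁻¹ ^ G) * (D.A0 k * 2 ^ Lt D.P G) / 128 := by ring
    _ ≤ _ := by rw [h4]; linarith

theorem OK.gap_total (h : D.OK) {k : List ℤ} (hk : D.KB k) (G : ℕ) :
    ∑ i ∈ range (2 ^ (D.P * D.N.E)), D.gap k G i ≤ 2 ^ Lt D.P G := by
  classical
  have h1 : ∑ i ∈ range (2 ^ (D.P * D.N.E)), D.gap k G i ≤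
      ∑ p ∈ D.Fl, (2 ^ G - 1) * (D.Fl.sup (D.cntT k G) - D.cntT k G p) := by
    unfold gap
    rw [← sum_filter, ← sum_image (g := enum D.P D.N.E)
      (f := fun p => (2 ^ G - 1) * (D.Fl.sup (D.cntT k G) - D.cntT k G p))
      fun i hi j hj e => enum_inj _ _ (mem_range.1 (mem_filter.1 hi).1)
        (mem_range.1 (mem_filter.1 hj).1) e]
    refine sum_le_sum_of_subset fun p hp => ?_
    obtain ⟨i, hi, rfl⟩ := mem_image.1 hp
    exact (mem_filter.1 hi).2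
  refine h1.trans ?_
  have h2 := Finset.sum_le_card_nsmul D.Fl _ _ fun p hp => h.gap_one hk G hp
  rw [nsmul_eq_mul, ← Nat.cast_sum] at h2
  have h3 := h.A0_le hk
  have hL : (0 : ℝ) < 2 ^ Lt D.P G := by positivity
  have h4 : (D.Fl.card : ℝ) * (D.A0 k / 2 * 2 ^ Lt D.P G) ≤ 2 ^ Lt D.P G := by nlinarith
  exact_mod_cast h2.trans h4

theorem OK.rare_law (h : D.OK) {k : List ℤ} (hk : D.KB k) (G : ℕ) {p : List ℕ} (hp : p ∈ D.Fl) :
    Pr (Lt D.P G) (fun ω => D.rare k G ω = 1 :: p) =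
      (2 ^ G - 1) * (((D.Fl.sup (D.cntT k G) : ℕ) : ℝ) - D.cntT k G p) / 2 ^ Lt D.P G := by
  obtain ⟨hlen, hcap, -⟩ := mem_Fl.1 hp
  obtain ⟨j, hj, ej⟩ := exists_enum D.P p fun x hx => by
    obtain ⟨e, he, rfl⟩ := List.getElem_of_mem hx
    have := hcap e (hlen ▸ he)
    rw [List.getD_eq_getElem _ _ he] at this
    exact this.trans_lt (h.c_lt_pow (hlen ▸ he))
  rw [hlen] at hj ej
  have hb : ∑ i ∈ range (j + 1), D.gap k G i ≤ 2 ^ Lt D.P G :=
    (sum_le_sum_of_subset (range_subset_range.2 hj)).trans (h.gap_total hk G)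
  have hab : ∑ i ∈ range j, D.gap k G i ≤ ∑ i ∈ range (j + 1), D.gap k G i :=
    sum_le_sum_of_subset (range_subset_range.2 (Nat.le_succ j))
  have h1 : Pr (Lt D.P G) (fun ω => D.rare k G ω = 1 :: p) =
      Pr (Lt D.P G) (fun ω => ofB ω < ∑ i ∈ range (j + 1), D.gap k G i) -
        Pr (Lt D.P G) (fun ω => ofB ω < ∑ i ∈ range j, D.gap k G i) := by
    unfold Pr
    rw [← Ex_sub]
    refine Ex_congr fun ω hω => ?_
    have h2 := D.jr_eq k G ω hj
    rw [← hω, List.take_length] at h2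
    have h3 : D.rare k G ω = 1 :: p ↔ D.jr k G ω = j := by
      unfold rare
      constructor
      · intro h4
        split_ifs at h4 with h5
        exact enum_inj _ _ h5 hj ((List.cons.inj h4).2.trans ej.symm)
      · intro h4
        rw [h4, if_pos hj, ej]
    simp only [h3, h2]
    split_ifs with c1 c2 c3 c4 c5 c6 <;> first | omega | simp
  rw [h1, Pr_ofB_lt hb, Pr_ofB_lt (hab.trans hb), ← sub_div, sum_range_succ, Nat.cast_add,
    add_sub_cancel_left, gap, ej, if_pos hp, Nat.cast_mul, Nat.cast_sub Nat.one_le_two_pow,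
    Nat.cast_sub (le_sup (f := D.cntT k G) hp)]
  push_cast
  rfl

theorem Pr_learn (D : Dat) (G L : ℕ) (A : List ℤ → Word → Prop) :
    Pr (Ll D.P G + L) (fun ω => A (D.learn G ω) (ω.drop (Ll D.P G))) =
      Ex (Ll D.P G) fun u => Pr L (A (D.learn G u)) := by
  rw [← Pr_split (Ll D.P G) L fun u ω => A (D.learn G u) ω]
  simp only [D.learn_take G _ le_rfl]

theorem OK.xtrial_law (h : D.OK) (G : ℕ) {p : List ℕ} (hp : p ∈ D.Fl) :
    Pr (LX D.P G) (fun ω => D.xtrial G ω = 1 :: p) = (1 - (2 : ℝ)⁻¹ ^ G) *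
      Ex (Ll D.P G) fun ω => ((D.Fl.sup (D.cntT (D.learn G ω) G) : ℕ) : ℝ) / 2 ^ Lt D.P G := by
  classical
  have ha := D.Pr_learn G (Lt D.P G) fun k ω => D.rare k G ω = 1 :: p
  have hb := D.Pr_learn G (Lt D.P G) fun k ω => D.trial k G ω = 1 :: p
  simp only [h.rare_law (D.learn_KB G _) G hp] at ha
  simp only [Pr_eq_cntT] at hb
  have h1 := Pr_split G (Ll D.P G + Lt D.P G) fun u v =>
    (if ofB u = 0 then D.rare (D.learn G v) G (v.drop (Ll D.P G))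
      else D.trial (D.learn G v) G (v.drop (Ll D.P G))) = 1 :: p
  have h2 : Pr (LX D.P G) (fun ω => D.xtrial G ω = 1 :: p) = _ := Eq.trans (by
    simp only [xtrial, br, decide_eq_true_eq]; rfl) h1
  set a := Pr (Ll D.P G + Lt D.P G)
    fun ω => D.rare (D.learn G ω) G (ω.drop (Ll D.P G)) = 1 :: p
  set b := Pr (Ll D.P G + Lt D.P G)
    fun ω => D.trial (D.learn G ω) G (ω.drop (Ll D.P G)) = 1 :: p
  have h3 : (Ex G fun u => Pr (Ll D.P G + Lt D.P G) fun v =>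
      (if ofB u = 0 then D.rare (D.learn G v) G (v.drop (Ll D.P G))
        else D.trial (D.learn G v) G (v.drop (Ll D.P G))) = 1 :: p) =
      Ex G fun u => b + (a - b) * @ite ℝ (ofB u = 0) (Classical.propDecidable _) 1 0 := by
    refine Ex_congr fun u _ => ?_
    by_cases hu : ofB u = 0
    · simp only [if_pos hu]; ring
    · simp only [if_neg hu]; ring
  have h4 : Pr G (fun u => ofB u = 0) = 1 / 2 ^ G := Pr_ofB_eq (by positivity)
  unfold Pr at h4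
  rw [h2, h3, Ex_add, Ex_const, Ex_mul_left, h4, ha, hb, ← Ex_sub, mul_comm, ← Ex_mul_left,
    ← Ex_add, ← Ex_mul_left]
  refine Ex_congr fun u _ => ?_
  rw [inv_pow]
  field_simp
  ring

theorem OK.xtrial_succ (h : D.OK) {G : ℕ} (hG : 1 ≤ G) :
    1 / 100 ≤ Pr (LX D.P G) fun ω => D.xtrial G ω ≠ [] := by
  classical
  rw [Pr_ne_eq_sum (D.xtrial_cases G), sum_congr rfl fun p hp => h.xtrial_law G hp, sum_const,
    nsmul_eq_mul, mul_left_comm, ← Ex_mul_left]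
  have h1 : (2 : ℝ)⁻¹ ^ G ≤ 1 / 2 := by
    simpa using pow_le_pow_of_le_one (by norm_num : (0 : ℝ) ≤ 2⁻¹) (by norm_num) hG
  have h2 : Ex (Ll D.P G) (fun u => 1 / 16 * if D.Good (D.learn G u) then 1 else 0) ≤
      Ex (Ll D.P G) fun ω => (D.Fl.card : ℝ) *
        (((D.Fl.sup (D.cntT (D.learn G ω) G) : ℕ) : ℝ) / 2 ^ Lt D.P G) := Ex_mono fun u _ => by
    split_ifs with hg
    · obtain ⟨p, hp⟩ := h.ne
      have h3 := q_lower h (D.learn_KB G u) G hp
      rw [Pr_eq_cntT] at h3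
      have h4 : (D.cntT (D.learn G u) G p : ℝ) / 2 ^ Lt D.P G ≤
          ((D.Fl.sup (D.cntT (D.learn G u) G) : ℕ) : ℝ) / 2 ^ Lt D.P G :=
        div_le_div_of_nonneg_right (by exact_mod_cast le_sup (f := D.cntT (D.learn G u) G) hp)
          (by positivity)
      have h5 := h.good_A0 hg
      have h6 := mul_le_mul_of_nonneg_left (h3.trans h4) (Nat.cast_nonneg (α := ℝ) D.Fl.card)
      linarith
    · rw [mul_zero]; positivity
  rw [Ex_mul_left] at h2
  have h3 := h.learn_good G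
  unfold Pr at h3
  nlinarith

end Dat

end Crest.Agent.R309
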