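import Crest.Agent.R309.Net

/-! Row 309: generic tools for the exact trial (enumeration, dynamic programming). -/

set_option autoImplicit false

namespace Crest.Agent.R309

open Crest.Agent.PT Crest.Enc Finset

namespace XA

/-- the tape of length `L` written by `r` -/
def bits (L r : ℕ) : Word := (List.range L).map r.testBit

/-- a power of two capped by `m` -/
def tp (m b : ℕ) : ℕ := min (2 ^ b) m

theorem tp_le (m b : ℕ) : tp m b ≤ m := min_le_right _ _

theorem tp_eq {m b c : ℕ} (h : 2 ^ c ≤ m) (hb : b ≤ c) : tp m b = 2 ^ b :=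
  min_eq_left ((Nat.pow_le_pow_right (by omega) hb).trans h)

theorem length_enum (β n i : ℕ) : (enum β n i).length = n := by simp [enum]

theorem getD_enum (β n i : ℕ) {j : ℕ} (hj : j < n) :
    (enum β n i).getD j 0 = i / 2 ^ (β * j) % 2 ^ β := by
  simp [enum, List.getD_eq_getElem?_getD, hj]

theorem enum_succ (β n i : ℕ) : enum β (n + 1) i = (i % 2 ^ β) :: enum β n (i / 2 ^ β) := by
  unfold enum
  rw [List.range_succ_eq_map, List.map_cons, List.map_map]
  congr 1
  · simp
  · refine List.map_congr_left fun j _ => ?_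
    simp only [Function.comp, Nat.succ_eq_add_one]
    rw [Nat.div_div_eq_div_mul, ← pow_add, show β + β * j = β * (j + 1) by ring]

theorem enum_inj (β : ℕ) : ∀ (n : ℕ) {i j : ℕ}, i < 2 ^ (β * n) → j < 2 ^ (β * n) →
    enum β n i = enum β n j → i = j
  | 0, i, j, hi, hj, _ => by simp at hi hj; omega
  | n + 1, i, j, hi, hj, h => by
    rw [enum_succ, enum_succ, List.cons.injEq] at h
    have e : 2 ^ (β * (n + 1)) = 2 ^ (β * n) * 2 ^ β := by rw [← pow_add]; congr 1
    rw [e] at hi hj
    have h2 := enum_inj β n (Nat.div_lt_of_lt_mul (by rwa [mul_comm]))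
      (Nat.div_lt_of_lt_mul (by rwa [mul_comm])) h.2
    rw [← Nat.div_add_mod i (2 ^ β), ← Nat.div_add_mod j (2 ^ β), h.1, h2]

theorem enum_surj (β : ℕ) : ∀ (a : List ℕ), (∀ e < a.length, a.getD e 0 < 2 ^ β) →
    ∃ i < 2 ^ (β * a.length), enum β a.length i = a
  | [], _ => ⟨0, by simp, by simp [enum]⟩
  | x :: a, h => by
    obtain ⟨i, hi, he⟩ := enum_surj β a fun e he => by
      have := h (e + 1) (by simpa using he)
      simpa using this
    have hx : x < 2 ^ β := by simpa using h 0 (by simp)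
    refine ⟨x + 2 ^ β * i, ?_, ?_⟩
    · have e : 2 ^ (β * (x :: a).length) = 2 ^ β * 2 ^ (β * a.length) := by
        rw [← pow_add, List.length_cons]; congr 1; ring
      rw [e]
      have : 2 ^ β * (i + 1) ≤ 2 ^ β * 2 ^ (β * a.length) := Nat.mul_le_mul_left _ hi
      rw [mul_add, mul_one] at this
      omega
    · rw [List.length_cons, enum_succ, Nat.add_mul_mod_self_left, Nat.mod_eq_of_lt hx,
        Nat.add_mul_div_left _ _ (by positivity), Nat.div_eq_of_lt hx, zero_add, he]

theorem Pr_card (L : ℕ) (A : Word → Prop) [DecidablePred A] :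
    Pr L A = (((range (2 ^ L)).filter fun r => A (bits L r)).card : ℝ) / 2 ^ L := by
  unfold Pr
  rw [Ex_eq_sum_range, Finset.card_filter]
  push_cast
  congr 1
  refine Finset.sum_congr rfl fun i _ => ?_
  unfold bits
  by_cases h : A ((List.range L).map i.testBit) <;> simp [h]

theorem Ex_enum {σ : Type} (L N : ℕ) (st : ℕ → σ) (hinj : ∀ i < N, ∀ j < N, st i = st j → i = j)
    (g : Word → σ) (hg : ∀ ω, ∃ i < N, st i = g ω) (F : σ → ℝ) :
    Ex L (fun ω => F (g ω)) = ∑ i ∈ range N, Pr L (fun ω => g ω = st i) * F (st i) := by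
  classical
  rw [Ex_comp L ((range N).image st) g (fun ω _ => by
    obtain ⟨i, hi, e⟩ := hg ω
    exact Finset.mem_image.2 ⟨i, mem_range.2 hi, e⟩) F]
  rw [Finset.sum_image fun i hi j hj h => hinj i (mem_range.1 hi) j (mem_range.1 hj) h]

/-- one step of the dynamic programme -/
def dp (N : ℕ) (tr : ℕ → ℕ → ℕ) (v : List ℕ) : List ℕ :=
  (List.range N).map fun i => ∑ i' ∈ range N, v.getD i' 0 * tr i' i

theorem getD_map (N : ℕ) (g : ℕ → ℕ) {i : ℕ} (hi : i < N) :
    ((List.range N).map g).getD i 0 = g i := by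
  simp [List.getD_eq_getElem?_getD, hi]

theorem dp_law {σ : Type} [DecidableEq σ] (L N : ℕ) (st : ℕ → σ)
    (hinj : ∀ i < N, ∀ j < N, st i = st j → i = j) (step : σ → Word → σ) (s0 : σ)
    (hcl : ∀ n ω, ∃ i < N, st i = iterR L step n s0 ω) (n : ℕ) : ∀ i < N,
    ((((dp N fun i' i => ((range (2 ^ L)).filter fun r => step (st i') (bits L r) = st i).card)^[n]
      ((List.range N).map fun i => if st i = s0 then 1 else 0)).getD i 0 : ℕ) : ℝ) =
      2 ^ (n * L) * Pr (n * L) fun ω => iterR L step n s0 ω = st i := by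
  induction n with
  | zero =>
    intro i hi
    rw [Function.iterate_zero, id, getD_map _ _ hi]
    simp only [zero_mul, pow_zero, one_mul, iterR]
    by_cases h : st i = s0
    · rw [if_pos h, Pr_true _ fun _ _ => h.symm]; simp
    · rw [if_neg h, Pr_false _ fun _ _ e => h e.symm]; simp
  | succ n ih =>
    intro i hi
    rw [Function.iterate_succ_apply', dp, getD_map _ _ hi,
      Pr_iterR_succ L step n s0 (fun x => x = st i),
      Ex_enum (n * L) N st hinj _ (hcl n) (fun x => Pr L fun r => step x r = st i), Finset.mul_sum]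
    push_cast
    refine Finset.sum_congr rfl fun j hj => ?_
    rw [ih j (mem_range.1 hj), Pr_card L (fun r => step (st j) r = st i), add_mul, one_mul, pow_add]
    field_simp

theorem dp_bound (N m : ℕ) (tr : ℕ → ℕ → ℕ) (hN : N ≤ m) (htr : ∀ i j, tr i j ≤ m) (v : List ℕ)
    (hv : v.length ≤ m) (h1 : ∀ x ∈ v, x ≤ 1) (n : ℕ) :
    ((dp N tr)^[n] v).length ≤ m ∧ ∀ x ∈ (dp N tr)^[n] v, x ≤ 2 ^ (2 * m * n) := by
  induction n with
  | zero => exact ⟨hv, fun x hx => by simpa using h1 x hx⟩
  | succ n ih =>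
    rw [Function.iterate_succ_apply']
    generalize (dp N tr)^[n] v = u at ih
    refine ⟨by simpa [dp] using hN, fun x hx => ?_⟩
    simp only [dp, List.mem_map, List.mem_range] at hx
    obtain ⟨i, -, rfl⟩ := hx
    have h2 : ∀ j, u.getD j 0 ≤ 2 ^ (2 * m * n) := fun j => by
      by_cases hj : j < u.length
      · rw [List.getD_eq_getElem _ _ hj]; exact ih.2 _ (List.getElem_mem hj)
      · rw [List.getD_eq_default _ _ (by omega)]; positivity
    have h3 : m ≤ 2 ^ m := Nat.lt_two_pow_self.le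
    calc ∑ i' ∈ range N, u.getD i' 0 * tr i' i ≤ ∑ _i' ∈ range N, 2 ^ (2 * m * n) * 2 ^ m :=
          Finset.sum_le_sum fun j _ => Nat.mul_le_mul (h2 j) ((htr j i).trans h3)
      _ = N * (2 ^ (2 * m * n) * 2 ^ m) := by simp
      _ ≤ 2 ^ m * (2 ^ (2 * m * n) * 2 ^ m) := Nat.mul_le_mul_right _ (hN.trans h3)
      _ = 2 ^ (2 * m * (n + 1)) := by rw [← pow_add, ← pow_add]; congr 1; ring

variable {α : Type} [Rp α]

@[fun_prop] theorem pu_tp {m b : α → ℕ} (hm : PU m) (hb : PU b) : PU fun a => tp (m a) (b a) :=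
  PU.min_right (PTime.pow (PTime.const 2) hb) hm

@[fun_prop] theorem ptime_bits {L r : α → ℕ} (hL : PU L) (hr : PTime r) :
    PTime fun a => bits (L a) (r a) :=
  PTime.rangeMap (g := fun a i => (r a).testBit i) hL (by fun_prop)

theorem ptime_sup {n : α → ℕ} {g : α → ℕ → ℕ} (hn : PU n)
    (hg : PTime fun p : α × Un => g p.1 p.2.val) :
    PTime fun a => (range (n a)).sup (g a) := by
  obtain ⟨B, hB, hb⟩ := bound_range hn hg
  refine PTime.loop (fun a k => (range k).sup (g a)) (fun a s k => max (g a k) s) hn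
    (by simpa using PTime.const _)
    (PTime.max (hg.comp (f := fun p : α × ℕ × Un => (p.1, p.2.2)) (by fun_prop)) (by fun_prop))
    (fun a k _ => by rw [Finset.range_add_one, Finset.sup_insert]) hB (fun a k hk => ?_)
  induction k with
  | zero => simp [sz_nat]
  | succ k ih =>
    rw [Finset.range_add_one, Finset.sup_insert]
    rcases max_choice (g a k) ((range k).sup (g a)) with e | e
    · exact (congrArg sz e).le.trans (hb a k (by omega))
    · exact (congrArg sz e).le.trans (ih (by omega))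

theorem ptime_dp {N m n : α → ℕ} {tr : α → ℕ → ℕ → ℕ} {v : α → List ℕ} (hN : PU N) (hm : PU m)
    (hn : PU n) (htr : PTime fun p : α × Un × Un => tr p.1 p.2.1.val p.2.2.val) (hv : PTime v)
    (h1 : ∀ a, N a ≤ m a) (h2 : ∀ a i j, tr a i j ≤ m a) (h3 : ∀ a, (v a).length ≤ m a)
    (h4 : ∀ a, ∀ x ∈ v a, x ≤ 1) : PTime fun a => (dp (N a) (tr a))^[n a] (v a) := by
  refine PTime.iter (step := fun a u => dp (N a) (tr a) u) ?_ hv hn
    (B := fun a => m a * (2 * (2 * m a * n a + 1) + 2))
    (PU.pb (by fun_prop)) fun a k hk => ?_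
  · refine rangeMapN (g := fun (p : α × List ℕ) i => ∑ i' ∈ range (N p.1), p.2.getD i' 0 * tr p.1 i' i)
      (hN.comp PTime.fst') ?_
    refine PTime.sum_range (g := fun (q : (α × List ℕ) × Un) i' =>
      q.1.2.getD i' 0 * tr q.1.1 i' q.2.val) (hN.comp (by fun_prop)) ?_
    exact PTime.mul (by fun_prop) (htr.comp
      (f := fun r : ((α × List ℕ) × Un) × Un => (r.1.1.1, r.2, r.1.2)) (by fun_prop))
  · obtain ⟨b1, b2⟩ := dp_bound (N a) (m a) (tr a) (h1 a) (h2 a) (v a) (h3 a) (h4 a) k
    refine (szN_le (b := 2 * m a * n a + 1) fun x hx => ?_).trans (Nat.mul_le_mul_right _ b1)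
    refine (b2 x hx).trans_lt (Nat.pow_lt_pow_right (by omega) ?_)
    have := Nat.mul_le_mul_left (2 * m a) hk
    omega

end XA

end Crest.Agent.R309
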