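import Crest.Agent.R309.Exact
import Crest.Agent.R309.ModelPT
import Crest.Agent.R309.ExactAux

/-! Row 309: the exact trial is polynomial in the padded input. -/

set_option autoImplicit false

namespace Crest.Agent.R309

open Crest.Agent.PT Crest.Enc Finset

namespace XA

/-- the states of the chain are enumerated -/
def st (D : Dat) (i : ℕ) : List ℕ := enum (Nat.size (2 * pM D.P)) D.N.E i
def nS (D : Dat) (m : ℕ) : ℕ := tp m (Nat.size (2 * pM D.P) * D.N.E)
def trs (D : Dat) (k : List ℤ) (m i' i : ℕ) : ℕ :=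
  ((range (tp m (L1 D.P))).filter fun r => D.step k (st D i') (bits (L1 D.P) r) = st D i).card
def v0 (D : Dat) (m : ℕ) : List ℕ :=
  (List.range (nS D m)).map fun i => if st D i = List.replicate D.N.E 0 then 1 else 0
def vT (D : Dat) (k : List ℤ) (G m : ℕ) : List ℕ := (dp (nS D m) (trs D k m))^[pT D.P G] (v0 D m)
def cnt (D : Dat) (v : List ℕ) (m : ℕ) (p : List ℕ) : ℕ :=
  ∑ i ∈ range (nS D m), v.getD i 0 * ((range (tp m (D.P * D.P))).filter fun r =>
    D.fin (st D i) (bits (D.P * D.P) r) = 1 :: p).card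
def sup' (D : Dat) (v : List ℕ) (m : ℕ) : ℕ :=
  (range (tp m (D.P * D.N.E))).sup fun j =>
    if enum D.P D.N.E j ∈ D.Fl then cnt D v m (enum D.P D.N.E j) else 0
def gap' (D : Dat) (v : List ℕ) (G m j : ℕ) : ℕ :=
  if enum D.P D.N.E j ∈ D.Fl then (2 ^ G - 1) * (sup' D v m - cnt D v m (enum D.P D.N.E j)) else 0
def jr' (D : Dat) (v : List ℕ) (G m : ℕ) (ω : Word) : ℕ :=
  lead ((List.range (tp m (D.P * D.N.E))).map fun j =>
    !decide (ofB (ω.take (Lt D.P G)) < ∑ i ∈ range (j + 1), gap' D v G m i))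
def rare' (D : Dat) (v : List ℕ) (G m : ℕ) (ω : Word) : List ℕ :=
  if jr' D v G m ω < 2 ^ (D.P * D.N.E) then 1 :: enum D.P D.N.E (jr' D v G m ω) else []

section PT

variable {α : Type} [Rp α] {D : α → Dat} {k : α → List ℤ} {G m : α → ℕ} {v p : α → List ℕ}
  {ω : α → Word}

@[fun_prop] theorem ptime_st {i : α → ℕ} (hD : PTime D) (hi : PTime i) :
    PTime fun a => st (D a) (i a) :=
  ptime_enum (PU.size (PU.ptime (by fun_prop))) (by fun_prop) hi

@[fun_prop] theorem pu_nS (hD : PTime D) (hm : PU m) : PU fun a => nS (D a) (m a) :=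
  pu_tp hm (PU.mul (PU.size (PU.ptime (by fun_prop))) (by fun_prop))

theorem ptime_trs {i j : α → ℕ} (hD : PTime D) (hk : PTime k) (hm : PU m) (hi : PTime i)
    (hj : PTime j) : PTime fun a => trs (D a) (k a) (m a) (i a) (j a) :=
  PTime.card_filter (c := fun a r => (D a).step (k a) (st (D a) (i a)) (bits (L1 (D a).P) r) =
    st (D a) (j a)) (by fun_prop) (by fun_prop)

theorem ptime_v0 (hD : PTime D) (hm : PU m) : PTime fun a => v0 (D a) (m a) :=
  rangeMapN (g := fun a i => if st (D a) i = List.replicate (D a).N.E 0 then 1 else 0)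
    (by fun_prop) (by fun_prop)

@[fun_prop] theorem ptime_vT (hD : PTime D) (hk : PTime k) (hG : PU G) (hm : PU m) :
    PTime fun a => vT (D a) (k a) (G a) (m a) := by
  refine ptime_dp (tr := fun a => trs (D a) (k a) (m a)) (pu_nS hD hm) hm (by fun_prop)
    (ptime_trs (by fun_prop) (by fun_prop) (by fun_prop) (by fun_prop) (by fun_prop))
    (ptime_v0 hD hm) (fun a => tp_le _ _) (fun a i j => ?_) (fun a => ?_) fun a x hx => ?_
  · exact (Finset.card_filter_le _ _).trans (by rw [card_range]; exact tp_le _ _)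
  · simp only [v0, List.length_map, List.length_range]; exact tp_le _ _
  · simp only [v0, List.mem_map] at hx
    obtain ⟨i, -, rfl⟩ := hx
    split_ifs <;> omega

@[fun_prop] theorem ptime_cnt (hD : PTime D) (hv : PTime v) (hm : PU m) (hp : PTime p) :
    PTime fun a => cnt (D a) (v a) (m a) (p a) := by
  refine PTime.sum_range (g := fun a i => (v a).getD i 0 *
    ((range (tp (m a) ((D a).P * (D a).P))).filter fun r =>
      (D a).fin (st (D a) i) (bits ((D a).P * (D a).P) r) = 1 :: p a).card) (pu_nS hD hm) ?_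
  refine PTime.mul (by fun_prop) ?_
  exact PTime.card_filter (c := fun (q : α × Un) r => (D q.1).fin (st (D q.1) q.2.val)
    (bits ((D q.1).P * (D q.1).P) r) = 1 :: p q.1) (by fun_prop) (by fun_prop)

@[fun_prop] theorem ptime_sup' (hD : PTime D) (hv : PTime v) (hm : PU m) :
    PTime fun a => sup' (D a) (v a) (m a) :=
  ptime_sup (g := fun a j => if enum (D a).P (D a).N.E j ∈ (D a).Fl then
    cnt (D a) (v a) (m a) (enum (D a).P (D a).N.E j) else 0) (by fun_prop) (by fun_prop)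

@[fun_prop] theorem ptime_gap' {j : α → ℕ} (hD : PTime D) (hv : PTime v) (hG : PU G) (hm : PU m)
    (hj : PTime j) : PTime fun a => gap' (D a) (v a) (G a) (m a) (j a) := by
  unfold gap'; fun_prop

@[fun_prop] theorem ptime_jr' (hD : PTime D) (hv : PTime v) (hG : PU G) (hm : PU m)
    (hω : PTime ω) : PTime fun a => jr' (D a) (v a) (G a) (m a) (ω a) := by
  refine PTime.lead (PTime.rangeMap (g := fun a j => !decide (ofB ((ω a).take (Lt (D a).P (G a))) <
    ∑ i ∈ range (j + 1), gap' (D a) (v a) (G a) (m a) i)) (by fun_prop) ?_)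
  refine PTime.bnot (PTime.decide (PTime.lt ?_ ?_))
  · exact PTime.ofB (PTime.take (PU.ptime (by fun_prop)) (by fun_prop))
  · exact PTime.sum_range (n := fun q : α × Un => q.2.val + 1)
      (g := fun (q : α × Un) i => gap' (D q.1) (v q.1) (G q.1) (m q.1) i) (by fun_prop)
      (by fun_prop)

@[fun_prop] theorem ptime_rare' (hD : PTime D) (hv : PTime v) (hG : PU G) (hm : PU m)
    (hω : PTime ω) : PTime fun a => rare' (D a) (v a) (G a) (m a) (ω a) := by
  unfold rare'; fun_prop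

end PT

variable {D : Dat}

theorem st_inj (D : Dat) : ∀ i < 2 ^ (Nat.size (2 * pM D.P) * D.N.E),
    ∀ j < 2 ^ (Nat.size (2 * pM D.P) * D.N.E), st D i = st D j → i = j :=
  fun _ hi _ hj h => enum_inj _ _ hi hj h

theorem st_surj (h : D.OK) {a : List ℕ} (ha : a ∈ D.Ω) :
    ∃ i < 2 ^ (Nat.size (2 * pM D.P) * D.N.E), st D i = a := by
  obtain ⟨h1, h2⟩ := Dat.mem_Ω.1 ha
  have := enum_surj (Nat.size (2 * pM D.P)) a fun e he =>
    ((h2 e (h1 ▸ he)).trans_lt (h.rho_lt e)).trans (Nat.lt_size_self _)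
  rwa [h1] at this

theorem iter_mem (k : List ℤ) (n : ℕ) (ω : Word) :
    iterR (L1 D.P) (D.step k) n (List.replicate D.N.E 0) ω ∈ D.Ω :=
  iterR_inv (L1 D.P) (D.step k) (fun _ a => a ∈ D.Ω) (fun _ _ r ha => Dat.step_mem k ha r) _
    D.zero_mem_Ω n ω

theorem nS_eq (h : D.OK) {m : ℕ} (hm : 2 ^ pB2 D.P ≤ m) :
    nS D m = 2 ^ (Nat.size (2 * pM D.P) * D.N.E) := by
  refine tp_eq hm ?_
  have := Nat.mul_le_mul_left (Nat.size (2 * pM D.P)) h.E_le
  unfold pB2 pB1
  rw [mul_comm D.P (Nat.size _)]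
  omega

theorem cnt_eq (h : D.OK) {m : ℕ} (hm : 2 ^ pB2 D.P ≤ m) (k : List ℤ) (G : ℕ) (p : List ℕ) :
    cnt D (vT D k G m) m p = D.cntT k G p := by
  have e1 : tp m (L1 D.P) = 2 ^ L1 D.P := tp_eq hm (by unfold pB2; omega)
  have e2 : tp m (D.P * D.P) = 2 ^ (D.P * D.P) := tp_eq hm (by unfold pB2; omega)
  have hcl : ∀ n ω, ∃ i < 2 ^ (Nat.size (2 * pM D.P) * D.N.E),
      st D i = iterR (L1 D.P) (D.step k) n (List.replicate D.N.E 0) ω :=
    fun n ω => st_surj h (iter_mem k n ω)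
  have h1 := dp_law (L1 D.P) _ (st D) (st_inj D) (D.step k) _ hcl (pT D.P G)
  have h2 := Pr_card (Lt D.P G) fun ω => D.trial k G ω = 1 :: p
  have h3 : Pr (Lt D.P G) (fun ω => D.trial k G ω = 1 :: p) =
      Ex (Ls D.P G) fun u => Pr (D.P * D.P) fun r => D.fin (D.smp k G u) r = 1 :: p := by
    rw [← Pr_split (Ls D.P G) (D.P * D.P) fun u r => D.fin (D.smp k G u) r = 1 :: p]
    refine Pr_congr fun ω _ => ?_
    unfold Dat.trial Dat.smp
    rw [iterR_take (L1 D.P) (D.step k) (pT D.P G) _ ω (m := Ls D.P G) le_rfl]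
  have h4 := Ex_enum (Ls D.P G) _ (st D) (st_inj D) (D.smp k G) (hcl _)
    fun a => Pr (D.P * D.P) fun r => D.fin a r = 1 :: p
  rw [h3, h4] at h2
  have h5 : (D.cntT k G p : ℝ) = 2 ^ Lt D.P G * ∑ i ∈ range (2 ^ (Nat.size (2 * pM D.P) * D.N.E)),
      Pr (Ls D.P G) (fun ω => D.smp k G ω = st D i) *
        Pr (D.P * D.P) fun r => D.fin (st D i) r = 1 :: p := by
    rw [h2]
    unfold Dat.cntT bits
    field_simp
  have h6 : ((cnt D (vT D k G m) m p : ℕ) : ℝ) = D.cntT k G p := by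
    rw [h5, Finset.mul_sum]
    unfold cnt vT v0 trs
    rw [nS_eq h hm, e1, e2]
    push_cast
    refine Finset.sum_congr rfl fun i hi => ?_
    rw [h1 i (mem_range.1 hi), Pr_card (D.P * D.P) fun r => D.fin (st D i) r = 1 :: p]
    unfold Lt Ls Dat.smp
    rw [pow_add]
    field_simp
  exact_mod_cast h6

theorem PE_le (h : D.OK) : D.P * D.N.E ≤ pB2 D.P := by
  have := Nat.mul_le_mul_left D.P h.E_le
  unfold pB2; omega

theorem sup_eq (h : D.OK) {m : ℕ} (hm : 2 ^ pB2 D.P ≤ m) (k : List ℤ) (G : ℕ) :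
    sup' D (vT D k G m) m = D.Fl.sup (D.cntT k G) := by
  unfold sup'
  rw [tp_eq hm (PE_le h)]
  simp only [cnt_eq h hm]
  refine le_antisymm (Finset.sup_le fun j _ => ?_) (Finset.sup_le fun p hp => ?_)
  · split_ifs with hj
    · exact Finset.le_sup (f := D.cntT k G) hj
    · exact Nat.zero_le _
  · obtain ⟨h1, h2, -⟩ := Dat.mem_Fl.1 hp
    obtain ⟨j, hj, e⟩ := enum_surj D.P p fun e he =>
      (h2 e (h1 ▸ he)).trans_lt (h.c_lt_pow (h1 ▸ he))
    rw [h1] at hj e
    refine le_trans ?_ (Finset.le_sup (f := fun j => if enum D.P D.N.E j ∈ D.Fl then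
      D.cntT k G (enum D.P D.N.E j) else 0) (mem_range.2 hj))
    simp only [e, if_pos hp, le_refl]

theorem rare_eq (h : D.OK) {m : ℕ} (hm : 2 ^ pB2 D.P ≤ m) (k : List ℤ) (G : ℕ) (ω : Word) :
    rare' D (vT D k G m) G m ω = D.rare k G ω := by
  have e1 : ∀ j, gap' D (vT D k G m) G m j = D.gap k G j := fun j => by
    unfold gap' Dat.gap
    rw [sup_eq h hm, cnt_eq h hm]
  have e2 : jr' D (vT D k G m) G m ω = D.jr k G ω := by
    unfold jr' Dat.jr
    rw [tp_eq hm (PE_le h)]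
    simp only [e1]
  unfold rare' Dat.rare
  rw [e2]

end XA

open XA in
theorem exists_xtrial : ∃ F : Dat × Un × Word × Word → List ℕ, PTime F ∧
    ∀ (D : Dat) (G : ℕ) (pad ω : Word), D.OK → (br G ω = true → 2 ^ pB2 D.P ≤ pad.length) →
      F (D, ⟨G⟩, pad, ω) = D.xtrial G ω := by
  refine ⟨fun x => if br x.2.1.val x.2.2.2 = true then
      rare' x.1 (vT x.1 (x.1.learn x.2.1.val (x.2.2.2.drop x.2.1.val)) x.2.1.val x.2.2.1.length)
        x.2.1.val x.2.2.1.length ((x.2.2.2.drop x.2.1.val).drop (Ll x.1.P x.2.1.val))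
    else x.1.trial (x.1.learn x.2.1.val (x.2.2.2.drop x.2.1.val)) x.2.1.val
      ((x.2.2.2.drop x.2.1.val).drop (Ll x.1.P x.2.1.val)), ?_, fun D G pad ω h hp => ?_⟩
  · refine PTime.ite (PTime.beq (by fun_prop) (PTime.const true)) ?_ ?_ <;> fun_prop
  · unfold Dat.xtrial
    by_cases hb : br G ω = true
    · simp only [hb, if_true]
      exact rare_eq h (hp hb) _ _ _
    · simp only [hb]
      rfl

end Crest.Agent.R309
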