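import Crest.Agent.R309.Flow

/-! Row 309: normalization to tight bounds. -/

set_option autoImplicit false

namespace Crest.Agent.R309

open Crest.Agent.PT Crest.Enc Finset

namespace TightX

theorem getD_map_range {γ : Type} {n i : ℕ} (g : ℕ → γ) (d : γ) (h : i < n) :
    ((List.range n).map g).getD i d = g i := by
  simp [List.getD_eq_getElem?_getD, h]

theorem getD_addL {E e : ℕ} (p q : List ℕ) (h : e < E) :
    (addL E p q).getD e 0 = p.getD e 0 + q.getD e 0 := getD_map_range _ _ h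

theorem ext_getD {E : ℕ} {p p' : List ℕ} (hp : p.length = E) (hp' : p'.length = E)
    (h : ∀ e < E, p.getD e 0 = p'.getD e 0) : p = p' := by
  refine List.ext_getElem (by omega) fun i h1 h2 => ?_
  have := h i (by omega)
  rwa [List.getD_eq_getElem _ _ h1, List.getD_eq_getElem _ _ h2] at this

end TightX

open TightX

theorem addL_injOn (E : ℕ) (q : List ℕ) {p p' : List ℕ} (hp : p.length = E) (hp' : p'.length = E)
    (h : addL E p q = addL E p' q) : p = p' := by
  refine ext_getD hp hp' fun e he => ?_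
  have h1 := getD_addL p q he
  rw [h, getD_addL p' q he] at h1
  omega

@[fun_prop] theorem ptime_addL {α : Type} [Rp α] {E : α → ℕ} {p q : α → List ℕ} (hE : PU E)
    (hp : PTime p) (hq : PTime q) : PTime fun a => addL (E a) (p a) (q a) :=
  rangeMapN (g := fun a e => (p a).getD e 0 + (q a).getD e 0) hE (by fun_prop)

namespace TightX

open Classical in
/-- binary search -/
noncomputable def bs (G : ℕ → Prop) (s : ℕ) : ℕ → ℕ
  | 0 => 0
  | k + 1 => if G (bs G s k + 2 ^ (s - (k + 1))) then bs G s k + 2 ^ (s - (k + 1)) else bs G s k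

theorem two_pow_sub {s k : ℕ} (h : k + 1 ≤ s) :
    2 ^ (s - k) = 2 ^ (s - (k + 1)) + 2 ^ (s - (k + 1)) := by
  have : s - k = s - (k + 1) + 1 := by omega
  rw [this, pow_succ]; omega

theorem bs_le (G : ℕ → Prop) (s k : ℕ) (hk : k ≤ s) : bs G s k + 2 ^ (s - k) ≤ 2 ^ s := by
  induction k with
  | zero => simp [bs]
  | succ k ih =>
    have h1 := ih (by omega)
    have h2 := two_pow_sub hk
    rw [bs]
    generalize 2 ^ (s - (k + 1)) = x at *
    split_ifs <;> omega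

theorem bs_inv {G : ℕ → Prop} {s : ℕ} (h0 : G 0) (hs : ¬ G (2 ^ s)) (k : ℕ) (hk : k ≤ s) :
    G (bs G s k) ∧ ¬ G (bs G s k + 2 ^ (s - k)) := by
  induction k with
  | zero => simpa [bs] using ⟨h0, hs⟩
  | succ k ih =>
    obtain ⟨h1, h2⟩ := ih (by omega)
    rw [bs]
    split_ifs with h
    · exact ⟨h, by rwa [add_assoc, ← two_pow_sub hk]⟩
    · exact ⟨h1, h⟩

theorem bs_spec {G : ℕ → Prop} {s : ℕ} (h0 : G 0) (hs : ¬ G (2 ^ s)) :
    G (bs G s s) ∧ ¬ G (bs G s s + 1) := by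
  simpa using bs_inv h0 hs s le_rfl

theorem ptime_bs {α : Type} [Rp α] {G : α → ℕ → Prop} {s : α → ℕ}
    (hG : PTime fun p : α × ℕ => G p.1 p.2) (hs : PU s) : PTime fun a => bs (G a) (s a) (s a) := by
  classical
  refine PTime.loop (fun a k => bs (G a) (s a) k)
    (fun a v k => if G a (v + 2 ^ (s a - (k + 1))) then v + 2 ^ (s a - (k + 1)) else v) hs
    (PTime.const 0) ?_ (fun a k _ => by rw [bs]) hs.pb fun a k hk => ?_
  · have h1 : PTime fun p : α × ℕ × Un => p.2.1 + 2 ^ (s p.1 - (p.2.2.val + 1)) := by fun_prop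
    exact PTime.ite (hG.comp (f := fun p : α × ℕ × Un => (p.1, p.2.1 + 2 ^ (s p.1 - (p.2.2.val + 1))))
      (PTime.fst'.pair h1)) h1 (by fun_prop)
  · have h1 := bs_le (G a) (s a) k hk
    have h2 : 0 < 2 ^ (s a - k) := by positivity
    exact sz_nat_le.2 (by omega)

/-- the list `l` cut or padded to the length `E`, with the entry `e` replaced by `v` -/
def ns (E : ℕ) (l : List ℕ) (e v : ℕ) : List ℕ :=
  (List.range E).map fun i => if i = e then v else l.getD i 0

abbrev In := Net × List ℕ × List ℕ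

def Ghi (x : In) (e v : ℕ) : Prop :=
  ¬ feas (x.1, ns x.1.E x.2.1 e (max v (x.2.1.getD e 0)), x.2.2) = []
def Glo (x : In) (e v : ℕ) : Prop :=
  v ≤ x.2.2.getD e 0 ∧ ¬ feas (x.1, x.2.1, ns x.1.E x.2.2 e (x.2.2.getD e 0 - v)) = []
noncomputable def hiS (x : In) (e : ℕ) : ℕ :=
  bs (Ghi x e) (x.2.2.getD e 0).size (x.2.2.getD e 0).size
noncomputable def loS (x : In) (e : ℕ) : ℕ :=
  x.2.2.getD e 0 - bs (Glo x e) (x.2.2.getD e 0).size (x.2.2.getD e 0).size
noncomputable def nrm (x : In) : List ℤ × List ℕ × List ℕ :=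
  ((List.range x.1.V).map fun w => x.1.b w - x.1.dv (fun e => (loS x e : ℤ)) w,
    (List.range x.1.E).map fun e => hiS x e - loS x e, (List.range x.1.E).map (loS x))

section
variable {α : Type} [Rp α]

@[fun_prop] theorem ptime_ns {E e v : α → ℕ} {l : α → List ℕ} (hE : PU E) (hl : PTime l)
    (he : PTime e) (hv : PTime v) : PTime fun a => ns (E a) (l a) (e a) (v a) :=
  rangeMapN (g := fun a i => if i = e a then v a else (l a).getD i 0) hE (by fun_prop)

theorem ptime_hiS : PTime fun p : In × Un => hiS p.1 p.2.val :=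
  ptime_bs (G := fun p : In × Un => Ghi p.1 p.2.val)
    (eqN (ptime_feas.comp (by fun_prop)) (PTime.const _)).not (by fun_prop)

theorem ptime_loS : PTime fun p : In × Un => loS p.1 p.2.val :=
  PTime.sub (by fun_prop) (ptime_bs (G := fun p : In × Un => Glo p.1 p.2.val)
    (PTime.and (by fun_prop) (eqN (ptime_feas.comp (by fun_prop)) (PTime.const _)).not)
    (by fun_prop))

theorem ptime_nrm : PTime nrm := by
  refine PTime.pair ?_ (PTime.pair ?_ ?_)
  · refine rangeMapZ (g := fun x : In => fun w => x.1.b w - x.1.dv (fun e => (loS x e : ℤ)) w)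
      (by fun_prop) (PTime.isub (by fun_prop) ?_)
    exact Net.ptime_dv (p := fun (q : In × Un) e => (loS q.1 e : ℤ)) (by fun_prop)
      (ptime_loS.comp (f := fun q : (In × Un) × Un => (q.1.1, q.2)) (by fun_prop)).natCast
      (by fun_prop)
  · exact rangeMapN (g := fun x : In => fun e => hiS x e - loS x e) (by fun_prop)
      (ptime_hiS.sub ptime_loS)
  · exact rangeMapN (g := fun x : In => loS x) (by fun_prop) ptime_loS

end

variable {N : Net} {lo hi : List ℕ}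

theorem feas_ne (h : N.WF) (lo hi : List ℕ) : ¬ feas (N, lo, hi) = [] ↔ ∃ p, p ∈ N.flows lo hi := by
  rcases feas_spec lo hi h with ⟨h1, h2⟩ | ⟨p, h1, h2⟩
  · simp [h1, h2]
  · simp only [h2, reduceCtorEq, not_false_eq_true, true_iff]
    exact ⟨p, h1⟩

theorem Ghi_iff (h : N.WF) {e : ℕ} (he : e < N.E) (v : ℕ) :
    Ghi (N, lo, hi) e v ↔ ∃ p ∈ N.flows lo hi, v ≤ p.getD e 0 := by
  unfold Ghi
  rw [feas_ne h]
  refine exists_congr fun p => ?_
  simp only [Net.mem_flows, mem_bx]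
  constructor
  · rintro ⟨⟨h1, h2⟩, h3⟩
    have h4 := h2 e he
    rw [ns, getD_map_range _ _ he, if_pos rfl] at h4
    refine ⟨⟨⟨h1, fun i hi => ?_⟩, h3⟩, by omega⟩
    have h5 := h2 i hi
    rw [ns, getD_map_range _ _ hi] at h5
    split_ifs at h5 with h6
    · subst h6; omega
    · exact h5
  · rintro ⟨⟨⟨h1, h2⟩, h3⟩, h4⟩
    refine ⟨⟨h1, fun i hi => ?_⟩, h3⟩
    have h5 := h2 i hi
    rw [ns, getD_map_range _ _ hi]
    split_ifs with h6
    · subst h6; omega
    · exact h5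

theorem Glo_iff (h : N.WF) {e : ℕ} (he : e < N.E) (v : ℕ) :
    Glo (N, lo, hi) e v ↔ ∃ p ∈ N.flows lo hi, p.getD e 0 + v ≤ hi.getD e 0 := by
  unfold Glo
  rw [feas_ne h, ← exists_and_left]
  refine exists_congr fun p => ?_
  simp only [Net.mem_flows, mem_bx]
  constructor
  · rintro ⟨h0, ⟨h1, h2⟩, h3⟩
    have h4 := h2 e he
    rw [ns, getD_map_range _ _ he, if_pos rfl] at h4
    refine ⟨⟨⟨h1, fun i hi => ?_⟩, h3⟩, by omega⟩
    have h5 := h2 i hi
    rw [ns, getD_map_range _ _ hi] at h5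
    split_ifs at h5 with h6
    · subst h6; omega
    · exact h5
  · rintro ⟨⟨⟨h1, h2⟩, h3⟩, h4⟩
    refine ⟨by omega, ⟨h1, fun i hi => ?_⟩, h3⟩
    have h5 := h2 i hi
    rw [ns, getD_map_range _ _ hi]
    split_ifs with h6
    · subst h6; omega
    · exact h5

theorem bounds {p : List ℕ} (hp : p ∈ N.flows lo hi) {e : ℕ} (he : e < N.E) :
    lo.getD e 0 ≤ p.getD e 0 ∧ p.getD e 0 ≤ hi.getD e 0 :=
  (mem_bx.1 (Net.mem_flows.1 hp).1).2 e he

theorem hiS_spec (h : N.WF) (hne : (N.flows lo hi).Nonempty) {e : ℕ} (he : e < N.E) :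
    (∃ p ∈ N.flows lo hi, p.getD e 0 = hiS (N, lo, hi) e) ∧
      ∀ p ∈ N.flows lo hi, p.getD e 0 ≤ hiS (N, lo, hi) e := by
  obtain ⟨p0, hp0⟩ := hne
  have h1 := bs_spec (G := Ghi (N, lo, hi) e) (s := (hi.getD e 0).size)
    ((Ghi_iff h he 0).2 ⟨p0, hp0, Nat.zero_le _⟩) (by
      rw [Ghi_iff h he]
      rintro ⟨p, hp, h2⟩
      have := bounds hp he
      have := Nat.lt_size_self (hi.getD e 0)
      omega)
  rw [Ghi_iff h he, Ghi_iff h he] at h1
  obtain ⟨⟨p, hp, h2⟩, h3⟩ := h1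
  have h4 : ∀ p ∈ N.flows lo hi, p.getD e 0 ≤ hiS (N, lo, hi) e := fun q hq => by
    by_contra h5
    exact h3 ⟨q, hq, not_le.1 h5⟩
  exact ⟨⟨p, hp, le_antisymm (h4 p hp) h2⟩, h4⟩

theorem loS_spec (h : N.WF) (hne : (N.flows lo hi).Nonempty) {e : ℕ} (he : e < N.E) :
    (∃ p ∈ N.flows lo hi, p.getD e 0 = loS (N, lo, hi) e) ∧
      ∀ p ∈ N.flows lo hi, loS (N, lo, hi) e ≤ p.getD e 0 := by
  obtain ⟨p0, hp0⟩ := hne
  have h1 := bs_spec (G := Glo (N, lo, hi) e) (s := (hi.getD e 0).size)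
    ((Glo_iff h he 0).2 ⟨p0, hp0, (bounds hp0 he).2⟩) (by
      rw [Glo_iff h he]
      rintro ⟨p, hp, h2⟩
      have := Nat.lt_size_self (hi.getD e 0)
      omega)
  rw [Glo_iff h he, Glo_iff h he] at h1
  obtain ⟨⟨p, hp, h2⟩, h3⟩ := h1
  have h4 : ∀ p ∈ N.flows lo hi, loS (N, lo, hi) e ≤ p.getD e 0 := fun q hq => by
    by_contra h5
    refine h3 ⟨q, hq, ?_⟩
    simp only [loS] at h5
    omega
  refine ⟨⟨p, hp, le_antisymm ?_ (h4 p hp)⟩, h4⟩
  simp only [loS]
  omega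

theorem dv_add (N : Net) {p q r : ℕ → ℤ} (h : ∀ e < N.E, p e = q e + r e) (w : ℕ) :
    N.dv p w = N.dv q w + N.dv r w := by
  unfold Net.dv
  rw [← Finset.sum_add_distrib]
  refine Finset.sum_congr rfl fun e he => ?_
  rw [h e (Finset.mem_range.1 he)]
  split_ifs <;> ring

/-- conservation in the shifted network -/
theorem cons_iff {p q : List ℕ} (h : ∀ e < N.E, p.getD e 0 = q.getD e 0 + loS (N, lo, hi) e) :
    (Net.Cons ⟨N.src, N.dst, (nrm (N, lo, hi)).1⟩ fun e => (q.getD e 0 : ℤ)) ↔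
      N.Cons fun e => (p.getD e 0 : ℤ) := by
  have hV : Net.V ⟨N.src, N.dst, (nrm (N, lo, hi)).1⟩ = N.V := by simp [Net.V, nrm]
  unfold Net.Cons
  rw [hV]
  refine forall₂_congr fun w hw => ?_
  have h1 : Net.b ⟨N.src, N.dst, (nrm (N, lo, hi)).1⟩ w =
      N.b w - N.dv (fun e => (loS (N, lo, hi) e : ℤ)) w := getD_map_range _ _ hw
  have h2 : Net.dv ⟨N.src, N.dst, (nrm (N, lo, hi)).1⟩ (fun e => (q.getD e 0 : ℤ)) w =
      N.dv (fun e => (q.getD e 0 : ℤ)) w := rfl
  rw [h1, h2, dv_add N (p := fun e => (p.getD e 0 : ℤ)) (q := fun e => (q.getD e 0 : ℤ))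
    (r := fun e => (loS (N, lo, hi) e : ℤ)) (fun e he => by rw [h e he]; push_cast; rfl) w]
  omega

theorem cap_eq {e : ℕ} (he : e < N.E) :
    (nrm (N, lo, hi)).2.1.getD e 0 = hiS (N, lo, hi) e - loS (N, lo, hi) e := getD_map_range _ _ he

theorem sh_eq {e : ℕ} (he : e < N.E) : (nrm (N, lo, hi)).2.2.getD e 0 = loS (N, lo, hi) e :=
  getD_map_range _ _ he

theorem down (h : N.WF) {p : List ℕ} (hp : p ∈ N.flows lo hi) :
    ∃ q ∈ Net.flows ⟨N.src, N.dst, (nrm (N, lo, hi)).1⟩ [] (nrm (N, lo, hi)).2.1,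
      ∀ e < N.E, p.getD e 0 = q.getD e 0 + loS (N, lo, hi) e := by
  have key : ∀ e < N.E, p.getD e 0 = ((List.range N.E).map fun e =>
      p.getD e 0 - loS (N, lo, hi) e).getD e 0 + loS (N, lo, hi) e := fun e he => by
    have := (loS_spec h ⟨p, hp⟩ he).2 p hp
    rw [getD_map_range _ _ he]; omega
  refine ⟨_, Net.mem_flows.2 ⟨mem_bx.2 ⟨by simp [Net.E], fun e he => ?_⟩,
    (cons_iff key).2 (Net.mem_flows.1 hp).2⟩, key⟩
  have he' : e < N.E := he
  have h1 := key e he'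
  have h2 := (hiS_spec h ⟨p, hp⟩ he').2 p hp
  rw [cap_eq he']
  exact ⟨by simp, by omega⟩

end TightX

/-- the output is (new supplies, new capacities, shift) -/
theorem exists_nrm : ∃ nrm : Net × List ℕ × List ℕ → List ℤ × List ℕ × List ℕ, PTime nrm ∧
    ∀ (N : Net) (lo hi : List ℕ), N.WF → (N.flows lo hi).Nonempty →
      (nrm (N, lo, hi)).1.length = N.V ∧
      (∀ e < N.E, (nrm (N, lo, hi)).2.1.getD e 0 ≤ hi.getD e 0) ∧
      Net.Tight ⟨N.src, N.dst, (nrm (N, lo, hi)).1⟩ (nrm (N, lo, hi)).2.1 ∧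
      N.flows lo hi = (Net.flows ⟨N.src, N.dst, (nrm (N, lo, hi)).1⟩ [] (nrm (N, lo, hi)).2.1).image
        fun p => addL N.E p (nrm (N, lo, hi)).2.2 := by
  refine ⟨nrm, ptime_nrm, fun N lo hi h hne => ⟨by simp [nrm], fun e he => ?_, fun e he => ?_, ?_⟩⟩
  · obtain ⟨p, hp, h1⟩ := (hiS_spec h hne he).1
    have := bounds hp he
    rw [cap_eq he]; omega
  · have he' : e < N.E := he
    obtain ⟨p, hp, h1⟩ := (hiS_spec h hne he').1
    obtain ⟨p', hp', h1'⟩ := (loS_spec h hne he').1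
    obtain ⟨q, hq, h2⟩ := down h hp
    obtain ⟨q', hq', h2'⟩ := down h hp'
    have h3 := h2 e he'
    have h3' := h2' e he'
    exact ⟨⟨q', hq', by omega⟩, q, hq, by rw [cap_eq he']; omega⟩
  · ext p
    rw [Finset.mem_image]
    constructor
    · intro hp
      obtain ⟨q, hq, h2⟩ := down h hp
      refine ⟨q, hq, ext_getD (by simp [addL]) (mem_bx.1 (Net.mem_flows.1 hp).1).1 fun e he => ?_⟩
      rw [getD_addL _ _ he, sh_eq he, h2 e he]
    · rintro ⟨q, hq, rfl⟩
      have key : ∀ e < N.E, (addL N.E q (nrm (N, lo, hi)).2.2).getD e 0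
          = q.getD e 0 + loS (N, lo, hi) e := fun e he => by rw [getD_addL _ _ he, sh_eq he]
      refine Net.mem_flows.2 ⟨mem_bx.2 ⟨by simp [addL], fun e he => ?_⟩,
        (cons_iff key).1 (Net.mem_flows.1 hq).2⟩
      obtain ⟨p, hp, h1⟩ := (hiS_spec h hne he).1
      obtain ⟨p', hp', h1'⟩ := (loS_spec h hne he).1
      have h2 := bounds hp he
      have h3 := bounds hp' he
      have h4 := (loS_spec h hne he).2 p hp
      have h5 := (bounds hq (e := e) he).2
      rw [cap_eq he] at h5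
      rw [key e he]
      omega

end Crest.Agent.R309
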