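import Crest.Agent.R309.Krus
import Crest.Agent.R309.Tight

/-! Row 309: construction of the data. -/

set_option autoImplicit false

namespace Crest.Agent.R309

open Crest.Agent.PT Crest.Enc Finset

theorem exists_mk : ∃ mk : Net × List ℕ × List ℕ × Un → Dat × List ℕ, PTime mk ∧
    ∀ (N : Net) (lo hi : List ℕ) (P : ℕ), N.WF → N.Small hi P → (N.flows lo hi).Nonempty →
      (mk (N, lo, hi, ⟨P⟩)).1.OK ∧ (mk (N, lo, hi, ⟨P⟩)).1.P = P ∧
      (mk (N, lo, hi, ⟨P⟩)).1.N.E = N.E ∧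
      N.flows lo hi = (mk (N, lo, hi, ⟨P⟩)).1.Fl.image
        fun p => addL N.E p (mk (N, lo, hi, ⟨P⟩)).2 := by
  obtain ⟨nrm, hn, sn⟩ := exists_nrm
  obtain ⟨kr, hk, sk⟩ := exists_kr
  let n : Net × List ℕ × List ℕ × Un → List ℤ × List ℕ × List ℕ := fun x => nrm (x.1, x.2.1, x.2.2.1)
  let N' : Net × List ℕ × List ℕ × Un → Net := fun x => ⟨x.1.src, x.1.dst, (n x).1⟩
  let k : Net × List ℕ × List ℕ × Un → Word × List ℕ × Word := fun x => kr (N' x, (n x).2.1, x.2.2.2)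
  have h1 : PTime n := hn.comp (by fun_prop)
  have h2 : PTime N' := Net.ptime_mk (by fun_prop) (by fun_prop) h1.fst
  have h3 : PTime k := hk.comp (h2.pair (h1.snd.fst.pair (by fun_prop)))
  refine ⟨fun x => (⟨N' x, (n x).2.1, (k x).1, (k x).2.1, (k x).2.2, x.2.2.2.val⟩, (n x).2.2),
    (Dat.ptime_mk h2 h1.snd.fst h3.fst h3.snd.fst h3.snd.snd (by fun_prop)).pair h1.snd.snd,
    fun N lo hi P hwf hsm hne => ?_⟩
  obtain ⟨a1, a2, a3, a4⟩ := sn N lo hi hwf hne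
  have hwf' : (N' (N, lo, hi, ⟨P⟩)).WF := fun e he => by
    have hV : (N' (N, lo, hi, ⟨P⟩)).V = N.V := a1
    rw [hV]
    exact hwf e he
  have hsm' : (N' (N, lo, hi, ⟨P⟩)).Small (n (N, lo, hi, ⟨P⟩)).2.1 P :=
    ⟨hsm.1, hsm.2.1, a1.trans_le hsm.2.2.1, fun e he => (a2 e he).trans_lt (hsm.2.2.2 e he)⟩
  refine ⟨⟨sk _ _ P hwf' hsm', hwf', hsm', ?_, a3⟩, rfl, rfl, a4⟩
  rw [a4] at hne
  exact hne.of_image

end Crest.Agent.R309
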