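import Crest.Agent.R309.Exact
import Crest.Agent.R309.ExactPT
import Crest.Agent.R309.Mk

/-! Row 309: the exact sampler for flows. -/

set_option autoImplicit false

namespace Crest.Agent.R309

open Crest.Agent.PT Crest.Enc Finset

theorem Pr_ne_nil_sum (L : ℕ) (S : Finset (List ℕ)) (o : Word → List ℕ)
    (h : ∀ ω, o ω = [] ∨ ∃ p ∈ S, o ω = 1 :: p) :
    Pr L (fun ω => o ω ≠ []) = ∑ p ∈ S, Pr L fun ω => o ω = 1 :: p := by
  classical
  unfold Pr
  rw [← Ex_sum]
  refine Ex_congr fun ω _ => ?_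
  rcases h ω with h0 | ⟨p, hp, h1⟩
  · simp [h0]
  · rw [Finset.sum_eq_single p]
    · simp [h1]
    · intro q _ hq
      simp [h1, Ne.symm hq]
    · exact fun hn => absurd hp hn

theorem exists_exact : ∃ F : (Net × List ℕ × Un × Un) × Word × Word → List ℕ, PTime F ∧
    ∀ (N : Net) (hi : List ℕ) (P G : ℕ) (tr : Word → List ℕ), N.WF → N.Small hi P →
      (N.flows [] hi).Nonempty → 1 ≤ G →
      (∀ ω, tr ω = F ((N, hi, ⟨P⟩, ⟨G⟩),
        if br G ω then List.replicate (2 ^ pB2 P) true else [], ω)) →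
      (∀ ω, tr ω = [] ∨ ∃ p ∈ N.flows [] hi, tr ω = 1 :: p) ∧
      (1 / 100 ≤ Pr (LX P G) fun ω => tr ω ≠ []) ∧
      ∀ p ∈ N.flows [] hi, Pr (LX P G) (fun ω => tr ω ≠ [] ∧ (tr ω).tail = p) /
        Pr (LX P G) (fun ω => tr ω ≠ []) = 1 / ((N.flows [] hi).card : ℝ) := by
  obtain ⟨mk, hmk, smk⟩ := exists_mk
  obtain ⟨FX, hFX, sFX⟩ := exists_xtrial
  let d : (Net × List ℕ × Un × Un) × Word × Word → Dat × List ℕ :=
    fun x => mk (x.1.1, [], x.1.2.1, x.1.2.2.1)
  let o : (Net × List ℕ × Un × Un) × Word × Word → List ℕ :=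
    fun x => FX ((d x).1, x.1.2.2.2, x.2.1, x.2.2)
  have h1 : PTime d := hmk.comp (PTime.pair (by fun_prop) (PTime.pair (PTime.const [])
    (by fun_prop)))
  have h2 : PTime o := hFX.comp (h1.fst.pair (by fun_prop))
  refine ⟨fun x => if o x = [] then [] else 1 :: addL x.1.1.E (o x).tail (d x).2, ?_,
    fun N hi P G tr hW hS hne hG htr => ?_⟩
  · exact PTime.ite (eqN h2 (PTime.const [])) (PTime.const [])
      (consN (PTime.const 1) (ptime_addL (by fun_prop) (tailN h2) h1.snd))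
  obtain ⟨hOK, hP, hE, hF⟩ := smk N [] hi P hW hS hne
  set D := (mk (N, [], hi, ⟨P⟩)).1 with hD
  set sh := (mk (N, [], hi, ⟨P⟩)).2 with hsh
  have ht : ∀ ω, tr ω = if D.xtrial G ω = [] then [] else
      1 :: addL N.E (D.xtrial G ω).tail sh := fun ω => by
    have := sFX D G (if br G ω then List.replicate (2 ^ pB2 P) true else []) ω hOK fun hb => by
      simp [hb, hP]
    rw [htr, ← this]
  have hn : ∀ ω, tr ω ≠ [] ↔ D.xtrial G ω ≠ [] := fun ω => by
    rw [ht]; split_ifs with h0 <;> simp [h0]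
  have hlen : ∀ p ∈ D.Fl, p.length = N.E := fun p hp => hE ▸ (Dat.mem_Fl.1 hp).1
  have hsucc := hOK.xtrial_succ hG
  rw [hP] at hsucc
  have hPr : Pr (LX P G) (fun ω => tr ω ≠ []) = Pr (LX P G) fun ω => D.xtrial G ω ≠ [] :=
    Pr_congr fun ω _ => hn ω
  refine ⟨fun ω => ?_, hPr ▸ hsucc, fun p hp => ?_⟩
  · rw [ht]
    rcases D.xtrial_cases G ω with h0 | ⟨q, hq, h0⟩
    · simp [h0]
    · refine Or.inr ⟨addL N.E q sh, hF ▸ Finset.mem_image_of_mem _ hq, ?_⟩
      simp [h0]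
  · rw [hF] at hp
    obtain ⟨q, hq, rfl⟩ := Finset.mem_image.1 hp
    have hc : (N.flows [] hi).card = D.Fl.card := by
      rw [hF]
      exact Finset.card_image_of_injOn fun a ha b hb hab =>
        addL_injOn N.E sh (hlen a ha) (hlen b hb) hab
    have hA : Pr (LX P G) (fun ω => tr ω ≠ [] ∧ (tr ω).tail = addL N.E q sh) =
        Pr (LX P G) fun ω => D.xtrial G ω = 1 :: q := Pr_congr fun ω _ => by
      rw [ht]
      rcases D.xtrial_cases G ω with h0 | ⟨r, hr, h0⟩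
      · simp [h0]
      · simp only [h0, reduceCtorEq, if_false, List.tail_cons, ne_eq, not_false_eq_true, true_and,
          List.cons.injEq]
        exact ⟨addL_injOn N.E sh (hlen r hr) (hlen q hq), fun e => e ▸ rfl⟩
    have hB := Pr_ne_nil_sum (LX P G) D.Fl (D.xtrial G) (D.xtrial_cases G)
    have hC : ∀ r ∈ D.Fl, Pr (LX P G) (fun ω => D.xtrial G ω = 1 :: r) =
        Pr (LX P G) fun ω => D.xtrial G ω = 1 :: q := fun r hr => by
      rw [← hP, hOK.xtrial_law G hr, hOK.xtrial_law G hq]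
    rw [Finset.sum_congr rfl hC, Finset.sum_const, nsmul_eq_mul] at hB
    rw [hA, hPr, hc, hB]
    rw [hB] at hsucc
    have h0 : Pr (LX P G) (fun ω => D.xtrial G ω = 1 :: q) ≠ 0 := fun e => by
      rw [e, mul_zero] at hsucc; norm_num at hsucc
    have h1 : (D.Fl.card : ℝ) ≠ 0 := fun e => by
      rw [e, zero_mul] at hsucc; norm_num at hsucc
    field_simp

theorem Pr_br (P G : ℕ) : Pr (LX P G) (fun ω => br G ω = true) = (2 : ℝ)⁻¹ ^ G := by
  have h1 : Pr (LX P G) (fun ω => ofB (ω.take G) = 0) = Pr G fun ω => ofB ω = 0 := by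
    exact Ex_take (Nat.le_add_right G (Ll P G + Lt P G))
      fun ω => @ite ℝ (ofB ω = 0) (Classical.propDecidable _) 1 0
  have h2 := Pr_ofB_eq (L := G) (k := 0) (Nat.two_pow_pos G)
  rw [Pr_congr (B := fun ω => ofB (ω.take G) = 0) fun ω _ => by simp [br], h1, h2, one_div, inv_pow]

end Crest.Agent.R309
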