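import Crest.Agent.R309.Net

/-! Row 309: the mathematics of augmenting paths. -/

set_option autoImplicit false

namespace Crest.Agent.R309

open Crest.Agent.PT Crest.Enc Finset

namespace Flow

/-- excess of the pseudo-flow `x` at `w` -/
def ex (N : Net) (x : List ℕ) (w : ℕ) : ℤ := N.b w - N.dv (fun e => (x.getD e 0 : ℤ)) w

/-- total positive excess -/
def Psi (N : Net) (x : List ℕ) : ℤ := ∑ w ∈ range N.V, max (ex N x w) 0

/-- vertices reachable in `k` residual steps from a vertex of large excess -/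
def Rch (N : Net) (lo hi x : List ℕ) (Δ : ℕ) : ℕ → ℕ → Prop
  | 0, w => w < N.V ∧ (Δ : ℤ) ≤ ex N x w
  | k + 1, w => w < N.V ∧ (Rch N lo hi x Δ k w ∨ ∃ e < N.E,
      (N.d e = w ∧ x.getD e 0 + Δ ≤ hi.getD e 0 ∧ Rch N lo hi x Δ k (N.s e)) ∨
      (N.s e = w ∧ lo.getD e 0 + Δ ≤ x.getD e 0 ∧ Rch N lo hi x Δ k (N.d e)))

variable {N : Net} {lo hi x : List ℕ} {Δ : ℕ}

theorem Psi_nonneg (N : Net) (x : List ℕ) : 0 ≤ Psi N x :=
  Finset.sum_nonneg fun _ _ => le_max_right _ _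

theorem Rch.lt {k w : ℕ} (h : Rch N lo hi x Δ k w) : w < N.V := by
  cases k <;> exact h.1

theorem Rch.succ {k w : ℕ} (h : Rch N lo hi x Δ k w) : Rch N lo hi x Δ (k + 1) w :=
  ⟨h.lt, Or.inl h⟩

theorem Rch.mono {k l w : ℕ} (h : Rch N lo hi x Δ k w) (hkl : k ≤ l) : Rch N lo hi x Δ l w := by
  induction hkl with
  | refl => exact h
  | step _ ih => exact ih.succ

theorem closed (N : Net) (lo hi x : List ℕ) (Δ : ℕ) (w : ℕ) (h : Rch N lo hi x Δ (N.V + 1) w) :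
    Rch N lo hi x Δ N.V w := by
  classical
  have grow : ∀ k, ¬ (∀ w, Rch N lo hi x Δ (k + 1) w → Rch N lo hi x Δ k w) →
      ((range N.V).filter (Rch N lo hi x Δ k)).card <
        ((range N.V).filter (Rch N lo hi x Δ (k + 1))).card := by
    intro k hk
    push Not at hk
    obtain ⟨w, h1, h2⟩ := hk
    refine Finset.card_lt_card ⟨fun v hv => ?_, fun hc => ?_⟩
    · rw [Finset.mem_filter] at hv ⊢
      exact ⟨hv.1, hv.2.succ⟩
    · exact h2 (Finset.mem_filter.1 (hc (Finset.mem_filter.2 ⟨Finset.mem_range.2 h1.lt, h1⟩))).2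
  have key : ∀ k, (∀ w, Rch N lo hi x Δ (k + 1) w → Rch N lo hi x Δ k w) ∨
      k < ((range N.V).filter (Rch N lo hi x Δ (k + 1))).card := by
    intro k
    induction k with
    | zero =>
      by_cases hc : ∀ w, Rch N lo hi x Δ (0 + 1) w → Rch N lo hi x Δ 0 w
      · exact Or.inl hc
      · exact Or.inr (lt_of_le_of_lt (Nat.zero_le _) (grow 0 hc))
    | succ k ih =>
      by_cases hc : ∀ w, Rch N lo hi x Δ (k + 1 + 1) w → Rch N lo hi x Δ (k + 1) w
      · exact Or.inl hc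
      · rcases ih with ih | ih
        · refine absurd (fun w hw => ?_) hc
          obtain ⟨h1, h2 | ⟨e, he, h2 | h2⟩⟩ := hw
          · exact h2
          · exact ⟨h1, Or.inr ⟨e, he, Or.inl ⟨h2.1, h2.2.1, ih _ h2.2.2⟩⟩⟩
          · exact ⟨h1, Or.inr ⟨e, he, Or.inr ⟨h2.1, h2.2.1, ih _ h2.2.2⟩⟩⟩
        · exact Or.inr (lt_of_le_of_lt ih (grow _ hc))
  rcases key N.V with h1 | h1
  · exact h1 w h
  · have := Finset.card_filter_le (range N.V) (Rch N lo hi x Δ (N.V + 1))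
    rw [Finset.card_range] at this
    omega

/-- the excess of a set of vertices is carried by the cut -/
theorem sum_ex {p : List ℕ} (hp : p ∈ N.flows lo hi) (x : List ℕ) (S : Finset ℕ)
    (hS : S ⊆ range N.V) :
    ∑ w ∈ S, ex N x w = ∑ e ∈ range N.E,
      ((if N.s e ∈ S then ((p.getD e 0 : ℤ) - x.getD e 0) else 0) -
        if N.d e ∈ S then ((p.getD e 0 : ℤ) - x.getD e 0) else 0) := by
  have h1 : ∀ w ∈ S, ex N x w = ∑ e ∈ range N.E,
      ((if N.s e = w then ((p.getD e 0 : ℤ) - x.getD e 0) else 0) -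
        if N.d e = w then ((p.getD e 0 : ℤ) - x.getD e 0) else 0) := by
    intro w hw
    rw [ex, ← (Net.mem_flows.1 hp).2 w (Finset.mem_range.1 (hS hw)), Net.dv, Net.dv,
      ← Finset.sum_sub_distrib]
    exact Finset.sum_congr rfl fun e _ => by split_ifs <;> ring
  rw [Finset.sum_congr rfl h1, Finset.sum_comm]
  refine Finset.sum_congr rfl fun e _ => ?_
  rw [Finset.sum_sub_distrib, Finset.sum_ite_eq, Finset.sum_ite_eq]

/-- no augmenting path: the total excess is small -/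
theorem stuck (hN : N.WF) {p : List ℕ} (hp : p ∈ N.flows lo hi) (hΔ : 1 ≤ Δ)
    (h : ∀ w < N.V, ¬ (Rch N lo hi x Δ N.V w ∧ ex N x w ≤ -Δ)) :
    Psi N x ≤ (N.E + N.V) * ((Δ : ℤ) - 1) := by
  classical
  set S := (range N.V).filter (Rch N lo hi x Δ N.V) with hS
  have hmem : ∀ w, w ∈ S ↔ Rch N lo hi x Δ N.V w := fun w => by
    rw [hS, Finset.mem_filter, Finset.mem_range]
    exact ⟨fun h => h.2, fun h => ⟨h.lt, h⟩⟩
  have hb := (mem_bx.1 (Net.mem_flows.1 hp).1).2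
  have h1 : ∑ w ∈ S, ex N x w ≤ N.E * ((Δ : ℤ) - 1) := by
    rw [sum_ex hp x S (Finset.filter_subset _ _)]
    refine (Finset.sum_le_card_nsmul _ _ ((Δ : ℤ) - 1) fun e he => ?_).trans (by simp)
    have he' := Finset.mem_range.1 he
    have h2 := hb e he'
    split_ifs with h3 h4 h4
    · omega
    · have : ¬ x.getD e 0 + Δ ≤ hi.getD e 0 := fun hc => h4 ((hmem _).2 (closed _ _ _ _ _ _
        ⟨(hN e he').2, Or.inr ⟨e, he', Or.inl ⟨rfl, hc, (hmem _).1 h3⟩⟩⟩))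
      omega
    · have : ¬ lo.getD e 0 + Δ ≤ x.getD e 0 := fun hc => h3 ((hmem _).2 (closed _ _ _ _ _ _
        ⟨(hN e he').1, Or.inr ⟨e, he', Or.inr ⟨rfl, hc, (hmem _).1 h4⟩⟩⟩))
      omega
    · omega
  have h2 : Psi N x ≤ ∑ w ∈ range N.V, ((if Rch N lo hi x Δ N.V w then ex N x w else 0) +
      ((Δ : ℤ) - 1)) := by
    refine Finset.sum_le_sum fun w hw => ?_
    have hw' := Finset.mem_range.1 hw
    split_ifs with h3
    · have : ¬ ex N x w ≤ -Δ := fun hc => h w hw' ⟨h3, hc⟩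
      omega
    · have : ¬ (Δ : ℤ) ≤ ex N x w := fun hc =>
        h3 (Rch.mono (k := 0) ⟨hw', hc⟩ (Nat.zero_le _))
      omega
  rw [Finset.sum_add_distrib, ← Finset.sum_filter, ← hS, Finset.sum_const, Finset.card_range,
    nsmul_eq_mul] at h2
  linarith

theorem flow_of_Psi (hN : N.WF) {p : List ℕ} (hp : p ∈ N.flows lo hi) (hx : x ∈ bx N.E lo hi)
    (h : Psi N x ≤ 0) : x ∈ N.flows lo hi := by
  have h1 : ∀ w ∈ range N.V, max (ex N x w) 0 = 0 :=
    (Finset.sum_eq_zero_iff_of_nonneg fun _ _ => le_max_right _ _).1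
      (le_antisymm h (Psi_nonneg N x))
  have h2 : ∑ w ∈ range N.V, ex N x w = 0 := by
    rw [sum_ex hp x _ (Finset.Subset.refl _)]
    refine Finset.sum_eq_zero fun e he => ?_
    have := hN e (Finset.mem_range.1 he)
    rw [if_pos (Finset.mem_range.2 this.1), if_pos (Finset.mem_range.2 this.2), sub_self]
  have h3 := (Finset.sum_eq_zero_iff_of_nonpos fun w hw => by
    have := h1 w hw
    omega).1 h2
  refine Net.mem_flows.2 ⟨hx, fun w hw => ?_⟩
  have := h3 w (Finset.mem_range.2 hw)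
  unfold ex at this
  omega

theorem getD_set {y : List ℕ} {e : ℕ} (he : e < y.length) (v i : ℕ) :
    (y.set e v).getD i 0 = if i = e then v else y.getD i 0 := by
  split_ifs with h
  · subst h; simp [List.getD_eq_getElem?_getD, he]
  · simp [List.getD_eq_getElem?_getD, List.getElem?_set_ne (Ne.symm h)]

theorem ex_set {y : List ℕ} {e : ℕ} (hy : y.length = N.E) (he : e < N.E) (v w : ℕ) :
    ex N (y.set e v) w = ex N y w - ((if N.s e = w then (v : ℤ) - y.getD e 0 else 0) -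
      if N.d e = w then (v : ℤ) - y.getD e 0 else 0) := by
  unfold ex Net.dv
  rw [← Finset.add_sum_erase _ _ (Finset.mem_range.2 he),
    ← Finset.add_sum_erase _ _ (Finset.mem_range.2 he)]
  have : ∑ i ∈ (range N.E).erase e, ((if N.s i = w then (((y.set e v).getD i 0 : ℕ) : ℤ) else 0) -
      if N.d i = w then (((y.set e v).getD i 0 : ℕ) : ℤ) else 0) =
      ∑ i ∈ (range N.E).erase e, ((if N.s i = w then ((y.getD i 0 : ℕ) : ℤ) else 0) -
        if N.d i = w then ((y.getD i 0 : ℕ) : ℤ) else 0) :=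
    Finset.sum_congr rfl fun i hi => by
      rw [getD_set (hy ▸ he), if_neg (Finset.mem_erase.1 hi).1]
  beta_reduce
  rw [this, getD_set (hy ▸ he), if_pos rfl]
  split_ifs <;> ring

theorem set_mem_bx {E : ℕ} {y : List ℕ} {e v : ℕ} (hy : y ∈ bx E lo hi) (he : e < E)
    (h1 : lo.getD e 0 ≤ v) (h2 : v ≤ hi.getD e 0) : y.set e v ∈ bx E lo hi := by
  obtain ⟨h3, h4⟩ := mem_bx.1 hy
  refine mem_bx.2 ⟨by simpa using h3, fun i hi => ?_⟩
  rw [getD_set (h3 ▸ he)]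
  split_ifs with h
  · subst h; exact ⟨h1, h2⟩
  · exact h4 i hi

/-- the invariant of tracing a path back from `t` -/
def Inv (N : Net) (lo hi x : List ℕ) (Δ t k : ℕ) (s : List ℕ × ℕ) : Prop :=
  s.1 ∈ bx N.E lo hi ∧ Rch N lo hi x Δ k s.2 ∧
    (∀ e < N.E, Rch N lo hi x Δ k (N.s e) → Rch N lo hi x Δ k (N.d e) → s.1.getD e 0 = x.getD e 0) ∧
    ∀ w, ex N s.1 w = ex N x w + (if t = w then (Δ : ℤ) else 0) - if s.2 = w then (Δ : ℤ) else 0

theorem Inv.stay {t k : ℕ} {s : List ℕ × ℕ} (h : Inv N lo hi x Δ t (k + 1) s)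
    (hk : Rch N lo hi x Δ k s.2) : Inv N lo hi x Δ t k s :=
  ⟨h.1, hk, fun e he h1 h2 => h.2.2.1 e he h1.succ h2.succ, h.2.2.2⟩

theorem Inv.fw {t k e : ℕ} {s : List ℕ × ℕ} (h : Inv N lo hi x Δ t (k + 1) s)
    (hk : ¬ Rch N lo hi x Δ k s.2) (he : e < N.E)
    (ha : N.d e = s.2 ∧ x.getD e 0 + Δ ≤ hi.getD e 0 ∧ Rch N lo hi x Δ k (N.s e)) :
    Inv N lo hi x Δ t k (s.1.set e (s.1.getD e 0 + Δ), N.s e) := by
  obtain ⟨h1, h2, h3, h4⟩ := h
  obtain ⟨hl, hb⟩ := mem_bx.1 h1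
  have h5 := h3 e he ha.2.2.succ (ha.1 ▸ h2)
  have h6 := hb e he
  refine ⟨set_mem_bx h1 he (by omega) (by omega), ha.2.2, fun i hi a1 a2 => ?_, fun w => ?_⟩
  · have : i ≠ e := fun hc => hk (by rw [← ha.1, ← hc]; exact a2)
    rw [getD_set (hl ▸ he), if_neg this]
    exact h3 i hi a1.succ a2.succ
  · rw [ex_set hl he, h4, ha.1]
    push_cast
    split_ifs <;> ring

theorem Inv.bw {t k e : ℕ} {s : List ℕ × ℕ} (h : Inv N lo hi x Δ t (k + 1) s)
    (hk : ¬ Rch N lo hi x Δ k s.2) (he : e < N.E)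
    (ha : N.s e = s.2 ∧ lo.getD e 0 + Δ ≤ x.getD e 0 ∧ Rch N lo hi x Δ k (N.d e)) :
    Inv N lo hi x Δ t k (s.1.set e (s.1.getD e 0 - Δ), N.d e) := by
  obtain ⟨h1, h2, h3, h4⟩ := h
  obtain ⟨hl, hb⟩ := mem_bx.1 h1
  have h5 := h3 e he (ha.1 ▸ h2) ha.2.2.succ
  have h6 := hb e he
  refine ⟨set_mem_bx h1 he (by omega) (by omega), ha.2.2, fun i hi a1 a2 => ?_, fun w => ?_⟩
  · have : i ≠ e := fun hc => hk (by rw [← ha.1, ← hc]; exact a1)
    rw [getD_set (hl ▸ he), if_neg this]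
    exact h3 i hi a1.succ a2.succ
  · rw [ex_set hl he, h4, ha.1, Nat.cast_sub (by omega)]
    split_ifs <;> ring

theorem Inv.start {t : ℕ} (hx : x ∈ bx N.E lo hi) (ht : Rch N lo hi x Δ N.V t) :
    Inv N lo hi x Δ t N.V (x, t) :=
  ⟨hx, ht, fun _ _ _ _ => rfl, fun w => by simp⟩

theorem Inv.final {t : ℕ} {s : List ℕ × ℕ} (h : Inv N lo hi x Δ t 0 s) (hΔ : 1 ≤ Δ)
    (ht : ex N x t ≤ -Δ) : Psi N s.1 + Δ ≤ Psi N x := by
  obtain ⟨-, ⟨h1, h2⟩, -, h4⟩ := h
  have h5 : ∑ w ∈ range N.V, (if s.2 = w then (Δ : ℤ) else 0) = Δ := by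
    rw [Finset.sum_ite_eq, if_pos (Finset.mem_range.2 h1)]
  rw [← h5, Psi, Psi, ← Finset.sum_add_distrib]
  refine Finset.sum_le_sum fun w _ => ?_
  rw [h4]
  split_ifs with a1 a2 a2
  · subst a1; rw [a2] at h2; omega
  · subst a1; omega
  · subst a2; omega
  · omega

end Flow

end Crest.Agent.R309
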