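import Crest.Agent.R309.Net
import Crest.Agent.R309.FlowM

/-! Row 309: feasibility of integer flows in polynomial time. -/

set_option autoImplicit false

namespace Crest.Agent.R309

open Crest.Agent.PT Crest.Enc Finset

namespace Flow

/-- one round of the search -/
def nxt (N : Net) (lo hi x : List ℕ) (Δ : ℕ) (T : Word) (w : ℕ) : Prop :=
  T.getD w false = true ∨ ∃ e < N.E,
    (N.d e = w ∧ x.getD e 0 + Δ ≤ hi.getD e 0 ∧ T.getD (N.s e) false = true) ∨
    (N.s e = w ∧ lo.getD e 0 + Δ ≤ x.getD e 0 ∧ T.getD (N.d e) false = true)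

instance (N : Net) (lo hi x : List ℕ) (Δ : ℕ) (T : Word) (w : ℕ) :
    Decidable (nxt N lo hi x Δ T w) := by unfold nxt; infer_instance

/-- the table of the vertices reached in `k` rounds -/
def tab (N : Net) (lo hi x : List ℕ) (Δ k : ℕ) : Word :=
  (fun T => (List.range N.V).map fun w => decide (nxt N lo hi x Δ T w))^[k]
    ((List.range N.V).map fun w => decide ((Δ : ℤ) ≤ ex N x w))

theorem tab_iff (N : Net) (lo hi x : List ℕ) (Δ k : ℕ) :
    ∀ w, (tab N lo hi x Δ k).getD w false = true ↔ Rch N lo hi x Δ k w := by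
  induction k with
  | zero => intro w; simp only [tab, Function.iterate_zero, id, getD_rangeMap, Rch]; simp
  | succ k ih =>
    intro w
    have : tab N lo hi x Δ (k + 1) =
        (List.range N.V).map fun w => decide (nxt N lo hi x Δ (tab N lo hi x Δ k) w) :=
      Function.iterate_succ_apply' _ _ _
    rw [this, getD_rangeMap, Bool.and_eq_true, decide_eq_true_eq, decide_eq_true_eq]
    simp only [nxt, ih, Rch]

section pt
variable {α : Type} [Rp α]

@[fun_prop] theorem ptime_ex {f : α → Net} {x : α → List ℕ} {w : α → ℕ} (hf : PTime f)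
    (hx : PTime x) (hw : PTime w) : PTime fun a => ex (f a) (x a) (w a) :=
  (Net.ptime_b hf hw).isub (Net.ptime_dv (p := fun a e => ((x a).getD e 0 : ℤ)) hf
    ((getDN (hx.comp PTime.fst') (PTime.val PTime.snd')).natCast) hw)

theorem ptime_Psi {f : α → Net} {x : α → List ℕ} (hf : PTime f) (hx : PTime x) :
    PTime fun a => Psi (f a) (x a) := by
  unfold Psi
  refine PTime.isum_range (g := fun a w => max (ex (f a) (x a) w) 0) (Net.pu_V hf) ?_
  exact (ptime_ex (hf.comp PTime.fst') (hx.comp PTime.fst')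
    (PTime.val PTime.snd')).toNat.natCast.congr fun a => (Int.toNat_eq_max _).symm

theorem ptime_nxt {f : α → Net} {lo hi x : α → List ℕ} {Δ w : α → ℕ} {T : α → Word} (hf : PTime f)
    (h1 : PTime lo) (h2 : PTime hi) (hx : PTime x) (hΔ : PTime Δ) (hT : PTime T) (hw : PTime w) :
    PTime fun a => nxt (f a) (lo a) (hi a) (x a) (Δ a) (T a) (w a) := by
  unfold nxt
  refine PTime.or (by fun_prop) (PTime.exists_lt (c := fun a e =>
    ((f a).d e = w a ∧ (x a).getD e 0 + Δ a ≤ (hi a).getD e 0 ∧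
      (T a).getD ((f a).s e) false = true) ∨
    ((f a).s e = w a ∧ (lo a).getD e 0 + Δ a ≤ (x a).getD e 0 ∧
      (T a).getD ((f a).d e) false = true)) (Net.pu_E hf) (by fun_prop))

@[fun_prop] theorem ptime_Rch {f : α → Net} {lo hi x : α → List ℕ} {Δ k w : α → ℕ} (hf : PTime f)
    (h1 : PTime lo) (h2 : PTime hi) (hx : PTime x) (hΔ : PTime Δ) (hk : PU k) (hw : PTime w) :
    PTime fun a => Rch (f a) (lo a) (hi a) (x a) (Δ a) (k a) (w a) := by
  have hT : PTime fun a => tab (f a) (lo a) (hi a) (x a) (Δ a) (k a) :=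
    PTime.iter_table (g := fun a T w => decide (nxt (f a) (lo a) (hi a) (x a) (Δ a) T w))
      (Net.pu_V hf) hk
      (PTime.rangeMap (g := fun a w => decide ((Δ a : ℤ) ≤ ex (f a) (x a) w)) (Net.pu_V hf)
        (by fun_prop))
      (PTime.decide (ptime_nxt (by fun_prop) (by fun_prop) (by fun_prop) (by fun_prop)
        (by fun_prop) (by fun_prop) (by fun_prop)))
  exact (hT.getD hw (PTime.const false)).of_bool fun a => (tab_iff _ _ _ _ _ _ _).symm

end pt

theorem sz_bx {E : ℕ} {lo hi y : List ℕ} (h : y ∈ bx E lo hi) : sz y ≤ E * (2 * sz hi + 2) := by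
  obtain ⟨h1, h2⟩ := mem_bx.1 h
  rw [← h1]
  refine szN_le fun v hv => ?_
  obtain ⟨i, hi', rfl⟩ := List.getElem_of_mem hv
  have := (h2 i (h1 ▸ hi')).2
  rw [List.getD_eq_getElem _ _ hi'] at this
  exact this.trans_lt (getD_lt_szN hi i)

/-- instance, pseudo-flow and scale -/
abbrev Ix := (Net × List ℕ × List ℕ) × List ℕ × ℕ

/-- the residual arcs into the current vertex -/
def arcF (a : Ix) (cur k e : ℕ) : Prop :=
  a.1.1.d e = cur ∧ a.2.1.getD e 0 + a.2.2 ≤ a.1.2.2.getD e 0 ∧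
    Rch a.1.1 a.1.2.1 a.1.2.2 a.2.1 a.2.2 k (a.1.1.s e)
def arcB (a : Ix) (cur k e : ℕ) : Prop :=
  a.1.1.s e = cur ∧ a.1.2.1.getD e 0 + a.2.2 ≤ a.2.1.getD e 0 ∧
    Rch a.1.1 a.1.2.1 a.1.2.2 a.2.1 a.2.2 k (a.1.1.d e)

theorem exists_back : ∃ st : Ix → List ℕ × ℕ → ℕ → List ℕ × ℕ,
    (PTime fun p : Ix × (List ℕ × ℕ) × Un => st p.1 p.2.1 p.2.2.val) ∧
    (∀ a s k, st a s k = s ∨ ((st a s k).1 ∈ bx a.1.1.E a.1.2.1 a.1.2.2 ∧ (st a s k).2 ≤ a.1.1.V)) ∧
    ∀ a s k t, Inv a.1.1 a.1.2.1 a.1.2.2 a.2.1 a.2.2 t (k + 1) s →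
      Inv a.1.1 a.1.2.1 a.1.2.2 a.2.1 a.2.2 t k (st a s k) := by
  classical
  obtain ⟨g, hg, hg'⟩ := PU.find_lt (α := Ix × (List ℕ × ℕ) × Un) (n := fun p => p.1.1.1.E)
    (c := fun p e => arcF p.1 p.2.1.2 p.2.2.val e ∨ arcB p.1 p.2.1.2 p.2.2.val e) (by fun_prop)
    (by unfold arcF arcB; fun_prop)
  have hg1 := hg.ptime
  let cand : Ix × (List ℕ × ℕ) × Un → List ℕ × ℕ := fun p =>
    if Rch p.1.1.1 p.1.1.2.1 p.1.1.2.2 p.1.2.1 p.1.2.2 p.2.2.val p.2.1.2 then p.2.1
    else if arcF p.1 p.2.1.2 p.2.2.val (g p) then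
      (p.2.1.1.set (g p) (p.2.1.1.getD (g p) 0 + p.1.2.2), p.1.1.1.s (g p))
    else (p.2.1.1.set (g p) (p.2.1.1.getD (g p) 0 - p.1.2.2), p.1.1.1.d (g p))
  have hc : PTime cand := by unfold cand arcF; fun_prop
  refine ⟨fun a s k => if (cand (a, s, ⟨k⟩)).1 ∈ bx a.1.1.E a.1.2.1 a.1.2.2 ∧
    (cand (a, s, ⟨k⟩)).2 ≤ a.1.1.V then cand (a, s, ⟨k⟩) else s, ?_, fun a s k => ?_,
    fun a s k t h => ?_⟩
  · show PTime fun p : Ix × (List ℕ × ℕ) × Un => if (cand p).1 ∈ bx p.1.1.1.E p.1.1.2.1 p.1.1.2.2 ∧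
      (cand p).2 ≤ p.1.1.1.V then cand p else p.2.1
    fun_prop
  · beta_reduce
    split_ifs with h
    · exact Or.inr h
    · exact Or.inl rfl
  · have key : Inv a.1.1 a.1.2.1 a.1.2.2 a.2.1 a.2.2 t k (cand (a, s, ⟨k⟩)) := by
      obtain ⟨h1, h2, h3⟩ := hg' (a, s, ⟨k⟩)
      simp only [cand]
      split_ifs with c1 c2
      · exact h.stay c1
      all_goals
        obtain ⟨e, he, ha⟩ := h.2.1.2.resolve_left c1
        have h4 : g (a, s, ⟨k⟩) < a.1.1.E := by
          by_contra hc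
          exact h2 e (by omega) ha
      · exact h.fw c1 h4 c2
      · exact h.bw c1 h4 ((h3 h4).resolve_left c2)
    beta_reduce
    rw [if_pos ⟨key.1, key.2.1.lt.le⟩]
    exact key

theorem pb_bx : PB fun a : Ix => a.1.1.E * (2 * sz a.1.2.2 + 2) :=
  (show PU fun a : Ix => a.1.1.E by fun_prop).pb.mul
    (((PB.const 2).mul (show PTime fun a : Ix => a.1.2.2 by fun_prop).sz).add (PB.const 2))

theorem exists_aug : ∃ aug : Ix → List ℕ, PTime aug ∧
    (∀ a, aug a = a.2.1 ∨ aug a ∈ bx a.1.1.E a.1.2.1 a.1.2.2) ∧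
    ∀ (N : Net) (lo hi x : List ℕ) (Δ : ℕ), N.WF → (N.flows lo hi).Nonempty → x ∈ bx N.E lo hi →
      1 ≤ Δ → Psi N (aug ((N, lo, hi), x, Δ)) ≤ Psi N x ∧
        (Psi N (aug ((N, lo, hi), x, Δ)) ≤ (N.E + N.V) * ((Δ : ℤ) - 1) ∨
          Psi N (aug ((N, lo, hi), x, Δ)) + Δ ≤ Psi N x) := by
  classical
  obtain ⟨st, h1, h2, h3⟩ := exists_back
  obtain ⟨t, ht, ht'⟩ := PU.find_lt (α := Ix) (n := fun a => a.1.1.V)
    (c := fun a w => Rch a.1.1 a.1.2.1 a.1.2.2 a.2.1 a.2.2 a.1.1.V w ∧ ex a.1.1 a.2.1 w ≤ -a.2.2)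
    (by fun_prop) (by fun_prop)
  have ht1 := ht.ptime
  let F : Ix → ℕ → List ℕ × ℕ := fun a j =>
    Nat.rec (a.2.1, t a) (fun j s => st a s (a.1.1.V - (j + 1))) j
  have hF : ∀ a j, ((F a j).1 = a.2.1 ∨ (F a j).1 ∈ bx a.1.1.E a.1.2.1 a.1.2.2) ∧
      (F a j).2 ≤ a.1.1.V := by
    intro a j
    induction j with
    | zero => exact ⟨Or.inl rfl, (ht' a).1⟩
    | succ j ih =>
      rcases h2 a (F a j) (a.1.1.V - (j + 1)) with h | h
      · show ((st a (F a j) _).1 = _ ∨ (st a (F a j) _).1 ∈ _) ∧ (st a (F a j) _).2 ≤ _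
        rw [h]; exact ih
      · exact ⟨Or.inr h.1, h.2⟩
  have hV : PU fun a : Ix => a.1.1.V := by fun_prop
  have hP : PTime fun a => F a a.1.1.V := by
    refine PTime.loop F (fun a s j => st a s (a.1.1.V - (j + 1))) hV
      (show PTime fun a : Ix => (a.2.1, t a) by fun_prop)
      (h1.comp (f := fun p : Ix × (List ℕ × ℕ) × Un =>
        (p.1, p.2.1, Un.mk (p.1.1.1.V - (p.2.2.val + 1)))) (by fun_prop))
      (fun _ _ _ => rfl)
      ((pb_bx.add (show PTime fun a : Ix => a.2.1 by fun_prop).sz).add hV.pb) fun a j _ => ?_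
    obtain ⟨a1, a2⟩ := hF a j
    rw [← Prod.mk.eta (p := F a j), sz_prod]
    refine Nat.add_le_add ?_ ((sz_nat_le_self _).trans a2)
    rcases a1 with a1 | a1
    · rw [a1]; omega
    · exact (sz_bx a1).trans (by omega)
  have hP1 := hP.fst
  refine ⟨fun a => if t a < a.1.1.V then (F a a.1.1.V).1 else a.2.1, by fun_prop, fun a => ?_,
    fun N lo hi x Δ hN ⟨p, hp⟩ hx hΔ => ?_⟩
  · beta_reduce
    split_ifs
    · exact (hF a _).1
    · exact Or.inl rfl
  · obtain ⟨b1, b2, b3⟩ := ht' ((N, lo, hi), x, Δ)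
    beta_reduce
    split_ifs with h
    · have hI : ∀ j ≤ N.V, Inv N lo hi x Δ (t ((N, lo, hi), x, Δ)) (N.V - j)
          (F ((N, lo, hi), x, Δ) j) := by
        intro j
        induction j with
        | zero => exact fun _ => Inv.start hx (b3 h).1
        | succ j ih =>
          intro hj
          have := ih (by omega)
          rw [show N.V - j = N.V - (j + 1) + 1 by omega] at this
          exact h3 ((N, lo, hi), x, Δ) _ _ _ this
      have := hI N.V le_rfl
      rw [Nat.sub_self] at this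
      have h4 := this.final hΔ (b3 h).2
      exact ⟨le_trans (le_add_of_nonneg_right (Nat.cast_nonneg _)) h4, Or.inr h4⟩
    · exact ⟨le_rfl, Or.inl (stuck hN hp hΔ fun w hw => b2 w (by simp only at h b1 ⊢; omega))⟩

theorem exists_phase : ∃ ph : Ix → List ℕ, PTime ph ∧
    (∀ a, ph a = a.2.1 ∨ ph a ∈ bx a.1.1.E a.1.2.1 a.1.2.2) ∧
    ∀ (N : Net) (lo hi x : List ℕ) (Δ : ℕ), N.WF → (N.flows lo hi).Nonempty → x ∈ bx N.E lo hi →
      1 ≤ Δ → Psi N x < (2 * (N.E + N.V) + 1) * (Δ : ℤ) →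
      Psi N (ph ((N, lo, hi), x, Δ)) ≤ (N.E + N.V) * ((Δ : ℤ) - 1) := by
  obtain ⟨aug, h1, h2, h3⟩ := exists_aug
  have hI : ∀ (a : Ix) (n : ℕ), (fun y => aug (a.1, y, a.2.2))^[n] a.2.1 = a.2.1 ∨
      (fun y => aug (a.1, y, a.2.2))^[n] a.2.1 ∈ bx a.1.1.E a.1.2.1 a.1.2.2 := by
    intro a n
    induction n with
    | zero => exact Or.inl rfl
    | succ n ih =>
      rw [Function.iterate_succ_apply']
      rcases h2 (a.1, (fun y => aug (a.1, y, a.2.2))^[n] a.2.1, a.2.2) with h | h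
      · rw [h]; exact ih
      · exact Or.inr h
  refine ⟨fun a => (fun y => aug (a.1, y, a.2.2))^[2 * (a.1.1.E + a.1.1.V) + 1] a.2.1, ?_,
    fun a => hI a _, fun N lo hi x Δ hN hp hx hΔ hΨ => ?_⟩
  · refine PTime.iter (step := fun (a : Ix) y => aug (a.1, y, a.2.2)) (by fun_prop) (by fun_prop)
      (by fun_prop) (pb_bx.add (show PTime fun a : Ix => a.2.1 by fun_prop).sz) fun a k _ => ?_
    rcases hI a k with h | h
    · rw [h]; omega
    · exact (sz_bx h).trans (by omega)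
  · have key : ∀ n : ℕ, Psi N ((fun y => aug ((N, lo, hi), y, Δ))^[n] x) ≤
        (N.E + N.V) * ((Δ : ℤ) - 1) ∨
        Psi N ((fun y => aug ((N, lo, hi), y, Δ))^[n] x) + n * (Δ : ℤ) ≤ Psi N x := by
      intro n
      induction n with
      | zero => exact Or.inr (by simp)
      | succ n ih =>
        have hy : (fun y => aug ((N, lo, hi), y, Δ))^[n] x ∈ bx N.E lo hi := by
          rcases hI ((N, lo, hi), x, Δ) n with h | h
          · simp only at h; rw [h]; exact hx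
          · exact h
        rw [Function.iterate_succ_apply']
        obtain ⟨c1, c2⟩ := h3 N lo hi _ Δ hN hp hy hΔ
        rcases ih with ih | ih
        · exact Or.inl (c1.trans ih)
        · rcases c2 with c2 | c2
          · exact Or.inl c2
          · right; push_cast; linarith
    rcases key (2 * (N.E + N.V) + 1) with h | h
    · exact h
    · have := Psi_nonneg N ((fun y => aug ((N, lo, hi), y, Δ))^[2 * (N.E + N.V) + 1] x)
      push_cast at h
      linarith

end Flow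

open _root_.Crest.Agent.R309.Flow in
theorem exists_feas : ∃ feas : Net × List ℕ × List ℕ → List ℕ, PTime feas ∧
    ∀ (N : Net) (lo hi : List ℕ), N.WF →
      (feas (N, lo, hi) = [] ∧ N.flows lo hi = ∅) ∨
        ∃ p ∈ N.flows lo hi, feas (N, lo, hi) = 1 :: p := by
  obtain ⟨ph, h1, h2, h3⟩ := exists_phase
  let x0 : Net × List ℕ × List ℕ → List ℕ := fun b => (List.range b.1.E).map fun e => b.2.1.getD e 0
  have hx0 : PTime x0 := rangeMapN (g := fun (b : Net × List ℕ × List ℕ) e => b.2.1.getD e 0)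
    (by fun_prop) (by fun_prop)
  let K : Net × List ℕ × List ℕ → ℕ := fun b => (Psi b.1 (x0 b)).toNat.size
  have hK : PU K := PU.size (ptime_Psi PTime.fst' hx0).toNat
  let F : Net × List ℕ × List ℕ → ℕ → List ℕ := fun b j =>
    Nat.rec (x0 b) (fun j y => ph (b, y, 2 ^ (K b - j))) j
  have hF : ∀ b j, F b j = x0 b ∨ F b j ∈ bx b.1.E b.2.1 b.2.2 := by
    intro b j
    induction j with
    | zero => exact Or.inl rfl
    | succ j ih =>
      rcases h2 (b, F b j, 2 ^ (K b - j)) with h | h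
      · show ph _ = _ ∨ ph _ ∈ _
        rw [h]; exact ih
      · exact Or.inr h
  have hP : PTime fun b => F b (K b + 1) := by
    refine PTime.loop F (fun b y j => ph (b, y, 2 ^ (K b - j))) (n := fun b => K b + 1)
      (by fun_prop) hx0 (by fun_prop) (fun _ _ _ => rfl)
      ((pb_bx.comp (f := fun b : Net × List ℕ × List ℕ => ((b, [], 0) : Ix)) (by fun_prop)).add
        hx0.sz) fun b j _ => ?_
    rcases hF b j with h | h
    · rw [h]; omega
    · exact (sz_bx h).trans (Nat.le_add_right _ _)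
  refine ⟨fun b => if F b (K b + 1) ∈ b.1.flows b.2.1 b.2.2 then 1 :: F b (K b + 1) else [],
    PTime.ite (Net.ptime_mem_flows PTime.fst' PTime.snd'.fst PTime.snd'.snd hP)
      (consN (PTime.const 1) hP) (PTime.const []), fun N lo hi hN => ?_⟩
  beta_reduce
  split_ifs with h
  · exact Or.inr ⟨_, h, rfl⟩
  refine Or.inl ⟨rfl, ?_⟩
  by_contra hne
  have hp := Finset.nonempty_iff_ne_empty.2 hne
  obtain ⟨p, hp'⟩ := id hp
  have hx : x0 (N, lo, hi) ∈ bx N.E lo hi := by
    refine mem_bx.2 ⟨by simp [x0], fun i hi' => ?_⟩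
    have e : (x0 (N, lo, hi)).getD i 0 = lo.getD i 0 := by
      simp [x0, List.getD_eq_getElem?_getD, hi']
    have := (mem_bx.1 (Net.mem_flows.1 hp').1).2 i hi'
    omega
  have hb : ∀ j, F (N, lo, hi) j ∈ bx N.E lo hi := fun j => by
    rcases hF (N, lo, hi) j with h | h
    · rw [h]; exact hx
    · exact h
  have hEV : (0 : ℤ) ≤ N.E + N.V := by positivity
  have key : ∀ j ≤ K (N, lo, hi), Psi N (F (N, lo, hi) j) <
      (2 * (N.E + N.V) + 1) * ((2 ^ (K (N, lo, hi) - j) : ℕ) : ℤ) := by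
    intro j
    induction j with
    | zero =>
      intro _
      have a1 : (Psi N (x0 (N, lo, hi))).toNat < 2 ^ K (N, lo, hi) := Nat.lt_size_self _
      have a2 : Psi N (x0 (N, lo, hi)) < ((2 ^ K (N, lo, hi) : ℕ) : ℤ) := by omega
      have a3 : (0 : ℤ) ≤ ((2 ^ K (N, lo, hi) : ℕ) : ℤ) := by positivity
      show Psi N (x0 (N, lo, hi)) < _
      rw [Nat.sub_zero]
      nlinarith
    | succ j ih =>
      intro hj
      have a1 := h3 N lo hi _ _ hN hp (hb j) Nat.one_le_two_pow (ih (by omega))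
      have a2 : 2 ^ (K (N, lo, hi) - j) = 2 * 2 ^ (K (N, lo, hi) - (j + 1)) := by
        rw [← pow_succ']; congr 1; omega
      have a3 : (0 : ℤ) < ((2 ^ (K (N, lo, hi) - (j + 1)) : ℕ) : ℤ) := by positivity
      refine lt_of_le_of_lt a1 ?_
      rw [a2, Nat.cast_mul]
      push_cast at a3 ⊢
      nlinarith
  have a1 := h3 N lo hi _ _ hN hp (hb _) Nat.one_le_two_pow (key _ le_rfl)
  refine h (flow_of_Psi hN hp' (hb (K (N, lo, hi) + 1)) (le_trans a1 ?_))
  simp

/-- `[]` if there is no flow, else `1 :: p` for a flow `p` -/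
noncomputable def feas : Net × List ℕ × List ℕ → List ℕ := exists_feas.choose

theorem ptime_feas : PTime feas := exists_feas.choose_spec.1

theorem feas_spec {N : Net} (lo hi : List ℕ) (h : N.WF) :
    (feas (N, lo, hi) = [] ∧ N.flows lo hi = ∅) ∨ ∃ p ∈ N.flows lo hi, feas (N, lo, hi) = 1 :: p :=
  exists_feas.choose_spec.2 N lo hi h

end Crest.Agent.R309
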