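import Crest.Agent.R309.Lor

/-! Row 309: the key inequality. -/

set_option autoImplicit false

namespace Crest.Agent.R309

open Finset

/-- first-order action of the direction vector `u` -/
def act1 (D : Finset (ℕ × Bool)) (u : ℕ × Bool → ℝ) (c : Cfg → ℝ) (β : Cfg) : ℝ :=
  ∑ i ∈ D, u i * c (β + uv i)

/-- `N_v(u)` -/
noncomputable def Nv (D : Finset (ℕ × Bool)) (s : ℕ → ℕ) (l : List ℕ) (c : Cfg → ℝ)
    (u : ℕ × Bool → ℝ) (v : ℕ) (α : Cfg) : ℝ :=
  -TL s (l.erase v) (fun β => ∑ j ∈ range (s v), (((j : ℝ) + 1) * ((s v : ℝ) - j) / 2) *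
    act1 D u (act1 D u c) (β + j • uv (v, true) + (s v - 1 - j) • uv (v, false))) α

/-- the energy of `g` in the direction of the bundle `v` -/
noncomputable def Ev (s : ℕ → ℕ) (l : List ℕ) (c g : Cfg → ℝ) (v : ℕ) (α : Cfg) : ℝ :=
  TL s (l.erase v) (fun β => ∑ j ∈ range (s v),
    c (β + (j + 1) • uv (v, true) + (s v - j) • uv (v, false)) *
      (g (β + (j + 1) • uv (v, true) + (s v - j - 1) • uv (v, false)) -
        g (β + j • uv (v, true) + (s v - j) • uv (v, false))) ^ 2) α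

namespace KeyX

/-- the point `α + i x_w + k y_w` -/
def pt (w : ℕ) (α : Cfg) (i k : ℕ) : Cfg := α + i • uv (w, true) + k • uv (w, false)

theorem pt_x (w : ℕ) (α : Cfg) (i k : ℕ) : pt w α i k + uv (w, true) = pt w α (i + 1) k := by
  simp only [pt, add_smul, one_smul]; abel

theorem pt_y (w : ℕ) (α : Cfg) (i k : ℕ) : pt w α i k + uv (w, false) = pt w α i (k + 1) := by
  simp only [pt, add_smul, one_smul]; abel

theorem pt_comm (v w : ℕ) (α : Cfg) (i k i' k' : ℕ) :
    pt v (pt w α i k) i' k' = pt w (pt v α i' k') i k := by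
  simp only [pt]; abel

theorem pt_ne {w : ℕ} (α : Cfg) (i k : ℕ) {p : ℕ × Bool} (h : p.1 ≠ w) : pt w α i k p = α p := by
  have h1 : p ≠ (w, true) := fun e => h (by rw [e])
  have h2 : p ≠ (w, false) := fun e => h (by rw [e])
  simp [pt, uv, Pi.single_eq_of_ne h1, Pi.single_eq_of_ne h2]

theorem pt_le {w U s : ℕ} {α : Cfg} (hα : ∀ i, α i ≤ U) (hs : ∀ b, α (w, b) + s ≤ U) {i k : ℕ}
    (hi : i ≤ s) (hk : k ≤ s) (p : ℕ × Bool) : pt w α i k p ≤ U := by
  obtain ⟨e, b⟩ := p
  by_cases h : e = w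
  · subst h
    have := hs b
    cases b <;> simp [pt, uv] <;> omega
  · rw [pt_ne α i k h]; exact hα _

theorem TL_pt (s : ℕ → ℕ) (l : List ℕ) (F : Cfg → ℝ) (w : ℕ) (α : Cfg) (i k : ℕ) :
    TL s l (fun β => F (pt w β i k)) α = TL s l F (pt w α i k) := by
  have := TL_shift s l F α (i • uv (w, true) + k • uv (w, false))
  simpa only [pt, add_assoc] using this

theorem TL_cons (s : ℕ → ℕ) (w : ℕ) (l : List ℕ) (F : Cfg → ℝ) (α : Cfg) :
    TL s (w :: l) F α = ∑ a ∈ range (s w + 1), TL s l F (pt w α a (s w - a)) := rfl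

theorem TL_act1 (s : ℕ → ℕ) (l : List ℕ) (D : Finset (ℕ × Bool)) (u : ℕ × Bool → ℝ)
    (F : Cfg → ℝ) : TL s l (act1 D u F) = act1 D u (TL s l F) := by
  funext α
  show TL s l (fun β => ∑ i ∈ D, u i * F (β + uv i)) α = ∑ i ∈ D, u i * TL s l F (α + uv i)
  rw [TL_sum s l D (fun i β => u i * F (β + uv i))]
  refine Finset.sum_congr rfl fun i _ => ?_
  rw [TL_mul_left s l (u i) (fun β => F (β + uv i)), TL_shift]

theorem TL_sub (s : ℕ → ℕ) (l : List ℕ) (F G : Cfg → ℝ) (α : Cfg) :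
    TL s l (fun β => F β - G β) α = TL s l F α - TL s l G α := by
  have h1 := TL_add s l F (fun β => (-1) * G β) α
  rw [TL_mul_left] at h1
  simpa only [neg_one_mul, sub_eq_add_neg] using h1

/-- the corrected direction `u + a x_w - b y_w` -/
def cor (w : ℕ) (u : ℕ × Bool → ℝ) (a b : ℝ) : ℕ × Bool → ℝ := fun i =>
  u i + (if i = (w, true) then a else 0) - (if i = (w, false) then b else 0)

theorem act1_cor {D : Finset (ℕ × Bool)} {w : ℕ} (hw : ∀ b, (w, b) ∈ D) (u : ℕ × Bool → ℝ)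
    (a b : ℝ) (F : Cfg → ℝ) (β : Cfg) :
    act1 D (cor w u a b) F β
      = act1 D u F β + a * F (β + uv (w, true)) - b * F (β + uv (w, false)) := by
  simp only [act1, cor, add_mul, sub_mul, Finset.sum_add_distrib, Finset.sum_sub_distrib, ite_mul,
    zero_mul, Finset.sum_ite_eq', hw, if_true]

theorem act1_shift (D : Finset (ℕ × Bool)) (u : ℕ × Bool → ℝ) (F : Cfg → ℝ) (β γ : Cfg) :
    act1 D u (fun β => F (β + γ)) β = act1 D u F (β + γ) := by
  simp only [act1]
  refine Finset.sum_congr rfl fun i _ => ?_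
  rw [add_right_comm]

theorem act2_cor {D : Finset (ℕ × Bool)} {w : ℕ} (hw : ∀ b, (w, b) ∈ D) (u : ℕ × Bool → ℝ)
    (a b : ℝ) (F : Cfg → ℝ) (α : Cfg) (i k : ℕ) :
    act1 D (cor w u a b) (act1 D (cor w u a b) F) (pt w α i k)
      = act1 D u (act1 D u F) (pt w α i k) + (2 * a * act1 D u F (pt w α (i + 1) k)
        - 2 * b * act1 D u F (pt w α i (k + 1)) + a ^ 2 * F (pt w α (i + 2) k)
        - 2 * a * b * F (pt w α (i + 1) (k + 1)) + b ^ 2 * F (pt w α i (k + 2))) := by
  have e : act1 D u (act1 D (cor w u a b) F) (pt w α i k)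
      = act1 D u (act1 D u F) (pt w α i k) + a * act1 D u F (pt w α (i + 1) k)
        - b * act1 D u F (pt w α i (k + 1)) := by
    rw [← pt_x, ← pt_y, ← act1_shift D u F, ← act1_shift D u F,
      show act1 D (cor w u a b) F = fun β => act1 D u F β + a * F (β + uv (w, true))
        - b * F (β + uv (w, false)) from funext (act1_cor hw u a b F)]
    generalize act1 D u F = G
    simp only [act1, mul_add, mul_sub, Finset.sum_add_distrib, Finset.sum_sub_distrib,
      Finset.mul_sum, mul_left_comm]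
  rw [act1_cor hw, e]
  simp only [act1_cor hw, pt_x, pt_y]
  ring

theorem tele_nonneg (s : ℕ) (φ A T : ℕ → ℝ) (h0 : φ 0 = 0) (h1 : φ (s + 1) = 0)
    (hT : ∀ i, 0 ≤ T i) :
    0 ≤ ∑ a ∈ range (s + 1), (2 * φ (a + 1) * A (a + 1) - 2 * φ a * A a
      + φ (a + 1) ^ 2 * T (a + 2) - 2 * φ (a + 1) * φ a * T (a + 1) + φ a ^ 2 * T a) := by
  have h := Finset.sum_range_sub (fun a => 2 * φ a * A a + φ a ^ 2 * (T (a + 1) - T a)) (s + 1)
  simp only [h0, h1] at h
  have h2 : (0 : ℝ) ≤ ∑ a ∈ range (s + 1), T (a + 1) * (φ (a + 1) - φ a) ^ 2 :=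
    Finset.sum_nonneg fun a _ => mul_nonneg (hT _) (sq_nonneg _)
  refine h2.trans_eq ?_
  rw [← sub_eq_zero, ← Finset.sum_sub_distrib, ← neg_eq_zero, ← Finset.sum_neg_distrib]
  refine Eq.trans (Finset.sum_congr rfl fun a _ => ?_) (h.trans (by ring))
  ring

theorem by_parts (s : ℕ) (E : ℕ → ℝ) (h0 : E 0 = 0) (h1 : E (s + 1) = 0) :
    ∑ j ∈ range s, (((j : ℝ) + 1) * ((s : ℝ) - j) / 2) * (2 * E (j + 1) - E (j + 2) - E j)
      = ∑ j ∈ range s, E (j + 1) := by
  have h := Finset.sum_range_sub (fun j : ℕ => (((j : ℝ) + 1) * ((s : ℝ) - j) / 2) * E j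
    - ((j : ℝ) * ((s : ℝ) - j + 1) / 2) * E (j + 1)) s
  simp only [h0, h1] at h
  rw [← sub_eq_zero, ← Finset.sum_sub_distrib]
  refine Eq.trans (Finset.sum_congr rfl fun a _ => ?_) (h.trans (by simp))
  push_cast
  ring

/-- summing the corrected second-order actions over a bundle can only increase them -/
theorem sum_act2_le {D : Finset (ℕ × Bool)} {w : ℕ} (hw : ∀ b, (w, b) ∈ D) (u : ℕ × Bool → ℝ)
    {c : Cfg → ℝ} (hpos : ∀ β, 0 < c β) (s : ℕ) (φ : ℕ → ℝ) (h0 : φ 0 = 0) (h1 : φ (s + 1) = 0)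
    (β : Cfg) :
    ∑ a ∈ range (s + 1), act1 D u (act1 D u c) (pt w β a (s - a)) ≤
      ∑ a ∈ range (s + 1), act1 D (cor w u (φ (a + 1)) (φ a))
        (act1 D (cor w u (φ (a + 1)) (φ a)) c) (pt w β a (s - a)) := by
  simp only [act2_cor hw]
  rw [Finset.sum_add_distrib, le_add_iff_nonneg_right]
  refine (tele_nonneg s φ (fun i => act1 D u c (pt w β i (s + 1 - i)))
    (fun i => c (pt w β i (s + 2 - i))) h0 h1 fun i => (hpos _).le).trans_eq ?_
  refine Finset.sum_congr rfl fun a ha => ?_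
  have ha' : a ≤ s := Nat.lt_succ_iff.1 (Finset.mem_range.1 ha)
  rw [show s + 1 - (a + 1) = s - a by omega, show s + 1 - a = s - a + 1 by omega,
    show s + 2 - (a + 2) = s - a by omega, show s + 2 - (a + 1) = s - a + 1 by omega,
    show s + 2 - a = s - a + 2 by omega]

theorem Nv_eq (D : Finset (ℕ × Bool)) (s : ℕ → ℕ) (l : List ℕ) (c : Cfg → ℝ)
    (u : ℕ × Bool → ℝ) (v : ℕ) (α : Cfg) :
    Nv D s l c u v α = -TL s (l.erase v) (fun β => ∑ j ∈ range (s v),
      (((j : ℝ) + 1) * ((s v : ℝ) - j) / 2) * act1 D u (act1 D u c) (pt v β j (s v - 1 - j))) α :=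
  rfl

theorem Ev_eq (s : ℕ → ℕ) (l : List ℕ) (c g : Cfg → ℝ) (v : ℕ) (α : Cfg) :
    Ev s l c g v α = TL s (l.erase v) (fun β => ∑ j ∈ range (s v),
      c (pt v β (j + 1) (s v - j)) *
        (g (pt v β (j + 1) (s v - j - 1)) - g (pt v β j (s v - j))) ^ 2) α := rfl

theorem theta_nonneg {s j : ℕ} (hj : j ∈ range s) : 0 ≤ ((j : ℝ) + 1) * ((s : ℝ) - j) / 2 := by
  have : (j : ℝ) ≤ s := by exact_mod_cast (Finset.mem_range.1 hj).le
  have : (0 : ℝ) ≤ (s : ℝ) - j := by linarith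
  positivity

/-- the budgets of the other bundles -/
theorem sum_Nv_le {D : Finset (ℕ × Bool)} {w : ℕ} (hw : ∀ b, (w, b) ∈ D) (u : ℕ × Bool → ℝ)
    {c : Cfg → ℝ} (hpos : ∀ β, 0 < c β) (s : ℕ → ℕ) (φ : ℕ → ℝ) (h0 : φ 0 = 0)
    (h1 : φ (s w + 1) = 0) {l : List ℕ} (hl : l.Nodup) {v : ℕ} (hv : v ≠ w) (α : Cfg) :
    ∑ a ∈ range (s w + 1), Nv D s l c (cor w u (φ (a + 1)) (φ a)) v (pt w α a (s w - a)) ≤
      Nv D s (w :: l) c u v α := by
  simp only [Nv_eq]
  rw [List.erase_cons_tail (by simpa using hv.symm), TL_cons, Finset.sum_neg_distrib,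
    neg_le_neg_iff]
  simp only [← TL_pt s (l.erase v) _ w α]
  rw [← TL_sum, ← TL_sum]
  refine TL_mono (hl.erase v) fun β _ => ?_
  rw [Finset.sum_comm, Finset.sum_comm (s := range (s w + 1))]
  refine Finset.sum_le_sum fun j hj => ?_
  rw [← Finset.mul_sum, ← Finset.mul_sum]
  refine mul_le_mul_of_nonneg_left ?_ (theta_nonneg hj)
  simp only [pt_comm v w]
  exact sum_act2_le hw u hpos (s w) φ h0 h1 _

theorem sum_Ev (s : ℕ → ℕ) (c g : Cfg → ℝ) {w v : ℕ} (hv : v ≠ w) (l : List ℕ) (α : Cfg) :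
    ∑ a ∈ range (s w + 1), Ev s l c g v (pt w α a (s w - a)) = Ev s (w :: l) c g v α := by
  simp only [Ev_eq]
  rw [List.erase_cons_tail (by simpa using hv.symm), TL_cons]

/-- the budget of the split bundle -/
theorem head_le {D : Finset (ℕ × Bool)} {c : Cfg → ℝ} (hpos : ∀ β, 0 < c β) {U : ℕ}
    (hS : ∀ β : Cfg, (∀ i, β i ≤ U) → SL D c β) (s : ℕ → ℕ) (w : ℕ) (l : List ℕ)
    (hl : (w :: l).Nodup) (hD : ∀ e ∈ w :: l, ∀ b, (e, b) ∈ D) (α : Cfg)
    (hα : ∀ i, α i ≤ U) (hαs : ∀ e ∈ w :: l, ∀ b, α (e, b) + s e ≤ U) (u : ℕ × Bool → ℝ)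
    (hu : ∀ e ∈ w :: l, ∀ b, u (e, b) = 0) (φ : ℕ → ℝ) (h0 : φ 0 = 0) (h1 : φ (s w + 1) = 0)
    (hφ : ∀ a ≤ s w, act1 D u (TL s l c) (pt w α a (s w - a))
      = φ a * TL s l c (pt w α a (s w + 1 - a))
        - φ (a + 1) * TL s l c (pt w α (a + 1) (s w - a))) :
    ∑ j ∈ range (s w), φ (j + 1) ^ 2 * TL s l c (pt w α (j + 1) (s w - j)) ≤
      Nv D s (w :: l) c u w α := by
  classical
  have hwl : w ∉ l := (List.nodup_cons.1 hl).1
  have hl' : l.Nodup := (List.nodup_cons.1 hl).2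
  set D' := D.filter fun i => i.1 ∉ l with hD'
  have hw : ∀ b, (w, b) ∈ D' := fun b =>
    Finset.mem_filter.2 ⟨hD w List.mem_cons_self b, hwl⟩
  have hact : ∀ F : Cfg → ℝ, act1 D' u F = act1 D u F := by
    intro F
    funext β
    refine Finset.sum_filter_of_ne fun i _ hi hil => hi ?_
    rw [show u i = 0 from hu i.1 (List.mem_cons_of_mem _ hil) i.2, zero_mul]
  rw [Nv_eq, List.erase_cons_head, TL_sum s l (range (s w)) fun j β =>
    (((j : ℝ) + 1) * ((s w : ℝ) - j) / 2) * act1 D u (act1 D u c) (pt w β j (s w - 1 - j))]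
  have hE := by_parts (s w) (fun i => φ i ^ 2 * TL s l c (pt w α i (s w + 1 - i)))
    (by simp [h0]) (by simp [h1])
  simp only [Nat.add_sub_add_right] at hE
  rw [← hE, ← Finset.sum_neg_distrib]
  refine Finset.sum_le_sum fun j hj => ?_
  have hj' : j < s w := Finset.mem_range.1 hj
  rw [TL_mul_left, TL_pt s l (act1 D u (act1 D u c)), TL_act1, TL_act1, ← mul_neg]
  refine mul_le_mul_of_nonneg_left ?_ (theta_nonneg hj)
  have hC : ∀ β, 0 < TL s l c β := TL_pos hpos
  have hSL : SL D' (TL s l c) (pt w α j (s w - 1 - j)) := by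
    refine SL_TL hpos hl' (fun e he => hD e (List.mem_cons_of_mem _ he)) (Finset.filter_subset _ _)
      (fun i hi => (Finset.mem_filter.1 hi).2) fun β hβ => hS β fun i => ?_
    by_cases hi : i.1 ∈ l
    · obtain ⟨e, b⟩ := i
      have hew : e ≠ w := fun h => hwl (h ▸ hi)
      obtain ⟨a1, a2, a3⟩ := hβ.2 e hi
      rw [pt_ne α _ _ (p := (e, true)) hew] at a1 a3
      rw [pt_ne α _ _ (p := (e, false)) hew] at a2 a3
      have := hαs e (List.mem_cons_of_mem _ hi) b
      cases b <;> omega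
    · rw [hβ.1 i hi]
      exact pt_le hα (hαs w List.mem_cons_self) hj'.le (by omega) i
  generalize TL s l c = C at *
  have q1 := hφ j hj'.le
  have q2 := hφ (j + 1) hj'
  obtain ⟨k, hk⟩ : ∃ k, s w = j + 1 + k := ⟨s w - (j + 1), by omega⟩
  rw [show s w - j = k + 1 by omega, show s w + 1 - j = k + 2 by omega] at q1
  rw [show s w - (j + 1) = k by omega, show s w + 1 - (j + 1) = k + 1 by omega] at q2
  rw [show s w - 1 - j = k by omega] at hSL
  rw [show s w - 1 - j = k by omega, show s w - j = k + 1 by omega,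
    show s w + 1 - j = k + 2 by omega, show s w - (j + 1) = k by omega]
  have ho := hSL.orth hC (hw true) 0 (cor w u (φ (j + 2)) (φ (j + 1))) (by
    have e := act1_cor hw u (φ (j + 2)) (φ (j + 1)) C (pt w α j k + uv (w, true))
    rw [hact, pt_x, pt_x, pt_y, q2, ← pt_x, act1] at e
    simp only [add_right_comm _ (uv (w, true))] at e
    rw [zero_mul, zero_add]
    refine e.trans ?_
    ring)
  have e2 := act2_cor hw u (φ (j + 2)) (φ (j + 1)) C α j k
  rw [hact, hact, q1, q2] at e2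
  have e3 : act1 D' (cor w u (φ (j + 2)) (φ (j + 1)))
      (act1 D' (cor w u (φ (j + 2)) (φ (j + 1))) C) (pt w α j k) ≤ 0 := by
    refine le_of_eq_of_le ?_ ho
    simp only [act1, Finset.mul_sum, mul_assoc]
    simp
  rw [e2] at e3
  have h3 := mul_nonneg (hC (pt w α j (k + 2))).le (sq_nonneg (φ (j + 1) - φ j))
  nlinarith

end KeyX

open KeyX

theorem key_ineq {D : Finset (ℕ × Bool)} {c : Cfg → ℝ} (hpos : ∀ β, 0 < c β) {U : ℕ}
    (hS : ∀ β : Cfg, (∀ i, β i ≤ U) → SL D c β) (s : ℕ → ℕ) (g : Cfg → ℝ) (ω : ℕ → ℝ)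
    (hω : ∀ v, 0 < ω v) (l : List ℕ) (hl : l.Nodup) (hD : ∀ e ∈ l, ∀ b, (e, b) ∈ D) (α : Cfg)
    (hα : ∀ i, α i ≤ U) (hαs : ∀ e ∈ l, ∀ b, α (e, b) + s e ≤ U) (u : ℕ × Bool → ℝ)
    (hu : ∀ e ∈ l, ∀ b, u (e, b) = 0) (h0 : TL s l (act1 D u c) α = 0) :
    2 * TL s l (fun β => act1 D u c β * g β) α ≤
      ∑ v ∈ l.toFinset, (ω v * Nv D s l c u v α + Ev s l c g v α / ω v) := by
  induction l generalizing α u with
  | nil =>
    have h1 : act1 D u c α = 0 := h0
    show 2 * (act1 D u c α * g α) ≤ _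
    simp [h1]
  | cons w l ih =>
    have hwl : w ∉ l := (List.nodup_cons.1 hl).1
    have hl' : l.Nodup := (List.nodup_cons.1 hl).2
    have hw : ∀ b, (w, b) ∈ D := hD w List.mem_cons_self
    have hC : ∀ β, 0 < TL s l c β := TL_pos hpos
    rw [TL_cons, TL_act1] at h0
    obtain ⟨φ, hφ⟩ : ∃ φ : ℕ → ℝ, ∀ i, φ i * TL s l c (pt w α i (s w + 1 - i))
        = -∑ a ∈ range i, act1 D u (TL s l c) (pt w α a (s w - a)) :=
      ⟨fun i => -(∑ a ∈ range i, act1 D u (TL s l c) (pt w α a (s w - a)))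
        / TL s l c (pt w α i (s w + 1 - i)), fun i => div_mul_cancel₀ _ (hC _).ne'⟩
    have φ0 : φ 0 = 0 := by
      have := hφ 0
      rw [Finset.sum_range_zero, neg_zero] at this
      exact (mul_eq_zero.1 this).resolve_right (hC _).ne'
    have φ1 : φ (s w + 1) = 0 := by
      have := hφ (s w + 1)
      rw [h0, neg_zero] at this
      exact (mul_eq_zero.1 this).resolve_right (hC _).ne'
    have hσ : ∀ a ≤ s w, act1 D u (TL s l c) (pt w α a (s w - a))
        = φ a * TL s l c (pt w α a (s w + 1 - a))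
          - φ (a + 1) * TL s l c (pt w α (a + 1) (s w - a)) := by
      intro a _
      have h1 := hφ (a + 1)
      rw [Finset.sum_range_succ, Nat.add_sub_add_right] at h1
      rw [h1, hφ a]; ring
    -- the induction hypothesis on every slice
    have hIH : ∀ a ∈ range (s w + 1),
        2 * TL s l (fun β => act1 D (cor w u (φ (a + 1)) (φ a)) c β * g β) (pt w α a (s w - a)) ≤
          ∑ v ∈ l.toFinset, (ω v * Nv D s l c (cor w u (φ (a + 1)) (φ a)) v (pt w α a (s w - a))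
            + Ev s l c g v (pt w α a (s w - a)) / ω v) := by
      intro a ha
      have ha' : a ≤ s w := Nat.lt_succ_iff.1 (Finset.mem_range.1 ha)
      refine ih hl' (fun e he => hD e (List.mem_cons_of_mem _ he)) _
        (pt_le hα (hαs w List.mem_cons_self) ha' (Nat.sub_le _ _)) (fun e he b => ?_) _
        (fun e he b => ?_) ?_
      · have hew : e ≠ w := fun h => hwl (h ▸ he)
        rw [pt_ne α _ _ (p := (e, b)) hew]
        exact hαs e (List.mem_cons_of_mem _ he) b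
      · have hew : e ≠ w := fun h => hwl (h ▸ he)
        simp [cor, hew, hu e (List.mem_cons_of_mem _ he) b]
      · rw [TL_act1, act1_cor hw, pt_x, pt_y, hσ a ha', show s w - a + 1 = s w + 1 - a by omega]
        ring
    have hsum := Finset.sum_le_sum hIH
    rw [Finset.sum_comm] at hsum
    have hrest : ∑ v ∈ l.toFinset, ∑ a ∈ range (s w + 1),
        (ω v * Nv D s l c (cor w u (φ (a + 1)) (φ a)) v (pt w α a (s w - a))
          + Ev s l c g v (pt w α a (s w - a)) / ω v) ≤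
        ∑ v ∈ l.toFinset, (ω v * Nv D s (w :: l) c u v α + Ev s (w :: l) c g v α / ω v) := by
      refine Finset.sum_le_sum fun v hv => ?_
      have hvw : v ≠ w := fun h => hwl (h ▸ List.mem_toFinset.1 hv)
      rw [Finset.sum_add_distrib, ← Finset.mul_sum, ← Finset.sum_div, sum_Ev s c g hvw]
      exact add_le_add_left (mul_le_mul_of_nonneg_left
        (sum_Nv_le hw u hpos s φ φ0 φ1 hl' hvw α) (hω v).le) _
    -- the crossing terms
    have hsplit : ∀ a, TL s l (fun β => act1 D (cor w u (φ (a + 1)) (φ a)) c β * g β)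
          (pt w α a (s w - a))
        = TL s l (fun β => act1 D u c β * g β) (pt w α a (s w - a))
          + φ (a + 1) * TL s l (fun β => c (β + uv (w, true)) * g β) (pt w α a (s w - a))
          - φ a * TL s l (fun β => c (β + uv (w, false)) * g β) (pt w α a (s w - a)) := by
      intro a
      rw [← TL_mul_left, ← TL_mul_left, ← TL_add, ← TL_sub]
      congr 1
      funext β
      rw [act1_cor hw]; ring
    have hcross : ∀ j ∈ range (s w),
        2 * (φ (j + 1) * TL s l (fun β => c (β + uv (w, false)) * g β)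
            (pt w α (j + 1) (s w - (j + 1)))
          - φ (j + 1) * TL s l (fun β => c (β + uv (w, true)) * g β) (pt w α j (s w - j))) ≤
        ω w * (φ (j + 1) ^ 2 * TL s l c (pt w α (j + 1) (s w - j)))
          + TL s l (fun β => c (pt w β (j + 1) (s w - j)) *
            (g (pt w β (j + 1) (s w - j - 1)) - g (pt w β j (s w - j))) ^ 2) α / ω w := by
      intro j hj
      have hj' : j < s w := Finset.mem_range.1 hj
      rw [← TL_pt s l _ w α (j + 1) (s w - (j + 1)), ← TL_pt s l _ w α j (s w - j),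
        ← TL_pt s l c w α, ← TL_mul_left, ← TL_mul_left, ← TL_sub, ← TL_mul_left, ← TL_mul_left,
        ← TL_mul_left, div_eq_inv_mul, ← TL_mul_left, ← TL_add]
      refine TL_mono hl' fun β _ => ?_
      rw [pt_x, pt_y, show s w - (j + 1) + 1 = s w - j by omega,
        show s w - (j + 1) = s w - j - 1 by omega]
      have h1 := hpos (pt w β (j + 1) (s w - j))
      have h2 := hω w
      generalize c (pt w β (j + 1) (s w - j)) = x at h1 ⊢
      generalize g (pt w β (j + 1) (s w - j - 1)) = g1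
      generalize g (pt w β j (s w - j)) = g0
      generalize ω w = o at h2 ⊢
      have h3 : 0 ≤ o⁻¹ * (x * (o * φ (j + 1) - (g1 - g0)) ^ 2) := by positivity
      have h4 : o⁻¹ * (x * (o * φ (j + 1) - (g1 - g0)) ^ 2)
          = o * (φ (j + 1) ^ 2 * x) + o⁻¹ * (x * (g1 - g0) ^ 2)
            - 2 * (φ (j + 1) * (x * g1) - φ (j + 1) * (x * g0)) := by
        field_simp
        ring
      linarith
    have hc := Finset.sum_le_sum hcross
    rw [Finset.sum_add_distrib, ← Finset.mul_sum, ← Finset.mul_sum, ← Finset.sum_div,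
      ← TL_sum, Finset.sum_sub_distrib] at hc
    have hhead := mul_le_mul_of_nonneg_left
      (head_le hpos hS s w l hl hD α hα hαs u hu φ φ0 φ1 hσ) (hω w).le
    have hEw : Ev s (w :: l) c g w α = TL s l (fun β => ∑ j ∈ range (s w),
        c (pt w β (j + 1) (s w - j)) *
          (g (pt w β (j + 1) (s w - j - 1)) - g (pt w β j (s w - j))) ^ 2) α := by
      rw [Ev_eq, List.erase_cons_head]
    rw [← hEw] at hc
    simp only [hsplit] at hsum
    rw [← Finset.mul_sum, Finset.sum_sub_distrib, Finset.sum_add_distrib,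
      Finset.sum_range_succ (fun a => φ (a + 1) * _), Finset.sum_range_succ' (fun a => φ a * _),
      φ0, φ1] at hsum
    rw [List.toFinset_cons, Finset.sum_insert (by simpa using hwl), TL_cons]
    linarith

end Crest.Agent.R309
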