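import Crest.Agent.R309.PTL
import Crest.Agent.R309.Prob

/-! Row 309: networks and integer flows. -/

set_option autoImplicit false

namespace Crest.Agent.R309

open Crest.Agent.PT Crest.Enc Finset

/-- cells `e < E` from the vertex `src[e]` to the vertex `dst[e]`, supplies `β[w]` for `w < V` -/
structure Net where
  src : List ℕ
  dst : List ℕ
  β : List ℤ

instance : Rp Net := ⟨Rp.I (List ℕ × List ℕ × List ℤ), fun N => Rp.w (N.src, N.dst, N.β)⟩

namespace Net

def E (N : Net) : ℕ := N.src.length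
def V (N : Net) : ℕ := N.β.length
def s (N : Net) (e : ℕ) : ℕ := N.src.getD e 0
def d (N : Net) (e : ℕ) : ℕ := N.dst.getD e 0
def b (N : Net) (w : ℕ) : ℤ := N.β.getD w 0
def WF (N : Net) : Prop := ∀ e < N.E, N.s e < N.V ∧ N.d e < N.V

/-- net outflow at the vertex `w` -/
def dv (N : Net) (p : ℕ → ℤ) (w : ℕ) : ℤ :=
  ∑ e ∈ range N.E, ((if N.s e = w then p e else 0) - if N.d e = w then p e else 0)

/-- conservation -/
def Cons (N : Net) (p : ℕ → ℤ) : Prop := ∀ w < N.V, N.dv p w = N.b w

instance (N : Net) (p : ℕ → ℤ) : Decidable (N.Cons p) := by unfold Cons; infer_instance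

/-- the integer flows between the bounds `lo` and `hi` -/
def flows (N : Net) (lo hi : List ℕ) : Finset (List ℕ) :=
  (bx N.E lo hi).filter fun p => N.Cons fun e => (p.getD e 0 : ℤ)

theorem mem_flows {N : Net} {lo hi p : List ℕ} :
    p ∈ N.flows lo hi ↔ p ∈ bx N.E lo hi ∧ N.Cons fun e => (p.getD e 0 : ℤ) := mem_filter

/-- every cell attains both of its bounds -/
def Tight (N : Net) (cap : List ℕ) : Prop :=
  ∀ e < N.E, (∃ p ∈ N.flows [] cap, p.getD e 0 = 0) ∧ ∃ p ∈ N.flows [] cap, p.getD e 0 = cap.getD e 0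

/-- `P` bounds the size of the instance -/
def Small (N : Net) (hi : List ℕ) (P : ℕ) : Prop :=
  1 ≤ P ∧ N.E ≤ P ∧ N.V ≤ P ∧ ∀ e < N.E, hi.getD e 0 < 2 ^ P

section
variable {α : Type} [Rp α]

theorem ptime_iff {f : α → Net} :
    PTime f ↔ PTime fun a => ((f a).src, (f a).dst, (f a).β) := Iff.rfl

@[fun_prop] theorem ptime_mk {f g : α → List ℕ} {h : α → List ℤ} (hf : PTime f) (hg : PTime g)
    (hh : PTime h) : PTime fun a => Net.mk (f a) (g a) (h a) :=
  ptime_iff.2 (hf.pair (hg.pair hh))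
@[fun_prop] theorem ptime_src {f : α → Net} (hf : PTime f) : PTime fun a => (f a).src :=
  (ptime_iff.1 hf).fst
@[fun_prop] theorem ptime_dst {f : α → Net} (hf : PTime f) : PTime fun a => (f a).dst :=
  (ptime_iff.1 hf).snd.fst
@[fun_prop] theorem ptime_β {f : α → Net} (hf : PTime f) : PTime fun a => (f a).β :=
  (ptime_iff.1 hf).snd.snd
@[fun_prop] theorem pu_E {f : α → Net} (hf : PTime f) : PU fun a => (f a).E :=
  lengthN (ptime_src hf)
@[fun_prop] theorem pu_V {f : α → Net} (hf : PTime f) : PU fun a => (f a).V :=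
  lengthZ (ptime_β hf)
@[fun_prop] theorem ptime_E {f : α → Net} (hf : PTime f) : PTime fun a => (f a).E := (pu_E hf).ptime
@[fun_prop] theorem ptime_V {f : α → Net} (hf : PTime f) : PTime fun a => (f a).V := (pu_V hf).ptime
@[fun_prop] theorem ptime_s {f : α → Net} {e : α → ℕ} (hf : PTime f) (he : PTime e) :
    PTime fun a => (f a).s (e a) := getDN (ptime_src hf) he
@[fun_prop] theorem ptime_d {f : α → Net} {e : α → ℕ} (hf : PTime f) (he : PTime e) :
    PTime fun a => (f a).d (e a) := getDN (ptime_dst hf) he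
@[fun_prop] theorem ptime_b {f : α → Net} {e : α → ℕ} (hf : PTime f) (he : PTime e) :
    PTime fun a => (f a).b (e a) := getDZ (ptime_β hf) he

theorem ptime_dv {f : α → Net} {p : α → ℕ → ℤ} {w : α → ℕ} (hf : PTime f)
    (hp : PTime fun q : α × Un => p q.1 q.2.val) (hw : PTime w) :
    PTime fun a => (f a).dv (p a) (w a) := by
  unfold dv
  refine PTime.isum_range (g := fun a e => (if (f a).s e = w a then p a e else 0) -
    if (f a).d e = w a then p a e else 0) (pu_E hf) ?_
  have h1 : PTime fun q : α × Un => f q.1 := hf.comp PTime.fst'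
  have h2 : PTime fun q : α × Un => w q.1 := hw.comp PTime.fst'
  have h3 : PTime fun q : α × Un => q.2.val := PTime.val PTime.snd'
  exact (PTime.ite ((ptime_s h1 h3).eq h2) hp (PTime.const _)).isub
    (PTime.ite ((ptime_d h1 h3).eq h2) hp (PTime.const _))

@[fun_prop] theorem ptime_mem_flows {f : α → Net} {lo hi p : α → List ℕ} (hf : PTime f)
    (h1 : PTime lo) (h2 : PTime hi) (hp : PTime p) :
    PTime fun a => p a ∈ (f a).flows (lo a) (hi a) := by
  simp only [mem_flows]
  refine (ptime_mem_bx (pu_E hf) h1 h2 hp).and ?_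
  unfold Cons
  refine PTime.forall_lt (c := fun a w => (f a).dv (fun e => ((p a).getD e 0 : ℤ)) w = (f a).b w)
    (pu_V hf) ?_
  have h3 : PTime fun q : α × Un => f q.1 := hf.comp PTime.fst'
  have h4 : PTime fun q : α × Un => q.2.val := PTime.val PTime.snd'
  refine PTime.ieq (ptime_dv (p := fun (q : α × Un) e => ((p q.1).getD e 0 : ℤ)) h3 ?_ h4)
    (ptime_b h3 h4)
  exact (getDN (hp.comp (PTime.fst'.comp PTime.fst')) (PTime.val PTime.snd')).natCast

end

end Net

/-- coordinatewise sum of two lists, of length `E` -/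
def addL (E : ℕ) (p q : List ℕ) : List ℕ := (List.range E).map fun e => p.getD e 0 + q.getD e 0

/-- an almost uniform sampler `S (N, lo, hi, P, G, ω)` with tape length `L P G` -/
def SamplerSpec (S : Net × List ℕ × List ℕ × Un × Un × Word → List ℕ) (L : ℕ → ℕ → ℕ) : Prop :=
  ∀ (N : Net) (lo hi : List ℕ) (P G : ℕ), N.WF → N.Small hi P → (N.flows lo hi).Nonempty →
    (∀ ω, S (N, lo, hi, ⟨P⟩, ⟨G⟩, ω) ∈ N.flows lo hi) ∧
      ∑ p ∈ N.flows lo hi, |Pr (L P G) (fun ω => S (N, lo, hi, ⟨P⟩, ⟨G⟩, ω) = p) -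
        1 / ((N.flows lo hi).card : ℝ)| ≤ 4 * (2 : ℝ)⁻¹ ^ G

/-- the branch taken with probability `2 ^ (-G)` -/
def br (G : ℕ) (ω : Word) : Bool := decide (ofB (ω.take G) = 0)

theorem realize_net : True := by
  have := @Net.dv.eq_1
  have := @Net.E.eq_1
  have := @Net.V.eq_1
  have := @Net.s.eq_1
  have := @Net.d.eq_1
  have := @Net.b.eq_1
  have := @addL.eq_1
  have := @br.eq_1
  trivial

end Crest.Agent.R309
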