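import Crest.Agent.R309.Defs0
import Crest.Prelude.Def_Randomized

/-! Row 309: polynomial time for pairs presented through `pairEnc`. -/

set_option autoImplicit false

namespace Crest.Agent.R309

open Crest.Agent.PT

namespace PairAux

open Function Turing

/-- alphabets of the enlarged stack family: a tagged input stack and bit stacks -/
def Gam (R : ℕ) : Option (Fin (R + 1)) → Type
  | none => Bool ⊕ Bool
  | some _ => Bool

abbrev Stm2 (R : ℕ) (Λ : Type) := TM2.Stmt (Gam R) Λ (Option Bool)
abbrev Cf2 (R : ℕ) (Λ : Type) := TM2.Cfg (Gam R) Λ (Option Bool)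

def liftStm {R : ℕ} {Λ : Type} : Stm R Λ → Stm2 R (Option Λ)
  | .push k f q => .push (some k) f (liftStm q)
  | .peek k f q => .peek (some k) f (liftStm q)
  | .pop k f q => .pop (some k) f (liftStm q)
  | .load a q => .load a (liftStm q)
  | .branch f q₁ q₂ => .branch f (liftStm q₁) (liftStm q₂)
  | .goto f => .goto fun v => some (f v)
  | .halt => .halt

def liftStk {R : ℕ} (u : List (Bool ⊕ Bool)) (S : Fin (R + 1) → List Bool) :
    ∀ k, List (Gam R k)
  | none => u
  | some k => S k

theorem update_some {R : ℕ} (u : List (Bool ⊕ Bool)) (S : Fin (R + 1) → List Bool)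
    (k : Fin (R + 1)) (v : List Bool) :
    update (liftStk u S) (some k) v = liftStk u (update S k v) := by
  funext j
  cases j with
  | none => rw [update_of_ne (by simp)]; rfl
  | some j =>
      by_cases h : j = k
      · subst h; rw [update_self]; simp [liftStk]
      · rw [update_of_ne (by simpa using h)]; simp [liftStk, update_of_ne h]

theorem update_none {R : ℕ} (u u' : List (Bool ⊕ Bool)) (S : Fin (R + 1) → List Bool) :
    update (liftStk u S) none u' = liftStk u' S := by
  funext j
  cases j with
  | none => rw [update_self]; rfl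
  | some j => rw [update_of_ne (by simp)]; rfl

def liftCf {R : ℕ} {Λ : Type} (c : Cf R Λ) : Cf2 R (Option Λ) :=
  ⟨c.l.map some, c.var, liftStk [] c.stk⟩

theorem stepAux_lift {R : ℕ} {Λ : Type} (q : Stm R Λ) (v : Option Bool)
    (S : Fin (R + 1) → List Bool) :
    TM2.stepAux (liftStm q) v (liftStk [] S) = liftCf (TM2.stepAux q v S) := by
  induction q generalizing v S with
  | push k f q ih =>
      exact (congrArg (TM2.stepAux (liftStm q) v) (update_some [] S k (f v :: S k))).trans (ih _ _)
  | peek k f q ih => exact ih _ _
  | pop k f q ih =>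
      exact (congrArg (TM2.stepAux (liftStm q) (f v (S k).head?))
        (update_some [] S k (S k).tail)).trans (ih _ _)
  | load a q ih => exact ih _ _
  | branch f q₁ q₂ ih1 ih2 =>
      show cond (f v) (TM2.stepAux (liftStm q₁) v _) (TM2.stepAux (liftStm q₂) v _) =
        liftCf (cond (f v) (TM2.stepAux q₁ v S) (TM2.stepAux q₂ v S))
      cases f v
      · exact ih2 _ _
      · exact ih1 _ _
  | goto f => rfl
  | halt => rfl

def iter2 {R : ℕ} {Λ : Type} (M : Λ → Stm2 R Λ) (t : ℕ) (c : Option (Cf2 R Λ)) :
    Option (Cf2 R Λ) :=
  (flip bind (TM2.step M))^[t] c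

theorem iter2_add {R : ℕ} {Λ : Type} (M : Λ → Stm2 R Λ) (t t' : ℕ) (c : Option (Cf2 R Λ)) :
    iter2 M (t' + t) c = iter2 M t' (iter2 M t c) := Function.iterate_add_apply _ _ _ _

theorem iter2_lift {R : ℕ} {Λ : Type} (M : Λ → Stm R Λ) (M' : Option Λ → Stm2 R (Option Λ))
    (hM : ∀ l, M' (some l) = liftStm (M l)) (t : ℕ) (c : Option (Cf R Λ)) :
    iter2 M' t (c.map liftCf) = (iter M t c).map liftCf := by
  induction t generalizing c with
  | zero => rfl
  | succ t ih =>
      have h1 : iter2 M' 1 (c.map liftCf) = (iter M 1 c).map liftCf := by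
        rcases c with _ | ⟨_ | l, v, S⟩
        · rfl
        · rfl
        · show some (TM2.stepAux (M' (some l)) v (liftStk [] S)) =
            some (liftCf (TM2.stepAux (M l) v S))
          rw [hM, stepAux_lift]
      rw [iter2_add, iter_add, h1, ih]

/-- the loop that distributes the tagged input onto registers `2` and `3` -/
def pre (R : ℕ) {Λ : Type} (e : Λ) : Stm2 R (Option Λ) :=
  .peek none (fun _ o => Option.map (Sum.isLeft (α := Bool) (β := Bool)) o)
    (.branch (fun v => v.isNone) (.load (fun _ => none) (.goto fun _ => some e))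
      (.branch (fun v => v.getD false)
        (.pop none (fun _ o => Option.map (Sum.elim (α := Bool) (β := Bool) id id) o)
          (.push (some (reg R 2)) (fun v => v.getD false)
            (.load (fun _ => none) (.goto fun _ => none))))
        (.pop none (fun _ o => Option.map (Sum.elim (α := Bool) (β := Bool) id id) o)
          (.push (some (reg R 3)) (fun v => v.getD false)
            (.load (fun _ => none) (.goto fun _ => none))))))

theorem pre_nil {R : ℕ} {Λ : Type} (e : Λ) (S : Fin (R + 1) → List Bool) :
    TM2.stepAux (pre R e) none (liftStk [] S) = ⟨some (some e), none, liftStk [] S⟩ := rfl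

theorem pre_inl {R : ℕ} {Λ : Type} (e : Λ) (b : Bool) (u : List (Bool ⊕ Bool))
    (S : Fin (R + 1) → List Bool) :
    TM2.stepAux (pre R e) none (liftStk (Sum.inl b :: u) S) =
      ⟨some none, none, liftStk u (update S (reg R 2) (b :: S (reg R 2)))⟩ := by
  show (⟨some none, none, update (update (liftStk (Sum.inl b :: u) S) none u) (some (reg R 2))
    (b :: update (liftStk (Sum.inl b :: u) S) none u (some (reg R 2)))⟩ : Cf2 R (Option Λ)) = _
  rw [update_none]
  exact congrArg _ (update_some u S _ _)

theorem pre_inr {R : ℕ} {Λ : Type} (e : Λ) (b : Bool) (u : List (Bool ⊕ Bool))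
    (S : Fin (R + 1) → List Bool) :
    TM2.stepAux (pre R e) none (liftStk (Sum.inr b :: u) S) =
      ⟨some none, none, liftStk u (update S (reg R 3) (b :: S (reg R 3)))⟩ := by
  show (⟨some none, none, update (update (liftStk (Sum.inr b :: u) S) none u) (some (reg R 3))
    (b :: update (liftStk (Sum.inr b :: u) S) none u (some (reg R 3)))⟩ : Cf2 R (Option Λ)) = _
  rw [update_none]
  exact congrArg _ (update_some u S _ _)

theorem iter2_one {R : ℕ} {Λ : Type} (M : Λ → Stm2 R Λ) (l : Λ) (v : Option Bool)
    (S : ∀ k, List (Gam R k)) :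
    iter2 M 1 (some ⟨some l, v, S⟩) = some (TM2.stepAux (M l) v S) := rfl

theorem run_pre_inr {R : ℕ} (hR : 3 ≤ R) {Λ : Type} (e : Λ) (M' : Option Λ → Stm2 R (Option Λ))
    (hM : M' none = pre R e) (y : List Bool) (s : St) :
    iter2 M' (y.length + 1) (some ⟨some none, none, liftStk (y.map Sum.inr) (res R s)⟩) =
      some ⟨some (some e), none, liftStk [] (res R (update s 3 (y.reverse ++ s 3)))⟩ := by
  induction y generalizing s with
  | nil => simp [iter2_one, hM, pre_nil]
  | cons b y ih =>
      rw [List.length_cons, iter2_add, iter2_one, hM, List.map_cons, pre_inr, res_reg hR,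
        res_update hR, ih]
      simp

theorem run_pre {R : ℕ} (hR : 3 ≤ R) {Λ : Type} (e : Λ) (M' : Option Λ → Stm2 R (Option Λ))
    (hM : M' none = pre R e) (x y : List Bool) (s : St) :
    iter2 M' (y.length + 1 + x.length)
      (some ⟨some none, none, liftStk (x.map Sum.inl ++ y.map Sum.inr) (res R s)⟩) =
      some ⟨some (some e), none, liftStk []
        (res R (update (update s 2 (x.reverse ++ s 2)) 3 (y.reverse ++ s 3)))⟩ := by
  induction x generalizing s with
  | nil => simpa using run_pre_inr hR e M' hM y s
  | cons b x ih =>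
      have hR2 : 2 ≤ R := by omega
      rw [List.length_cons, ← add_assoc, iter2_add, iter2_one, hM, List.map_cons, List.cons_append,
        pre_inl, res_reg hR2, res_update hR2, ih]
      simp

def prog2 (p : Prog) : Option (Lbl p) → Stm2 (p.maxReg + 3) (Option (Lbl p))
  | none => pre _ (entry p)
  | some l => liftStm (code p id none l)

noncomputable def machine2 (p : Prog) : FinTM2 where
  K := Option (Fin (p.maxReg + 3 + 1))
  k₀ := none
  k₁ := some (reg _ 1)
  Γ := Gam (p.maxReg + 3)
  Λ := Option (Lbl p)
  main := none
  ΛFin := @Fintype.ofFinite _ (by have := lbl_finite p; infer_instance)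
  σ := Option Bool
  initialState := none
  Γk₀Fin := inferInstanceAs (Fintype (Bool ⊕ Bool))
  m := prog2 p

theorem poly_of_prog2 (A : Word × Word → Word) (p : Prog) (q : Polynomial ℕ)
    (h : ∀ a : Word × Word, Run p (update (update (fun _ => []) 2 a.1.reverse) 3 a.2.reverse)
      (update (fun _ => []) 1 (A a)) (q.eval (a.1.length + a.2.length))) :
    Crest.Randomized.RandPolyTime A := by
  have hlen : ∀ a : Word × Word, (Crest.Complexity.pairEnc a).length = a.1.length + a.2.length := by
    intro a
    show (a.1.map Sum.inl ++ a.2.map Sum.inr).length = _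
    simp
  refine ⟨{ tm := machine2 p, inputAlphabet := Equiv.refl _, outputAlphabet := Equiv.refl _,
            time := q + Polynomial.X + 1, outputsFun := fun a => ?_ }⟩
  refine { steps := (h a).choose + (a.2.length + 1 + a.1.length), evals_in_steps := ?_,
           steps_le_m := ?_ }
  swap
  · have := (h a).choose_spec.1
    rw [hlen]
    simp only [Polynomial.eval_add, Polynomial.eval_X, Polynomial.eval_one]
    omega
  have hs := sim (R := p.maxReg + 3) (code p id none) (h a).choose_spec.2 (Nat.le_add_right _ _)
    id none (fun _ => rfl)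
  have hl := iter2_lift (code p id none) (prog2 p) (fun _ => rfl) (h a).choose
    (some ⟨some (id (entry p)), none, res (p.maxReg + 3)
      (update (update (fun _ => []) 2 a.1.reverse) 3 a.2.reverse)⟩)
  rw [hs] at hl
  have hp := run_pre (R := p.maxReg + 3) (Nat.le_add_left _ _) (entry p) (prog2 p) rfl a.1 a.2
    (fun _ => [])
  simp only [List.append_nil] at hp
  have e0 : initList (machine2 p)
      (List.map (Equiv.refl (Bool ⊕ Bool)).invFun (Crest.Complexity.pairEnc a)) =
      (⟨some none, none, liftStk (a.1.map Sum.inl ++ a.2.map Sum.inr)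
        (res (p.maxReg + 3) fun _ => [])⟩ : Cf2 (p.maxReg + 3) (Option (Lbl p))) := by
    unfold initList
    congr 1
    funext k
    cases k with
    | none =>
        refine (dif_pos rfl).trans ?_
        show List.map id (a.1.map Sum.inl ++ a.2.map Sum.inr) = _
        rw [List.map_id]; rfl
    | some k => exact dif_neg (Option.some_ne_none k)
  have e1 : haltList (machine2 p)
      (List.map (Equiv.refl Bool).invFun ((Computability.encodingList Bool).encode (A a))) =
      (⟨none, none, liftStk [] (res (p.maxReg + 3) (update (fun _ => []) 1 (A a)))⟩ :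
        Cf2 (p.maxReg + 3) (Option (Lbl p))) := by
    rw [← res_update (by omega)]
    unfold haltList
    congr 1
    funext k
    cases k with
    | none => exact dif_neg (Option.some_ne_none _).symm
    | some k =>
        by_cases hk : k = reg (p.maxReg + 3) 1
        · subst hk
          refine (dif_pos rfl).trans ?_
          show List.map id (A a) = update (res (p.maxReg + 3) fun _ => []) _ (A a) _
          rw [List.map_id, update_self]
        · refine (dif_neg (fun e => hk (Option.some_injective _ e))).trans ?_
          exact (update_of_ne (β := fun _ => List Bool) hk _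
            (res (p.maxReg + 3) fun _ => [])).symm
  simp only [Option.map_some]
  refine (congrArg (fun c => iter2 (prog2 p) _ (some c)) e0).trans ?_
  refine Eq.trans ?_ (congrArg some e1.symm)
  exact (iter2_add _ _ _ _).trans ((congrArg _ hp).trans hl)

end PairAux

open Function in
theorem randPolyTime_of_ptime {A : Word × Word → Word} (hA : PTime A) :
    Crest.Randomized.RandPolyTime A := by
  obtain ⟨T, ⟨q, hq⟩, h⟩ := hA ()
  obtain ⟨p, hp⟩ := h (Sum.elim (fun _ => 4) (fun _ => 5)) 1 6
    (by rintro (_ | _) <;> simp) (by omega) (by rintro (_ | _) <;> simp)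
  refine PairAux.poly_of_prog2 A
    (.seq (.seq (.seq (.seq (move1 2 4) (move1 3 5)) p) (clearP 4)) (clearP 5))
    (q + 6 * Polynomial.X + 4) fun a => ?_
  obtain ⟨x, y⟩ := a
  have h1 := run_move1 (r := 2) (u := 4) (by omega)
    (update (update (fun _ => []) 2 x.reverse) 3 y.reverse)
  have h2 := h1.seq (run_move1 (r := 3) (u := 5) (by omega) _)
  have h3 := h2.seq (hp (x, y) _ (by rintro (_ | _) <;> simp [Rp.w]) (by simp)
    (fun r hr => by
      rw [update_of_ne (by omega), update_of_ne (by omega), update_of_ne (by omega),
        update_of_ne (by omega), update_of_ne (by omega), update_of_ne (by omega)]))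
  have h4 := (h3.seq (run_clear 4 _)).seq (run_clear 5 _)
  refine h4.cast ?_ ?_
  · have := hq (x, y)
    simp at this ⊢
    omega
  · funext k
    by_cases h5 : k = 5
    · subst h5; simp
    by_cases h4 : k = 4
    · subst h4; simp
    by_cases h1 : k = 1
    · subst h1; simp [Rp.w]
    by_cases h3 : k = 3
    · subst h3; simp
    by_cases h2 : k = 2
    · subst h2; simp
    simp [*]

end Crest.Agent.R309
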