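import Crest.Agent.R309.Key

/-! Row 309: the Poincaré inequality. -/

set_option autoImplicit false

namespace Crest.Agent.R309

open Finset

/-- Dirichlet form in the direction of the bundle `v` -/
noncomputable def Dv (s : ℕ → ℕ) (l : List ℕ) (c f : Cfg → ℝ) (v : ℕ) (α : Cfg) : ℝ :=
  TL s (l.erase v) (fun β => ∑ j ∈ range (s v),
    min (c (β + j • uv (v, true) + (s v - j) • uv (v, false)))
        (c (β + (j + 1) • uv (v, true) + (s v - j - 1) • uv (v, false))) *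
      (f (β + (j + 1) • uv (v, true) + (s v - j - 1) • uv (v, false)) -
        f (β + j • uv (v, true) + (s v - j) • uv (v, false))) ^ 2) α

namespace PoX

theorem shY (β x y : Cfg) {s j : ℕ} (h : j < s) :
    β + j • x + (s - j) • y = β + j • x + (s - 1 - j) • y + y := by
  rw [show s - j = (s - 1 - j) + 1 by omega, succ_nsmul]; abel

theorem shX (β x y : Cfg) {s j : ℕ} :
    β + (j + 1) • x + (s - j - 1) • y = β + j • x + (s - 1 - j) • y + x := by
  rw [show s - j - 1 = s - 1 - j by omega, succ_nsmul]; abel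

theorem shX' (β x y : Cfg) {s j : ℕ} :
    β + (j + 1) • x + (s - (j + 1)) • y = β + j • x + (s - 1 - j) • y + x := by
  rw [show s - (j + 1) = s - 1 - j by omega, succ_nsmul]; abel

theorem shXY (β x y : Cfg) {s j : ℕ} (h : j < s) :
    β + (j + 1) • x + (s - j) • y = β + j • x + (s - 1 - j) • y + x + y := by
  rw [show s - j = (s - 1 - j) + 1 by omega, succ_nsmul, succ_nsmul]; abel

theorem TL_nonneg (s : ℕ → ℕ) (l : List ℕ) {F : Cfg → ℝ} (h : ∀ β, 0 ≤ F β) (α : Cfg) :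
    0 ≤ TL s l F α := by
  induction l generalizing α with
  | nil => exact h α
  | cons e l ih =>
    show 0 ≤ T1 e (s e) (TL s l F) α
    unfold T1
    exact Finset.sum_nonneg fun j _ => ih _

theorem TL_cs (s : ℕ → ℕ) (l : List ℕ) {w : Cfg → ℝ} (hw : ∀ β, 0 < w β) (h : Cfg → ℝ) (α : Cfg) :
    TL s l (fun β => w β * h β) α ^ 2 ≤ TL s l w α * TL s l (fun β => w β * h β ^ 2) α := by
  have hW : 0 < TL s l w α := TL_pos hw α
  set W := TL s l w α
  set A := TL s l (fun β => w β * h β) α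
  set B := TL s l (fun β => w β * h β ^ 2) α
  have h1 : 0 ≤ TL s l (fun β => w β * (W * h β - A) ^ 2) α :=
    TL_nonneg s l (fun β => mul_nonneg (hw β).le (sq_nonneg _)) α
  have h2 : (fun β => w β * (W * h β - A) ^ 2) =
      fun β => (W ^ 2 * (w β * h β ^ 2) + (-2 * W * A) * (w β * h β)) + A ^ 2 * w β := by
    funext β; ring
  rw [h2, TL_add, TL_add, TL_mul_left, TL_mul_left, TL_mul_left] at h1
  have h3 : 0 ≤ W * (W * B - A ^ 2) := by
    have : W * (W * B - A ^ 2) = W ^ 2 * B + -2 * W * A * A + A ^ 2 * W := by ring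
    rw [this]; exact h1
  have := nonneg_of_mul_nonneg_right (by rwa [mul_comm] at h3) hW
  linarith [le_of_mul_le_mul_left (show W * A ^ 2 ≤ W * (W * B) by linarith) hW]

theorem TL_T1 (s : ℕ → ℕ) {l : List ℕ} {v : ℕ} (hv : v ∈ l) (F : Cfg → ℝ) (α : Cfg) :
    TL s (l.erase v) (fun β => ∑ j ∈ range (s v + 1),
      F (β + j • uv (v, true) + (s v - j) • uv (v, false))) α = TL s l F α := by
  rw [TL_perm (List.perm_cons_erase hv) F, TL_sum]
  show _ = T1 v (s v) (TL s (l.erase v) F) α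
  unfold T1
  refine Finset.sum_congr rfl fun j _ => ?_
  simp only [add_assoc]
  exact TL_shift s _ F α _

theorem vis_le {s : ℕ → ℕ} {l : List ℕ} {γ β : Cfg} (h : Vis s l γ β) {k U : ℕ}
    (h1 : ∀ i, γ i + k ≤ U) (h2 : ∀ e ∈ l, ∀ b, γ (e, b) + s e + k ≤ U) (i : ℕ × Bool) :
    β i + k ≤ U := by
  by_cases hi : i.1 ∈ l
  · obtain ⟨e, b⟩ := i
    have := h.2 e hi
    have h3 := h2 e hi b
    cases b <;> omega
  · rw [h.1 i hi]; exact h1 i

theorem uv_le (p i : ℕ × Bool) : uv p i ≤ 1 := by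
  unfold uv; rw [Pi.single_apply]; split_ifs <;> omega

/-- the direction `a e_p - b e_q` -/
def two (p q : ℕ × Bool) (a b : ℝ) : ℕ × Bool → ℝ := fun i =>
  (if i = p then a else 0) - if i = q then b else 0

theorem act1_two {D : Finset (ℕ × Bool)} {p q : ℕ × Bool} (hp : p ∈ D) (hq : q ∈ D) (a b : ℝ)
    (F : Cfg → ℝ) (β : Cfg) : act1 D (two p q a b) F β = a * F (β + uv p) - b * F (β + uv q) := by
  unfold act1 two
  simp only [sub_mul, Finset.sum_sub_distrib, ite_mul, zero_mul, Finset.sum_ite_eq', hp, hq,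
    if_true]

theorem sq_le_of_forall {A P Q : ℝ} (hP : 0 < P) (hQ : 0 ≤ Q)
    (h : ∀ ω : ℝ, 0 < ω → 2 * |A| ≤ ω * P + Q / ω) : A ^ 2 ≤ P * Q := by
  by_cases hA : A = 0
  · rw [hA]; simpa using mul_nonneg hP.le hQ
  · have h0 : 0 < |A| := abs_pos.2 hA
    have h1 := h (|A| / P) (div_pos h0 hP)
    rw [div_mul_cancel₀ _ hP.ne', div_div_eq_mul_div] at h1
    have h2 : |A| ≤ Q * P / |A| := by linarith
    rw [le_div_iff₀ h0] at h2
    rw [← sq_abs]; nlinarith

theorem Dv_nonneg (s : ℕ → ℕ) (l : List ℕ) {c : Cfg → ℝ} (hpos : ∀ β, 0 < c β) (f : Cfg → ℝ)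
    (v : ℕ) (α : Cfg) : 0 ≤ Dv s l c f v α :=
  TL_nonneg s _ (fun _ => Finset.sum_nonneg fun _ _ =>
    mul_nonneg (le_min (hpos _).le (hpos _).le) (sq_nonneg _)) α

section
variable {D : Finset (ℕ × Bool)} {c : Cfg → ℝ} {U : ℕ} {K : ℝ} {ζ : ℕ × Bool → ℝ}

/-- exchanging one direction for another -/
theorem exch (hK : 1 ≤ K) (hζ : ∀ i, 0 < ζ i)
    (hr : ∀ β : Cfg, (∀ i, β i ≤ U) → ∀ i ∈ D,
      c (β + uv i) ≤ K * ζ i * c β ∧ ζ i * c β ≤ K * c (β + uv i))
    {β : Cfg} (hβ : ∀ i, β i ≤ U) {p q : ℕ × Bool} (hp : p ∈ D) (hq : q ∈ D) :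
    c (β + uv p) ≤ K ^ 2 * (ζ p / ζ q) * c (β + uv q) := by
  have h1 := (hr β hβ p hp).1
  have h2 := (hr β hβ q hq).2
  have h3 := hζ p
  have h4 := hζ q
  have h5 : c β ≤ K * c (β + uv q) / ζ q := by rw [le_div_iff₀ h4]; linarith
  calc c (β + uv p) ≤ K * ζ p * c β := h1
    _ ≤ K * ζ p * (K * c (β + uv q) / ζ q) :=
        mul_le_mul_of_nonneg_left h5 (by positivity)
    _ = _ := by field_simp

theorem mid_le {s : ℕ → ℕ} {l : List ℕ} (hl : l.Nodup) {J β : Cfg} {v : ℕ} (hv : v ∈ l)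
    (hJ : ∀ i, J i + 2 ≤ U) (hJs : ∀ e ∈ l, ∀ b, J (e, b) + s e + 2 ≤ U)
    (hβ : Vis s (l.erase v) J β) {j : ℕ} (hj : j < s v) (p i : ℕ × Bool) :
    (β + j • uv (v, true) + (s v - 1 - j) • uv (v, false) + uv p) i ≤ U := by
  have h1 := vis_le hβ hJ (fun e he b => hJs e (List.mem_of_mem_erase he) b) i
  have h2 := uv_le p i
  simp only [Pi.add_apply, Pi.smul_apply, smul_eq_mul]
  by_cases hi : i.1 = v
  · obtain ⟨e, b⟩ := i
    simp only at hi
    subst hi
    have h3 : β (e, b) = J (e, b) := hβ.1 (e, b) (hl.not_mem_erase)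
    have h4 := hJs e hv b
    cases b <;> simp [uv] at * <;> omega
  · have h3 : uv (v, true) i = 0 := by
      unfold uv; rw [Pi.single_apply, if_neg]; rintro rfl; exact hi rfl
    have h4 : uv (v, false) i = 0 := by
      unfold uv; rw [Pi.single_apply, if_neg]; rintro rfl; exact hi rfl
    rw [h3, h4]; omega

theorem Nv_le (hpos : ∀ β, 0 < c β) (hK : 1 ≤ K) (hζ : ∀ i, 0 < ζ i)
    (hr : ∀ β : Cfg, (∀ i, β i ≤ U) → ∀ i ∈ D,
      c (β + uv i) ≤ K * ζ i * c β ∧ ζ i * c β ≤ K * c (β + uv i))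
    {s : ℕ → ℕ} {l : List ℕ} (hl : l.Nodup) (hD : ∀ e ∈ l, ∀ b, (e, b) ∈ D) {J : Cfg}
    (hJ : ∀ i, J i + 2 ≤ U) (hJs : ∀ e ∈ l, ∀ b, J (e, b) + s e + 2 ≤ U) {p q : ℕ × Bool}
    (hp : p ∈ D) (hq : q ∈ D) {a b : ℝ} (ha : 0 ≤ a) (hb : 0 ≤ b) {v : ℕ} (hv : v ∈ l) :
    Nv D s l c (two p q a b) v J ≤
      2 * a * b * (U : ℝ) ^ 2 * (K ^ 2 * (ζ p / max (ζ (v, true)) (ζ (v, false)))) *
        TL s l c (J + uv q) := by
  set κ := 2 * a * b * (U : ℝ) ^ 2 * (K ^ 2 * (ζ p / max (ζ (v, true)) (ζ (v, false)))) with hκ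
  have hκ0 : 0 ≤ κ := by
    have := hζ p
    have : 0 < max (ζ (v, true)) (ζ (v, false)) := lt_max_of_lt_left (hζ _)
    positivity
  rw [← TL_T1 s hv c, ← TL_shift, ← TL_mul_left]
  unfold Nv
  rw [← neg_one_mul, ← TL_mul_left]
  refine TL_mono (hl.erase v) fun β hβ => ?_
  have hsU : (s v : ℝ) ≤ U := by
    have := hJs v hv true
    exact_mod_cast (by omega : s v ≤ U)
  have key : ∀ w : Bool, ζ (v, w) = max (ζ (v, true)) (ζ (v, false)) → ∀ j ∈ range (s v),
      -1 * ((((j : ℝ) + 1) * ((s v : ℝ) - j) / 2) *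
        act1 D (two p q a b) (act1 D (two p q a b) c)
          (β + j • uv (v, true) + (s v - 1 - j) • uv (v, false))) ≤
      κ * c (β + uv q + j • uv (v, true) + (s v - 1 - j) • uv (v, false) + uv (v, w)) := by
    intro w hw j hj
    rw [Finset.mem_range] at hj
    set J' := β + j • uv (v, true) + (s v - 1 - j) • uv (v, false) with hJ'
    have e1 : β + uv q + j • uv (v, true) + (s v - 1 - j) • uv (v, false) + uv (v, w) =
        J' + uv q + uv (v, w) := by rw [hJ']; abel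
    have h1 := exch hK hζ hr (mid_le hl hv hJ hJs hβ hj q) hp (hD v hv w)
    rw [← hJ', hw] at h1
    rw [e1, act1_two hp hq, act1_two hp hq, act1_two hp hq,
      show J' + uv p + uv q = J' + uv q + uv p by abel]
    have hj' : (j : ℝ) + 1 ≤ s v := by exact_mod_cast hj
    have hj0 : (0 : ℝ) ≤ j := Nat.cast_nonneg _
    have hθ0 : 0 ≤ ((j : ℝ) + 1) * ((s v : ℝ) - j) / 2 := by
      have : 0 ≤ (s v : ℝ) - j := by linarith
      positivity
    have hθ : ((j : ℝ) + 1) * ((s v : ℝ) - j) / 2 ≤ (U : ℝ) ^ 2 := by nlinarith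
    set θ := ((j : ℝ) + 1) * ((s v : ℝ) - j) / 2
    have h2 := hpos (J' + uv p + uv p)
    have h3 := hpos (J' + uv q + uv q)
    have h4 := hpos (J' + uv q + uv p)
    have hab : 0 ≤ 2 * a * b := by positivity
    have h5 : -(a * (a * c (J' + uv p + uv p) - b * c (J' + uv q + uv p)) -
        b * (a * c (J' + uv q + uv p) - b * c (J' + uv q + uv q))) ≤
        2 * a * b * c (J' + uv q + uv p) := by
      have := mul_nonneg (mul_nonneg ha ha) h2.le
      have := mul_nonneg (mul_nonneg hb hb) h3.le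
      nlinarith
    calc _ = θ * -(a * (a * c (J' + uv p + uv p) - b * c (J' + uv q + uv p)) -
        b * (a * c (J' + uv q + uv p) - b * c (J' + uv q + uv q))) := by ring
      _ ≤ θ * (2 * a * b * c (J' + uv q + uv p)) := mul_le_mul_of_nonneg_left h5 hθ0
      _ ≤ (U : ℝ) ^ 2 * (2 * a * b * c (J' + uv q + uv p)) :=
          mul_le_mul_of_nonneg_right hθ (mul_nonneg hab h4.le)
      _ ≤ (U : ℝ) ^ 2 * (2 * a * b * (K ^ 2 * (ζ p / max (ζ (v, true)) (ζ (v, false))) *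
            c (J' + uv q + uv (v, w)))) :=
          mul_le_mul_of_nonneg_left (mul_le_mul_of_nonneg_left h1 hab) (by positivity)
      _ = _ := by rw [hκ]; ring
  rw [Finset.mul_sum]
  rcases le_total (ζ (v, true)) (ζ (v, false)) with h | h
  · refine (Finset.sum_le_sum (key false (max_eq_right h).symm)).trans ?_
    rw [← Finset.mul_sum]
    refine mul_le_mul_of_nonneg_left ?_ hκ0
    rw [Finset.sum_range_succ]
    refine le_add_of_le_of_nonneg (le_of_eq (Finset.sum_congr rfl fun j hj => ?_)) (hpos _).le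
    rw [shY _ _ _ (Finset.mem_range.1 hj)]
  · refine (Finset.sum_le_sum (key true (max_eq_left h).symm)).trans ?_
    rw [← Finset.mul_sum]
    refine mul_le_mul_of_nonneg_left ?_ hκ0
    rw [Finset.sum_range_succ']
    refine le_add_of_le_of_nonneg (le_of_eq (Finset.sum_congr rfl fun j _ => ?_)) (hpos _).le
    rw [shX']

theorem Ev_le (hpos : ∀ β, 0 < c β) (hK : 1 ≤ K) (hζ : ∀ i, 0 < ζ i)
    (hr : ∀ β : Cfg, (∀ i, β i ≤ U) → ∀ i ∈ D,
      c (β + uv i) ≤ K * ζ i * c β ∧ ζ i * c β ≤ K * c (β + uv i))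
    {s : ℕ → ℕ} {l : List ℕ} (hl : l.Nodup) (hD : ∀ e ∈ l, ∀ b, (e, b) ∈ D) {J : Cfg}
    (hJ : ∀ i, J i + 2 ≤ U) (hJs : ∀ e ∈ l, ∀ b, J (e, b) + s e + 2 ≤ U) {p : ℕ × Bool}
    (hp : p ∈ D) (f : Cfg → ℝ) {v : ℕ} (hv : v ∈ l) :
    Ev s l c (fun β => f (β + uv p)) v J ≤
      K ^ 2 * (max (ζ (v, true)) (ζ (v, false)) / ζ p) * Dv s l c f v (J + uv p) := by
  unfold Ev Dv
  rw [← TL_shift, ← TL_mul_left]
  refine TL_mono (hl.erase v) fun β hβ => ?_
  rw [Finset.mul_sum]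
  refine Finset.sum_le_sum fun j hj => ?_
  rw [Finset.mem_range] at hj
  rw [shXY _ _ _ hj, shX, shY _ _ _ hj, shX, shY _ _ _ hj]
  set J' := β + j • uv (v, true) + (s v - 1 - j) • uv (v, false) with hJ'
  have e1 : ∀ w, β + uv p + j • uv (v, true) + (s v - 1 - j) • uv (v, false) + w =
      J' + w + uv p := fun w => by rw [hJ']; abel
  rw [e1, e1, ← mul_assoc]
  refine mul_le_mul_of_nonneg_right ?_ (sq_nonneg _)
  have h1 := exch hK hζ hr (mid_le hl hv hJ hJs hβ hj (v, true)) (hD v hv false) hp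
  have h2 := exch hK hζ hr (mid_le hl hv hJ hJs hβ hj (v, false)) (hD v hv true) hp
  rw [← hJ'] at h1 h2
  rw [show J' + uv (v, false) + uv (v, true) = J' + uv (v, true) + uv (v, false) by abel] at h2
  have hp0 := hζ p
  have h3 : ∀ w, K ^ 2 * (ζ (v, w) / ζ p) ≤ K ^ 2 * (max (ζ (v, true)) (ζ (v, false)) / ζ p) := by
    intro w
    refine mul_le_mul_of_nonneg_left (div_le_div_of_nonneg_right ?_ hp0.le) (sq_nonneg _)
    cases w
    · exact le_max_right _ _
    · exact le_max_left _ _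
  rcases le_total (c (J' + uv (v, false) + uv p)) (c (J' + uv (v, true) + uv p)) with h | h
  · rw [min_eq_left h]
    exact h2.trans (mul_le_mul_of_nonneg_right (h3 true) (hpos _).le)
  · rw [min_eq_right h]
    exact h1.trans (mul_le_mul_of_nonneg_right (h3 false) (hpos _).le)

theorem A_sq_le (hpos : ∀ β, 0 < c β) (hU : 1 ≤ U)
    (hS : ∀ β : Cfg, (∀ i, β i ≤ U) → SL D c β) (hK : 1 ≤ K) (hζ : ∀ i, 0 < ζ i)
    (hr : ∀ β : Cfg, (∀ i, β i ≤ U) → ∀ i ∈ D,
      c (β + uv i) ≤ K * ζ i * c β ∧ ζ i * c β ≤ K * c (β + uv i))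
    {s : ℕ → ℕ} {l : List ℕ} (hl : l.Nodup) (hD : ∀ e ∈ l, ∀ b, (e, b) ∈ D) {J : Cfg}
    (hJ : ∀ i, J i + 2 ≤ U) (hJs : ∀ e ∈ l, ∀ b, J (e, b) + s e + 2 ≤ U) {p q : ℕ × Bool}
    (hp : p ∈ D) (hq : q ∈ D) (hpl : p.1 ∉ l) (hql : q.1 ∉ l) (f : Cfg → ℝ) :
    TL s l (fun β => act1 D (two p q (TL s l c (J + uv q)) (TL s l c (J + uv p))) c β *
        f (β + uv p)) J ^ 2 ≤
      (((l.length : ℝ) + 1) * (2 * TL s l c (J + uv q) * TL s l c (J + uv p) * (U : ℝ) ^ 2 * K ^ 2 *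
        TL s l c (J + uv q))) * (K ^ 2 * ∑ v ∈ l.toFinset, Dv s l c f v (J + uv p)) := by
  have ha : 0 < TL s l c (J + uv q) := TL_pos hpos _
  have hb : 0 < TL s l c (J + uv p) := TL_pos hpos _
  set a := TL s l c (J + uv q) with haq
  set b := TL s l c (J + uv p) with hbp
  have hU0 : (0 : ℝ) < U := by exact_mod_cast hU
  have hK0 : 0 < K := by linarith
  refine sq_le_of_forall (by positivity)
    (mul_nonneg (sq_nonneg _) (Finset.sum_nonneg fun v _ => Dv_nonneg s l hpos f v _)) fun ω hω => ?_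
  set ωv : ℕ → ℝ := fun v => ω * (max (ζ (v, true)) (ζ (v, false)) / ζ p) with hωv
  have hm : ∀ v, 0 < max (ζ (v, true)) (ζ (v, false)) := fun v => lt_max_of_lt_left (hζ _)
  have hp0 := hζ p
  have hω' : ∀ v, 0 < ωv v := fun v => mul_pos hω (div_pos (hm v) hp0)
  have hu : ∀ e ∈ l, ∀ b', two p q a b (e, b') = 0 := by
    intro e he b'
    unfold two
    rw [if_neg, if_neg, sub_zero]
    · rintro rfl; exact hql he
    · rintro rfl; exact hpl he
  have h0 : TL s l (act1 D (two p q a b) c) J = 0 := by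
    have : act1 D (two p q a b) c = fun β => a * c (β + uv p) + (-b) * c (β + uv q) := by
      funext β; rw [act1_two hp hq]; ring
    rw [this, TL_add, TL_mul_left, TL_mul_left, TL_shift, TL_shift, ← haq, ← hbp]; ring
  have k1 := key_ineq hpos hS s (fun β => f (β + uv p)) ωv hω' l hl hD J
    (fun i => by have := hJ i; omega) (fun e he b' => by have := hJs e he b'; omega) _ hu h0
  have k2 := key_ineq hpos hS s (fun β => -f (β + uv p)) ωv hω' l hl hD J
    (fun i => by have := hJ i; omega) (fun e he b' => by have := hJs e he b'; omega) _ hu h0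
  have e1 : ∀ v, Ev s l c (fun β => -f (β + uv p)) v J = Ev s l c (fun β => f (β + uv p)) v J := by
    intro v
    unfold Ev
    congr 1
    funext β
    exact Finset.sum_congr rfl fun j _ => by ring
  have e2 : TL s l (fun β => act1 D (two p q a b) c β * -f (β + uv p)) J =
      -TL s l (fun β => act1 D (two p q a b) c β * f (β + uv p)) J := by
    rw [← neg_one_mul, ← TL_mul_left]
    congr 1
    funext β
    ring
  simp only [e1] at k2
  rw [e2] at k2
  have k3 : ∑ v ∈ l.toFinset, (ωv v * Nv D s l c (two p q a b) v J +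
      Ev s l c (fun β => f (β + uv p)) v J / ωv v) ≤
      ∑ v ∈ l.toFinset, (ω * (2 * a * b * (U : ℝ) ^ 2 * K ^ 2 * a) +
        K ^ 2 * Dv s l c f v (J + uv p) / ω) := by
    refine Finset.sum_le_sum fun v hv => ?_
    rw [List.mem_toFinset] at hv
    have n1 := Nv_le hpos hK hζ hr hl hD hJ hJs hp hq ha.le hb.le hv
    have n2 := Ev_le hpos hK hζ hr hl hD hJ hJs hp f hv
    rw [← haq] at n1
    have hmv := hm v
    refine add_le_add ((mul_le_mul_of_nonneg_left n1 (hω' v).le).trans (le_of_eq ?_))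
      ((div_le_div_of_nonneg_right n2 (hω' v).le).trans (le_of_eq ?_))
    · simp only [hωv]; field_simp
    · simp only [hωv]; field_simp
  have k3' : ∑ v ∈ l.toFinset, (ω * (2 * a * b * (U : ℝ) ^ 2 * K ^ 2 * a) +
        K ^ 2 * Dv s l c f v (J + uv p) / ω) =
      (l.toFinset.card : ℝ) * (ω * (2 * a * b * (U : ℝ) ^ 2 * K ^ 2 * a)) +
        (K ^ 2 * ∑ v ∈ l.toFinset, Dv s l c f v (J + uv p)) / ω := by
    rw [Finset.sum_add_distrib, Finset.sum_const, nsmul_eq_mul, ← Finset.sum_div,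
      ← Finset.mul_sum]
  rw [k3'] at k3
  have k4 : (l.toFinset.card : ℝ) ≤ (l.length : ℝ) + 1 := by
    have := List.toFinset_card_le l
    exact_mod_cast (by omega : l.toFinset.card ≤ l.length + 1)
  have k5 : (l.toFinset.card : ℝ) * (ω * (2 * a * b * (U : ℝ) ^ 2 * K ^ 2 * a)) ≤
      ω * (((l.length : ℝ) + 1) * (2 * a * b * (U : ℝ) ^ 2 * K ^ 2 * a)) := by
    calc _ ≤ ((l.length : ℝ) + 1) * (ω * (2 * a * b * (U : ℝ) ^ 2 * K ^ 2 * a)) :=
          mul_le_mul_of_nonneg_right k4 (by positivity)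
      _ = _ := by ring
  rcases abs_cases (TL s l (fun β => act1 D (two p q a b) c β * f (β + uv p)) J) with h | h
  · rw [h.1]; linarith
  · rw [h.1]; linarith

/-- the difference of the means of two neighbouring slices -/
theorem slice_le (hpos : ∀ β, 0 < c β) (hU : 1 ≤ U)
    (hS : ∀ β : Cfg, (∀ i, β i ≤ U) → SL D c β) (hK : 1 ≤ K) (hζ : ∀ i, 0 < ζ i)
    (hr : ∀ β : Cfg, (∀ i, β i ≤ U) → ∀ i ∈ D,
      c (β + uv i) ≤ K * ζ i * c β ∧ ζ i * c β ≤ K * c (β + uv i))
    {s : ℕ → ℕ} {l : List ℕ} (hl : l.Nodup) (hD : ∀ e ∈ l, ∀ b, (e, b) ∈ D) {J : Cfg}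
    (hJ : ∀ i, J i + 2 ≤ U) (hJs : ∀ e ∈ l, ∀ b, J (e, b) + s e + 2 ≤ U) {p q : ℕ × Bool}
    (hp : p ∈ D) (hq : q ∈ D) (hpl : p.1 ∉ l) (hql : q.1 ∉ l) (hpq : ζ q ≤ ζ p) (f : Cfg → ℝ) :
    min (TL s l c (J + uv q)) (TL s l c (J + uv p)) *
        (TL s l (fun β => c β * f β) (J + uv p) / TL s l c (J + uv p) -
          TL s l (fun β => c β * f β) (J + uv q) / TL s l c (J + uv q)) ^ 2 ≤
      4 * ((l.length : ℝ) + 1) * (U : ℝ) ^ 2 * K ^ 4 * ∑ v ∈ l.toFinset, Dv s l c f v (J + uv p) +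
        2 * K ^ 2 * TL s l (fun β => min (c (β + uv q)) (c (β + uv p)) *
          (f (β + uv p) - f (β + uv q)) ^ 2) J := by
  have hA := A_sq_le hpos hU hS hK hζ hr hl hD hJ hJs hp hq hpl hql f
  have ha : 0 < TL s l c (J + uv q) := TL_pos hpos _
  have hb : 0 < TL s l c (J + uv p) := TL_pos hpos _
  have hB := TL_cs s l (w := fun β => c (β + uv q)) (fun β => hpos _)
    (fun β => f (β + uv p) - f (β + uv q)) J
  rw [TL_shift s l c] at hB
  have hB2 : TL s l (fun β => c (β + uv q) * (f (β + uv p) - f (β + uv q)) ^ 2) J ≤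
      K ^ 2 * TL s l (fun β => min (c (β + uv q)) (c (β + uv p)) *
        (f (β + uv p) - f (β + uv q)) ^ 2) J := by
    rw [← TL_mul_left]
    refine TL_mono hl fun β hβ => ?_
    rw [← mul_assoc]
    refine mul_le_mul_of_nonneg_right ?_ (sq_nonneg _)
    have h1 := exch hK hζ hr (β := β) (fun i => by have := vis_le hβ hJ hJs i; omega) hq hp
    have h2 : ζ q / ζ p ≤ 1 := (div_le_one (hζ p)).2 hpq
    have h3 : 1 ≤ K ^ 2 := one_le_pow₀ hK
    have h4 := hpos (β + uv q)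
    have h5 := hpos (β + uv p)
    rcases le_total (c (β + uv q)) (c (β + uv p)) with h | h
    · rw [min_eq_left h]; nlinarith
    · rw [min_eq_right h]
      refine h1.trans (mul_le_mul_of_nonneg_right ?_ h5.le)
      nlinarith
  have hE : TL s l c (J + uv q) * TL s l (fun β => c β * f β) (J + uv p) -
      TL s l c (J + uv p) * TL s l (fun β => c β * f β) (J + uv q) =
      TL s l (fun β => act1 D (two p q (TL s l c (J + uv q)) (TL s l c (J + uv p))) c β *
        f (β + uv p)) J + TL s l c (J + uv p) *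
        TL s l (fun β => c (β + uv q) * (f (β + uv p) - f (β + uv q))) J := by
    rw [← TL_shift s l (fun β => c β * f β) J (uv p), ← TL_shift s l (fun β => c β * f β) J (uv q),
      sub_eq_add_neg, ← neg_mul, ← TL_mul_left, ← TL_mul_left, ← TL_mul_left, ← TL_add, ← TL_add]
    congr 1
    funext β
    rw [act1_two hp hq]
    ring
  have hD0 : 0 ≤ ∑ v ∈ l.toFinset, Dv s l c f v (J + uv p) :=
    Finset.sum_nonneg fun v _ => Dv_nonneg s l hpos f v _
  have hDe : 0 ≤ TL s l (fun β => min (c (β + uv q)) (c (β + uv p)) *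
      (f (β + uv p) - f (β + uv q)) ^ 2) J :=
    TL_nonneg s l (fun β => mul_nonneg (le_min (hpos _).le (hpos _).le) (sq_nonneg _)) J
  set a := TL s l c (J + uv q)
  set b := TL s l c (J + uv p)
  set Mp := TL s l (fun β => c β * f β) (J + uv p)
  set Mq := TL s l (fun β => c β * f β) (J + uv q)
  set A := TL s l (fun β => act1 D (two p q a b) c β * f (β + uv p)) J
  set B := TL s l (fun β => c (β + uv q) * (f (β + uv p) - f (β + uv q))) J
  set S := ∑ v ∈ l.toFinset, Dv s l c f v (J + uv p)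
  set De := TL s l (fun β => min (c (β + uv q)) (c (β + uv p)) *
      (f (β + uv p) - f (β + uv q)) ^ 2) J
  have hB3 : B ^ 2 ≤ a * (K ^ 2 * De) := hB.trans (mul_le_mul_of_nonneg_left hB2 ha.le)
  have e1 : Mp / b - Mq / a = A / (a * b) + B / a := by
    field_simp
    linarith
  have hm0 : 0 ≤ min a b := le_min ha.le hb.le
  have t1 : min a b * (A / (a * b)) ^ 2 ≤ 2 * ((l.length : ℝ) + 1) * (U : ℝ) ^ 2 * K ^ 4 * S := by
    calc min a b * (A / (a * b)) ^ 2 ≤ b * (A / (a * b)) ^ 2 :=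
          mul_le_mul_of_nonneg_right (min_le_right _ _) (sq_nonneg _)
      _ = A ^ 2 / (a ^ 2 * b) := by field_simp
      _ ≤ (((l.length : ℝ) + 1) * (2 * a * b * (U : ℝ) ^ 2 * K ^ 2 * a)) * (K ^ 2 * S) /
            (a ^ 2 * b) := div_le_div_of_nonneg_right hA (by positivity)
      _ = _ := by field_simp
  have t2 : min a b * (B / a) ^ 2 ≤ K ^ 2 * De := by
    calc min a b * (B / a) ^ 2 ≤ a * (B / a) ^ 2 :=
          mul_le_mul_of_nonneg_right (min_le_left _ _) (sq_nonneg _)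
      _ = B ^ 2 / a := by field_simp
      _ ≤ a * (K ^ 2 * De) / a := div_le_div_of_nonneg_right hB3 ha.le
      _ = _ := by field_simp
  rw [e1]
  have t3 : (A / (a * b) + B / a) ^ 2 ≤ 2 * (A / (a * b)) ^ 2 + 2 * (B / a) ^ 2 := by
    nlinarith [sq_nonneg (A / (a * b) - B / a)]
  calc min a b * (A / (a * b) + B / a) ^ 2
      ≤ min a b * (2 * (A / (a * b)) ^ 2 + 2 * (B / a) ^ 2) := mul_le_mul_of_nonneg_left t3 hm0
    _ = 2 * (min a b * (A / (a * b)) ^ 2) + 2 * (min a b * (B / a) ^ 2) := by ring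
    _ ≤ _ := by linarith

end

theorem Dv_cons_ne (s : ℕ → ℕ) {e v : ℕ} (h : e ≠ v) (l : List ℕ) (c f : Cfg → ℝ) (α : Cfg) :
    Dv s (e :: l) c f v α = ∑ a ∈ range (s e + 1),
      Dv s l c f v (α + a • uv (e, true) + (s e - a) • uv (e, false)) := by
  unfold Dv
  rw [List.erase_cons_tail (by simpa using h)]
  rfl

theorem Dv_cons_self (s : ℕ → ℕ) (e : ℕ) (l : List ℕ) (c f : Cfg → ℝ) (α : Cfg) :
    Dv s (e :: l) c f e α = ∑ a ∈ range (s e),
      TL s l (fun β => min (c (β + uv (e, false))) (c (β + uv (e, true))) *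
        (f (β + uv (e, true)) - f (β + uv (e, false))) ^ 2)
        (α + a • uv (e, true) + (s e - 1 - a) • uv (e, false)) := by
  unfold Dv
  rw [List.erase_cons_head, TL_sum]
  refine Finset.sum_congr rfl fun j hj => ?_
  rw [add_assoc α, ← TL_shift]
  congr 1
  funext β
  rw [shX, shY _ _ _ (Finset.mem_range.1 hj), add_assoc β]

theorem base_le {α : Cfg} {U e t : ℕ} (hα : ∀ i, α i + 2 ≤ U) (he : ∀ b, α (e, b) + t + 2 ≤ U)
    {a a' : ℕ} (ha : a ≤ t) (ha' : a' ≤ t) (i : ℕ × Bool) :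
    (α + a • uv (e, true) + a' • uv (e, false)) i + 2 ≤ U := by
  simp only [Pi.add_apply, Pi.smul_apply, smul_eq_mul]
  have h1 := hα i
  by_cases hi : i.1 = e
  · obtain ⟨e', b⟩ := i
    simp only at hi
    subst hi
    have h4 := he b
    cases b <;> simp [uv] at * <;> omega
  · have h3 : uv (e, true) i = 0 := by
      unfold uv; rw [Pi.single_apply, if_neg]; rintro rfl; exact hi rfl
    have h4 : uv (e, false) i = 0 := by
      unfold uv; rw [Pi.single_apply, if_neg]; rintro rfl; exact hi rfl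
    rw [h3, h4]; omega

theorem base_ne (α : Cfg) {e v : ℕ} (h : v ≠ e) (a a' : ℕ) (b : Bool) :
    (α + a • uv (e, true) + a' • uv (e, false)) (v, b) = α (v, b) := by
  simp [uv, h]

end PoX

namespace PoX

theorem dec_after {s : ℕ} {ν : ℕ → ℝ} (hν : ∀ j, 0 < ν j)
    (hlc : ∀ j, j + 2 ≤ s → ν j * ν (j + 2) ≤ ν (j + 1) ^ 2) {k0 : ℕ}
    (hk : ∀ j ≤ s, ν j ≤ ν k0) : ∀ k, k0 ≤ k → k + 1 ≤ s → ν (k + 1) ≤ ν k := by
  intro k hk0
  induction k, hk0 using Nat.le_induction with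
  | base => intro h; exact hk _ h
  | succ k hk0 ih =>
    intro h
    have h1 := ih (by omega)
    have h2 := hlc k (by omega)
    have h3 := hν k
    have h4 := hν (k + 1)
    have h5 : ν k * ν (k + 2) ≤ ν k * ν (k + 1) := by nlinarith
    exact le_of_mul_le_mul_left h5 h3

theorem inc_before {s : ℕ} {ν : ℕ → ℝ} (hν : ∀ j, 0 < ν j)
    (hlc : ∀ j, j + 2 ≤ s → ν j * ν (j + 2) ≤ ν (j + 1) ^ 2) {k0 : ℕ} (hk0 : k0 ≤ s)
    (hk : ∀ j ≤ s, ν j ≤ ν k0) : ∀ d k, k + 1 + d = k0 → ν k ≤ ν (k + 1) := by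
  intro d
  induction d with
  | zero => intro k h; rw [show k + 1 = k0 by omega]; exact hk _ (by omega)
  | succ d ih =>
    intro k h
    have h1 := ih (k + 1) (by omega)
    have h2 := hlc k (by omega)
    have h3 := hν (k + 2)
    have h4 := hν (k + 1)
    have h5 : ν k * ν (k + 2) ≤ ν (k + 1) * ν (k + 2) := by nlinarith
    exact le_of_mul_le_mul_right h5 h3

theorem anti_after {s : ℕ} {ν : ℕ → ℝ} {k0 : ℕ}
    (h : ∀ k, k0 ≤ k → k + 1 ≤ s → ν (k + 1) ≤ ν k) {i j : ℕ} (hi : k0 ≤ i) (hij : i ≤ j)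
    (hj : j ≤ s) : ν j ≤ ν i := by
  induction j, hij using Nat.le_induction with
  | base => exact le_rfl
  | succ j hij ih => exact (h j (by omega) hj).trans (ih (by omega))

theorem mono_before {ν : ℕ → ℝ} {k0 : ℕ}
    (h : ∀ k, k + 1 ≤ k0 → ν k ≤ ν (k + 1)) {i j : ℕ} (hij : i ≤ j)
    (hj : j ≤ k0) : ν i ≤ ν j := by
  induction j, hij using Nat.le_induction with
  | base => exact le_rfl
  | succ j hij ih => exact (ih (by omega)).trans (h j hj)

theorem seg {s : ℕ} (ν m : ℕ → ℝ) (hν : ∀ j, 0 < ν j) {i j : ℕ} (hij : i ≤ j) (hj : j ≤ s) (w : ℝ)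
    (hw0 : 0 ≤ w) (hw : ∀ k, i ≤ k → k ≤ j → w ≤ ν k) :
    w * (m j - m i) ^ 2 ≤ s * ∑ k ∈ range s, min (ν k) (ν (k + 1)) * (m (k + 1) - m k) ^ 2 := by
  have h1 : m j - m i = ∑ k ∈ Ico i j, (m (k + 1) - m k) := (Finset.sum_Ico_sub m hij).symm
  have h2 : (∑ k ∈ Ico i j, (m (k + 1) - m k)) ^ 2 ≤
      ((Ico i j).card : ℝ) * ∑ k ∈ Ico i j, (m (k + 1) - m k) ^ 2 := sq_sum_le_card_mul_sum_sq
  have h3 : ((Ico i j).card : ℝ) ≤ s := by
    rw [Nat.card_Ico]; exact_mod_cast (by omega : j - i ≤ s)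
  have h4 : w * ∑ k ∈ Ico i j, (m (k + 1) - m k) ^ 2 ≤
      ∑ k ∈ range s, min (ν k) (ν (k + 1)) * (m (k + 1) - m k) ^ 2 := by
    rw [Finset.mul_sum]
    calc ∑ k ∈ Ico i j, w * (m (k + 1) - m k) ^ 2
        ≤ ∑ k ∈ Ico i j, min (ν k) (ν (k + 1)) * (m (k + 1) - m k) ^ 2 := by
          refine Finset.sum_le_sum fun k hk => ?_
          rw [Finset.mem_Ico] at hk
          exact mul_le_mul_of_nonneg_right
            (le_min (hw k hk.1 hk.2.le) (hw (k + 1) (by omega) (by omega))) (sq_nonneg _)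
      _ ≤ _ := by
          refine Finset.sum_le_sum_of_subset_of_nonneg ?_ fun k _ _ => ?_
          · intro k hk
            rw [Finset.mem_Ico] at hk
            exact Finset.mem_range.2 (by omega)
          · exact mul_nonneg (le_min (hν _).le (hν _).le) (sq_nonneg _)
  have h5 : 0 ≤ ∑ k ∈ Ico i j, (m (k + 1) - m k) ^ 2 := Finset.sum_nonneg fun _ _ => sq_nonneg _
  rw [h1]
  calc w * (∑ k ∈ Ico i j, (m (k + 1) - m k)) ^ 2
      ≤ w * ((s : ℝ) * ∑ k ∈ Ico i j, (m (k + 1) - m k) ^ 2) :=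
        mul_le_mul_of_nonneg_left (h2.trans (mul_le_mul_of_nonneg_right h3 h5)) hw0
    _ = s * (w * ∑ k ∈ Ico i j, (m (k + 1) - m k) ^ 2) := by ring
    _ ≤ _ := mul_le_mul_of_nonneg_left h4 (Nat.cast_nonneg _)

end PoX

/-- one-dimensional Poincaré inequality for a positive log-concave sequence -/
theorem poinc1 (s : ℕ) (ν m : ℕ → ℝ) (hν : ∀ j, 0 < ν j)
    (hlc : ∀ j, j + 2 ≤ s → ν j * ν (j + 2) ≤ ν (j + 1) ^ 2) :
    (∑ j ∈ range (s + 1), ν j) * (∑ j ∈ range (s + 1), ν j * m j ^ 2) -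
        (∑ j ∈ range (s + 1), ν j * m j) ^ 2 ≤
      (s : ℝ) ^ 2 * (∑ j ∈ range (s + 1), ν j) *
        ∑ j ∈ range s, min (ν j) (ν (j + 1)) * (m (j + 1) - m j) ^ 2 := by
  obtain ⟨k0, hk0, hk⟩ := Finset.exists_max_image (range (s + 1)) ν ⟨0, by simp⟩
  have hk0' : k0 ≤ s := by simpa [Nat.lt_succ_iff] using hk0
  have hk' : ∀ j ≤ s, ν j ≤ ν k0 := fun j hj => hk j (by simpa [Nat.lt_succ_iff] using hj)
  have hA := PoX.dec_after hν hlc hk'
  have hB : ∀ k, k + 1 ≤ k0 → ν k ≤ ν (k + 1) := fun k h =>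
    PoX.inc_before hν hlc hk0' hk' (k0 - (k + 1)) k (by omega)
  set T := ∑ j ∈ range s, min (ν j) (ν (j + 1)) * (m (j + 1) - m j) ^ 2 with hT
  set Z := ∑ j ∈ range (s + 1), ν j with hZ
  have hZ0 : 0 ≤ Z := Finset.sum_nonneg fun j _ => (hν j).le
  have h1 : ∀ j ≤ s, ν j * (m j - m k0) ^ 2 ≤ s * T := by
    intro j hj
    rcases le_total k0 j with h | h
    · exact PoX.seg ν m hν h hj _ (hν j).le fun k h1 h2 => PoX.anti_after hA h1 h2 hj
    · rw [show (m j - m k0) ^ 2 = (m k0 - m j) ^ 2 by ring]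
      exact PoX.seg ν m hν h hk0' _ (hν j).le fun k h1 h2 => PoX.mono_before hB h1 h2
  have h2 : ∑ j ∈ range (s + 1), ν j * (m j - m k0) ^ 2 ≤ s * (s * T) := by
    rw [← Finset.add_sum_erase _ _ hk0]
    have : ∑ j ∈ (range (s + 1)).erase k0, ν j * (m j - m k0) ^ 2 ≤
        ∑ _j ∈ (range (s + 1)).erase k0, (s : ℝ) * T :=
      Finset.sum_le_sum fun j hj => h1 j (by
        have := Finset.mem_of_mem_erase hj
        simpa [Nat.lt_succ_iff] using this)
    rw [Finset.sum_const, Finset.card_erase_of_mem hk0, Finset.card_range, Nat.add_sub_cancel,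
      nsmul_eq_mul] at this
    simpa using this
  have h3 : ∑ j ∈ range (s + 1), ν j * (m j - m k0) ^ 2 =
      ∑ j ∈ range (s + 1), ν j * m j ^ 2 - 2 * m k0 * ∑ j ∈ range (s + 1), ν j * m j +
        m k0 ^ 2 * Z := by
    rw [hZ, Finset.mul_sum, Finset.mul_sum, ← Finset.sum_sub_distrib, ← Finset.sum_add_distrib]
    exact Finset.sum_congr rfl fun j _ => by ring
  have h4 := mul_le_mul_of_nonneg_left h2 hZ0
  rw [h3] at h4
  nlinarith [sq_nonneg (∑ j ∈ range (s + 1), ν j * m j - m k0 * Z)]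

theorem poincare_TL {D : Finset (ℕ × Bool)} {c : Cfg → ℝ} (hpos : ∀ β, 0 < c β) {U : ℕ}
    (hU : 1 ≤ U) (hS : ∀ β : Cfg, (∀ i, β i ≤ U) → SL D c β) {K : ℝ} (hK : 1 ≤ K)
    (ζ : ℕ × Bool → ℝ) (hζ : ∀ i, 0 < ζ i)
    (hr : ∀ β : Cfg, (∀ i, β i ≤ U) → ∀ i ∈ D,
      c (β + uv i) ≤ K * ζ i * c β ∧ ζ i * c β ≤ K * c (β + uv i))
    (s : ℕ → ℕ) (f : Cfg → ℝ) (l : List ℕ) (hl : l.Nodup) (hD : ∀ e ∈ l, ∀ b, (e, b) ∈ D) (α : Cfg)
    (hα : ∀ i, α i + 2 ≤ U) (hαs : ∀ e ∈ l, ∀ b, α (e, b) + s e + 2 ≤ U) :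
    TL s l c α * TL s l (fun β => c β * f β ^ 2) α - TL s l (fun β => c β * f β) α ^ 2 ≤
      10 * ((l.length : ℝ) + 1) ^ 2 * (U : ℝ) ^ 4 * K ^ 4 * TL s l c α *
        ∑ v ∈ l.toFinset, Dv s l c f v α := by
  induction l generalizing α with
  | nil =>
    simp only [TL, List.toFinset_nil, Finset.sum_empty, mul_zero]
    exact le_of_eq (by ring)
  | cons e l ih =>
    obtain ⟨hel, hl'⟩ := List.nodup_cons.1 hl
    have hD' : ∀ v ∈ l, ∀ b, (v, b) ∈ D := fun v hv b => hD v (List.mem_cons_of_mem _ hv) b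
    have hx : (e, true) ∈ D := hD e List.mem_cons_self true
    have hy : (e, false) ∈ D := hD e List.mem_cons_self false
    have hes : ∀ b, α (e, b) + s e + 2 ≤ U := hαs e List.mem_cons_self
    have hb1 : ∀ a a', a ≤ s e → a' ≤ s e → ∀ i,
        (α + a • uv (e, true) + a' • uv (e, false)) i + 2 ≤ U := fun a a' ha ha' i =>
      PoX.base_le hα hes ha ha' i
    have hb2 : ∀ a a', ∀ v ∈ l, ∀ b,
        (α + a • uv (e, true) + a' • uv (e, false)) (v, b) + s v + 2 ≤ U := fun a a' v hv b => by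
      rw [PoX.base_ne α (by rintro rfl; exact hel hv)]
      exact hαs v (List.mem_cons_of_mem _ hv) b
    set pt : ℕ → Cfg := fun a => α + a • uv (e, true) + (s e - a) • uv (e, false) with hpt
    set ν : ℕ → ℝ := fun a => TL s l c (pt a) with hν
    set S1 : ℕ → ℝ := fun a => TL s l (fun β => c β * f β) (pt a) with hS1
    set S2 : ℕ → ℝ := fun a => TL s l (fun β => c β * f β ^ 2) (pt a) with hS2
    set m : ℕ → ℝ := fun a => S1 a / ν a with hm
    set DD : ℕ → ℝ := fun a => ∑ v ∈ l.toFinset, Dv s l c f v (pt a) with hDD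
    have hν0 : ∀ a, 0 < ν a := fun a => TL_pos hpos _
    have hDD0 : ∀ a, 0 ≤ DD a := fun a =>
      Finset.sum_nonneg fun v _ => PoX.Dv_nonneg s l hpos f v _
    have hlc : ∀ j, j + 2 ≤ s e → ν j * ν (j + 2) ≤ ν (j + 1) ^ 2 := by
      intro j hj
      set γ := α + j • uv (e, true) + (s e - j - 2) • uv (e, false) with hγ
      have h1 : SL {(e, true), (e, false)} (TL s l c) γ := by
        refine SL_TL hpos hl' hD' ?_ ?_ fun β hβ => hS β fun i => ?_
        · intro i hi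
          simp only [Finset.mem_insert, Finset.mem_singleton] at hi
          rcases hi with rfl | rfl
          · exact hx
          · exact hy
        · intro i hi
          simp only [Finset.mem_insert, Finset.mem_singleton] at hi
          rcases hi with rfl | rfl <;> exact hel
        · have := PoX.vis_le hβ (hb1 j (s e - j - 2) (by omega) (by omega)) (hb2 j (s e - j - 2)) i
          omega
      have h2 := h1.pair (fun β => TL_pos hpos β) (p := (e, true)) (q := (e, false)) (by simp)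
        (by simp)
      have e0 : pt j = γ + uv (e, false) + uv (e, false) := by
        simp only [hpt, hγ]
        rw [show s e - j = (s e - j - 2) + 1 + 1 by omega, succ_nsmul, succ_nsmul]
        simp only [Nat.add_sub_cancel, add_assoc]
      have e1 : pt (j + 1) = γ + uv (e, true) + uv (e, false) := by
        simp only [hpt, hγ]
        rw [show s e - (j + 1) = (s e - j - 2) + 1 by omega, succ_nsmul, succ_nsmul]
        abel
      have e2 : pt (j + 2) = γ + uv (e, true) + uv (e, true) := by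
        simp only [hpt, hγ]
        rw [show s e - (j + 2) = s e - j - 2 by omega, succ_nsmul, succ_nsmul]
        abel
      simp only [hν]
      rw [e0, e1, e2, mul_comm]
      exact h2
    have hP := poinc1 (s e) ν m hν0 hlc
    have eZ : TL s (e :: l) c α = ∑ j ∈ range (s e + 1), ν j := rfl
    have e1 : TL s (e :: l) (fun β => c β * f β) α = ∑ j ∈ range (s e + 1), ν j * m j := by
      change ∑ j ∈ range (s e + 1), S1 j = _
      refine Finset.sum_congr rfl fun j _ => ?_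
      simp only [hm]; rw [mul_div_cancel₀ _ (hν0 j).ne']
    have e2 : TL s (e :: l) (fun β => c β * f β ^ 2) α = ∑ j ∈ range (s e + 1), S2 j := rfl
    have eD : ∑ v ∈ (e :: l).toFinset, Dv s (e :: l) c f v α =
        Dv s (e :: l) c f e α + ∑ j ∈ range (s e + 1), DD j := by
      rw [List.toFinset_cons, Finset.sum_insert (by simpa using hel)]
      congr 1
      simp only [hDD]
      rw [Finset.sum_comm]
      refine Finset.sum_congr rfl fun v hv => PoX.Dv_cons_ne s ?_ l c f α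
      rintro rfl
      exact hel (List.mem_toFinset.1 hv)
    set n : ℝ := (l.length : ℝ) with hn
    have hn0 : 0 ≤ n := Nat.cast_nonneg _
    have hIH : ∑ j ∈ range (s e + 1), S2 j ≤ ∑ j ∈ range (s e + 1), ν j * m j ^ 2 +
        10 * (n + 1) ^ 2 * (U : ℝ) ^ 4 * K ^ 4 * ∑ j ∈ range (s e + 1), DD j := by
      rw [Finset.mul_sum, ← Finset.sum_add_distrib]
      refine Finset.sum_le_sum fun j hj => ?_
      have hj' : j ≤ s e := by simpa [Nat.lt_succ_iff] using hj
      have h1 := ih hl' hD' (pt j) (hb1 j (s e - j) hj' (by omega)) (hb2 j (s e - j))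
      have h2 := hν0 j
      change ν j * S2 j - S1 j ^ 2 ≤ 10 * (n + 1) ^ 2 * (U : ℝ) ^ 4 * K ^ 4 * ν j * DD j at h1
      have h3 : S1 j = ν j * m j := by simp only [hm]; rw [mul_div_cancel₀ _ h2.ne']
      rw [h3] at h1
      refine le_of_mul_le_mul_left ?_ h2
      nlinarith
    have hSl : ∑ j ∈ range (s e), min (ν j) (ν (j + 1)) * (m (j + 1) - m j) ^ 2 ≤
        4 * (n + 1) * (U : ℝ) ^ 2 * K ^ 4 * ∑ j ∈ range (s e + 1), DD j +
          2 * K ^ 2 * Dv s (e :: l) c f e α := by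
      have hc0 : 0 ≤ 4 * (n + 1) * (U : ℝ) ^ 2 * K ^ 4 := by positivity
      rw [PoX.Dv_cons_self, Finset.mul_sum (range (s e))]
      rcases le_total (ζ (e, false)) (ζ (e, true)) with h | h
      · have h1 : ∑ j ∈ range (s e), DD (j + 1) ≤ ∑ j ∈ range (s e + 1), DD j := by
          rw [Finset.sum_range_succ']; linarith [hDD0 0]
        refine le_trans ?_ (add_le_add (mul_le_mul_of_nonneg_left h1 hc0) le_rfl)
        rw [Finset.mul_sum, ← Finset.sum_add_distrib]
        refine Finset.sum_le_sum fun j hj => ?_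
        rw [Finset.mem_range] at hj
        have := PoX.slice_le hpos hU hS hK hζ hr hl' hD'
          (hb1 j (s e - 1 - j) (by omega) (by omega)) (hb2 j (s e - 1 - j)) hx hy hel hel h f
        rw [← PoX.shX', ← PoX.shY _ _ _ hj] at this
        exact this
      · have h1 : ∑ j ∈ range (s e), DD j ≤ ∑ j ∈ range (s e + 1), DD j := by
          rw [Finset.sum_range_succ]; linarith [hDD0 (s e)]
        refine le_trans ?_ (add_le_add (mul_le_mul_of_nonneg_left h1 hc0) le_rfl)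
        rw [Finset.mul_sum, ← Finset.sum_add_distrib]
        refine Finset.sum_le_sum fun j hj => ?_
        rw [Finset.mem_range] at hj
        have := PoX.slice_le hpos hU hS hK hζ hr hl' hD'
          (hb1 j (s e - 1 - j) (by omega) (by omega)) (hb2 j (s e - 1 - j)) hy hx hel hel h f
        rw [← PoX.shX', ← PoX.shY _ _ _ hj] at this
        have e3 : (fun β => min (c (β + uv (e, true))) (c (β + uv (e, false))) *
            (f (β + uv (e, false)) - f (β + uv (e, true))) ^ 2) =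
            fun β => min (c (β + uv (e, false))) (c (β + uv (e, true))) *
              (f (β + uv (e, true)) - f (β + uv (e, false))) ^ 2 := by
          funext β; rw [min_comm]; ring
        rw [e3, min_comm] at this
        rw [show (m (j + 1) - m j) ^ 2 = (m j - m (j + 1)) ^ 2 by ring]
        exact this
    rw [eZ, e1, e2, eD, List.length_cons, Nat.cast_add_one, ← hn]
    have hZ0 : 0 ≤ ∑ j ∈ range (s e + 1), ν j := Finset.sum_nonneg fun j _ => (hν0 j).le
    have hT0 : 0 ≤ ∑ j ∈ range (s e + 1), DD j := Finset.sum_nonneg fun j _ => hDD0 j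
    have hE0 : 0 ≤ Dv s (e :: l) c f e α := PoX.Dv_nonneg s _ hpos f e α
    set Z := ∑ j ∈ range (s e + 1), ν j
    set T := ∑ j ∈ range (s e + 1), DD j
    set E := Dv s (e :: l) c f e α
    set R := ∑ j ∈ range (s e), min (ν j) (ν (j + 1)) * (m (j + 1) - m j) ^ 2
    have hU1 : (1 : ℝ) ≤ U := by exact_mod_cast hU
    have hsU : (s e : ℝ) ^ 2 ≤ (U : ℝ) ^ 2 := by
      have := hes true
      have h : (s e : ℝ) ≤ U := by exact_mod_cast (by omega : s e ≤ U)
      exact pow_le_pow_left₀ (Nat.cast_nonneg _) h 2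
    have hK0 : 0 ≤ K := by linarith
    have hW : (U : ℝ) ^ 2 * K ^ 2 ≤ (U : ℝ) ^ 4 * K ^ 4 :=
      mul_le_mul (pow_le_pow_right₀ hU1 (by norm_num)) (pow_le_pow_right₀ hK (by norm_num))
        (by positivity) (by positivity)
    have hR : (s e : ℝ) ^ 2 * R ≤ 4 * (n + 1) * ((U : ℝ) ^ 4 * K ^ 4) * T +
        2 * ((U : ℝ) ^ 4 * K ^ 4) * E := by
      calc (s e : ℝ) ^ 2 * R ≤ (s e : ℝ) ^ 2 *
            (4 * (n + 1) * (U : ℝ) ^ 2 * K ^ 4 * T + 2 * K ^ 2 * E) :=
            mul_le_mul_of_nonneg_left hSl (sq_nonneg _)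
        _ ≤ (U : ℝ) ^ 2 * (4 * (n + 1) * (U : ℝ) ^ 2 * K ^ 4 * T + 2 * K ^ 2 * E) :=
            mul_le_mul_of_nonneg_right hsU (by positivity)
        _ = 4 * (n + 1) * ((U : ℝ) ^ 4 * K ^ 4) * T + 2 * ((U : ℝ) ^ 2 * K ^ 2) * E := by ring
        _ ≤ _ := by gcongr
    set W := (U : ℝ) ^ 4 * K ^ 4 with hWd
    have hW0 : 0 ≤ W := by positivity
    have f1 := mul_le_mul_of_nonneg_left hIH hZ0
    have f2 := mul_le_mul_of_nonneg_left hR hZ0
    have f3 : 10 * (n + 1) ^ 2 * W * T + (4 * (n + 1) * W * T + 2 * W * E) ≤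
        10 * (n + 1 + 1) ^ 2 * W * (E + T) := by
      have g1 := mul_nonneg hW0 hT0
      have g2 := mul_nonneg hW0 hE0
      have g3 := mul_nonneg hn0 g1
      have g4 := mul_nonneg hn0 g2
      have g5 := mul_nonneg hn0 g4
      nlinarith
    have f4 := mul_le_mul_of_nonneg_left f3 hZ0
    have f5 : 10 * (n + 1 + 1) ^ 2 * (U : ℝ) ^ 4 * K ^ 4 * Z * (E + T) =
        Z * (10 * (n + 1 + 1) ^ 2 * W * (E + T)) := by rw [hWd]; ring
    have f6 : 10 * (n + 1) ^ 2 * (U : ℝ) ^ 4 * K ^ 4 * T = 10 * (n + 1) ^ 2 * W * T := by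
      rw [hWd]; ring
    rw [f6] at f1
    rw [f5]
    nlinarith

end Crest.Agent.R309
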