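import Crest.Agent.R309.RamDefs
import Crest.Agent.R309.PTL
import Crest.Agent.R309.RamP

/-! Row 309: compiling stack programs to the word RAM. -/

set_option autoImplicit false
set_option linter.unusedSimpArgs false

namespace Crest.Agent.R309

open Crest.Agent.PT Crest.Enc Function

namespace RW

/-- one trial: restore the input stack and the heap pointer, run the program -/
def body (q : RP) : W := .seq (.ops [.copy 20 8, .copy 3 9]) (trn q)

/-- the whole code -/
def full (q : RP) (R N : ℕ) : List (Crest.WordRAM.Instr (N + 1)) :=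
  (pro R).comp N 0 ++ ((body q).comp N (pro R).len ++
    .jumpIfEq (rg N 21) (rg N 2) (pro R).len ::
      (epi.comp N ((pro R).len + (body q).len + 1) ++ [.halt]))

theorem reset_inv {w : ℕ} {ρ : ℕ → ℕ} {R nl h0 : ℕ} {x : List ℕ} {s : S} {σ : St}
    (h : Inv R nl h0 (codeN x) s σ) (hσ : ∀ j, j ≠ 0 → σ j = []) :
    Inv R nl h0 (codeN x) (effs w ρ [.copy 20 8, .copy 3 9] s) (st0 x) ∧
      (effs w ρ [.copy 20 8, .copy 3 9] s).R 3 = h0 := by
  refine ⟨⟨?_, ?_, ?_, ?_, ?_, h.lt, ?_, ?_, fun j hj => ?_⟩, ?_⟩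
  · simp [effs, Op.eff, h.one]
  · simp [effs, Op.eff, h.two]
  · simp [effs, Op.eff, h.zero]
  · simp [effs, Op.eff, h.nil]
  · simp [effs, Op.eff, h.base]
  · simp [effs, Op.eff, h.base]
  · simpa [effs, Op.eff] using h.keep
  · by_cases e : j = 0
    · subst e
      simpa [effs, Op.eff, h.base, st0] using h.keep
    · have := h.rep j hj
      rw [hσ j e] at this
      simpa [effs, Op.eff, st0, e, Rep] using this
  · simp [effs, Op.eff, h.base]

end RW

open RW in
theorem trialM_of_rp (q : RP) : ∃ (Pg : Crest.WordRAM.Program) (κ : ℕ),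
    ∀ (x : List ℕ) (w L H : ℕ) (tr : Word → List ℕ) (τ : Word → ℕ),
      κ * (H + sz x + 1) < 2 ^ w → sz x + 2 ≤ w →
      (∀ ω, ω.length = L → τ ω ≤ H ∧ ∀ v ∈ tr ω, v < 2 ^ w) →
      (∀ (ρ : ℕ → Bool) (pos : ℕ), ∃ t ≤ τ (bitsAt ρ pos L),
        RExec ρ q (st0 x, pos) (update (st0 x) 1 (codeN (tr (bitsAt ρ pos L))), pos + L) t) →
      TrialM Pg w x L tr (fun ω => κ * (τ ω + sz x + 1)) (κ * (sz x + 1)) := by
  obtain ⟨R, hR⟩ : ∃ R, R = mxs q + 2 := ⟨_, rfl⟩
  obtain ⟨N, hN⟩ : ∃ N, N = R + 20 := ⟨_, rfl⟩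
  refine ⟨⟨N + 1, full q R N⟩, R + 14, fun x w L H tr τ hκ hw hb hq ρ => ?_⟩
  have hsz : sz x = (codeN x).length := by
    show ∑ _ : Unit, (codeN x).length = _
    simp
  rw [hsz] at hκ hw ⊢
  have hn := two_length_le x
  have hκ' : 14 * (H + (codeN x).length + 1) < 2 ^ w :=
    lt_of_le_of_lt (Nat.mul_le_mul_right _ (by omega)) hκ
  have hw2 : 2 ≤ w := by omega
  have P0 : Placed (full q R N) 0 (full q R N) := placed_self _
  have P1 : Placed (full q R N) 0 ((pro R).comp N 0) := P0.left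
  have P2 := Placed.right P0 (o' := (pro R).len) (by rw [W.length_comp, zero_add])
  have P3 := P2.left
  have P4 := P2.right (o' := (pro R).len + (body q).len) (by rw [W.length_comp])
  have P5 := P4.tail.left
  have P6 := (P4.tail.right (o' := (pro R).len + (body q).len + 1 + epi.len)
    (by rw [W.length_comp])).head
  refine ⟨fun k c => ∃ s σ, c = cfg N (pro R).len s ∧ Inv R (x.length + (codeN x).length)
    (x.length + (codeN x).length + 1) (codeN x) s σ ∧ (∀ j, j ≠ 0 → σ j = []) ∧ s.k = k * L,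
    ?_, ?_, ?_⟩
  · obtain ⟨s, a1, a2, a3⟩ := pro_we (ρ := ρ) (x := x) hw2 (by omega) R
      (s := ⟨fun j => if j = 0 then x.length % 2 ^ w else 0, fun i => x[i]?.getD 0 % 2 ^ w, 0⟩)
      (by simp; exact Nat.mod_eq_of_lt (by omega)) rfl rfl
      (fun i hi => by
        simp only [List.getD_eq_getElem?_getD, List.getElem?_eq_getElem hi, Option.getD_some]
        exact Nat.mod_eq_of_lt ((lt_of_mem (List.getElem_mem hi)).trans_le
          (Nat.pow_le_pow_right (by omega) (by omega)))) rfl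
    obtain ⟨T, h1, h2⟩ := reach_of_we a1 0 P1 (pro_ok hN.ge)
    refine ⟨T, h1.trans (by nlinarith), s, _, ?_, a2, fun _ _ => rfl, by rw [a3, zero_mul]⟩
    rw [zero_add] at h2
    exact h2
  · rintro k c ⟨s, σ, rfl, -⟩
    rfl
  · rintro k c ⟨s, σ, rfl, h1, h2, h3⟩
    obtain ⟨t, ht, hex⟩ := hq (fun i => (ρ i).bodd) (k * L)
    generalize hω : bitsAt (fun i => (ρ i).bodd) (k * L) L = ω at ht hex ⊢
    obtain ⟨hH, hv⟩ := hb ω (by rw [← hω]; simp [bitsAt])
    obtain ⟨b1, b2⟩ := reset_inv (w := w) (ρ := ρ) h1 h2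
    obtain ⟨s1, c1, c2, c3, c4⟩ := sim hw2 hex _ (by omega) b1 h3 (by rw [b2]; omega)
    rw [b2] at c4
    have hlen := RExec.length_le hex 1
    simp only [update_self, st0, ne_eq, one_ne_zero, not_false_eq_true, update_of_ne,
      List.length_nil, zero_add] at hlen
    have r1 := reach_of_we (p := body q) ((WE.ops _ s).seq c1) _ P3
      ⟨by simp [W.ok, Op.mx]; omega, trn_ok q (by omega)⟩
    have r2 := r1.trans (Reach.one (step_jeq P4.head (by omega) (by omega) s1))
    have hrep := c2.rep 1 (by omega)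
    simp only [update_self] at hrep
    by_cases e : tr ω = []
    · have e1 : s1.R 21 = s1.R 2 := (hrep.eq_nil.2 (codeN_eq_nil.2 e)).trans c2.nil.symm
      rw [if_pos e1] at r2
      obtain ⟨T, d1, d2⟩ := r1
      refine ⟨T + 1, by omega, ?_, fun _ => ⟨s1, _, ?_, c2, fun j hj => ?_, ?_⟩,
        fun h => absurd e h⟩
      · simp only [List.length_cons, List.length_nil] at d1
        nlinarith
      · rw [iterate_succ_apply', d2, step_jeq P4.head (by omega) (by omega) s1, if_pos e1]
      · by_cases e2 : j = 1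
        · subst e2; simp [e, codeN]
        · simp [st0, hj, e2]
      · rw [c3]; simp [add_mul]
    · have e1 : s1.R 21 ≠ s1.R 2 := fun e1 =>
        e (codeN_eq_nil.1 (hrep.eq_nil.1 (e1.trans c2.nil)))
      rw [if_neg e1] at r2
      have hl2 := two_length_le (tr ω)
      obtain ⟨s2, f1, f2⟩ := epi_we (ρ := ρ) c2 (by omega) (out := tr ω) (by simp) hv (by omega)
      obtain ⟨T, d1, d2⟩ := r2.trans (reach_of_we f1 _ P5 (epi_ok (by omega)))
      refine ⟨T + 1, by omega, ?_, fun h => absurd h e, fun _ => ?_⟩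
      · simp only [List.length_cons, List.length_nil] at d1
        nlinarith
      · rw [iterate_succ_apply', d2, step_halt P6]
        refine ⟨rfl, ?_⟩
        rw [← f2]
        simp [Crest.WordRAM.Cfg.output, Crest.WordRAM.Cfg.reg, cfg, show 1 < N + 1 by omega]

end Crest.Agent.R309
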