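import Crest.Agent.R309.RamDefs
import Crest.Agent.R309.RamCAux

/-! Row 309: Las Vegas analysis of a trial machine. -/

set_option autoImplicit false

namespace Crest.Agent.R309

open Crest.Agent.PT Crest.Enc Function

namespace RamC

open Crest.WordRAM Finset

/-- block number `k` of low bits -/
def bk (L : ℕ) (ρ : ℕ → ℕ) (k : ℕ) : Word := bitsAt (fun i => (ρ i).bodd) (k * L) L

theorem length_bk (L : ℕ) (ρ : ℕ → ℕ) (k : ℕ) : (bk L ρ k).length = L := length_bitsAt _ _ _

section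
variable {Pg : Program} {w : ℕ} {x : List ℕ} {L : ℕ} {tr : Word → List ℕ}
  {τ : Word → ℕ} {T₀ : ℕ}

theorem trial_runs (h : TrialM Pg w x L tr τ T₀) (ρ : ℕ → ℕ) (n : ℕ)
    (hn : ∀ k < n, tr (bk L ρ k) = []) :
    (∃ T, n ≤ T ∧ T ≤ T₀ + ∑ k ∈ range n, τ (bk L ρ k) ∧ (run Pg w ρ x T).halted = false) ∧
    (tr (bk L ρ n) ≠ [] → ∃ T ≤ T₀ + ∑ k ∈ range (n + 1), τ (bk L ρ k),
      (run Pg w ρ x T).halted = true ∧ (run Pg w ρ x T).output = (tr (bk L ρ n)).tail) := by
  obtain ⟨At, ⟨T0, hT0, h0⟩, hh, hs⟩ := h ρ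
  have key : ∀ n, (∀ k < n, tr (bk L ρ k) = []) →
      ∃ T, n ≤ T ∧ T ≤ T₀ + ∑ k ∈ range n, τ (bk L ρ k) ∧ At n (run Pg w ρ x T) := by
    intro n
    induction n with
    | zero => exact fun _ => ⟨T0, Nat.zero_le _, by simpa using hT0, h0⟩
    | succ n ih =>
      intro hn
      obtain ⟨T, h1, h2, h3⟩ := ih fun k hk => hn k (by omega)
      obtain ⟨T', h4, h5, h6, -⟩ := hs n _ h3
      refine ⟨T + T', by omega, ?_, ?_⟩
      · rw [Finset.sum_range_succ]
        have : T' ≤ τ (bk L ρ n) := h5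
        omega
      · rw [run_add]; exact h6 (hn n (by omega))
  obtain ⟨T, h1, h2, h3⟩ := key n hn
  refine ⟨⟨T, h1, h2, hh _ _ h3⟩, fun hne => ?_⟩
  obtain ⟨T', h4, h5, -, h6⟩ := hs n _ h3
  refine ⟨T + T', ?_, ?_⟩
  · rw [Finset.sum_range_succ]
    have : T' ≤ τ (bk L ρ n) := h5
    omega
  · rw [run_add]; exact h6 hne

/-- a halted run has met a first nonempty trial -/
theorem first_of_halted (h : TrialM Pg w x L tr τ T₀) (ρ : ℕ → ℕ) {T : ℕ}
    (hT : (run Pg w ρ x T).halted = true) :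
    ∃ n < T, (∀ k < n, tr (bk L ρ k) = []) ∧ tr (bk L ρ n) ≠ [] ∧
      (tr (bk L ρ n)).tail = (run Pg w ρ x T).output := by
  have hex : ∃ n, n < T ∧ tr (bk L ρ n) ≠ [] := by
    by_contra hc
    push Not at hc
    obtain ⟨T', h1, -, h2⟩ := (trial_runs h ρ T hc).1
    rw [run_halted Pg w ρ x hT h1, hT] at h2
    exact absurd h2 (by simp)
  classical
  have hn := Nat.find_spec hex
  have hlt : ∀ k < Nat.find hex, tr (bk L ρ k) = [] := fun k hk => by
    have := Nat.find_min hex hk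
    push Not at this
    exact this (hk.trans hn.1)
  refine ⟨Nat.find hex, hn.1, hlt, hn.2, ?_⟩
  obtain ⟨T', -, h1, h2⟩ := (trial_runs h ρ _ hlt).2 hn.2
  rw [← h2]
  rcases le_total T T' with h3 | h3
  · rw [run_halted Pg w ρ x hT h3]
  · rw [run_halted Pg w ρ x h1 h3]

open Classical in
theorem count_le (h : TrialM Pg w x L tr τ T₀) (ρ : ℕ → ℕ) (M : ℕ) :
    ∑ T ∈ range M, (if (run Pg w ρ x T).halted = false then (1 : ℝ) else 0) ≤
      T₀ + ∑ k ∈ range M, (if ∀ j < k, tr (bk L ρ j) = [] then (τ (bk L ρ k) : ℝ) else 0) := by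
  have hb : ∀ T', (∀ T, T' ≤ T → T < M → (run Pg w ρ x T).halted = true) →
      ∑ T ∈ range M, (if (run Pg w ρ x T).halted = false then (1 : ℝ) else 0) ≤ T' := by
    intro T' hT'
    rw [Finset.sum_boole]
    have : (range M).filter (fun T => (run Pg w ρ x T).halted = false) ⊆ range T' := by
      intro T hT
      rw [Finset.mem_filter, Finset.mem_range] at hT
      rw [Finset.mem_range]
      by_contra hc
      rw [hT' T (by omega) hT.1] at hT
      exact absurd hT.2 (by simp)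
    have := Finset.card_le_card this
    rw [Finset.card_range] at this
    exact_mod_cast this
  have hs : ∀ n ≤ M, (∀ k, k + 1 < n + 0 → tr (bk L ρ k) = []) →
      ((∑ k ∈ range n, τ (bk L ρ k) : ℕ) : ℝ) ≤
        ∑ k ∈ range M, (if ∀ j < k, tr (bk L ρ j) = [] then (τ (bk L ρ k) : ℝ) else 0) := by
    intro n hn hk
    push_cast
    refine le_trans (le_of_eq (Finset.sum_congr rfl fun k hk' => ?_))
      (Finset.sum_le_sum_of_subset_of_nonneg (Finset.range_subset_range.2 hn) fun k _ _ => ?_)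
    · rw [if_pos fun j hj => hk j (by have := Finset.mem_range.1 hk'; omega)]
    · split_ifs <;> positivity
  by_cases hex : ∃ n, n < M ∧ tr (bk L ρ n) ≠ []
  · have hn := Nat.find_spec hex
    have hlt : ∀ k < Nat.find hex, tr (bk L ρ k) = [] := fun k hk => by
      have := Nat.find_min hex hk
      push Not at this
      exact this (hk.trans hn.1)
    obtain ⟨T', h1, h2, -⟩ := (trial_runs h ρ _ hlt).2 hn.2
    refine (hb T' fun T hT _ => by rw [run_halted Pg w ρ x h2 hT, h2]).trans ?_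
    have h3 := hs (Nat.find hex + 1) hn.1 fun k hk => hlt k (by omega)
    have h4 : (T' : ℝ) ≤ T₀ + ((∑ k ∈ range (Nat.find hex + 1), τ (bk L ρ k) : ℕ) : ℝ) := by
      exact_mod_cast h1
    linarith
  · push Not at hex
    obtain ⟨T', h1, h2, -⟩ := (trial_runs h ρ M hex).1
    refine (hb T' fun T hT hT' => by omega).trans ?_
    have h3 := hs M le_rfl fun k hk => hex k (by omega)
    have h4 : (T' : ℝ) ≤ T₀ + ((∑ k ∈ range M, τ (bk L ρ k) : ℕ) : ℝ) := by exact_mod_cast h2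
    linarith

theorem geom_le {p : ℝ} (hp : 0 < p) (hp1 : p ≤ 1) (M : ℕ) :
    ∑ k ∈ range M, (1 - p) ^ k ≤ 1 / p := by
  have h := geom_sum_mul_neg (1 - p) M
  rw [sub_sub_cancel] at h
  rw [le_div_iff₀ hp, h]
  have : 0 ≤ (1 - p) ^ M := pow_nonneg (by linarith) _
  linarith

theorem Pr_nil (L : ℕ) (tr : Word → List ℕ) :
    Pr L (fun ω => tr ω = []) = 1 - Pr L fun ω => tr ω ≠ [] := by
  have := Pr_not L fun ω => tr ω = []
  simp only [ne_eq]
  linarith

theorem time_le (h : TrialM Pg w x L tr τ T₀) (hw : 1 ≤ w) (hp : 0 < Pr L fun ω => tr ω ≠ []) :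
    expectedTime Pg w x ≤
      ENNReal.ofReal (T₀ + (Ex L fun ω => (τ ω : ℝ)) / Pr L fun ω => tr ω ≠ []) := by
  classical
  unfold expectedTime
  rw [ENNReal.tsum_eq_iSup_nat]
  refine iSup_le fun M => ?_
  have e : ∀ T ∈ range M, probAfter Pg w x T (fun c => c.halted = false) =
      EW w (M + M * L) fun ρ => if (run Pg w ρ x T).halted = false then 1 else 0 := fun T hT => by
    rw [probAfter_eq Pg w x (N := M + M * L) (by have := Finset.mem_range.1 hT; omega)]
    congr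
    funext ρ
    congr
  rw [← ENNReal.ofReal_sum_of_nonneg fun T hT => by
    rw [e T hT]
    exact (EW_const w (M + M * L) 0).symm.le.trans
      (EW_mono fun ρ => by split_ifs <;> norm_num)]
  refine ENNReal.ofReal_le_ofReal ?_
  rw [Finset.sum_congr rfl e, ← EW_sum]
  refine (EW_mono fun ρ => count_le h ρ M).trans ?_
  rw [EW_add, EW_const, EW_sum]
  have e2 : ∀ k ∈ range M, EW w (M + M * L)
      (fun ρ => if ∀ j < k, tr (bk L ρ j) = [] then (τ (bk L ρ k) : ℝ) else 0) =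
      (1 - Pr L fun ω => tr ω ≠ []) ^ k * Ex L fun ω => (τ ω : ℝ) := fun k hk => by
    have hk' : (k + 1) * L ≤ M + M * L :=
      (Nat.mul_le_mul_right _ (Finset.mem_range.1 hk)).trans (Nat.le_add_left _ _)
    rw [← Pr_nil, ← EW_first hw hk' (fun ω => tr ω = []) fun ω => (τ ω : ℝ)]
    congr
    funext ρ
    unfold bk
    congr
  rw [Finset.sum_congr rfl e2, ← Finset.sum_mul]
  have h1 := geom_le hp (Pr_le_one L _) M
  have h2 : 0 ≤ Ex L fun ω => (τ ω : ℝ) := Ex_nonneg fun _ _ => by positivity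
  have h3 := mul_le_mul_of_nonneg_right h1 h2
  rw [one_div, mul_comm (_⁻¹), ← div_eq_mul_inv] at h3
  linarith

open Classical in
theorem EW_out (hw : 1 ≤ w) (out : List ℕ) {M N : ℕ} (hN : M * L ≤ N) :
    EW w N (fun ρ => ∑ k ∈ range M, if ∀ j < k, tr (bk L ρ j) = [] then
      (if tr (bk L ρ k) ≠ [] ∧ (tr (bk L ρ k)).tail = out then (1 : ℝ) else 0) else 0) =
      (∑ k ∈ range M, (1 - Pr L fun ω => tr ω ≠ []) ^ k) *
        Pr L (fun ω => tr ω ≠ [] ∧ (tr ω).tail = out) := by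
  rw [EW_sum, Finset.sum_mul]
  refine Finset.sum_congr rfl fun k hk => ?_
  have hk' : (k + 1) * L ≤ N := (Nat.mul_le_mul_right _ (Finset.mem_range.1 hk)).trans hN
  rw [← Pr_nil, Pr.eq_1 L fun ω => tr ω ≠ [] ∧ (tr ω).tail = out,
    ← EW_first hw hk' (fun ω => tr ω = [])]
  congr
  funext ρ
  unfold bk
  congr

theorem prob_eq (h : TrialM Pg w x L tr τ T₀) (hw : 1 ≤ w) (hp : 0 < Pr L fun ω => tr ω ≠ [])
    (out : List ℕ) : probHaltsWith Pg w x (fun o => o = out) =
      Pr L (fun ω => tr ω ≠ [] ∧ (tr ω).tail = out) / Pr L fun ω => tr ω ≠ [] := by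
  classical
  set p := Pr L fun ω => tr ω ≠ [] with hpdef
  set q := Pr L (fun ω => tr ω ≠ [] ∧ (tr ω).tail = out) with hq
  have q0 : 0 ≤ q := Pr_nonneg _ _
  have p1 : p ≤ 1 := Pr_le_one _ _
  have up : ∀ T, probAfter Pg w x T (fun c => c.halted = true ∧ c.output = out) ≤ q / p := by
    intro T
    rw [probAfter_eq Pg w x (N := T + T * L) (by omega)]
    refine le_trans (EW_mono fun ρ => ?_)
      ((EW_out (tr := tr) hw out (M := T) (Nat.le_add_left _ _)).le.trans ?_)
    · split_ifs with h1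
      · obtain ⟨n, h2, h3, h4, h5⟩ := first_of_halted h ρ h1.1
        refine le_trans ?_ (Finset.single_le_sum (f := fun k =>
          if ∀ j < k, tr (bk L ρ j) = [] then
            (if tr (bk L ρ k) ≠ [] ∧ (tr (bk L ρ k)).tail = out then (1 : ℝ) else 0) else 0)
          (fun k _ => by split_ifs <;> norm_num) (Finset.mem_range.2 h2))
        rw [if_pos h3, if_pos ⟨h4, h5.trans h1.2⟩]
      · exact Finset.sum_nonneg fun k _ => by split_ifs <;> norm_num
    · have h3 := mul_le_mul_of_nonneg_right (geom_le hp p1 T) q0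
      rwa [one_div, mul_comm (_⁻¹), ← div_eq_mul_inv] at h3
  have bdd : BddAbove (Set.range fun T =>
      probAfter Pg w x T (fun c => c.halted = true ∧ c.output = out)) :=
    ⟨q / p, by rintro _ ⟨T, rfl⟩; exact up T⟩
  obtain ⟨H, hH⟩ : ∃ H, ∀ ω : Word, ω.length = L → τ ω ≤ H := by
    refine ⟨Finset.univ.sup fun f : Fin L → Bool => τ (List.ofFn f), fun ω hω => ?_⟩
    subst hω
    have := Finset.le_sup (f := fun f : Fin ω.length → Bool => τ (List.ofFn f))
      (Finset.mem_univ ω.get)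
    simpa using this
  have lo : ∀ M, (∑ k ∈ range M, (1 - p) ^ k) * q ≤ probHaltsWith Pg w x (fun o => o = out) := by
    intro M
    refine le_trans ?_ (le_ciSup bdd (T₀ + M * H))
    rw [probAfter_eq Pg w x (N := T₀ + M * H + M * L) (by omega),
      ← EW_out (tr := tr) hw out (M := M) (N := T₀ + M * H + M * L) (Nat.le_add_left _ _)]
    refine EW_mono fun ρ => ?_
    by_cases hex : ∃ n ∈ range M, (∀ j < n, tr (bk L ρ j) = []) ∧ tr (bk L ρ n) ≠ [] ∧
        (tr (bk L ρ n)).tail = out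
    · obtain ⟨n, h1, h2, h3, h4⟩ := hex
      obtain ⟨T, h5, h6, h7⟩ := (trial_runs h ρ n h2).2 h3
      have h8 : T ≤ T₀ + M * H := by
        have : ∑ k ∈ range (n + 1), τ (bk L ρ k) ≤ (n + 1) * H := by
          have := Finset.sum_le_card_nsmul (range (n + 1)) (fun k => τ (bk L ρ k)) H
            fun k _ => hH _ (length_bk _ _ _)
          simpa using this
        have h9 : (n + 1) * H ≤ M * H := Nat.mul_le_mul_right _ (Finset.mem_range.1 h1)
        omega
      rw [run_halted Pg w ρ x h6 h8, if_pos ⟨h6, h7.trans h4⟩, Finset.sum_eq_single n]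
      · split_ifs <;> norm_num
      · intro k _ hk
        rcases lt_or_gt_of_ne hk with h9 | h9
        · rw [h2 k h9]; simp
        · rw [if_neg fun hc => h3 (hc n h9)]
      · exact fun hc => absurd h1 hc
    · rw [Finset.sum_eq_zero]
      · split_ifs <;> norm_num
      · intro k hk
        split_ifs with h1 h2
        · exact absurd ⟨k, hk, h1, h2⟩ hex
        · rfl
        · rfl
  refine le_antisymm (ciSup_le up) ?_
  have ht := ((hasSum_geometric_of_lt_one (r := 1 - p) (by linarith)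
    (by linarith)).tendsto_sum_nat).mul_const q
  rw [sub_sub_cancel, mul_comm (_⁻¹), ← div_eq_mul_inv] at ht
  exact le_of_tendsto' ht lo

end

end RamC

theorem lv_of_trialM {Pg : Crest.WordRAM.Program} {w : ℕ} {x : List ℕ} {L : ℕ} {tr : Word → List ℕ}
    {τ : Word → ℕ} {T₀ : ℕ} (h : TrialM Pg w x L tr τ T₀) (hw : 1 ≤ w)
    (hp : 0 < Pr L fun ω => tr ω ≠ []) :
    Crest.WordRAM.expectedTime Pg w x ≤
        ENNReal.ofReal (T₀ + (Ex L fun ω => (τ ω : ℝ)) / Pr L fun ω => tr ω ≠ []) ∧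
      (∀ (ρ : ℕ → ℕ) (T : ℕ) (out : List ℕ), Crest.WordRAM.HaltsWithin Pg w ρ x T out →
        ∃ ω, ω.length = L ∧ tr ω ≠ [] ∧ (tr ω).tail = out) ∧
      ∀ out : List ℕ, Crest.WordRAM.probHaltsWith Pg w x (fun o => o = out) =
        Pr L (fun ω => tr ω ≠ [] ∧ (tr ω).tail = out) / Pr L fun ω => tr ω ≠ [] := by
  refine ⟨RamC.time_le h hw hp, fun ρ T out hT => ?_, RamC.prob_eq h hw hp⟩
  obtain ⟨n, -, -, h1, h2⟩ := RamC.first_of_halted h ρ hT.1
  exact ⟨_, RamC.length_bk _ _ _, h1, h2.trans hT.2⟩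

end Crest.Agent.R309
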