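import Crest.Agent.R309.RamA
import Crest.Agent.R309.RamB
import Crest.Agent.R309.RamC

/-! Row 309: Las Vegas algorithms with a rare exponential branch on the word RAM. -/

set_option autoImplicit false

namespace Crest.Agent.R309

open Crest.Agent.PT Crest.Enc Function

theorem ram_lasvegas (F : Word × Word × Word → List ℕ) (hF : PTime F) : ∃ c : ℕ,
    ∀ (pre : List ℕ → Word) (Lf Bf : List ℕ → ℕ) (br : List ℕ × Word → Bool),
      PTime pre → PU Lf → PU Bf → PTime br →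
      ∃ (Pg : Crest.WordRAM.Program) (c₂ : ℕ), ∀ (x : List ℕ) (w : ℕ) (tr : Word → List ℕ),
        tr = trialF F (pre x) (Bf x) (fun ω => br (x, ω)) →
        c₂ * (sz x + 1) ^ c₂ ≤ w → (∀ ω, ω.length = Lf x → ∀ v ∈ tr ω, v < 2 ^ w) →
        (0 < Pr (Lf x) fun ω => tr ω ≠ []) →
        Crest.WordRAM.expectedTime Pg w x ≤ ENNReal.ofReal (c₂ * (sz x + 1) ^ c₂ *
            (1 + Pr (Lf x) (fun ω => br (x, ω) = true) * 2 ^ (c * Bf x)) /
              Pr (Lf x) fun ω => tr ω ≠ []) ∧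
        (∀ (ρ : ℕ → ℕ) (T : ℕ) (out : List ℕ), Crest.WordRAM.HaltsWithin Pg w ρ x T out →
          ∃ ω, ω.length = Lf x ∧ tr ω ≠ [] ∧ (tr ω).tail = out) ∧
        ∀ out : List ℕ, Crest.WordRAM.probHaltsWith Pg w x (fun o => o = out) =
          Pr (Lf x) (fun ω => tr ω ≠ [] ∧ (tr ω).tail = out) / Pr (Lf x) fun ω => tr ω ≠ [] := by
  obtain ⟨c, hc⟩ := exists_rp F hF
  refine ⟨c, fun pre Lf Bf br hpre hL hB hbr => ?_⟩
  obtain ⟨q, a, hq⟩ := hc pre Lf Bf br hpre hL hB hbr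
  obtain ⟨Pg, κ, hPg⟩ := trialM_of_rp q
  have hP : PB fun x : List ℕ => a * (sz x + 1) ^ a :=
    (PB.const a).mul ((PB.sz.add (PB.const 1)).pow a)
  have hG : PB fun x : List ℕ => κ + a * (sz x + 1) ^ a + sz x + 2 + c * Bf x +
      κ * (a * (sz x + 1) ^ a + 2 * sz x + 2) :=
    (((((PB.const κ).add hP).add PB.sz).add (PB.const 2)).add ((PB.const c).mul hB.pb)).add
      ((PB.const κ).mul ((hP.add ((PB.const 2).mul PB.sz)).add (PB.const 2)))
  obtain ⟨c₂, hc₂⟩ := RB.pb_le hG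
  refine ⟨Pg, c₂, fun x w tr htr hw hv hp => ?_⟩
  have hx := hc₂ x
  set P := a * (sz x + 1) ^ a with hPdef
  set M := 2 ^ (c * Bf x) with hM
  have hM1 : 1 ≤ M := Nat.one_le_two_pow
  have hT := hPg x w (Lf x) (P * M) tr (fun ω => P * if br (x, ω) then M else 1) ?_ (by omega)
    (fun ω hω => ⟨Nat.mul_le_mul_left _ (by split_ifs <;> omega), hv ω hω⟩)
    (fun ρ pos => by rw [htr]; exact hq x ρ pos)
  · obtain ⟨h1, h2, h3⟩ := lv_of_trialM hT (by omega) hp
    refine ⟨h1.trans (ENNReal.ofReal_le_ofReal ?_), h2, h3⟩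
    have p1 : Pr (Lf x) (fun ω => tr ω ≠ []) ≤ 1 := Pr_le_one _ _
    have r0 : 0 ≤ Pr (Lf x) (fun ω => br (x, ω) = true) := Pr_nonneg _ _
    have hE : Ex (Lf x) (fun ω => ((κ * ((P * if br (x, ω) then M else 1) + sz x + 1) : ℕ) : ℝ)) ≤
        (κ * (P + sz x + 1) : ℕ) * (1 + Pr (Lf x) (fun ω => br (x, ω) = true) * M) := by
      rw [Pr, mul_comm _ (M : ℝ), ← Ex_mul_left, ← Ex_const (Lf x) 1, ← Ex_add, ← Ex_mul_left]
      refine Ex_mono fun ω _ => ?_
      by_cases hb : br (x, ω) = true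
      · simp only [hb, if_true, Ex_const, mul_one]
        have : κ * (P * M + sz x + 1) ≤ κ * (P + sz x + 1) * (1 + M) := by
          rw [mul_assoc κ]
          refine Nat.mul_le_mul_left _ ?_
          nlinarith [Nat.zero_le (sz x * M)]
        exact_mod_cast this
      · simp [hb]
    have hMr : ((M : ℕ) : ℝ) = 2 ^ (c * Bf x) := by rw [hM]; push_cast; rfl
    rw [← hMr]
    set p := Pr (Lf x) (fun ω => tr ω ≠ [])
    set y := 1 + Pr (Lf x) (fun ω => br (x, ω) = true) * M with hy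
    have y1 : 1 ≤ y := by rw [hy]; exact le_add_of_nonneg_right (by positivity)
    have hx' : ((κ * (sz x + 1) : ℕ) : ℝ) + (κ * (P + sz x + 1) : ℕ) ≤ c₂ * (sz x + 1) ^ c₂ := by
      have : κ * (sz x + 1) + κ * (P + sz x + 1) ≤ c₂ * (sz x + 1) ^ c₂ := by
        have : κ * (sz x + 1) + κ * (P + sz x + 1) = κ * (P + 2 * sz x + 2) := by ring
        omega
      exact_mod_cast this
    rw [le_div_iff₀ hp, add_mul, div_mul_cancel₀ _ hp.ne']
    have k0 : (0 : ℝ) ≤ (κ * (sz x + 1) : ℕ) := Nat.cast_nonneg _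
    have k1 := mul_le_mul_of_nonneg_left (p1.trans y1) k0
    have k2 := mul_le_mul_of_nonneg_right hx' (zero_le_one.trans y1)
    linarith
  · have h1 : κ < 2 ^ κ := Nat.lt_two_pow_self
    have h2 : P + sz x + 1 < 2 ^ (P + sz x + 1) := Nat.lt_two_pow_self
    have h3 : P * M + sz x + 1 ≤ 2 ^ (P + sz x + 1) * M :=
      le_trans (by nlinarith [Nat.zero_le (sz x * M)]) (Nat.mul_le_mul_right M h2.le)
    calc κ * (P * M + sz x + 1) < 2 ^ κ * (2 ^ (P + sz x + 1) * M) :=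
          Nat.mul_lt_mul_of_lt_of_le h1 h3 (by positivity)
      _ = 2 ^ (κ + (P + sz x + 1) + c * Bf x) := by rw [hM, ← pow_add, ← pow_add, add_assoc κ]
      _ ≤ 2 ^ w := Nat.pow_le_pow_right (by norm_num) (by omega)

end Crest.Agent.R309
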