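import Crest.Agent.R309.Prob
import Crest.Prelude.Def_WordRAM
import Crest.Prelude.Def_WordRAMProb

/-! Row 309: stack programs with random bits, and trial machines on the word RAM. -/

set_option autoImplicit false

namespace Crest.Agent.R309

open Crest.Agent.PT Crest.Enc Function

/-- stack programs with a random-bit instruction -/
inductive RP : Type
  | skip : RP
  | push (r : ℕ) (b : Bool) : RP
  | pop (r : ℕ) : RP
  | rand (r : ℕ) : RP
  | seq (p q : RP) : RP
  | ite (r : ℕ) (pn pt pf : RP) : RP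
  | loop (r : ℕ) (p : RP) : RP

/-- big-step semantics; the number in the state counts the bits drawn -/
inductive RExec (ρ : ℕ → Bool) : RP → St × ℕ → St × ℕ → ℕ → Prop
  | skip (s : St × ℕ) : RExec ρ .skip s s 1
  | push (r : ℕ) (b : Bool) (s : St) (k : ℕ) :
      RExec ρ (.push r b) (s, k) (update s r (b :: s r), k) 1
  | pop (r : ℕ) (s : St) (k : ℕ) : RExec ρ (.pop r) (s, k) (update s r (s r).tail, k) 1
  | rand (r : ℕ) (s : St) (k : ℕ) : RExec ρ (.rand r) (s, k) (update s r (ρ k :: s r), k + 1) 1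
  | seq {p q : RP} {s s' s'' : St × ℕ} {t t' : ℕ} :
      RExec ρ p s s' t → RExec ρ q s' s'' t' → RExec ρ (.seq p q) s s'' (t + t')
  | iteN {r : ℕ} {pn pt pf : RP} {s s' : St × ℕ} {t : ℕ} :
      (s.1 r).head? = none → RExec ρ pn s s' t → RExec ρ (.ite r pn pt pf) s s' (t + 1)
  | iteT {r : ℕ} {pn pt pf : RP} {s s' : St × ℕ} {t : ℕ} :
      (s.1 r).head? = some true → RExec ρ pt s s' t → RExec ρ (.ite r pn pt pf) s s' (t + 1)
  | iteF {r : ℕ} {pn pt pf : RP} {s s' : St × ℕ} {t : ℕ} :
      (s.1 r).head? = some false → RExec ρ pf s s' t → RExec ρ (.ite r pn pt pf) s s' (t + 1)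
  | loopN {r : ℕ} {p : RP} {s : St × ℕ} : s.1 r = [] → RExec ρ (.loop r p) s s 1
  | loopC {r : ℕ} {p : RP} {s s' s'' : St × ℕ} {t t' : ℕ} :
      s.1 r ≠ [] → RExec ρ p s s' t → RExec ρ (.loop r p) s' s'' t' →
        RExec ρ (.loop r p) s s'' (t' + t + 1)

/-- the code of a list of numbers -/
def codeN (l : List ℕ) : Word := (l.map natCode).flatten

/-- the stacks at the start of a trial: the input code in register `0` -/
def st0 (x : List ℕ) : St := update (fun _ => []) 0 (codeN x)

/-- the `L` bits from position `pos` on -/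
def bitsAt (ρ : ℕ → Bool) (pos L : ℕ) : Word := (List.range L).map fun i => ρ (pos + i)

/-- `Pg` repeats independent trials (tape of `L` low bits of random words, result `tr`, time at
most `τ`) until the result is nonempty, then halts with the tail of the result -/
def TrialM (Pg : Crest.WordRAM.Program) (w : ℕ) (x : List ℕ) (L : ℕ) (tr : Word → List ℕ)
    (τ : Word → ℕ) (T₀ : ℕ) : Prop :=
  ∀ ρ : ℕ → ℕ, ∃ At : ℕ → Crest.WordRAM.Cfg Pg.numRegs → Prop,
    (∃ T ≤ T₀, At 0 (Crest.WordRAM.run Pg w ρ x T)) ∧ (∀ k c, At k c → c.halted = false) ∧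
    ∀ k c, At k c → ∃ T, 1 ≤ T ∧ T ≤ τ (bitsAt (fun i => (ρ i).bodd) (k * L) L) ∧
      (tr (bitsAt (fun i => (ρ i).bodd) (k * L) L) = [] →
        At (k + 1) ((Crest.WordRAM.step Pg w ρ)^[T] c)) ∧
      (tr (bitsAt (fun i => (ρ i).bodd) (k * L) L) ≠ [] →
        ((Crest.WordRAM.step Pg w ρ)^[T] c).halted = true ∧
        ((Crest.WordRAM.step Pg w ρ)^[T] c).output =
          (tr (bitsAt (fun i => (ρ i).bodd) (k * L) L)).tail)

/-- the result of one trial: padding of length `2 ^ B` on the rare branch -/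
def trialF (F : Word × Word × Word → List ℕ) (y : Word) (B : ℕ) (br : Word → Bool) (ω : Word) :
    List ℕ := F (y, if br ω then List.replicate (2 ^ B) true else [], ω)

theorem realize_ramDefs : True := by
  have := @st0.eq_1
  have := @bitsAt.eq_1
  have := @codeN.eq_1
  have := @trialF.eq_1
  trivial

end Crest.Agent.R309
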