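import Crest.Prelude.Def_WordRAM

/-! Row 309: a structured language over machine words, compiled to the word RAM. -/

set_option autoImplicit false

namespace Crest.Agent.R309.RW

open Crest.WordRAM Function

/-- straight-line operations -/
inductive Op : Type
  | const (d v : ℕ) | copy (d a : ℕ) | add (d a b : ℕ) | sub (d a b : ℕ) | mul (d a b : ℕ)
  | quot (d a b : ℕ) | rem (d a b : ℕ) | load (d a : ℕ) | store (s a : ℕ) | rand (d : ℕ)

/-- registers, memory, number of words drawn -/
structure S where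
  R : ℕ → ℕ
  M : ℕ → ℕ
  k : ℕ

/-- effect of an operation -/
def Op.eff (w : ℕ) (ρ : ℕ → ℕ) : Op → S → S
  | .const d v, s => ⟨update s.R d (v % 2 ^ w), s.M, s.k⟩
  | .copy d a, s => ⟨update s.R d (s.R a), s.M, s.k⟩
  | .add d a b, s => ⟨update s.R d ((s.R a + s.R b) % 2 ^ w), s.M, s.k⟩
  | .sub d a b, s => ⟨update s.R d (s.R a - s.R b), s.M, s.k⟩
  | .mul d a b, s => ⟨update s.R d ((s.R a * s.R b) % 2 ^ w), s.M, s.k⟩
  | .quot d a b, s => ⟨update s.R d (s.R a / s.R b), s.M, s.k⟩
  | .rem d a b, s => ⟨update s.R d (s.R a % s.R b), s.M, s.k⟩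
  | .load d a, s => ⟨update s.R d (s.M (s.R a)), s.M, s.k⟩
  | .store a b, s => ⟨s.R, update s.M (s.R b) (s.R a), s.k⟩
  | .rand d, s => ⟨update s.R d (ρ s.k % 2 ^ w), s.M, s.k + 1⟩

/-- a bound on the registers used -/
def Op.mx : Op → ℕ
  | .const d _ => d | .copy d a => max d a | .add d a b => max d (max a b)
  | .sub d a b => max d (max a b) | .mul d a b => max d (max a b)
  | .quot d a b => max d (max a b) | .rem d a b => max d (max a b)
  | .load d a => max d a | .store d a => max d a | .rand d => d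

/-- register number `d` -/
def rg (N d : ℕ) : Fin (N + 1) := Fin.ofNat (N + 1) d

/-- the instruction of an operation -/
def Op.ins (N : ℕ) : Op → Instr (N + 1)
  | .const d v => .const (rg N d) v
  | .copy d a => .copy (rg N d) (rg N a)
  | .add d a b => .add (rg N d) (rg N a) (rg N b)
  | .sub d a b => .sub (rg N d) (rg N a) (rg N b)
  | .mul d a b => .mul (rg N d) (rg N a) (rg N b)
  | .quot d a b => .quot (rg N d) (rg N a) (rg N b)
  | .rem d a b => .rem (rg N d) (rg N a) (rg N b)
  | .load d a => .load (rg N d) (rg N a)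
  | .store d a => .store (rg N d) (rg N a)
  | .rand d => .rand (rg N d)

/-- effect of a list of operations -/
def effs (w : ℕ) (ρ : ℕ → ℕ) : List Op → S → S
  | [], s => s
  | o :: l, s => effs w ρ l (o.eff w ρ s)

/-- structured programs -/
inductive W : Type
  | ops (l : List Op)
  | seq (p q : W)
  | ifEq (a b : ℕ) (p q : W)
  | whileNe (a b : ℕ) (p : W)

/-- big-step semantics with a bound on the number of instructions -/
inductive WE (w : ℕ) (ρ : ℕ → ℕ) : W → S → S → ℕ → Prop
  | ops (l : List Op) (s : S) : WE w ρ (.ops l) s (effs w ρ l s) l.length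
  | seq {p q : W} {s s' s'' : S} {t t' : ℕ} :
      WE w ρ p s s' t → WE w ρ q s' s'' t' → WE w ρ (.seq p q) s s'' (t + t')
  | ifT {a b : ℕ} {p q : W} {s s' : S} {t : ℕ} :
      s.R a = s.R b → WE w ρ p s s' t → WE w ρ (.ifEq a b p q) s s' (t + 2)
  | ifF {a b : ℕ} {p q : W} {s s' : S} {t : ℕ} :
      s.R a ≠ s.R b → WE w ρ q s s' t → WE w ρ (.ifEq a b p q) s s' (t + 2)
  | whT {a b : ℕ} {p : W} {s : S} : s.R a = s.R b → WE w ρ (.whileNe a b p) s s 1
  | whF {a b : ℕ} {p : W} {s s' s'' : S} {t t' : ℕ} :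
      s.R a ≠ s.R b → WE w ρ p s s' t → WE w ρ (.whileNe a b p) s' s'' t' →
        WE w ρ (.whileNe a b p) s s'' (t + t' + 2)
  | mono {p : W} {s s' : S} {t t' : ℕ} : WE w ρ p s s' t → t ≤ t' → WE w ρ p s s' t'

/-- length of the code -/
def W.len : W → ℕ
  | .ops l => l.length
  | .seq p q => p.len + q.len
  | .ifEq _ _ p q => p.len + q.len + 2
  | .whileNe _ _ p => p.len + 2

/-- all registers used are at most `N` -/
def W.ok (N : ℕ) : W → Prop
  | .ops l => ∀ o ∈ l, o.mx ≤ N
  | .seq p q => p.ok N ∧ q.ok N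
  | .ifEq a b p q => a ≤ N ∧ b ≤ N ∧ p.ok N ∧ q.ok N
  | .whileNe a b p => a ≤ N ∧ b ≤ N ∧ p.ok N

/-- the code placed at offset `o` -/
def W.comp (N : ℕ) : W → ℕ → List (Instr (N + 1))
  | .ops l, _ => l.map (Op.ins N)
  | .seq p q, o => p.comp N o ++ q.comp N (o + p.len)
  | .ifEq a b p q, o => .jumpIfEq (rg N a) (rg N b) (o + q.len + 2) ::
      (q.comp N (o + 1) ++ .jump (o + (p.len + q.len + 2)) :: p.comp N (o + q.len + 2))
  | .whileNe a b p, o => .jumpIfEq (rg N a) (rg N b) (o + (p.len + 2)) ::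
      (p.comp N (o + 1) ++ [.jump o])

theorem W.length_comp (N : ℕ) (p : W) : ∀ o, (p.comp N o).length = p.len := by
  induction p with
  | ops l => intro o; simp [W.comp, W.len]
  | seq p q ihp ihq => intro o; simp [W.comp, W.len, ihp, ihq]
  | ifEq a b p q ihp ihq => intro o; simp [W.comp, W.len, ihp, ihq]; omega
  | whileNe a b p ih => intro o; simp [W.comp, W.len, ih]

/-- `l` sits at position `o` of `code` -/
def Placed {α : Type} (code : List α) (o : ℕ) (l : List α) : Prop :=
  ∀ i, i < l.length → code[o + i]? = l[i]?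

theorem Placed.left {α : Type} {code l l' : List α} {o : ℕ} (h : Placed code o (l ++ l')) :
    Placed code o l := fun i hi => by
  rw [h i (by rw [List.length_append]; omega), List.getElem?_append_left hi]

theorem Placed.right {α : Type} {code l l' : List α} {o o' : ℕ} (h : Placed code o (l ++ l'))
    (e : o' = o + l.length) : Placed code o' l' := fun i hi => by
  rw [e, add_assoc, h _ (by rw [List.length_append]; omega),
    List.getElem?_append_right (by omega)]
  simp

theorem Placed.head {α : Type} {code l : List α} {a : α} {o : ℕ} (h : Placed code o (a :: l)) :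
    code[o]? = some a := by
  simpa using h 0 (by simp)

theorem Placed.tail {α : Type} {code l : List α} {a : α} {o : ℕ} (h : Placed code o (a :: l)) :
    Placed code (o + 1) l := Placed.right (l := [a]) h rfl

theorem placed_self {α : Type} (code : List α) : Placed code 0 code := fun i _ => by simp

/-- the configuration of a state -/
def cfg (N pc : ℕ) (s : S) : Cfg (N + 1) := ⟨pc, false, fun i => s.R i, s.M, s.k⟩

/-- reachable within `t` steps -/
def Reach {N : ℕ} (code : List (Instr (N + 1))) (w : ℕ) (ρ : ℕ → ℕ) (c c' : Cfg (N + 1)) (t : ℕ) :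
    Prop := ∃ T ≤ t, (step ⟨N + 1, code⟩ w ρ)^[T] c = c'

section
variable {N : ℕ} {code : List (Instr (N + 1))} {w : ℕ} {ρ : ℕ → ℕ}

theorem Reach.trans {c c' c'' : Cfg (N + 1)} {t t' : ℕ} (h : Reach code w ρ c c' t)
    (h' : Reach code w ρ c' c'' t') : Reach code w ρ c c'' (t + t') := by
  obtain ⟨T, h1, h2⟩ := h
  obtain ⟨T', h3, h4⟩ := h'
  exact ⟨T' + T, by omega, by rw [iterate_add_apply, h2, h4]⟩

theorem Reach.mono {c c' : Cfg (N + 1)} {t t' : ℕ} (h : Reach code w ρ c c' t) (ht : t ≤ t') :
    Reach code w ρ c c' t' := by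
  obtain ⟨T, h1, h2⟩ := h
  exact ⟨T, h1.trans ht, h2⟩

theorem Reach.one {c c' : Cfg (N + 1)} (h : step ⟨N + 1, code⟩ w ρ c = c') :
    Reach code w ρ c c' 1 := ⟨1, le_rfl, h⟩

theorem rg_val {d : ℕ} (h : d ≤ N) : (rg N d : ℕ) = d := by
  simp [rg, Nat.mod_eq_of_lt (Nat.lt_succ_of_le h)]

theorem write_rg {d : ℕ} (h : d ≤ N) (R : ℕ → ℕ) (v : ℕ) :
    writeReg (fun i : Fin (N + 1) => R i) (rg N d) v = fun i : Fin (N + 1) => update R d v i := by
  funext j
  unfold writeReg
  by_cases e : j = rg N d
  · rw [if_pos e, e, rg_val h, update_self]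
  · rw [if_neg e, update_of_ne]
    intro e'
    exact e (Fin.ext (by rw [rg_val h, e']))

theorem write_mem (M : ℕ → ℕ) (a v : ℕ) : writeMem M a v = update M a v := by
  funext j
  unfold writeMem
  rw [update_apply]

theorem step_op {o : Op} {pc : ℕ} (h : code[pc]? = some (o.ins N)) (hm : o.mx ≤ N) (s : S) :
    step ⟨N + 1, code⟩ w ρ (cfg N pc s) = cfg N (pc + 1) (o.eff w ρ s) := by
  cases o <;> simp only [Op.mx, max_le_iff] at hm <;>
    simp only [step, cfg, h, Op.ins, Op.eff, Bool.false_eq_true, if_false, write_mem] <;>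
    simp only [write_rg, rg_val, hm]

theorem step_jeq {a b l pc : ℕ} (h : code[pc]? = some (.jumpIfEq (rg N a) (rg N b) l))
    (ha : a ≤ N) (hb : b ≤ N) (s : S) :
    step ⟨N + 1, code⟩ w ρ (cfg N pc s) = cfg N (if s.R a = s.R b then l else pc + 1) s := by
  simp only [step, cfg, h, Bool.false_eq_true, if_false, rg_val, ha, hb]

theorem step_jump {l pc : ℕ} (h : code[pc]? = some (.jump l)) (s : S) :
    step ⟨N + 1, code⟩ w ρ (cfg N pc s) = cfg N l s := by
  simp only [step, cfg, h, Bool.false_eq_true, if_false]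

theorem step_halt {pc : ℕ} (h : code[pc]? = some .halt) (s : S) :
    step ⟨N + 1, code⟩ w ρ (cfg N pc s) = { cfg N pc s with halted := true } := by
  simp only [step, cfg, h, Bool.false_eq_true, if_false]

theorem reach_ops (l : List Op) : ∀ (o : ℕ) (s : S), Placed code o (l.map (Op.ins N)) →
    (∀ x ∈ l, x.mx ≤ N) →
    Reach code w ρ (cfg N o s) (cfg N (o + l.length) (effs w ρ l s)) l.length := by
  induction l with
  | nil => intro o s _ _; exact ⟨0, le_rfl, rfl⟩
  | cons x l ih =>
    intro o s hp hm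
    rw [List.map_cons] at hp
    have h1 := Reach.one (step_op (w := w) (ρ := ρ) hp.head (hm x (by simp)) s)
    have h2 := ih (o + 1) (x.eff w ρ s) hp.tail fun y hy => hm y (by simp [hy])
    have h3 := h1.trans h2
    rw [List.length_cons, show o + (l.length + 1) = o + 1 + l.length by omega,
      add_comm l.length 1]
    exact h3

theorem reach_of_we {p : W} {s s' : S} {t : ℕ} (h : WE w ρ p s s' t) : ∀ o,
    Placed code o (p.comp N o) → p.ok N →
    Reach code w ρ (cfg N o s) (cfg N (o + p.len) s') t := by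
  induction h with
  | ops l s => intro o hp hk; exact reach_ops l o s hp hk
  | seq _ _ ih1 ih2 =>
    intro o hp hk
    have h1 := ih1 o hp.left hk.1
    have h2 := ih2 _ (hp.right (by rw [W.length_comp])) hk.2
    rw [W.len, ← add_assoc]
    exact h1.trans h2
  | @ifT a b p q s s' t e _ ih =>
    intro o hp hk
    have h1 := Reach.one (step_jeq (w := w) (ρ := ρ) hp.head hk.1 hk.2.1 s)
    rw [if_pos e] at h1
    have hp' : Placed code (o + q.len + 2) (p.comp N (o + q.len + 2)) := by
      have := (hp.tail.right (o' := o + 1 + q.len) (by rw [W.length_comp])).tail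
      rwa [show o + 1 + q.len + 1 = o + q.len + 2 by omega] at this
    have h2 := ih _ hp' hk.2.2.1
    rw [W.len, show o + (p.len + q.len + 2) = o + q.len + 2 + p.len by omega]
    exact (h1.trans h2).mono (by omega)
  | @ifF a b p q s s' t e _ ih =>
    intro o hp hk
    have h1 := Reach.one (step_jeq (w := w) (ρ := ρ) hp.head hk.1 hk.2.1 s)
    rw [if_neg e] at h1
    have h2 := ih _ hp.tail.left hk.2.2.2
    have h3 := Reach.one (step_jump (w := w) (ρ := ρ)
      (hp.tail.right (o' := o + 1 + q.len) (by rw [W.length_comp])).head s')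
    exact ((h1.trans h2).trans h3).mono (by omega)
  | @whT a b p s e =>
    intro o hp hk
    have h1 := Reach.one (step_jeq (w := w) (ρ := ρ) hp.head hk.1 hk.2.1 s)
    rwa [if_pos e] at h1
  | @whF a b p s s' s'' t t' e _ _ ih1 ih2 =>
    intro o hp hk
    have h1 := Reach.one (step_jeq (w := w) (ρ := ρ) hp.head hk.1 hk.2.1 s)
    rw [if_neg e] at h1
    have h2 := ih1 _ hp.tail.left hk.2.2
    have h3 := Reach.one (step_jump (w := w) (ρ := ρ)
      (hp.tail.right (o' := o + 1 + p.len) (by rw [W.length_comp])).head s')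
    have h4 := ih2 o hp hk
    exact (((h1.trans h2).trans h3).trans h4).mono (by omega)
  | mono _ ht ih => intro o hp hk; exact (ih o hp hk).mono ht

end

end Crest.Agent.R309.RW
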