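import Crest.Agent.R309.RamDefs
import Crest.Agent.R309.RamW

/-! Row 309: stack programs simulated by structured word programs (stacks = linked lists). -/

set_option autoImplicit false
set_option linter.unusedSimpArgs false

namespace Crest.Agent.R309.RW

open Crest.Agent.PT Crest.Enc Function

/-- the linked list at pointer `p` (cells below `h`, null pointer `nl`) -/
def Rep (M : ℕ → ℕ) (nl h : ℕ) : ℕ → Word → Prop
  | p, [] => p = nl
  | p, b :: l => p ≠ nl ∧ p < h ∧ M p % 2 = b.toNat ∧ Rep M nl h (M p / 2) l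

theorem Rep.mono {M M' : ℕ → ℕ} {nl h h' : ℕ} (hh : h ≤ h') (hM : ∀ a < h, M' a = M a) :
    ∀ {l : Word} {p : ℕ}, Rep M nl h p l → Rep M' nl h' p l
  | [], _, H => H
  | _ :: _, _, ⟨h1, h2, h3, h4⟩ =>
    ⟨h1, h2.trans_le hh, by rw [hM _ h2]; exact h3, by rw [hM _ h2]; exact Rep.mono hh hM h4⟩

theorem Rep.lt {M : ℕ → ℕ} {nl h p : ℕ} (hn : nl < h) : ∀ {l : Word}, Rep M nl h p l → p < h
  | [], H => (show p = nl from H) ▸ hn
  | _ :: _, H => H.2.1

theorem Rep.eq_nil {M : ℕ → ℕ} {nl h p : ℕ} : ∀ {l : Word}, Rep M nl h p l → (p = nl ↔ l = [])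
  | [], H => ⟨fun _ => rfl, fun _ => H⟩
  | _ :: _, H => ⟨fun e => absurd e H.1, fun e => by cases e⟩

/-- the invariant of the simulation -/
structure Inv (R nl h0 : ℕ) (cx : Word) (s : S) (σ : St) : Prop where
  one : s.R 6 = 1
  two : s.R 7 = 2
  zero : s.R 12 = 0
  nil : s.R 2 = nl
  base : s.R 9 = h0
  lt : nl < h0
  le : h0 ≤ s.R 3
  keep : Rep s.M nl h0 (s.R 8) cx
  rep : ∀ j < R, Rep s.M nl (s.R 3) (s.R (j + 20)) (σ j)

/-- push the bit held in register `5` on stack `r` -/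
def pushB (r : ℕ) : List Op :=
  [.add 4 (r + 20) (r + 20), .add 4 4 5, .store 4 3, .copy (r + 20) 3, .add 3 3 6]

/-- translation of stack programs -/
def trn : RP → W
  | .skip => .ops []
  | .push r b => .ops (.const 5 b.toNat :: pushB r)
  | .pop r => .ifEq (r + 20) 2 (.ops []) (.ops [.load 4 (r + 20), .quot (r + 20) 4 7])
  | .rand r => .ops (.rand 5 :: .rem 5 5 7 :: pushB r)
  | .seq p q => .seq (trn p) (trn q)
  | .ite r pn pt pf => .ifEq (r + 20) 2 (trn pn)
      (.seq (.ops [.load 4 (r + 20), .rem 4 4 7]) (.ifEq 4 6 (trn pt) (trn pf)))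
  | .loop r p => .whileNe (r + 20) 2 (trn p)

/-- the largest stack used -/
def mxs : RP → ℕ
  | .skip => 0
  | .push r _ => r
  | .pop r => r
  | .rand r => r
  | .seq p q => max (mxs p) (mxs q)
  | .ite r pn pt pf => max r (max (mxs pn) (max (mxs pt) (mxs pf)))
  | .loop r p => max r (mxs p)

theorem trn_ok {N : ℕ} (q : RP) (h : mxs q + 20 ≤ N) : (trn q).ok N := by
  induction q with
  | skip => simp [trn, W.ok]
  | push r b => simp only [mxs] at h; simp [trn, W.ok, pushB, Op.mx]; omega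
  | pop r => simp only [mxs] at h; simp [trn, W.ok, Op.mx]; omega
  | rand r => simp only [mxs] at h; simp [trn, W.ok, pushB, Op.mx]; omega
  | seq p q ihp ihq =>
    simp only [mxs] at h
    exact ⟨ihp (by omega), ihq (by omega)⟩
  | ite r pn pt pf h1 h2 h3 =>
    simp only [mxs] at h
    refine ⟨by omega, by omega, h1 (by omega), ?_, by omega, by omega, h2 (by omega), h3 (by omega)⟩
    simp [W.ok, Op.mx]; omega
  | loop r p ih =>
    simp only [mxs] at h
    exact ⟨by omega, by omega, ih (by omega)⟩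

theorem RExec.length_le {ρ : ℕ → Bool} {q : RP} {a b : St × ℕ} {t : ℕ} (h : RExec ρ q a b t)
    (j : ℕ) : (b.1 j).length ≤ (a.1 j).length + t := by
  induction h with
  | skip s => omega
  | push r b s k =>
    by_cases e : j = r
    · subst e; simp
    · simp [update_of_ne e]
  | pop r s k =>
    by_cases e : j = r
    · subst e; simp; omega
    · simp [update_of_ne e]
  | rand r s k =>
    by_cases e : j = r
    · subst e; simp
    · simp [update_of_ne e]
  | seq _ _ ih1 ih2 => omega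
  | iteN _ _ ih => omega
  | iteT _ _ ih => omega
  | iteF _ _ ih => omega
  | loopN _ => omega
  | loopC _ _ _ ih1 ih2 => omega

section
variable {w : ℕ} {ρ : ℕ → ℕ} {R nl h0 : ℕ} {cx : Word}

/-- changing a scratch register -/
theorem Inv.scr {s : S} {σ : St} (h : Inv R nl h0 cx s σ) {d : ℕ} (hd : d = 4 ∨ d = 5) (v k : ℕ) :
    Inv R nl h0 cx ⟨update s.R d v, s.M, k⟩ σ := by
  have e : ∀ i, i ≠ 4 → i ≠ 5 → update s.R d v i = s.R i := fun i h1 h2 =>
    update_of_ne (by omega) _ _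
  refine ⟨?_, ?_, ?_, ?_, ?_, h.lt, ?_, ?_, fun j hj => ?_⟩ <;> simp only
  · rw [e _ (by omega) (by omega)]; exact h.one
  · rw [e _ (by omega) (by omega)]; exact h.two
  · rw [e _ (by omega) (by omega)]; exact h.zero
  · rw [e _ (by omega) (by omega)]; exact h.nil
  · rw [e _ (by omega) (by omega)]; exact h.base
  · rw [e _ (by omega) (by omega)]; exact h.le
  · rw [e _ (by omega) (by omega)]; exact h.keep
  · rw [e _ (by omega) (by omega), e _ (by omega) (by omega)]; exact h.rep j hj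

theorem push_inv {s : S} {σ : St} (h : Inv R nl h0 cx s σ) {r : ℕ} (hr : r < R) {b : Bool}
    (hb : s.R 5 = b.toNat) (hw : 2 * (s.R 3 + 1) < 2 ^ w) :
    Inv R nl h0 cx (effs w ρ (pushB r) s) (update σ r (b :: σ r)) ∧
      (effs w ρ (pushB r) s).R 3 = s.R 3 + 1 ∧ (effs w ρ (pushB r) s).k = s.k := by
  have hp := (h.rep r hr).lt (h.lt.trans_le h.le)
  have hb1 : b.toNat ≤ 1 := Bool.toNat_le b
  have e : effs w ρ (pushB r) s = ⟨update (update (update s.R 4 (2 * s.R (r + 20) + b.toNat))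
      (r + 20) (s.R 3)) 3 (s.R 3 + 1), update s.M (s.R 3) (2 * s.R (r + 20) + b.toNat), s.k⟩ := by
    have a1 : (s.R (r + 20) + s.R (r + 20)) % 2 ^ w = 2 * s.R (r + 20) := by
      rw [Nat.mod_eq_of_lt (by omega)]; omega
    have a2 : (2 * s.R (r + 20) + b.toNat) % 2 ^ w = 2 * s.R (r + 20) + b.toNat :=
      Nat.mod_eq_of_lt (by omega)
    have a3 : (s.R 3 + 1) % 2 ^ w = s.R 3 + 1 := Nat.mod_eq_of_lt (by omega)
    simp [effs, pushB, Op.eff, update_apply, a1, a2, a3, hb, h.one]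
  rw [e]
  have hM : ∀ a < s.R 3, update s.M (s.R 3) (2 * s.R (r + 20) + b.toNat) a = s.M a :=
    fun a ha => update_of_ne ha.ne _ _
  refine ⟨⟨?_, ?_, ?_, ?_, ?_, h.lt, ?_, ?_, fun j hj => ?_⟩, ?_, rfl⟩
  · simp [update_apply, h.one]
  · simp [update_apply, h.two]
  · simp [update_apply, h.zero]
  · simp [update_apply, h.nil]
  · simp [update_apply, h.base]
  · simpa using h.le.trans (Nat.le_succ _)
  · have : Rep _ nl h0 (s.R 8) cx := h.keep.mono le_rfl fun a ha => hM a (ha.trans_le h.le)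
    simpa [update_apply] using this
  · by_cases e' : j = r
    · subst e'
      have h1 : Rep _ nl (s.R 3 + 1) (s.R (j + 20)) (σ j) := (h.rep j hj).mono (Nat.le_succ _) hM
      have h2 := h.lt.trans_le h.le
      simp only [update_self, ne_eq, Nat.reduceEqDiff, not_false_eq_true, update_of_ne, Rep]
      refine ⟨by omega, by omega, by omega, ?_⟩
      rwa [show (2 * s.R (j + 20) + b.toNat) / 2 = s.R (j + 20) by omega]
    · have h1 : Rep _ nl (s.R 3 + 1) (s.R (j + 20)) (σ j) := (h.rep j hj).mono (Nat.le_succ _) hM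
      simpa [update_apply, e'] using h1
  · simp

theorem sim (hw2 : 2 ≤ w) {q : RP} {a b : St × ℕ} {t : ℕ}
    (h : RExec (fun i => (ρ i).bodd) q a b t) : ∀ s : S, mxs q < R → Inv R nl h0 cx s a.1 →
    s.k = a.2 → 2 * (s.R 3 + t) < 2 ^ w →
    ∃ s', WE w ρ (trn q) s s' (7 * t) ∧ Inv R nl h0 cx s' b.1 ∧ s'.k = b.2 ∧
      s'.R 3 ≤ s.R 3 + t := by
  have h4 : 4 ≤ 2 ^ w := (Nat.pow_le_pow_right (by omega) hw2 : 2 ^ 2 ≤ 2 ^ w)
  induction h with
  | skip a => intro s _ hI hk _; exact ⟨s, (WE.ops [] s).mono (by simp), hI, hk, by omega⟩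
  | push r b σ k =>
    intro s hr hI hk hw
    have hb1 : b.toNat ≤ 1 := Bool.toNat_le b
    have h1 := hI.scr (Or.inr rfl) (b.toNat % 2 ^ w) s.k
    obtain ⟨h2, h3, h5⟩ := push_inv (w := w) (ρ := ρ) h1 hr (b := b)
      (by simp [Nat.mod_eq_of_lt (show b.toNat < 2 ^ w by omega)]) (by simpa using hw)
    refine ⟨_, (WE.ops _ s).mono (by simp [pushB]), h2, h5.trans hk, h3.le.trans (by simp)⟩
  | pop r σ k =>
    intro s hr hI hk hw
    have h1 := hI.rep r hr
    by_cases e : s.R (r + 20) = s.R 2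
    · refine ⟨s, (WE.ifT e (WE.ops [] s)).mono (by simp), ?_, hk, by omega⟩
      have : σ r = [] := h1.eq_nil.1 (e.trans hI.nil)
      simp only at hI ⊢
      rwa [this, List.tail_nil, ← this, update_eq_self]
    · refine ⟨_, (WE.ifF e (WE.ops _ s)).mono (by simp), ?_, hk, by simp [effs, Op.eff]⟩
      simp only at h1 hI ⊢
      obtain ⟨b, l, hl⟩ : ∃ b l, σ r = b :: l := by
        cases hσ : σ r with
        | nil => exact absurd ((h1.eq_nil.2 hσ).trans hI.nil.symm) e
        | cons b l => exact ⟨b, l, rfl⟩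
      rw [hl] at h1
      refine ⟨?_, ?_, ?_, ?_, ?_, hI.lt, ?_, ?_, fun j hj => ?_⟩
      · simp [effs, Op.eff, update_apply, hI.one]
      · simp [effs, Op.eff, update_apply, hI.two]
      · simp [effs, Op.eff, update_apply, hI.zero]
      · simp [effs, Op.eff, update_apply, hI.nil]
      · simp [effs, Op.eff, update_apply, hI.base]
      · simpa [effs, Op.eff, update_apply] using hI.le
      · simpa [effs, Op.eff, update_apply] using hI.keep
      · by_cases e' : j = r
        · subst e'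
          simpa [effs, Op.eff, update_apply, hl, hI.two] using h1.2.2.2
        · simpa [effs, Op.eff, update_apply, e'] using hI.rep j hj
  | rand r σ k =>
    intro s hr hI hk hw
    have h1 := (hI.scr (Or.inr rfl) (ρ s.k % 2 ^ w) (s.k + 1)).scr (Or.inr rfl)
      (ρ s.k % 2 ^ w % 2) (s.k + 1)
    have e : ρ s.k % 2 ^ w % 2 = (ρ k).bodd.toNat := by
      rw [Nat.mod_mod_of_dvd _ (dvd_pow_self 2 (by omega)), Nat.mod_two_of_bodd, hk]
    obtain ⟨h2, h3, h5⟩ := push_inv (w := w) (ρ := ρ) h1 hr (b := (ρ k).bodd)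
      (by simpa using e) (by simpa using hw)
    have e2 : effs w ρ (.rand 5 :: .rem 5 5 7 :: pushB r) s = effs w ρ (pushB r)
        ⟨update (update s.R 5 (ρ s.k % 2 ^ w)) 5 (ρ s.k % 2 ^ w % 2), s.M, s.k + 1⟩ := by
      simp [effs, Op.eff, hI.two]
    refine ⟨_, (WE.ops _ s).mono (by simp [pushB]), ?_, ?_, ?_⟩
    · rw [e2]; exact h2
    · rw [e2]; exact h5.trans (by simpa using hk)
    · rw [e2]; exact h3.le.trans (by simp)
  | seq _ _ ih1 ih2 =>
    intro s hr hI hk hw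
    simp only [mxs, max_lt_iff] at hr
    obtain ⟨s1, a1, a2, a3, a4⟩ := ih1 s hr.1 hI hk (by omega)
    obtain ⟨s2, b1, b2, b3, b4⟩ := ih2 s1 hr.2 a2 a3 (by omega)
    exact ⟨s2, (a1.seq b1).mono (by omega), b2, b3, by omega⟩
  | @iteN r pn pt pf a b t hh _ ih =>
    intro s hr hI hk hw
    simp only [mxs, max_lt_iff] at hr
    obtain ⟨s1, a1, a2, a3, a4⟩ := ih s hr.2.1 hI hk (by omega)
    have e : s.R (r + 20) = s.R 2 :=
      ((hI.rep r hr.1).eq_nil.2 (List.head?_eq_none_iff.1 hh)).trans hI.nil.symm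
    exact ⟨s1, (WE.ifT e a1).mono (by omega), a2, a3, by omega⟩
  | @iteT r pn pt pf a b t hh _ ih =>
    intro s hr hI hk hw
    simp only [mxs, max_lt_iff] at hr
    obtain ⟨l, hl⟩ : ∃ l, a.1 r = true :: l := List.head?_eq_some_iff.1 hh
    have h1 := hI.rep r hr.1
    rw [hl] at h1
    have e : s.R (r + 20) ≠ s.R 2 := by rw [hI.nil]; exact h1.1
    have h2 := (hI.scr (Or.inl rfl) (s.M (s.R (r + 20))) s.k).scr (Or.inl rfl)
      (s.M (s.R (r + 20)) % 2) s.k
    obtain ⟨s1, a1, a2, a3, a4⟩ := ih _ hr.2.2.1 h2 hk (by simp; omega)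
    have e2 : effs w ρ [.load 4 (r + 20), .rem 4 4 7] s = ⟨update (update s.R 4
        (s.M (s.R (r + 20)))) 4 (s.M (s.R (r + 20)) % 2), s.M, s.k⟩ := by
      simp [effs, Op.eff, hI.two]
    refine ⟨s1, (WE.ifF e ((WE.ops _ s).seq (e2 ▸ WE.ifT ?_ a1))).mono (by simp; omega), a2, a3,
      a4.trans (by simp)⟩
    simp [hI.one, h1.2.2.1]
  | @iteF r pn pt pf a b t hh _ ih =>
    intro s hr hI hk hw
    simp only [mxs, max_lt_iff] at hr
    obtain ⟨l, hl⟩ : ∃ l, a.1 r = false :: l := List.head?_eq_some_iff.1 hh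
    have h1 := hI.rep r hr.1
    rw [hl] at h1
    have e : s.R (r + 20) ≠ s.R 2 := by rw [hI.nil]; exact h1.1
    have h2 := (hI.scr (Or.inl rfl) (s.M (s.R (r + 20))) s.k).scr (Or.inl rfl)
      (s.M (s.R (r + 20)) % 2) s.k
    obtain ⟨s1, a1, a2, a3, a4⟩ := ih _ hr.2.2.2 h2 hk (by simp; omega)
    have e2 : effs w ρ [.load 4 (r + 20), .rem 4 4 7] s = ⟨update (update s.R 4
        (s.M (s.R (r + 20)))) 4 (s.M (s.R (r + 20)) % 2), s.M, s.k⟩ := by
      simp [effs, Op.eff, hI.two]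
    refine ⟨s1, (WE.ifF e ((WE.ops _ s).seq (e2 ▸ WE.ifF ?_ a1))).mono (by simp; omega), a2, a3,
      a4.trans (by simp)⟩
    simp [hI.one, h1.2.2.1]
  | @loopN r p a hh =>
    intro s hr hI hk hw
    simp only [mxs, max_lt_iff] at hr
    have e : s.R (r + 20) = s.R 2 := ((hI.rep r hr.1).eq_nil.2 hh).trans hI.nil.symm
    exact ⟨s, (WE.whT e).mono (by omega), hI, hk, by omega⟩
  | @loopC r p a b c t t' hh _ _ ih1 ih2 =>
    intro s hr hI hk hw
    have hr' := hr
    simp only [mxs, max_lt_iff] at hr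
    have e : s.R (r + 20) ≠ s.R 2 := fun e => hh ((hI.rep r hr.1).eq_nil.1 (e.trans hI.nil))
    obtain ⟨s1, a1, a2, a3, a4⟩ := ih1 s hr.2 hI hk (by omega)
    obtain ⟨s2, b1, b2, b3, b4⟩ := ih2 s1 hr' a2 a3 (by omega)
    exact ⟨s2, (WE.whF e a1 b1).mono (by omega), b2, b3, by omega⟩

end

end Crest.Agent.R309.RW
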