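import Crest.Agent.R309.Trial
import Crest.Agent.R309.Learn
import Crest.Agent.R309.Mk
import Crest.Agent.R309.ModelPT
import Crest.Agent.R309.SampAux

/-! Row 309: the almost uniform sampler. -/

set_option autoImplicit false

namespace Crest.Agent.R309

open Crest.Agent.PT Crest.Enc Finset

theorem Dat.samp_cases (D : Dat) (G : ℕ) (ω : Word) :
    D.samp G ω = [] ∨ ∃ p ∈ D.Fl, D.samp G ω = 1 :: p := by
  unfold Dat.samp
  rcases firstR_mem (Lt D.P G) (D.trial (D.learn G ω) G) (nF G) (ω.drop (Ll D.P G)) with h | ⟨r, h⟩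
  · exact Or.inl h
  · rw [h]; exact D.trial_cases _ G r

namespace SX

variable {D : Dat}

/-- the error of the sampler for fixed fields -/
noncomputable def Φ (D : Dat) (G : ℕ) (k : List ℤ) : ℝ :=
  Pr (nF G * Lt D.P G) (fun ω => firstR (Lt D.P G) (D.trial k G) (nF G) ω = []) +
    ∑ p ∈ D.Fl, |Pr (nF G * Lt D.P G) (fun ω => firstR (Lt D.P G) (D.trial k G) (nF G) ω = 1 :: p) -
      1 / (D.Fl.card : ℝ)|

theorem core {ι : Type} {F : Finset ι} (hF : F.Nonempty) {q : ι → ℝ} (hq0 : ∀ p, 0 ≤ q p) {r : ℝ}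
    (hr0 : 0 ≤ r) (hQ : ∑ p ∈ F, q p = 1 - r) (n : ℕ) :
    r ^ n + ∑ p ∈ F, |q p * ∑ i ∈ range n, r ^ i - 1 / (F.card : ℝ)| ≤ 2 ∧
      ∀ A ε : ℝ, 0 ≤ ε → (∀ p ∈ F, |q p - A| ≤ ε * A) → 3 / 4 * ((F.card : ℝ) * A) ≤ 1 - r →
        r ^ n + ∑ p ∈ F, |q p * ∑ i ∈ range n, r ^ i - 1 / (F.card : ℝ)| ≤ 4 * ε + 2 * r ^ n := by
  have hQS : (1 - r) * ∑ i ∈ range n, r ^ i = 1 - r ^ n := mul_neg_geom_sum r _
  have hS0 : 0 ≤ ∑ i ∈ range n, r ^ i := sum_nonneg fun i _ => pow_nonneg hr0 i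
  generalize ∑ i ∈ range n, r ^ i = S at hQS hS0 ⊢
  have hc : (0 : ℝ) < F.card := by exact_mod_cast hF.card_pos
  have hrn : 0 ≤ r ^ n := pow_nonneg hr0 _
  generalize r ^ n = ρ at hQS hrn ⊢
  have hone : ∀ x : ℝ, ∑ _p ∈ F, x / (F.card : ℝ) = x := fun x => by
    rw [sum_const, nsmul_eq_mul]; field_simp
  constructor
  · have : ∑ p ∈ F, |q p * S - 1 / (F.card : ℝ)| ≤
        ∑ p ∈ F, (q p * S + 1 / (F.card : ℝ)) := sum_le_sum fun p _ => by
      have h1 := mul_nonneg (hq0 p) hS0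
      have h2 : 0 ≤ 1 / (F.card : ℝ) := by positivity
      exact abs_le.2 ⟨by linarith, by linarith⟩
    rw [sum_add_distrib, ← sum_mul, hQ, hQS, hone] at this
    linarith
  · intro A ε hε0 hlaw hlow
    have hav : |(1 - r) / F.card - A| ≤ ε * A := by
      have e : (1 - r) / F.card - A = (∑ p ∈ F, (q p - A)) / F.card := by
        rw [sum_sub_distrib, hQ, sum_const, nsmul_eq_mul]; field_simp
      rw [e, abs_div, abs_of_pos hc, div_le_iff₀ hc]
      refine (abs_sum_le_sum_abs _ _).trans ((sum_le_sum hlaw).trans (le_of_eq ?_))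
      rw [sum_const, nsmul_eq_mul, mul_comm]
    have h1 : ∑ p ∈ F, |q p * S - 1 / (F.card : ℝ)| ≤
        ∑ _p ∈ F, (2 * (ε * A) * S + ρ / (F.card : ℝ)) := sum_le_sum fun p hp => by
      have e : q p * S - 1 / (F.card : ℝ) =
          ((q p - A) - ((1 - r) / F.card - A)) * S - ρ / (F.card : ℝ) := by
        rw [div_eq_mul_inv, div_eq_mul_inv, div_eq_mul_inv]
        linear_combination (F.card : ℝ)⁻¹ * hQS
      rw [e]
      have h2 := abs_le.1 (hlaw p hp)
      have h3 := abs_le.1 hav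
      have h4 : 0 ≤ ρ / (F.card : ℝ) := by positivity
      refine abs_le.2 ⟨?_, ?_⟩ <;> nlinarith [h2.1, h2.2, h3.1, h3.2]
    rw [sum_add_distrib, hone, sum_const, nsmul_eq_mul] at h1
    have h2 : (F.card : ℝ) * A * S ≤ 2 := by
      have := mul_le_mul_of_nonneg_right hlow hS0
      rw [hQS] at this
      nlinarith
    have h6 := mul_le_mul_of_nonneg_left h2 hε0
    nlinarith

theorem Φ_le (h : D.OK) {k : List ℤ} (hk : D.KB k) (G : ℕ) :
    Φ D G k ≤ 2 ∧ (D.Good k → Φ D G k ≤ (2 : ℝ)⁻¹ ^ G) := by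
  unfold Φ
  simp only [Pr_firstR_nil, Pr_firstR_eq _ _ _ (List.cons_ne_nil _ _)]
  have hq := D.Pr_trial_ne k G
  have hr := Pr_nil (Lt D.P G) (D.trial k G)
  have hlow := q_sum_lower h hk G
  have hr0 := Pr_nonneg (Lt D.P G) (fun ω => D.trial k G ω = [])
  have hQ : ∑ p ∈ D.Fl, Pr (Lt D.P G) (fun ω => D.trial k G ω = 1 :: p) =
      1 - Pr (Lt D.P G) (fun ω => D.trial k G ω = []) := by rw [hr, hq]; ring
  obtain ⟨h1, h2⟩ := core h.ne (fun p => Pr_nonneg _ _) hr0 hQ (nF G)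
  refine ⟨h1, fun hg => ?_⟩
  rw [hQ] at hlow
  refine (h2 _ _ (by positivity) (fun p hp => h.trial_law hk G hp) hlow).trans ?_
  have hA := h.good_A0 hg
  generalize Pr (Lt D.P G) (fun ω => D.trial k G ω = []) = r at hr0 hlow ⊢
  have h3 : r ^ nF G ≤ (2 : ℝ)⁻¹ ^ G / 4 := by
    have h4 : r ≤ 15 / 16 := by linarith
    calc r ^ nF G ≤ (15 / 16) ^ nF G := pow_le_pow_left₀ hr0 h4 _
      _ = ((15 / 16) ^ 64) ^ (G + 2) := by rw [nF, pow_mul]
      _ ≤ ((2 : ℝ)⁻¹) ^ (G + 2) := pow_le_pow_left₀ (by positivity) (by norm_num) _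
      _ = _ := by rw [pow_add]; ring
  have h4 := eps_le D.P G
  have h5 : (0 : ℝ) ≤ (2 : ℝ)⁻¹ ^ G := by positivity
  linarith

theorem Pr_samp (D : Dat) (G : ℕ) (o : List ℕ) :
    Pr (LS D.P G) (fun ω => D.samp G ω = o) = Ex (Ll D.P G) fun u => Pr (nF G * Lt D.P G)
      fun ω => firstR (Lt D.P G) (D.trial (D.learn G u) G) (nF G) ω = o := by
  rw [← Pr_split (Ll D.P G) (nF G * Lt D.P G)
    fun u ω => firstR (Lt D.P G) (D.trial (D.learn G u) G) (nF G) ω = o]
  simp only [D.learn_take G _ le_rfl]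
  rfl

end SX

open SX

theorem Dat.OK.samp_law {D : Dat} (h : D.OK) (G : ℕ) :
    Pr (LS D.P G) (fun ω => D.samp G ω = []) +
      ∑ p ∈ D.Fl, |Pr (LS D.P G) (fun ω => D.samp G ω = 1 :: p) - 1 / (D.Fl.card : ℝ)| ≤
        4 * (2 : ℝ)⁻¹ ^ G := by
  classical
  have h1 : Pr (LS D.P G) (fun ω => D.samp G ω = []) +
      ∑ p ∈ D.Fl, |Pr (LS D.P G) (fun ω => D.samp G ω = 1 :: p) - 1 / (D.Fl.card : ℝ)| ≤
        Ex (Ll D.P G) fun u => Φ D G (D.learn G u) := by
    unfold Φ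
    rw [Ex_add, Ex_sum, Pr_samp]
    refine add_le_add le_rfl (sum_le_sum fun p _ => ?_)
    rw [Pr_samp, ← Ex_const (Ll D.P G) (1 / (D.Fl.card : ℝ)), ← Ex_sub]
    simp only [Ex_const]
    exact abs_Ex_le _ _
  have h2 : Ex (Ll D.P G) (fun u => Φ D G (D.learn G u)) ≤ Ex (Ll D.P G) fun u =>
      ((2 : ℝ)⁻¹ ^ G + 2) - 2 * if D.Good (D.learn G u) then 1 else 0 := Ex_mono fun u _ => by
    obtain ⟨h3, h4⟩ := Φ_le h (D.learn_KB G u) G
    split_ifs with hg
    · linarith [h4 hg]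
    · have : (0 : ℝ) ≤ (2 : ℝ)⁻¹ ^ G := by positivity
      linarith
  rw [Ex_sub, Ex_const, Ex_mul_left] at h2
  have h3 := h.learn_good G
  unfold Pr at h3
  have : (0 : ℝ) ≤ (2 : ℝ)⁻¹ ^ G := by positivity
  linarith

theorem exists_sampler : ∃ S : Net × List ℕ × List ℕ × Un × Un × Word → List ℕ,
    PTime S ∧ SamplerSpec S LS := by
  classical
  obtain ⟨mk, hmk, hspec⟩ := exists_mk
  refine ⟨fun x => if (mk (x.1, x.2.1, x.2.2.1, x.2.2.2.1)).1.samp x.2.2.2.2.1.val x.2.2.2.2.2 = []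
    then (feas (x.1, x.2.1, x.2.2.1)).tail
    else addL x.1.E ((mk (x.1, x.2.1, x.2.2.1, x.2.2.2.1)).1.samp x.2.2.2.2.1.val x.2.2.2.2.2).tail
      (mk (x.1, x.2.1, x.2.2.1, x.2.2.2.1)).2, ?_, ?_⟩
  · have hN : PTime fun x : Net × List ℕ × List ℕ × Un × Un × Word => x.1 := PTime.fst'
    have h2 : PTime fun x : Net × List ℕ × List ℕ × Un × Un × Word => x.2 := PTime.snd'
    have hm : PTime fun x : Net × List ℕ × List ℕ × Un × Un × Word =>
        mk (x.1, x.2.1, x.2.2.1, x.2.2.2.1) :=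
      hmk.comp (hN.pair (h2.fst.pair (h2.snd.fst.pair h2.snd.snd.fst)))
    have hs : PTime fun x : Net × List ℕ × List ℕ × Un × Un × Word =>
        (mk (x.1, x.2.1, x.2.2.1, x.2.2.2.1)).1.samp x.2.2.2.2.1.val x.2.2.2.2.2 :=
      Dat.ptime_samp hm.fst (PU.val h2.snd.snd.snd.fst) h2.snd.snd.snd.snd
    exact PTime.ite (eqN hs (PTime.const _))
      (tailN (ptime_feas.comp (hN.pair (h2.fst.pair h2.snd.fst))))
      (ptime_addL (Net.pu_E hN) (tailN hs) hm.snd)
  · intro N lo hi P G hwf hsm hne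
    obtain ⟨hOK, hP, hE, hfl⟩ := hspec N lo hi P hwf hsm hne
    simp only
    set D := (mk (N, lo, hi, ⟨P⟩)).1
    set sh := (mk (N, lo, hi, ⟨P⟩)).2
    obtain ⟨p0, hp0, hf⟩ : ∃ p ∈ N.flows lo hi, feas (N, lo, hi) = 1 :: p := by
      rcases feas_spec lo hi hwf with ⟨_, h0⟩ | h0
      · exact absurd h0 hne.ne_empty
      · exact h0
    have hlen : ∀ p ∈ D.Fl, p.length = N.E := fun p hp => hE ▸ (Dat.mem_Fl.1 hp).1
    have hinj : Set.InjOn (fun p => addL N.E p sh) D.Fl := fun p hp p' hp' e =>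
      addL_injOn N.E sh (hlen p hp) (hlen p' hp') e
    rw [hf, List.tail_cons]
    refine ⟨fun ω => ?_, ?_⟩
    · split_ifs with h0
      · exact hp0
      · rcases D.samp_cases G ω with h1 | ⟨p, hp, h1⟩
        · exact absurd h1 h0
        · rw [h1, List.tail_cons, hfl]
          exact mem_image_of_mem _ hp
    · have hlaw := hOK.samp_law G
      rw [hP] at hlaw
      refine le_trans ?_ hlaw
      have hsum : ∑ p ∈ N.flows lo hi, (if p0 = p then Pr (LS P G) (fun ω => D.samp G ω = []) else 0)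
          = Pr (LS P G) (fun ω => D.samp G ω = []) := by rw [sum_ite_eq, if_pos hp0]
      rw [← hsum, hfl, card_image_of_injOn hinj, sum_image hinj, sum_image hinj, ← sum_add_distrib]
      refine sum_le_sum fun p hp => ?_
      have e : Pr (LS P G) (fun ω => (if D.samp G ω = [] then p0
          else addL N.E (D.samp G ω).tail sh) = addL N.E p sh) =
          (if p0 = addL N.E p sh then Pr (LS P G) (fun ω => D.samp G ω = []) else 0) +
            Pr (LS P G) (fun ω => D.samp G ω = 1 :: p) := by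
        have : (if p0 = addL N.E p sh then Pr (LS P G) (fun ω => D.samp G ω = []) else 0) =
            (if p0 = addL N.E p sh then 1 else 0) * Pr (LS P G) (fun ω => D.samp G ω = []) := by
          split_ifs <;> simp
        rw [this]
        unfold Pr
        rw [← Ex_mul_left, ← Ex_add]
        refine Ex_congr fun ω _ => ?_
        rcases D.samp_cases G ω with h1 | ⟨p', hp', h1⟩
        · simp [h1]
        · by_cases hpp : p' = p
          · simp [h1, hpp]
          · have : addL N.E p' sh ≠ addL N.E p sh := fun e => hpp (hinj hp' hp e)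
            simp [h1, hpp, this]
      rw [e, add_sub_assoc]
      refine (abs_add_le _ _).trans (add_le_add (le_of_eq (abs_of_nonneg ?_)) le_rfl)
      split_ifs
      · exact Pr_nonneg _ _
      · exact le_rfl

end Crest.Agent.R309
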