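import Crest.Agent.R309.Basic

/-! Row 309: one step of the chain. -/

set_option autoImplicit false

namespace Crest.Agent.R309

open Crest.Agent.PT Crest.Enc Finset

namespace StepX

theorem getD_set {a : List ℕ} {e : ℕ} (he : e < a.length) (x i : ℕ) :
    (a.set e x).getD i 0 = if i = e then x else a.getD i 0 := by
  simp only [List.getD_eq_getElem?_getD, List.getElem?_set]
  by_cases hi : i = e
  · subst hi; simp [he]
  · simp [hi, Ne.symm hi]

theorem getD_mv {a : List ℕ} {e : ℕ} (he : e < a.length) (up : Bool) (i : ℕ) :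
    (Dat.mv a e up).getD i 0
      = if i = e then (if up then a.getD e 0 + 1 else a.getD e 0 - 1) else a.getD i 0 := by
  cases up <;> simp only [Dat.mv, inc, dec, getD_set he, if_true, Bool.false_eq_true, if_false]

theorem length_mv (a : List ℕ) (e : ℕ) (up : Bool) : (Dat.mv a e up).length = a.length := by
  cases up <;> simp [Dat.mv, inc, dec]

theorem ext_getD {a b : List ℕ} (hl : a.length = b.length) (h : ∀ i, a.getD i 0 = b.getD i 0) :
    a = b := by
  refine List.ext_getElem hl fun i h1 h2 => ?_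
  have := h i
  rwa [List.getD_eq_getElem _ _ h1, List.getD_eq_getElem _ _ h2] at this

variable {D : Dat}

theorem mv_mem {a : List ℕ} (ha : a ∈ D.Ω) {e : ℕ} {up : Bool} (hm : D.okMv a e up) :
    Dat.mv a e up ∈ D.Ω := by
  obtain ⟨hl, ha⟩ := Dat.mem_Ω.1 ha
  obtain ⟨he, hm⟩ := hm
  refine Dat.mem_Ω.2 ⟨by rw [length_mv, hl], fun i hi => ?_⟩
  rw [getD_mv (hl ▸ he)]
  have := ha i hi
  split_ifs with h1 h2
  · subst h1; simp only [h2, if_true] at hm; omega
  · subst h1; omega
  · exact this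

theorem mv_ne {a : List ℕ} (ha : a ∈ D.Ω) {e : ℕ} {up : Bool} (hm : D.okMv a e up) :
    a ≠ Dat.mv a e up := by
  obtain ⟨hl, -⟩ := Dat.mem_Ω.1 ha
  obtain ⟨he, hm⟩ := hm
  intro h
  have := congrArg (fun l => l.getD e 0) h
  simp only [getD_mv (hl ▸ he), if_true] at this
  cases up
  · simp only [Bool.false_eq_true, if_false] at this hm; omega
  · simp only [if_true] at this; omega

theorem mv_inj {a : List ℕ} (ha : a ∈ D.Ω) {e e' : ℕ} {up up' : Bool} (hm : D.okMv a e up)
    (hm' : D.okMv a e' up') (h : Dat.mv a e' up' = Dat.mv a e up) : e' = e ∧ up' = up := by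
  obtain ⟨hl, -⟩ := Dat.mem_Ω.1 ha
  obtain ⟨he, hm⟩ := hm
  obtain ⟨he', hm'⟩ := hm'
  have := congrArg (fun l => l.getD e 0) h
  simp only [getD_mv (hl ▸ he), getD_mv (hl ▸ he'), if_true] at this
  by_cases h1 : e = e'
  · subst h1
    refine ⟨rfl, ?_⟩
    cases up <;> cases up' <;>
      simp only [Bool.false_eq_true, if_false, if_true] at this hm hm' ⊢ <;> omega
  · exfalso
    rw [if_neg h1] at this
    cases up <;> simp only [Bool.false_eq_true, if_false, if_true] at this hm <;> omega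

theorem mv_rev {a : List ℕ} (ha : a ∈ D.Ω) {e : ℕ} {up : Bool} (hm : D.okMv a e up) :
    D.okMv (Dat.mv a e up) e (!up) ∧ Dat.mv (Dat.mv a e up) e (!up) = a := by
  obtain ⟨hl, ha⟩ := Dat.mem_Ω.1 ha
  obtain ⟨he, hm⟩ := hm
  have h0 := ha e he
  have he1 : e < a.length := hl ▸ he
  have he2 : e < (Dat.mv a e up).length := by rwa [length_mv]
  constructor
  · refine ⟨he, ?_⟩
    rw [getD_mv he1, if_pos rfl]
    cases up <;> simp only [Bool.false_eq_true, if_false, if_true, Bool.not_true,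
      Bool.not_false] at hm ⊢ <;> omega
  · refine ext_getD (by rw [length_mv, length_mv]) fun i => ?_
    rw [getD_mv he2, getD_mv he1, getD_mv he1, if_pos rfl]
    by_cases hi : i = e
    · subst hi
      cases up <;> simp only [Bool.false_eq_true, if_false, if_true, Bool.not_true,
        Bool.not_false] at hm ⊢ <;> omega
    · simp only [if_neg hi]

theorem Ex_parts (s m : ℕ) (A : Word → Bool → Bool → Word → ℝ) :
    Ex (s + 2 + m) (fun r => A (r.take s) (r.getD s false) (r.getD (s + 1) false) (r.drop (s + 2)))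
      = Ex s fun u => (Ex m (A u false false) + Ex m (A u false true) + Ex m (A u true false)
          + Ex m (A u true true)) / 4 := by
  rw [add_assoc, Ex_append]
  refine Ex_congr fun u hu => ?_
  subst hu
  have e : ∀ (b1 b2 : Bool) (v : Word), (u ++ b1 :: b2 :: v).take u.length = u ∧
      (u ++ b1 :: b2 :: v).getD u.length false = b1 ∧
      (u ++ b1 :: b2 :: v).getD (u.length + 1) false = b2 ∧
      (u ++ b1 :: b2 :: v).drop (u.length + 2) = v := fun b1 b2 v => by
    refine ⟨by simp, by simp, ?_, by simp⟩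
    rw [List.getD_append_right _ _ _ _ (by omega)]
    simp
  rw [add_comm 2 m, show m + 2 = m + 1 + 1 from rfl, Ex_succ, Ex_succ, Ex_succ]
  simp only [fun b1 b2 v => (e b1 b2 v).1, fun b1 b2 v => (e b1 b2 v).2.1,
    fun b1 b2 v => (e b1 b2 v).2.2.1, fun b1 b2 v => (e b1 b2 v).2.2.2]
  ring

theorem Pr_parts (s m : ℕ) (A : Word → Bool → Bool → Word → Prop) :
    Pr (s + 2 + m) (fun r => A (r.take s) (r.getD s false) (r.getD (s + 1) false) (r.drop (s + 2)))
      = Ex s fun u => (Pr m (A u false false) + Pr m (A u false true) + Pr m (A u true false)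
          + Pr m (A u true true)) / 4 :=
  Ex_parts s m fun u b1 b2 v => @ite ℝ (A u b1 b2 v) (Classical.propDecidable _) 1 0

theorem step_cases (k : List ℤ) (a : List ℕ) (r : Word) :
    D.step k a r = a ∨ ∃ e up, D.okMv a e up ∧ D.step k a r = Dat.mv a e up := by
  unfold Dat.step
  split_ifs with h
  · exact Or.inr ⟨_, _, h.2.1, rfl⟩
  · exact Or.inl rfl

end StepX

open StepX

namespace Dat

variable {D : Dat}

theorem step_mem (k : List ℤ) {a : List ℕ} (ha : a ∈ D.Ω) (r : Word) : D.step k a r ∈ D.Ω := by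
  rcases step_cases (D := D) k a r with h | ⟨e, up, hm, h⟩
  · rwa [h]
  · rw [h]; exact mv_mem ha hm

theorem smp_mem (D : Dat) (k : List ℤ) (G : ℕ) (ω : Word) : D.smp k G ω ∈ D.Ω := by
  exact iterR_inv _ _ (fun _ s => s ∈ D.Ω) (fun _ _ r hs => step_mem k hs r) _ D.zero_mem_Ω _ _

theorem step_lazy (D : Dat) (k : List ℤ) (a : List ℕ) :
    1 / 2 ≤ Pr (L1 D.P) fun r => D.step k a r = a := by
  have h := Pr_parts (Nat.size D.P) (2 * pX D.P) fun _ _ b _ => b = false
  rw [Pr_true (A := fun _ => false = false) _ fun _ _ => rfl,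
    Pr_false (A := fun _ => true = false) _ fun _ _ => by simp, Ex_const] at h
  refine le_trans (le_of_eq (Eq.trans (by norm_num) h.symm)) (Pr_mono fun r _ hr => ?_)
  unfold step
  rw [if_neg fun h' => by rw [hr] at h'; exact absurd h'.1 (by simp)]

/-- the probability of an allowed move -/
theorem OK.step_mv (h : D.OK) {k : List ℤ} (hk : D.KB k) {a : List ℕ} (ha : a ∈ D.Ω) {e : ℕ}
    {up : Bool} (hm : D.okMv a e up) :
    D.wt k a * Pr (L1 D.P) (fun r => D.step k a r = mv a e up) =
      min (D.wt k a) (D.wt k (mv a e up)) / (4 * 2 ^ Nat.size D.P) := by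
  have hb := mv_mem ha hm
  obtain ⟨d, hd⟩ : ∃ d, d = (D.ex k (mv a e up) - D.ex k a).toNat := ⟨_, rfl⟩
  have hdX : d ≤ 2 * pX D.P := by
    have h1 := h.ex_le hk ha
    have h2 := h.ex_le hk hb
    omega
  have he : e < 2 ^ Nat.size D.P := lt_of_lt_of_le hm.1 (h.E_le.trans (Nat.lt_size_self _).le)
  have h1 : Pr (L1 D.P) (fun r => D.step k a r = mv a e up)
      = Pr (Nat.size D.P + 2 + 2 * pX D.P) fun r => (fun (u : Word) (b1 b2 : Bool) (v : Word) =>
        ofB u = e ∧ b1 = up ∧ b2 = true ∧ ofB v < 2 ^ (2 * pX D.P - d)) (r.take (Nat.size D.P))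
          (r.getD (Nat.size D.P) false) (r.getD (Nat.size D.P + 1) false)
          (r.drop (Nat.size D.P + 2)) := by
    refine Pr_congr fun r _ => ?_
    unfold step
    constructor
    · intro hr
      split_ifs at hr with hc
      · obtain ⟨e1, e2⟩ := mv_inj ha hm hc.2.1 hr
        refine ⟨e1, e2, hc.1, ?_⟩
        have := hc.2.2
        rwa [e1, e2, ← hd] at this
      · exact absurd hr (mv_ne ha hm)
    · rintro ⟨e1, e2, e3, e4⟩
      rw [e1, e2, if_pos ⟨e3, hm, by rwa [← hd]⟩]
  have hq : Pr (2 * pX D.P) (fun v => ofB v < 2 ^ (2 * pX D.P - d)) = 1 / 2 ^ d := by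
    rw [Pr_ofB_lt (Nat.pow_le_pow_right (by norm_num) (Nat.sub_le _ _))]
    obtain ⟨m, hm⟩ := Nat.exists_eq_add_of_le hdX
    rw [hm, Nat.add_sub_cancel_left, pow_add]
    push_cast
    field_simp
  have h2 : ∀ (u : Word) (b1 b2 : Bool), Pr (2 * pX D.P)
      (fun v => ofB u = e ∧ b1 = up ∧ b2 = true ∧ ofB v < 2 ^ (2 * pX D.P - d))
      = if b1 = up ∧ b2 = true then
          1 / 2 ^ d * @ite ℝ (ofB u = e) (Classical.propDecidable _) 1 0 else 0 := by
    intro u b1 b2
    by_cases c1 : b1 = up ∧ b2 = true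
    · rw [if_pos c1]
      by_cases c2 : ofB u = e
      · rw [if_pos c2, mul_one, ← hq]
        exact Pr_congr fun v _ => by simp only [c1.1, c1.2, c2, true_and]
      · rw [if_neg c2, mul_zero]
        exact Pr_false _ fun v _ hv => c2 hv.1
    · rw [if_neg c1]
      exact Pr_false _ fun v _ hv => c1 ⟨hv.2.1, hv.2.2.1⟩
  have h3 : Pr (L1 D.P) (fun r => D.step k a r = mv a e up)
      = 1 / 2 ^ d / 4 * (1 / 2 ^ Nat.size D.P) := by
    rw [h1, ← Pr_ofB_eq he]
    refine (Pr_parts (Nat.size D.P) (2 * pX D.P) fun (u : Word) (b1 b2 : Bool) (v : Word) =>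
        ofB u = e ∧ b1 = up ∧ b2 = true ∧ ofB v < 2 ^ (2 * pX D.P - d)).trans ?_
    refine Eq.trans (Ex_congr fun u _ => ?_) (Ex_mul_left _ _ _)
    rw [h2, h2, h2, h2]
    generalize @ite ℝ (ofB u = e) (Classical.propDecidable _) 1 0 = z
    cases up <;> simp <;> ring
  have h4 : D.wt k a * (1 / 2 ^ d) = min (D.wt k a) (D.wt k (mv a e up)) := by
    unfold wt
    rcases le_total (D.ex k a) (D.ex k (mv a e up)) with c | c
    · rw [min_eq_right (zpow_le_zpow_right₀ (by norm_num) (by omega)), one_div, ← zpow_natCast,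
        ← zpow_neg, ← zpow_add₀ (by norm_num)]
      congr 1
      omega
    · rw [min_eq_left (zpow_le_zpow_right₀ (by norm_num) (by omega))]
      have : d = 0 := by omega
      rw [this]; simp
  rw [h3, ← h4]
  ring

theorem OK.step_rev (h : D.OK) {k : List ℤ} (hk : D.KB k) {a b : List ℕ} (ha : a ∈ D.Ω)
    (hb : b ∈ D.Ω) : D.wt k a * Pr (L1 D.P) (fun r => D.step k a r = b) =
      D.wt k b * Pr (L1 D.P) fun r => D.step k b r = a := by
  have main : ∀ {a b : List ℕ}, a ∈ D.Ω → ∀ e up, D.okMv a e up → b = mv a e up →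
      D.wt k a * Pr (L1 D.P) (fun r => D.step k a r = b) =
        D.wt k b * Pr (L1 D.P) fun r => D.step k b r = a := by
    intro a b ha e up hm hb
    subst hb
    obtain ⟨r1, r2⟩ := mv_rev ha hm
    have := h.step_mv hk (mv_mem ha hm) r1
    rw [r2] at this
    rw [this, h.step_mv hk ha hm, min_comm]
  by_cases hab : a = b
  · subst hab; rfl
  by_cases c1 : ∃ e up, D.okMv a e up ∧ b = mv a e up
  · obtain ⟨e, up, hm, hb'⟩ := c1
    exact main ha e up hm hb'
  by_cases c2 : ∃ e up, D.okMv b e up ∧ a = mv b e up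
  · obtain ⟨e, up, hm, ha'⟩ := c2
    exact (main hb e up hm ha').symm
  rw [Pr_false, Pr_false, mul_zero, mul_zero]
  · intro r _ hr
    rcases step_cases (D := D) k b r with h' | ⟨e, up, hm, h'⟩
    · exact hab (hr.symm.trans h')
    · exact c2 ⟨e, up, hm, hr.symm.trans h'⟩
  · intro r _ hr
    rcases step_cases (D := D) k a r with h' | ⟨e, up, hm, h'⟩
    · exact hab (h'.symm.trans hr)
    · exact c1 ⟨e, up, hm, hr.symm.trans h'⟩

end Dat

end Crest.Agent.R309
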