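import Crest.Agent.R309.Net
import Crest.Prelude.Def_Tables

/-! Row 309: contingency tables as flows; parsing. -/

set_option autoImplicit false

namespace Crest.Agent.R309

open Crest.Agent.PT Crest.Enc Crest.Tables Finset

/-- the bipartite network of an `m × n` table with row sums `r` and column sums `c` -/
def tabNet (m n : ℕ) (r c : List ℕ) : Net where
  src := (List.range (m * n)).map fun e => e / n
  dst := (List.range (m * n)).map fun e => m + e % n
  β := ((List.range m).map fun i => (r.getD i 0 : ℤ)) ++ (List.range n).map fun j => -(c.getD j 0 : ℤ)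

/-- the entries of a matrix, row by row -/
def flat {m n : ℕ} (X : Fin m → Fin n → ℕ) : List ℕ := (List.ofFn fun i => List.ofFn (X i)).flatten

/-- the number of rows read from the input -/
def rdM (x : Word) : ℕ := min (natVal x) x.length
/-- the number of columns read from the input -/
def rdN (x : Word) : ℕ := min (natVal (natRest x)) x.length
/-- the margins read from the input -/
def rdRC (x : Word) : List ℕ := readN (rdM x + rdN x) (natRest (natRest x))
/-- the network read from the input -/
def rdNet (x : Word) : Net :=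
  tabNet (rdM x) (rdN x) (rdRC x) ((List.range (rdN x)).map fun j => (rdRC x).getD (rdM x + j) 0)
/-- the rest of the input after the margins -/
def rdRest (x : Word) : Word := natRest^[rdM x + rdN x] (natRest (natRest x))
/-- the cell bounds read after the margins -/
def rdB (x : Word) : List ℕ := readN (rdM x * rdN x) (rdRest x)
/-- the total of the row sums, as a bound for every cell -/
def rdTot (x : Word) : List ℕ :=
  List.replicate (rdM x * rdN x) (∑ i ∈ range (rdM x), (rdRC x).getD i 0)
/-- the size parameter -/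
def rdP (x : Word) : ℕ := (x.length + 2) ^ 2

theorem pu_rdM : PU rdM := PU.min_right (PTime.natVal PTime.id) (PU.length PTime.id)

theorem pu_rdN : PU rdN := PU.min_right (PTime.natVal (PTime.natRest PTime.id)) (PU.length PTime.id)

theorem pu_rdP : PU rdP := ((PU.length PTime.id).add (PU.const 2)).pow_const 2

theorem ptime_rdRC : PTime rdRC :=
  ptime_readN (pu_rdM.add pu_rdN) (PTime.natRest (PTime.natRest PTime.id))

theorem ptime_tabNet {α : Type} [Rp α] {m n : α → ℕ} {r c : α → List ℕ} (hm : PU m) (hn : PU n)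
    (hr : PTime r) (hc : PTime c) : PTime fun a => tabNet (m a) (n a) (r a) (c a) := by
  have h1 : PTime fun p : α × Un => m p.1 := hm.ptime.comp PTime.fst'
  have h2 : PTime fun p : α × Un => n p.1 := hn.ptime.comp PTime.fst'
  have h3 : PTime fun p : α × Un => p.2.val := PTime.val PTime.snd'
  have h4 : PTime fun p : α × Un => r p.1 := hr.comp PTime.fst'
  have h5 : PTime fun p : α × Un => c p.1 := hc.comp PTime.fst'
  exact Net.ptime_mk (rangeMapN (g := fun a e => e / n a) (hm.mul hn) (h3.div h2))
    (rangeMapN (g := fun a e => m a + e % n a) (hm.mul hn) (h1.add (h3.mod h2)))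
    (appendZ (rangeMapZ (g := fun a i => ((r a).getD i 0 : ℤ)) hm (getDN h4 h3).natCast)
      (rangeMapZ (g := fun a j => -((c a).getD j 0 : ℤ)) hn (getDN h5 h3).natCast.ineg))

theorem ptime_rdNet : PTime rdNet := ptime_tabNet pu_rdM pu_rdN ptime_rdRC
  (rangeMapN (g := fun x j => (rdRC x).getD (rdM x + j) 0) pu_rdN
    (getDN (ptime_rdRC.comp PTime.fst') ((pu_rdM.ptime.comp PTime.fst').add (PTime.val PTime.snd'))))

theorem ptime_rdRest : PTime rdRest :=
  PTime.iterate PTLX.ptime_natRest length_natRest_le (PTime.natRest (PTime.natRest PTime.id))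
    (pu_rdM.add pu_rdN)

theorem ptime_rdB : PTime rdB := ptime_readN (pu_rdM.mul pu_rdN) ptime_rdRest

theorem ptime_rdTot : PTime rdTot := replicateN (pu_rdM.mul pu_rdN)
  (PTime.sum_range (g := fun x i => (rdRC x).getD i 0) pu_rdM
    (getDN (ptime_rdRC.comp PTime.fst') (PTime.val PTime.snd')))

theorem tabNet_E (m n : ℕ) (r c : List ℕ) : (tabNet m n r c).E = m * n := by
  simp [tabNet, Net.E]

theorem tabNet_V (m n : ℕ) (r c : List ℕ) : (tabNet m n r c).V = m + n := by
  simp [tabNet, Net.V]

theorem tabNet_s (m n : ℕ) (r c : List ℕ) {e : ℕ} (he : e < m * n) :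
    (tabNet m n r c).s e = e / n := by
  simp [tabNet, Net.s, List.getD_eq_getElem?_getD, he]

theorem tabNet_d (m n : ℕ) (r c : List ℕ) {e : ℕ} (he : e < m * n) :
    (tabNet m n r c).d e = m + e % n := by
  simp [tabNet, Net.d, List.getD_eq_getElem?_getD, he]

theorem tabNet_b_lt (m n : ℕ) (r c : List ℕ) {w : ℕ} (hw : w < m) :
    (tabNet m n r c).b w = r.getD w 0 := by
  simp only [tabNet, Net.b]
  rw [List.getD_append _ _ _ _ (by simpa using hw), List.getD_eq_getElem _ _ (by simpa using hw)]
  simp

theorem tabNet_b_ge (m n : ℕ) (r c : List ℕ) {j : ℕ} (hj : j < n) :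
    (tabNet m n r c).b (m + j) = -(c.getD j 0 : ℤ) := by
  simp only [tabNet, Net.b]
  rw [List.getD_append_right _ _ _ _ (by simp), List.getD_eq_getElem _ _ (by simpa using hj)]
  simp

theorem pos_of_lt_mul' {m n e : ℕ} (he : e < m * n) : 0 < n :=
  Nat.pos_of_ne_zero fun h => by simp [h] at he

theorem div_lt_of_lt_mul' {m n e : ℕ} (he : e < m * n) : e / n < m :=
  Nat.div_lt_of_lt_mul (by rwa [mul_comm])

theorem tabNet_WF (m n : ℕ) (r c : List ℕ) : (tabNet m n r c).WF := by
  intro e he
  rw [tabNet_E] at he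
  rw [tabNet_V, tabNet_s _ _ _ _ he, tabNet_d _ _ _ _ he]
  have h1 := div_lt_of_lt_mul' he
  have h2 := Nat.mod_lt e (pos_of_lt_mul' he)
  omega

section
variable {m n : ℕ} (r : Fin m → ℕ) (c : Fin n → ℕ)

theorem marginsCode_eq :
    marginsCode r c = ((m :: n :: (List.ofFn r ++ List.ofFn c)).map natCode).flatten := by
  simp [marginsCode]

theorem boundsCode_eq (X : Fin m → Fin n → ℕ) :
    boundsCode X = ((flat X).map natCode).flatten := by
  rw [boundsCode, flat, List.map_flatten, List.flatten_flatten, List.map_map, List.map_ofFn]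
  rfl

theorem length_flat (X : Fin m → Fin n → ℕ) : (flat X).length = m * n := by
  simp [flat, List.length_flatten, List.map_ofFn, Function.comp_def]

theorem flat_eq (X : Fin m → Fin n → ℕ) :
    flat X = List.ofFn fun e : Fin (m * n) => X e.divNat e.modNat := by
  rw [List.ofFn_mul, flat]
  congr 2
  funext i
  congr 1
  funext j
  congr 1
  · ext
    simp only [Fin.coe_divNat]
    rw [mul_comm, Nat.mul_add_div j.pos, Nat.div_eq_of_lt j.2, add_zero]
  · ext
    simp only [Fin.coe_modNat]
    rw [mul_comm, Nat.mul_add_mod, Nat.mod_eq_of_lt j.2]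

theorem getD_flat (X : Fin m → Fin n → ℕ) {e : ℕ} (he : e < m * n) :
    (flat X).getD e 0 = X ⟨e / n, div_lt_of_lt_mul' he⟩ ⟨e % n, Nat.mod_lt e (pos_of_lt_mul' he)⟩ := by
  rw [flat_eq, List.getD_eq_getElem _ _ (by simpa using he), List.getElem_ofFn]
  rfl

theorem cell_lt (i : Fin m) (j : Fin n) : i * n + j < m * n := by
  have h1 : (i + 1) * n ≤ m * n := Nat.mul_le_mul_right _ i.2
  have h2 := j.2
  rw [add_mul] at h1
  omega

theorem cell_div (i : ℕ) (j : Fin n) : (i * n + j) / n = i := by
  rw [mul_comm, Nat.mul_add_div j.pos, Nat.div_eq_of_lt j.2, add_zero]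

theorem cell_mod (i : ℕ) (j : Fin n) : (i * n + j) % n = j := by
  rw [mul_comm, Nat.mul_add_mod, Nat.mod_eq_of_lt j.2]

theorem getD_flat_cell (X : Fin m → Fin n → ℕ) (i : Fin m) (j : Fin n) :
    (flat X).getD (i * n + j) 0 = X i j := by
  rw [getD_flat X (cell_lt i j)]
  congr 1
  · exact Fin.ext (cell_div i j)
  · exact Fin.ext (cell_mod i j)

theorem sum_range_cell (f : ℕ → ℤ) :
    ∑ e ∈ range (m * n), f e = ∑ i : Fin m, ∑ j : Fin n, f (i * n + j) := by
  rw [Finset.sum_range, ← Fintype.sum_prod_type', ← finProdFinEquiv.sum_comp]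
  refine Finset.sum_congr rfl fun p _ => ?_
  simp only [finProdFinEquiv_apply_val]
  congr 1
  ring

theorem matrixCode_eq (X : Fin m → Fin n → ℕ) :
    matrixCode X = natCode m ++ natCode n ++ ((flat X).map natCode).flatten := by
  rw [← boundsCode_eq]
  rfl

theorem flat_inj' {X Y : Fin m → Fin n → ℕ} (h : flat X = flat Y) : X = Y := by
  funext i j
  rw [← getD_flat_cell X, ← getD_flat_cell Y, h]

theorem matrixCode_inj {X Y : Fin m → Fin n → ℕ} (h : matrixCode X = matrixCode Y) : X = Y := by
  rw [matrixCode_eq, matrixCode_eq] at h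
  exact flat_inj' (PTLX.code_inj natRest_natCode PTLX.one_le_natCode natVal_natCode
    (List.append_cancel_left h))

theorem flat_inj {X Y : Fin m → Fin n → ℕ} (h : flat X = flat Y) : X = Y := flat_inj' h

theorem margins_append (t : Word) : marginsCode r c ++ t =
    natCode m ++ (natCode n ++ (((List.ofFn r ++ List.ofFn c).map natCode).flatten ++ t)) := by
  simp [marginsCode]

theorem le_length_margins (t : Word) : m + n ≤ (marginsCode r c ++ t).length := by
  have h := PTLX.length_le PTLX.one_le_natCode (List.ofFn r ++ List.ofFn c)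
  rw [margins_append]
  simp only [PTLX.code, List.length_append, List.length_ofFn] at h ⊢
  omega

theorem rdM_code (t : Word) : rdM (marginsCode r c ++ t) = m := by
  have h := le_length_margins r c t
  rw [rdM, min_eq_left]
  · rw [margins_append, natVal_natCode]
  · rw [margins_append, natVal_natCode, ← margins_append]; omega

theorem rdN_code (t : Word) : rdN (marginsCode r c ++ t) = n := by
  have h := le_length_margins r c t
  rw [rdN, min_eq_left]
  · rw [margins_append, natRest_natCode, natVal_natCode]
  · rw [margins_append, natRest_natCode, natVal_natCode, ← margins_append]; omega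

theorem rdRC_code (t : Word) : rdRC (marginsCode r c ++ t) = List.ofFn r ++ List.ofFn c := by
  rw [rdRC, rdM_code, rdN_code, margins_append, natRest_natCode, natRest_natCode]
  have := readN_code (List.ofFn r ++ List.ofFn c) t
  rwa [List.length_append, List.length_ofFn, List.length_ofFn] at this

theorem rdRest_code (t : Word) : rdRest (marginsCode r c ++ t) = t := by
  rw [rdRest, rdM_code, rdN_code, margins_append, natRest_natCode, natRest_natCode]
  have := iterate_natRest_code (List.ofFn r ++ List.ofFn c) t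
  rwa [List.length_append, List.length_ofFn, List.length_ofFn] at this

theorem rdNet_code (t : Word) :
    rdNet (marginsCode r c ++ t) = tabNet m n (List.ofFn r) (List.ofFn c) := by
  rw [rdNet, rdM_code, rdN_code, rdRC_code]
  unfold tabNet
  congr 2
  · refine List.map_congr_left fun i hi => ?_
    rw [List.getD_append _ _ _ _ (by simpa using hi)]
  · refine List.map_congr_left fun j hj => ?_
    have hj' : j < n := by simpa using hj
    rw [List.getD_eq_getElem _ _ (by simpa using hj'), List.getElem_map, List.getElem_range,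
      List.getD_append_right _ _ _ _ (by simp)]
    simp

theorem rdB_code (b : Fin m → Fin n → ℕ) (t : Word) :
    rdB (marginsCode r c ++ boundsCode b ++ t) = flat b := by
  rw [rdB, List.append_assoc, rdM_code, rdN_code, rdRest_code, boundsCode_eq, ← length_flat b,
    readN_code]

theorem getD_ofFn' {k : ℕ} (f : Fin k → ℕ) (i : Fin k) : (List.ofFn f).getD i 0 = f i := by
  rw [List.getD_eq_getElem _ _ (by simp)]
  simp

theorem rdTot_code (t : Word) :
    rdTot (marginsCode r c ++ t) = flat fun (_ : Fin m) (_ : Fin n) => ∑ i, r i := by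
  rw [rdTot, rdM_code, rdN_code, rdRC_code, flat_eq, List.ofFn_const, Finset.sum_range]
  congr 1
  refine Finset.sum_congr rfl fun i _ => ?_
  rw [List.getD_append _ _ _ _ (by simp), getD_ofFn']

theorem small_aux (hi : List ℕ) (x : Word) (hx : m + n ≤ x.length)
    (h : ∀ e < m * n, hi.getD e 0 < 2 ^ (2 * x.length + 1)) :
    (tabNet m n (List.ofFn r) (List.ofFn c)).Small hi (rdP x) := by
  rw [Net.Small, tabNet_E, tabNet_V, rdP]
  refine ⟨by nlinarith, ?_, by nlinarith, fun e he => (h e he).trans_le ?_⟩
  · have h1 : m * n ≤ x.length * x.length := Nat.mul_le_mul (by omega) (by omega)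
    nlinarith
  · exact Nat.pow_le_pow_right (by omega) (by nlinarith)

theorem small_B (b : Fin m → Fin n → ℕ) (t : Word) :
    (tabNet m n (List.ofFn r) (List.ofFn c)).Small (flat b)
      (rdP (marginsCode r c ++ boundsCode b ++ t)) := by
  refine small_aux r c _ _ (by rw [List.append_assoc]; exact le_length_margins r c _) fun e _ => ?_
  refine (getD_lt_szN _ _).trans_le (Nat.pow_le_pow_right (by omega) ?_)
  rw [PTLX.szN, boundsCode_eq]
  simp only [PTLX.code, List.length_append]
  omega

theorem small_Tot (t : Word) :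
    (tabNet m n (List.ofFn r) (List.ofFn c)).Small (flat fun (_ : Fin m) (_ : Fin n) => ∑ i, r i)
      (rdP (marginsCode r c ++ t)) := by
  have hl := le_length_margins r c t
  refine small_aux r c _ _ hl fun e he => ?_
  rw [getD_flat _ he]
  have h1 : ∀ i, r i ≤ 2 ^ (marginsCode r c ++ t).length := fun i => by
    refine (lt_two_pow_length_natCode _).le.trans (Nat.pow_le_pow_right (by omega) ?_)
    have := PTLX.le_length_code (c := natCode) (List.ofFn r ++ List.ofFn c) (x := r i) (by simp)
    rw [margins_append]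
    simp only [PTLX.code, List.length_append] at this ⊢
    omega
  generalize (marginsCode r c ++ t).length = L at hl h1
  have h2 : ∑ i, r i ≤ m * 2 ^ L := by
    simpa using Finset.sum_le_sum (s := univ) fun i _ => h1 i
  have h3 : m < 2 ^ L := lt_of_le_of_lt (by omega) Nat.lt_two_pow_self
  have h4 : 2 ^ (2 * L + 1) = 2 * (2 ^ L * 2 ^ L) := by ring
  have h5 : 0 < 2 ^ L := by positivity
  rw [h4]
  nlinarith

theorem dv_row (r' c' : List ℕ) (p : ℕ → ℤ) (i : Fin m) :
    (tabNet m n r' c').dv p i = ∑ j : Fin n, p (i * n + j) := by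
  rw [Net.dv, tabNet_E, sum_range_cell, Finset.sum_eq_single i]
  · refine Finset.sum_congr rfl fun j _ => ?_
    rw [tabNet_s _ _ _ _ (cell_lt i j), tabNet_d _ _ _ _ (cell_lt i j), cell_div, if_pos rfl,
      if_neg (by have := i.2; omega), sub_zero]
  · intro k _ hk
    refine Finset.sum_eq_zero fun j _ => ?_
    rw [tabNet_s _ _ _ _ (cell_lt k j), tabNet_d _ _ _ _ (cell_lt k j), cell_div,
      if_neg (fun h => hk (Fin.ext h)), if_neg (by have := i.2; omega), sub_zero]
  · simp

theorem dv_col (r' c' : List ℕ) (p : ℕ → ℤ) (j : Fin n) :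
    (tabNet m n r' c').dv p (m + j) = -∑ i : Fin m, p (i * n + j) := by
  rw [Net.dv, tabNet_E, sum_range_cell, ← Finset.sum_neg_distrib]
  refine Finset.sum_congr rfl fun i _ => ?_
  rw [Finset.sum_eq_single j]
  · rw [tabNet_s _ _ _ _ (cell_lt i j), tabNet_d _ _ _ _ (cell_lt i j), cell_div, cell_mod,
      if_neg (by have := i.2; omega), if_pos rfl, zero_sub]
  · intro k _ hk
    rw [tabNet_s _ _ _ _ (cell_lt i k), tabNet_d _ _ _ _ (cell_lt i k), cell_div, cell_mod,
      if_neg (by have := i.2; omega), if_neg (fun h => hk (Fin.ext (by omega))), sub_zero]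
  · simp

theorem cons_tab (p : List ℕ) :
    (tabNet m n (List.ofFn r) (List.ofFn c)).Cons (fun e => (p.getD e 0 : ℤ)) ↔
      IsTable r c fun i j => p.getD (i * n + j) 0 := by
  rw [Net.Cons, tabNet_V]
  constructor
  · intro h
    refine ⟨fun i => ?_, fun j => ?_⟩
    · have := h i (by have := i.2; omega)
      rw [dv_row, tabNet_b_lt _ _ _ _ i.2, getD_ofFn'] at this
      exact_mod_cast this
    · have := h (m + j) (by have := j.2; omega)
      rw [dv_col, tabNet_b_ge _ _ _ _ j.2, getD_ofFn', neg_inj] at this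
      exact_mod_cast this
  · rintro ⟨h1, h2⟩ w hw
    by_cases hm : w < m
    · have := dv_row (n := n) (List.ofFn r) (List.ofFn c) (fun e => (p.getD e 0 : ℤ)) ⟨w, hm⟩
      rw [this, tabNet_b_lt _ _ _ _ hm]
      have h3 := getD_ofFn' r ⟨w, hm⟩
      simp only at h3
      rw [h3, ← h1 ⟨w, hm⟩]
      push_cast
      rfl
    · obtain ⟨j, rfl⟩ : ∃ j, w = m + j := ⟨w - m, by omega⟩
      have hj : j < n := by omega
      have := dv_col (m := m) (List.ofFn r) (List.ofFn c) (fun e => (p.getD e 0 : ℤ)) ⟨j, hj⟩
      rw [this, tabNet_b_ge _ _ _ _ hj]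
      have h3 := getD_ofFn' c ⟨j, hj⟩
      simp only at h3
      rw [h3, ← h2 ⟨j, hj⟩]
      push_cast
      rfl

/-- flows are the bounded tables -/
theorem mem_flows_tab (b : Fin m → Fin n → ℕ) (p : List ℕ) :
    p ∈ (tabNet m n (List.ofFn r) (List.ofFn c)).flows [] (flat b) ↔
      ∃ X : Fin m → Fin n → ℕ, IsTable r c X ∧ (∀ i j, X i j ≤ b i j) ∧ p = flat X := by
  rw [Net.mem_flows, mem_bx, cons_tab, tabNet_E]
  constructor
  · rintro ⟨⟨h1, h2⟩, h3⟩
    refine ⟨_, h3, fun i j => ?_, ?_⟩
    · rw [← getD_flat_cell b]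
      exact (h2 _ (cell_lt i j)).2
    · refine List.ext_getElem (by rw [length_flat, h1]) fun e he he' => ?_
      have he2 : e < m * n := h1 ▸ he
      rw [← List.getD_eq_getElem _ 0 he, ← List.getD_eq_getElem _ 0 he', getD_flat _ he2]
      simp only
      rw [mul_comm, Nat.div_add_mod]
  · rintro ⟨X, h1, h2, rfl⟩
    refine ⟨⟨length_flat X, fun e he => ⟨by simp, ?_⟩⟩, ?_⟩
    · rw [getD_flat _ he, getD_flat _ he]
      exact h2 _ _
    · simpa only [getD_flat_cell] using h1

theorem card_flows_tab (b : Fin m → Fin n → ℕ) :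
    ((tabNet m n (List.ofFn r) (List.ofFn c)).flows [] (flat b)).card = numBoundedTables r c b := by
  rw [numBoundedTables, Fintype.card_subtype]
  symm
  refine Finset.card_bij (fun X _ => flat fun i j => (X i j : ℕ)) (fun X hX => ?_)
    (fun X _ Y _ h => ?_) (fun p hp => ?_)
  · rw [mem_flows_tab]
    exact ⟨_, (mem_filter.1 hX).2, fun i j => Nat.lt_succ_iff.1 (X i j).2, rfl⟩
  · have := flat_inj h
    funext i j
    exact Fin.ext (congrFun (congrFun this i) j)
  · obtain ⟨X, h1, h2, rfl⟩ := (mem_flows_tab r c b p).1 hp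
    exact ⟨fun i j => ⟨X i j, Nat.lt_succ_iff.2 (h2 i j)⟩, mem_filter.2 ⟨mem_univ _, h1⟩, rfl⟩

theorem table_le_tot {X : Fin m → Fin n → ℕ} (h : IsTable r c X) (i : Fin m) (j : Fin n) :
    X i j ≤ ∑ i, r i := by
  refine le_trans ?_ (Finset.single_le_sum (f := r) (fun _ _ => Nat.zero_le _) (mem_univ i))
  rw [← h.1 i]
  exact Finset.single_le_sum (f := X i) (fun _ _ => Nat.zero_le _) (mem_univ j)

theorem exists_table (h : ∑ i, r i = ∑ j, c j) : ∃ X : Fin m → Fin n → ℕ, IsTable r c X := by
  generalize hT : ∑ j, c j = T at h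
  induction T generalizing r c with
  | zero =>
    refine ⟨fun _ _ => 0, fun i => ?_, fun j => ?_⟩
    · simp [(Finset.sum_eq_zero_iff.1 h) i (mem_univ _)]
    · simp [(Finset.sum_eq_zero_iff.1 hT) j (mem_univ _)]
  | succ T ih =>
    obtain ⟨i, -, hi⟩ := Finset.exists_ne_zero_of_sum_ne_zero (s := univ) (f := r) (by omega)
    obtain ⟨j, -, hj⟩ := Finset.exists_ne_zero_of_sum_ne_zero (s := univ) (f := c) (by omega)
    have key : ∀ {k : ℕ} (f : Fin k → ℕ) (a : Fin k), f a ≠ 0 → ∑ x, f x = T + 1 →
        ∑ x, (f x - if x = a then 1 else 0) = T := by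
      intro k f a ha hs
      have : ∑ x, ((f x - if x = a then 1 else 0) + if x = a then 1 else 0) = T + 1 := by
        rw [← hs]
        refine Finset.sum_congr rfl fun x _ => ?_
        split_ifs with hx
        · subst hx; omega
        · simp
      rw [Finset.sum_add_distrib] at this
      simp only [Finset.sum_ite_eq', mem_univ, if_true] at this
      omega
    obtain ⟨X, h1, h2⟩ := ih (fun x => r x - if x = i then 1 else 0)
      (fun y => c y - if y = j then 1 else 0) (key c j hj hT) (key r i hi h)
    refine ⟨fun x y => X x y + if x = i ∧ y = j then 1 else 0, fun x => ?_, fun y => ?_⟩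
    · rw [Finset.sum_add_distrib, h1 x]
      by_cases hx : x = i
      · subst hx
        simp only [true_and, Finset.sum_ite_eq', mem_univ, if_true]
        omega
      · simp [hx]
    · rw [Finset.sum_add_distrib, h2 y]
      by_cases hy : y = j
      · subst hy
        simp only [and_true, Finset.sum_ite_eq', mem_univ, if_true]
        omega
      · simp [hy]

end

end Crest.Agent.R309
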