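import Crest.Agent.R309.Tab

/-! Row 309: small lemmas for the final statements. -/

set_option autoImplicit false

namespace Crest.Agent.R309

open Crest.Agent.PT Crest.Enc Finset

theorem Pr_take {L L' : ℕ} (h : L ≤ L') (A : Word → Prop) :
    Pr L' (fun ω => A (ω.take L)) = Pr L A := by
  classical
  unfold Pr
  exact Ex_take h fun ω => @ite ℝ (A ω) (Classical.propDecidable _) 1 0

theorem exists_poly_rdP {L : ℕ → ℕ} (hL : PU fun u : Un => L u.val) :
    ∃ r : Polynomial ℕ, ∀ x : Word, L (rdP x) ≤ r.eval x.length := by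
  have h : PU fun u : Un => L ((u.val + 2) ^ 2) := by
    have h2 : PU fun u : Un => (u.val + 2) ^ 2 :=
      ((PU.val PTime.id).add (PU.const 2)).pow_const 2
    exact PU.comp (n := fun u : Un => L u.val) hL (PTime.unMk h2)
  obtain ⟨q, hq⟩ := exists_poly_of_PU (n := fun k => L ((k + 2) ^ 2)) h
  exact ⟨q, fun x => hq x.length⟩

theorem length_le_rdP (x : Word) : x.length + 1 ≤ rdP x := by
  unfold rdP; nlinarith

end Crest.Agent.R309
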