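import Crest.Agent.R309.Top
import Crest.Agent.R309.Samp
import Crest.Agent.R309.Pair

/-! Row 309: the almost uniform sampler of tables. -/

set_option autoImplicit false

namespace Crest.Agent.R309

open Crest.Agent.PT Crest.Enc Crest.Tables Crest.FinProb Finset

theorem flows_tot_nonempty {m n : ℕ} (rs : Fin m → ℕ) (cs : Fin n → ℕ) (h : ∑ i, rs i = ∑ j, cs j) :
    ((tabNet m n (List.ofFn rs) (List.ofFn cs)).flows []
      (flat fun (_ : Fin m) (_ : Fin n) => ∑ i, rs i)).Nonempty := by
  obtain ⟨X, hX⟩ := exists_table rs cs h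
  exact ⟨flat X, (mem_flows_tab rs cs _ _).2 ⟨X, hX, table_le_tot rs cs hX, rfl⟩⟩

theorem codeN_inj {p q : List ℕ} (hl : p.length = q.length)
    (h : (p.map natCode).flatten = (q.map natCode).flatten) : p = q := by
  have h1 := readN_code p []
  have h2 := readN_code q []
  rw [h, hl] at h1
  exact h1.symm.trans h2

theorem sampler_tables :
    ∃ (A : List Bool × List Bool → List Bool) (r : Polynomial ℕ), Crest.Randomized.RandPolyTime A ∧
      ∀ (m n : ℕ) (rs : Fin m → ℕ) (cs : Fin n → ℕ) (k : ℕ), 1 ≤ k → ∑ i, rs i = ∑ j, cs j →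
        (∀ ω : Fin (r.eval (marginsCode rs cs ++ List.replicate k true).length) → Bool,
          ∃ X : Fin m → Fin n → ℕ, IsTable rs cs X ∧
            A (marginsCode rs cs ++ List.replicate k true, List.ofFn ω) = matrixCode X) ∧
        (∑ X : (i : Fin m) → (j : Fin n) → Fin (∑ i, rs i + 1),
            |uniformProb {ω : Fin (r.eval (marginsCode rs cs ++ List.replicate k true).length) → Bool |
                A (marginsCode rs cs ++ List.replicate k true, List.ofFn ω) =
                  matrixCode (fun i j => (X i j : ℕ))} -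
              uniformTableWeight rs cs (fun i j => (X i j : ℕ))|) / 2
          ≤ (2 : ℝ)⁻¹ ^ k := by
  classical
  obtain ⟨S, hS, hspec⟩ := exists_sampler
  have hLS : PU fun u : Un => LS u.val u.val := pu_LS (PU.val PTime.id) (PU.val PTime.id)
  obtain ⟨r, hr⟩ := exists_poly_rdP (L := fun P => LS P P) hLS
  let B : List Bool × List Bool → List ℕ := fun p =>
    S (rdNet p.1, [], rdTot p.1, ⟨rdP p.1⟩, ⟨rdP p.1⟩, p.2.take (LS (rdP p.1) (rdP p.1)))
  have hB : PTime B := by
    have hP : PU fun p : Word × Word => rdP p.1 := PU.comp pu_rdP PTime.fst'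
    exact hS.comp ((ptime_rdNet.comp PTime.fst').pair ((PTime.const _).pair
      ((ptime_rdTot.comp PTime.fst').pair ((PTime.unMk hP).pair ((PTime.unMk hP).pair
        (PTime.take (pu_LS hP hP).ptime PTime.snd'))))))
  refine ⟨fun p => natCode (rdM p.1) ++ natCode (rdN p.1) ++ ((B p).map natCode).flatten, r,
    randPolyTime_of_ptime (((PU.comp pu_rdM PTime.fst').ptime.natCode.append
      (PU.comp pu_rdN PTime.fst').ptime.natCode).append (ptime_codeN hB)), ?_⟩
  intro m n rs cs k hk htot
  generalize hx : marginsCode rs cs ++ List.replicate k true = x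
  have e1 : rdNet x = tabNet m n (List.ofFn rs) (List.ofFn cs) := by
    rw [← hx]; exact rdNet_code _ _ _
  have e2 : rdTot x = flat fun (_ : Fin m) (_ : Fin n) => ∑ i, rs i := by
    rw [← hx]; exact rdTot_code _ _ _
  have e3 : (tabNet m n (List.ofFn rs) (List.ofFn cs)).Small
      (flat fun (_ : Fin m) (_ : Fin n) => ∑ i, rs i) (rdP x) := by
    rw [← hx]; exact small_Tot _ _ _
  have e4 : rdM x = m := by rw [← hx]; exact rdM_code _ _ _
  have e5 : rdN x = n := by rw [← hx]; exact rdN_code _ _ _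
  obtain ⟨h0, h1⟩ := hspec _ [] _ (rdP x) (rdP x) (tabNet_WF m n _ _) e3
    (flows_tot_nonempty rs cs htot)
  have hout : ∀ ω : Word, ∃ X : Fin m → Fin n → ℕ, IsTable rs cs X ∧ B (x, ω) = flat X := by
    intro ω
    obtain ⟨X, hX, -, e⟩ := (mem_flows_tab rs cs _ _).1 (h0 (ω.take (LS (rdP x) (rdP x))))
    exact ⟨X, hX, by simp only [B, e1, e2]; exact e⟩
  refine ⟨fun ω => ?_, ?_⟩
  · obtain ⟨X, hX, e⟩ := hout (List.ofFn ω)
    exact ⟨X, hX, by simp only [e, e4, e5, matrixCode_eq]⟩
  set Fl := (tabNet m n (List.ofFn rs) (List.ofFn cs)).flows []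
    (flat fun (_ : Fin m) (_ : Fin n) => ∑ i, rs i) with hFl
  let g : List ℕ → ℝ := fun p => |Pr (LS (rdP x) (rdP x)) (fun ω =>
    S (tabNet m n (List.ofFn rs) (List.ofFn cs), [], flat fun (_ : Fin m) (_ : Fin n) => ∑ i, rs i,
      ⟨rdP x⟩, ⟨rdP x⟩, ω) = p) - 1 / (Fl.card : ℝ)|
  have key : ∀ X : Fin m → Fin n → ℕ,
      |uniformProb {ω : Fin (r.eval x.length) → Bool |
        natCode (rdM x) ++ natCode (rdN x) ++ ((B (x, List.ofFn ω)).map natCode).flatten =
          matrixCode X} - uniformTableWeight rs cs X| =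
        if IsTable rs cs X then g (flat X) else 0 := by
    intro X
    rw [uniformProb_eq (r.eval x.length) fun ω =>
      natCode (rdM x) ++ natCode (rdN x) ++ ((B (x, ω)).map natCode).flatten = matrixCode X]
    have hiff : ∀ ω : Word, (natCode (rdM x) ++ natCode (rdN x) ++
        ((B (x, ω)).map natCode).flatten = matrixCode X) ↔ B (x, ω) = flat X := by
      intro ω
      obtain ⟨Y, -, e⟩ := hout ω
      rw [e, e4, e5, ← matrixCode_eq]
      exact ⟨fun h => by rw [matrixCode_inj h], fun h => by rw [flat_inj h]⟩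
    rw [Pr_congr fun ω _ => hiff ω]
    unfold uniformTableWeight
    split_ifs with hX
    · simp only [g, B, e1, e2]
      rw [Pr_take (hr x) fun ω => S (tabNet m n (List.ofFn rs) (List.ofFn cs), [],
        flat fun (_ : Fin m) (_ : Fin n) => ∑ i, rs i, ⟨rdP x⟩, ⟨rdP x⟩, ω) = flat X, hFl,
        card_flows_tab]
    · have : Pr (r.eval x.length) (fun ω => B (x, ω) = flat X) = Pr (r.eval x.length) fun _ => False := by
        refine Pr_congr fun ω _ => ⟨fun h => hX ?_, False.elim⟩
        obtain ⟨Y, hY, e⟩ := hout ω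
        rwa [← flat_inj (e.symm.trans h)]
      rw [this]
      simp [Pr]
  simp only [key]
  rw [← Finset.sum_filter]
  have hinj : Set.InjOn (fun X : (i : Fin m) → (j : Fin n) → Fin (∑ i, rs i + 1) =>
      flat fun i j => (X i j : ℕ)) (univ.filter fun X : (i : Fin m) → (j : Fin n) →
        Fin (∑ i, rs i + 1) => IsTable rs cs fun i j => (X i j : ℕ)) := by
    intro X _ Y _ h
    have := flat_inj h
    funext i j
    exact Fin.ext (congrFun (congrFun this i) j)
  rw [← Finset.sum_image (f := g) hinj]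
  have hle : ∑ p ∈ (univ.filter fun X : (i : Fin m) → (j : Fin n) →
        Fin (∑ i, rs i + 1) => IsTable rs cs fun i j => (X i j : ℕ)).image
      (fun X => flat fun i j => (X i j : ℕ)), g p ≤ ∑ p ∈ Fl, g p := by
    refine Finset.sum_le_sum_of_subset_of_nonneg (fun p hp => ?_) fun _ _ _ => abs_nonneg _
    obtain ⟨X, hX, rfl⟩ := Finset.mem_image.1 hp
    have hX' := (Finset.mem_filter.1 hX).2
    exact (mem_flows_tab rs cs _ _).2 ⟨_, hX', table_le_tot rs cs hX', rfl⟩
  have hP : k + 1 ≤ rdP x := by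
    have := length_le_rdP x
    have h2 : k ≤ x.length := by rw [← hx]; simp
    omega
  have h2 : (2 : ℝ)⁻¹ ^ rdP x ≤ (2 : ℝ)⁻¹ ^ (k + 1) :=
    pow_le_pow_of_le_one (by norm_num) (by norm_num) hP
  rw [pow_succ] at h2
  have := hle.trans h1
  linarith

end Crest.Agent.R309
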