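import Crest.Agent.R309.Top2
import Crest.Agent.R309.ExactTop
import Crest.Agent.R309.RamD

/-! Row 309: the exact sampler of tables on the word RAM. -/

set_option autoImplicit false

namespace Crest.Agent.R309

open Crest.Agent.PT Crest.Enc Crest.Tables Finset

theorem input_lt {m n : ℕ} (rs : Fin m → ℕ) (cs : Fin n → ℕ) (h : ∑ i, rs i = ∑ j, cs j) :
    ∑ i, rs i < 2 ^ (m + n + Nat.clog 2 (∑ i, rs i + 2) + 1) ∧
    sz (m :: n :: (List.ofFn rs ++ List.ofFn cs)) + 1 ≤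
      9 * (m + n + Nat.clog 2 (∑ i, rs i + 2) + 1) ^ 2 := by
  set S := m + n + Nat.clog 2 (∑ i, rs i + 2) + 1 with hS
  have h1 : ∑ i, rs i < 2 ^ S := by
    have := Nat.le_pow_clog (b := 2) (by norm_num) (∑ i, rs i + 2)
    have h2 : 2 ^ Nat.clog 2 (∑ i, rs i + 2) ≤ 2 ^ S := Nat.pow_le_pow_right (by norm_num) (by omega)
    omega
  refine ⟨h1, ?_⟩
  have h2 : ∀ v ∈ m :: n :: (List.ofFn rs ++ List.ofFn cs), v < 2 ^ S := by
    intro v hv
    have hS2 : S < 2 ^ S := Nat.lt_two_pow_self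
    simp only [List.mem_cons, List.mem_append, List.mem_ofFn] at hv
    rcases hv with rfl | rfl | ⟨i, rfl⟩ | ⟨j, rfl⟩
    · omega
    · omega
    · exact (Finset.single_le_sum (f := rs) (fun _ _ => Nat.zero_le _) (mem_univ i)).trans_lt h1
    · exact (Finset.single_le_sum (f := cs) (fun _ _ => Nat.zero_le _) (mem_univ j)).trans_lt
        (h ▸ h1)
  have h3 := szN_le h2
  simp only [List.length_cons, List.length_append, List.length_ofFn] at h3
  have h4 : m + n + 1 + 1 ≤ S + 1 := by omega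
  have h5 : 1 ≤ S := by omega
  have h6 := Nat.mul_le_mul_right (2 * S + 2) h4
  nlinarith

theorem exact_tables :
    ∃ (P : Crest.WordRAM.Program) (c₀ c₁ C d : ℕ),
      ∀ (m n : ℕ) (rs : Fin m → ℕ) (cs : Fin n → ℕ), ∑ i, rs i = ∑ j, cs j →
        Crest.WordRAM.expectedTime P (c₀ * (m + n + Nat.clog 2 (∑ i, rs i + 2) + 1) ^ c₁)
            (m :: n :: (List.ofFn rs ++ List.ofFn cs))
          ≤ ((C * (m + n + Nat.clog 2 (∑ i, rs i + 2) + 1) ^ d : ℕ) : ENNReal) ∧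
        (∀ (ρ : ℕ → ℕ) (T : ℕ) (out : List ℕ),
          Crest.WordRAM.HaltsWithin P (c₀ * (m + n + Nat.clog 2 (∑ i, rs i + 2) + 1) ^ c₁) ρ
            (m :: n :: (List.ofFn rs ++ List.ofFn cs)) T out →
          ∃ X : Fin m → Fin n → ℕ, IsTable rs cs X ∧ out = (List.ofFn fun i => List.ofFn (X i)).flatten) ∧
        ∀ X : Fin m → Fin n → ℕ, IsTable rs cs X →
          Crest.WordRAM.probHaltsWith P (c₀ * (m + n + Nat.clog 2 (∑ i, rs i + 2) + 1) ^ c₁)
              (m :: n :: (List.ofFn rs ++ List.ofFn cs))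
              (fun out => out = (List.ofFn fun i => List.ofFn (X i)).flatten)
            = 1 / (numBoundedTables rs cs (fun _ _ => ∑ i, rs i) : ℝ) := by
  obtain ⟨F, hF, hspec⟩ := exists_exact
  let F' : Word × Word × Word → List ℕ := fun q =>
    F ((rdNet (dec2b q.1), rdTot (dec2b q.1), ⟨rdP (dec2b q.1)⟩, ⟨(dec2a q.1).length⟩), q.2)
  have hF' : PTime F' := by
    have hv : PTime fun q : Word × Word × Word => dec2b q.1 := PTime.dec2b PTime.fst'
    exact hF.comp (((ptime_rdNet.comp hv).pair ((ptime_rdTot.comp hv).pair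
      ((PTime.unMk (PU.comp pu_rdP hv)).pair
        (PTime.unMk (PU.length (PTime.dec2a PTime.fst')))))).pair PTime.snd')
  obtain ⟨c, hc⟩ := ram_lasvegas F' hF'
  let Pf : List ℕ → ℕ := fun x => rdP (codeN x)
  let Gf : List ℕ → ℕ := fun x => c * pB2 (Pf x) + 1
  have hcode : PTime codeN := ptime_codeN PTime.id
  have hPf : PU Pf := PU.comp pu_rdP hcode
  have hGf : PU Gf := ((PU.const c).mul (pu_pB2 hPf)).add (PU.const 1)
  obtain ⟨Pg, c₂, hPg⟩ := hc (fun x => enc2 (List.replicate (Gf x) true) (codeN x))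
    (fun x => LX (Pf x) (Gf x)) (fun x => pB2 (Pf x)) (fun p => br (Gf p.1) p.2)
    (PTime.enc2 (PU.word_iff.1 hGf) hcode) (pu_LX hPf hGf) (pu_pB2 hPf)
    (ptime_br (PU.comp hGf PTime.fst') PTime.snd')
  refine ⟨Pg, c₂ * 9 ^ c₂ + 1, 2 * c₂ + 1, 200 * (c₂ * 9 ^ c₂ + 1), 2 * c₂ + 1, ?_⟩
  intro m n rs cs htot
  obtain ⟨hN, hsz⟩ := input_lt rs cs htot
  generalize hS : m + n + Nat.clog 2 (∑ i, rs i + 2) + 1 = S at hN hsz ⊢
  have hS1 : 1 ≤ S := by omega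
  generalize hx : m :: n :: (List.ofFn rs ++ List.ofFn cs) = x at hsz ⊢
  have hxc : codeN x = marginsCode rs cs ++ [] := by
    rw [← hx, marginsCode_eq, List.append_nil]; rfl
  have e1 : rdNet (codeN x) = tabNet m n (List.ofFn rs) (List.ofFn cs) := by
    rw [hxc]; exact rdNet_code _ _ _
  have e2 : rdTot (codeN x) = flat fun (_ : Fin m) (_ : Fin n) => ∑ i, rs i := by
    rw [hxc]; exact rdTot_code _ _ _
  have e3 : (tabNet m n (List.ofFn rs) (List.ofFn cs)).Small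
      (flat fun (_ : Fin m) (_ : Fin n) => ∑ i, rs i) (Pf x) := by
    simp only [Pf]; rw [hxc]; exact small_Tot _ _ _
  generalize hw : (c₂ * 9 ^ c₂ + 1) * S ^ (2 * c₂ + 1) = w
  have hw1 : c₂ * (sz x + 1) ^ c₂ ≤ w := by
    rw [← hw]
    calc c₂ * (sz x + 1) ^ c₂ ≤ c₂ * (9 * S ^ 2) ^ c₂ := by gcongr
      _ = c₂ * 9 ^ c₂ * S ^ (2 * c₂) := by rw [mul_pow, ← pow_mul, mul_assoc]
      _ ≤ (c₂ * 9 ^ c₂ + 1) * S ^ (2 * c₂ + 1) :=
        Nat.mul_le_mul (Nat.le_succ _) (Nat.pow_le_pow_right hS1 (Nat.le_succ _))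
  have hw2 : S ≤ w := by
    rw [← hw]
    calc S = 1 * S ^ 1 := by ring
      _ ≤ (c₂ * 9 ^ c₂ + 1) * S ^ (2 * c₂ + 1) :=
        Nat.mul_le_mul (by omega) (Nat.pow_le_pow_right hS1 (by omega))
  let tr : Word → List ℕ := trialF F' (enc2 (List.replicate (Gf x) true) (codeN x)) (pB2 (Pf x))
    fun ω => br (Gf x) ω
  obtain ⟨h1, h2, h3⟩ := hspec _ _ (Pf x) (Gf x) tr (tabNet_WF m n _ _) e3
    (flows_tot_nonempty rs cs htot) (by simp only [Gf]; omega) (fun ω => by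
      simp only [tr, trialF, F', dec2a_enc2, dec2b_enc2, List.length_replicate, e1, e2, Pf])
  have hout : ∀ ω, tr ω ≠ [] → ∃ X : Fin m → Fin n → ℕ, IsTable rs cs X ∧ tr ω = 1 :: flat X := by
    intro ω hω
    obtain ⟨p, hp, e⟩ := (h1 ω).resolve_left hω
    obtain ⟨X, hX, -, rfl⟩ := (mem_flows_tab rs cs _ _).1 hp
    exact ⟨X, hX, e⟩
  have h2w : 2 ^ S ≤ 2 ^ w := Nat.pow_le_pow_right (by norm_num) hw2
  obtain ⟨g1, g2, g3⟩ := hPg x w tr rfl hw1 (fun ω _ v hv => by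
    obtain ⟨X, hX, e⟩ := hout ω (List.ne_nil_of_mem hv)
    rw [e] at hv
    rcases List.mem_cons.1 hv with rfl | hv
    · exact (Nat.one_lt_two_pow (by omega)).trans_le h2w
    · simp only [flat, List.mem_flatten, List.mem_ofFn] at hv
      obtain ⟨l, ⟨i, rfl⟩, hv⟩ := hv
      obtain ⟨j, rfl⟩ := List.mem_ofFn.1 hv
      exact ((table_le_tot rs cs hX i j).trans_lt hN).trans_le h2w) (by linarith)
  refine ⟨g1.trans ?_, fun ρ T out h => ?_, fun X hX => ?_⟩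
  · rw [← ENNReal.ofReal_natCast]
    refine ENNReal.ofReal_le_ofReal ?_
    rw [Pr_br, div_le_iff₀ (by linarith)]
    have a1 : (2 : ℝ)⁻¹ ^ Gf x * 2 ^ (c * pB2 (Pf x)) ≤ 1 := by
      simp only [Gf]
      rw [pow_succ, mul_right_comm, ← mul_pow]
      norm_num
    have a2 : (c₂ : ℝ) * (sz x + 1) ^ c₂ ≤ w := by exact_mod_cast hw1
    have a3 : ((200 * (c₂ * 9 ^ c₂ + 1) * S ^ (2 * c₂ + 1) : ℕ) : ℝ) = 200 * w := by
      rw [← hw]; push_cast; ring
    rw [a3]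
    have a4 : (0 : ℝ) ≤ w := Nat.cast_nonneg _
    have a5 : (0 : ℝ) ≤ (c₂ : ℝ) * (sz x + 1) ^ c₂ := by positivity
    nlinarith
  · obtain ⟨ω, -, hω, e⟩ := g2 ρ T out h
    obtain ⟨X, hX, e'⟩ := hout ω hω
    exact ⟨X, hX, by rw [← e, e']; rfl⟩
  · rw [g3, ← card_flows_tab]
    exact h3 _ ((mem_flows_tab rs cs _ _).2 ⟨X, hX, table_le_tot rs cs hX, rfl⟩)

end Crest.Agent.R309
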