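import Crest.Agent.R309.Chain
import Crest.Agent.R309.Acc1
import Crest.Agent.R309.Acc2

/-! Row 309: the law of one trial. -/

set_option autoImplicit false

namespace Crest.Agent.R309

open Crest.Agent.PT Crest.Enc Finset

namespace Dat

variable {D : Dat}

theorem trial_cases (D : Dat) (k : List ℤ) (G : ℕ) (ω : Word) :
    D.trial k G ω = [] ∨ ∃ p ∈ D.Fl, D.trial k G ω = 1 :: p := by
  unfold trial fin
  split_ifs with h
  · exact Or.inr ⟨_, h, rfl⟩
  · exact Or.inl rfl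

theorem tt_pos_tr (D : Dat) : 0 < D.tt := by
  unfold tt
  refine prod_pos fun e _ => ?_
  split_ifs
  · exact Nat.one_pos
  · exact D.t_pos e

theorem fin_eq_iff_tr {a p : List ℕ} (hp : p ∈ D.Fl) (r : Word) :
    D.fin a r = 1 :: p ↔ D.cand a r = p := by
  unfold fin
  constructor
  · intro h
    split_ifs at h
    exact (List.cons.inj h).2
  · intro h
    rw [h, if_pos hp]

theorem OK.cand_eq_iff_tr (h : D.OK) {a p : List ℕ} (hp : p ∈ D.Fl) (r : Word) :
    D.cand a r = p ↔ ∀ e < D.N.E, D.T e = false → D.val a r e = p.getD e 0 := by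
  obtain ⟨hl, -, hc⟩ := mem_Fl.1 hp
  constructor
  · intro hx e he hT
    rw [← hx]
    unfold cand
    rw [Acc1.getD_map_range _ _ _ he, if_neg (by simp [hT])]
  · intro hx
    refine Acc1.list_ext (by simp [cand]) hl fun e he => ?_
    unfold cand
    rw [Acc1.getD_map_range _ _ _ he]
    by_cases hT : D.T e = true
    · rw [if_pos hT]
      have h1 : ∀ e < D.N.E, D.T e = false → (D.val a r e : ℤ) = (p.getD e 0 : ℤ) :=
        fun e he hT => by rw [hx e he hT]
      rw [Acc1.cut_congr D h1 h1, h.cut_cons hc he hT]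
      rfl
    · rw [if_neg hT]
      exact hx e he (by simpa using hT)

theorem val_eq_iff_tr (a : List ℕ) (r : Word) (e n : ℕ) :
    D.val a r e = n ↔ a.getD e 0 = n / D.t e ∧ ofB ((blk D.P e r).take (D.τ e)) = n % D.t e := by
  have h1 : ofB ((blk D.P e r).take (D.τ e)) < D.t e :=
    (ofB_lt _).trans_le (Nat.pow_le_pow_right (by norm_num) (List.length_take_le _ _))
  have h2 := D.t_pos e
  unfold val
  constructor
  · rintro rfl
    rw [Nat.mul_add_div h2, Nat.div_eq_of_lt h1, Nat.mul_add_mod, Nat.mod_eq_of_lt h1]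
    exact ⟨rfl, rfl⟩
  · rintro ⟨h3, h4⟩
    rw [h3, h4, Nat.div_add_mod]

theorem eq_rnd_iff_tr {a : List ℕ} (ha : a ∈ D.Ω) (p : List ℕ) :
    a = D.rnd p ↔ ∀ e < D.N.E, D.T e = false → a.getD e 0 = p.getD e 0 / D.t e := by
  obtain ⟨hl, hρ⟩ := mem_Ω.1 ha
  constructor
  · intro hx e he hT
    rw [hx]
    unfold rnd
    rw [Acc1.getD_map_range _ _ _ he, if_neg (by simp [hT])]
  · intro hx
    refine Acc1.list_ext hl (by simp [rnd]) fun e he => ?_
    unfold rnd
    rw [Acc1.getD_map_range _ _ _ he]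
    by_cases hT : D.T e = true
    · rw [if_pos hT]
      have h1 := hρ e he
      have h2 : D.ρ e = 0 := if_pos hT
      omega
    · rw [if_neg hT]
      exact hx e he (by simpa using hT)

theorem OK.pr_offsets_tr (h : D.OK) (p : List ℕ) :
    Pr (D.P * D.P) (fun r => ∀ e < D.N.E, D.T e = false →
      ofB ((blk D.P e r).take (D.τ e)) = p.getD e 0 % D.t e) = 1 / (D.tt : ℝ) := by
  classical
  set F : ℕ → Word → ℝ := fun e r => if e < D.N.E ∧ D.T e = false then
    (if ofB (r.take (D.τ e)) = p.getD e 0 % D.t e then 1 else 0) else 1 with hF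
  have h1 : Pr (D.P * D.P) (fun r => ∀ e < D.N.E, D.T e = false →
      ofB ((blk D.P e r).take (D.τ e)) = p.getD e 0 % D.t e) =
      Ex (D.P * D.P) (fun ω => ∏ i ∈ range D.P, F i (blk D.P i ω)) := by
    unfold Pr
    refine Ex_congr fun ω _ => ?_
    split_ifs with hA
    · refine (prod_eq_one fun i _ => ?_).symm
      simp only [hF]
      split_ifs with h1 h2
      · rfl
      · exact absurd (hA i h1.1 h1.2) h2
      · rfl
    · push Not at hA
      obtain ⟨e, he, hT, hne⟩ := hA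
      refine (prod_eq_zero (mem_range.2 (he.trans_le h.E_le)) ?_).symm
      simp only [hF]
      rw [if_pos ⟨he, hT⟩, if_neg hne]
  rw [h1, Ex_prod_blk]
  have h2 : ∀ e, Ex D.P (F e) = if e < D.N.E ∧ D.T e = false then 1 / (D.t e : ℝ) else 1 := by
    intro e
    by_cases hc : e < D.N.E ∧ D.T e = false
    · rw [if_pos hc]
      have h3 : Ex D.P (F e) = Ex D.P fun r => (fun w : Word =>
          if ofB w = p.getD e 0 % D.t e then (1 : ℝ) else 0) (r.take (D.τ e)) :=
        Ex_congr fun r _ => by simp only [hF]; rw [if_pos hc]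
      rw [h3, Ex_take (h.tau_le hc.1) (fun w : Word =>
          if ofB w = p.getD e 0 % D.t e then (1 : ℝ) else 0)]
      have h4 := Pr_ofB_eq (L := D.τ e) (k := p.getD e 0 % D.t e) (Nat.mod_lt _ (D.t_pos e))
      have h5 : ((D.t e : ℕ) : ℝ) = 2 ^ D.τ e := by unfold t; push_cast; rfl
      rw [h5, ← h4]
      unfold Pr
      refine Ex_congr fun r _ => ?_
      congr
    · rw [if_neg hc]
      have h3 : Ex D.P (F e) = Ex D.P fun _ => (1 : ℝ) :=
        Ex_congr fun r _ => by simp only [hF]; rw [if_neg hc]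
      rw [h3, Ex_const]
  simp only [h2]
  rw [← prod_subset (range_subset_range.2 h.E_le) (fun e _ he => if_neg fun hc =>
    he (mem_range.2 hc.1))]
  unfold tt
  push_cast
  rw [one_div, ← prod_inv_distrib]
  refine prod_congr rfl fun e he => ?_
  have he := mem_range.1 he
  by_cases hT : D.T e = true
  · rw [if_pos hT, if_neg (by simp [hT]), inv_one]
  · rw [if_neg hT, if_pos ⟨he, by simpa using hT⟩, one_div]

theorem OK.fin_law (h : D.OK) {a p : List ℕ} (ha : a ∈ D.Ω) (hp : p ∈ D.Fl) :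
    Pr (D.P * D.P) (fun r => D.fin a r = 1 :: p) = if a = D.rnd p then 1 / (D.tt : ℝ) else 0 := by
  split_ifs with hr
  · rw [← h.pr_offsets_tr p]
    refine Pr_congr fun r _ => ?_
    rw [fin_eq_iff_tr hp, h.cand_eq_iff_tr hp]
    have h1 := (eq_rnd_iff_tr ha p).1 hr
    constructor
    · exact fun hx e he hT => ((val_eq_iff_tr a r e _).1 (hx e he hT)).2
    · exact fun hx e he hT => (val_eq_iff_tr a r e _).2 ⟨h1 e he hT, hx e he hT⟩
  · refine Pr_false _ fun r _ hx => hr ?_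
    rw [fin_eq_iff_tr hp, h.cand_eq_iff_tr hp] at hx
    exact (eq_rnd_iff_tr ha p).2 fun e he hT => ((val_eq_iff_tr a r e _).1 (hx e he hT)).1

/-- the ideal probability of each flow -/
noncomputable def A0 (D : Dat) (k : List ℤ) : ℝ := 1 / (D.Z k * D.tt)

theorem OK.A0_pos (h : D.OK) (k : List ℤ) : 0 < D.A0 k := by
  have h1 := h.one_le_Z k
  have h2 : (0 : ℝ) < D.tt := by exact_mod_cast D.tt_pos_tr
  unfold A0
  positivity

theorem OK.trial_law (h : D.OK) {k : List ℤ} (hk : D.KB k) (G : ℕ) {p : List ℕ} (hp : p ∈ D.Fl) :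
    |Pr (Lt D.P G) (fun ω => D.trial k G ω = 1 :: p) - D.A0 k| ≤ (2 : ℝ)⁻¹ ^ pG D.P G * D.A0 k := by
  have hr : D.rnd p ∈ D.Ω := (mem_filter.1 (h.rnd_mem hp)).1
  have h1 : Pr (Lt D.P G) (fun ω => D.trial k G ω = 1 :: p) =
      Pr (Ls D.P G) (fun ω => D.smp k G ω = D.rnd p) * (1 / (D.tt : ℝ)) := by
    have h2 := Pr_split (Ls D.P G) (D.P * D.P) (fun u v => D.fin (D.smp k G u) v = 1 :: p)
    have h3 : Pr (Lt D.P G) (fun ω => D.trial k G ω = 1 :: p) = Pr (Ls D.P G + D.P * D.P)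
        (fun ω => D.fin (D.smp k G (ω.take (Ls D.P G))) (ω.drop (Ls D.P G)) = 1 :: p) := by
      refine Pr_congr fun ω _ => ?_
      have : D.smp k G (ω.take (Ls D.P G)) = D.smp k G ω := iterR_take _ _ _ _ _ le_rfl
      rw [this]
      rfl
    rw [h3, h2, Ex_comp (Ls D.P G) D.Ω (D.smp k G) (fun ω _ => D.smp_mem k G ω)
      (fun a => Pr (D.P * D.P) fun v => D.fin a v = 1 :: p), sum_eq_single (D.rnd p)]
    · rw [h.fin_law hr hp, if_pos rfl]
    · intro a ha hne
      rw [h.fin_law ha hp, if_neg hne, mul_zero]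
    · exact fun hn => absurd hr hn
  have h4 := h.smp_mix hk G hr
  have h5 : D.wt k (D.rnd p) = 1 := by
    unfold wt
    rw [h.ex_rnd hp k]
    simp
  rw [h5] at h4
  have h6 : (0 : ℝ) < D.tt := by exact_mod_cast D.tt_pos_tr
  have h7 : D.A0 k = 1 / D.Z k * (1 / (D.tt : ℝ)) := by
    unfold A0
    rw [one_div_mul_one_div]
  rw [h1, h7, ← sub_mul, abs_mul, abs_of_pos (one_div_pos.2 h6), ← mul_assoc]
  exact mul_le_mul_of_nonneg_right h4 (one_div_pos.2 h6).le

theorem Pr_trial_ne (D : Dat) (k : List ℤ) (G : ℕ) :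
    Pr (Lt D.P G) (fun ω => D.trial k G ω ≠ []) =
      ∑ p ∈ D.Fl, Pr (Lt D.P G) fun ω => D.trial k G ω = 1 :: p := by
  unfold Pr
  rw [← Ex_sum]
  refine Ex_congr fun ω _ => ?_
  beta_reduce
  rcases D.trial_cases k G ω with h | ⟨p, hp, h⟩
  · rw [if_neg (fun hn => hn h)]
    refine (sum_eq_zero fun p _ => if_neg ?_).symm
    rw [h]
    exact (List.cons_ne_nil _ _).symm
  · rw [if_pos (by rw [h]; exact List.cons_ne_nil _ _), sum_eq_single p]
    · rw [if_pos h]
    · intro q _ hq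
      refine if_neg fun hx => hq ?_
      rw [h] at hx
      exact (List.cons.inj hx).2.symm
    · exact fun hn => absurd hp hn

theorem OK.good_A0 (h : D.OK) {k : List ℤ} (hk : D.Good k) : 1 / 12 ≤ (D.Fl.card : ℝ) * D.A0 k := by
  have h1 := h.one_le_Z k
  have h2 : (0 : ℝ) < D.tt := by exact_mod_cast D.tt_pos_tr
  have h3 : D.Z0 ≤ 2 * ∑ a ∈ D.Ω0, (2 : ℝ) ^ (-D.phi (xs a) (D.ys a)) := by
    unfold Z0
    rw [mul_sum]
    exact sum_le_sum fun a ha => h.wt_Ω0_le ha
  have h4 := h.acc1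
  have h5 := h.acc2
  have h6 : D.Z k ≤ 4 * ∑ a ∈ D.Ω0, (2 : ℝ) ^ (-D.phi (xs a) (D.ys a)) := by
    unfold Good at hk
    linarith
  have h7 : D.Z k * D.tt ≤ 12 * (D.Fl.card : ℝ) := by
    have := mul_le_mul_of_nonneg_right h6 h2.le
    rw [mul_assoc] at this
    linarith
  unfold A0
  rw [mul_one_div, div_le_div_iff₀ (by norm_num) (by positivity)]
  linarith

theorem OK.A0_le (h : D.OK) {k : List ℤ} (hk : D.KB k) : (D.Fl.card : ℝ) * D.A0 k ≤ 2 := by
  have h1 := D.Pr_trial_ne k 0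
  have h2 := Pr_le_one (Lt D.P 0) (fun ω => D.trial k 0 ω ≠ [])
  have h3 := h.A0_pos k
  have h4 : (2 : ℝ)⁻¹ ^ pG D.P 0 ≤ 2⁻¹ :=
    pow_le_of_le_one (by norm_num) (by norm_num) (by unfold pG; omega)
  have h5 : ∑ _p ∈ D.Fl, D.A0 k / 2 ≤
      ∑ p ∈ D.Fl, Pr (Lt D.P 0) fun ω => D.trial k 0 ω = 1 :: p := by
    refine sum_le_sum fun p hp => ?_
    have h6 := (abs_le.1 (h.trial_law hk 0 hp)).1
    have h7 := mul_le_mul_of_nonneg_right h4 h3.le
    linarith
  rw [sum_const, nsmul_eq_mul] at h5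
  linarith

end Dat

end Crest.Agent.R309
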